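import Mathlib.Tactic
import Mathlib.Data.Finset.Card
import Mathlib.Data.List.Rotate
import Mathlib.Data.List.Chain

/-!
Chains with named ends, closed chains, and the Ore rotation.
-/

namespace Vale.Agent.Lib.P048

open scoped Classical

variable {V : Type*} {R S : V → V → Prop} {l l' l1 l2 : List V} {a b c d x y : V}

/-- `l` is a chain for `R` that starts at `a` and ends at `b`. -/
def Arc (R : V → V → Prop) (l : List V) (a b : V) : Prop :=
  l.IsChain R ∧ l.head? = some a ∧ l.getLast? = some b

/-- `l` is a closed chain for `R`. -/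
def Cyc (R : V → V → Prop) (l : List V) : Prop := ∃ a b, Arc R l a b ∧ R b a

/-- The number of members of `l` that are related to `x`. -/
noncomputable def dg (R : V → V → Prop) (x : V) (l : List V) : ℕ :=
  (l.toFinset.filter (fun z => R z x)).card

theorem Arc.single (a : V) : Arc R [a] a a := ⟨List.isChain_singleton a, rfl, rfl⟩

theorem Arc.head_mem (h : Arc R l a b) : a ∈ l := List.mem_of_mem_head? h.2.1

theorem Arc.last_mem (h : Arc R l a b) : b ∈ l := List.mem_of_getLast? h.2.2

theorem Arc.ne_nil (h : Arc R l a b) : l ≠ [] := by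
  intro h0
  have := h.head_mem
  simp [h0] at this

theorem Arc.append (h1 : Arc R l a b) (h : R b c) (h2 : Arc R l' c d) : Arc R (l ++ l') a d := by
  obtain ⟨h11, h12, h13⟩ := h1
  obtain ⟨h21, h22, h23⟩ := h2
  refine ⟨?_, ?_, ?_⟩
  · rw [List.isChain_append]
    refine ⟨h11, h21, ?_⟩
    intro x hx y hy
    rw [h13] at hx
    rw [h22] at hy
    simp only [Option.mem_def, Option.some.injEq] at hx hy
    subst hx hy
    exact h
  · rw [List.head?_append, h12]
    rfl
  · rw [List.getLast?_append, h23]
    rfl

theorem Arc.reverse (hs : ∀ x y, R x y → R y x) (h : Arc R l a b) : Arc R l.reverse b a := by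
  obtain ⟨h1, h2, h3⟩ := h
  refine ⟨?_, ?_, ?_⟩
  · rw [List.isChain_reverse]
    exact h1.imp (fun x y hxy => hs x y hxy)
  · rw [List.head?_reverse]
    exact h3
  · rw [List.getLast?_reverse]
    exact h2

theorem Arc.unappend (h : Arc R (l1 ++ l2) a b) (h1 : l1 ≠ []) (h2 : l2 ≠ []) :
    ∃ c d, Arc R l1 a c ∧ Arc R l2 d b ∧ R c d := by
  obtain ⟨h3, h4, h5⟩ := h
  rw [List.isChain_append] at h3
  obtain ⟨h6, h7, h8⟩ := h3
  refine ⟨l1.getLast h1, l2.head h2, ⟨h6, ?_, ?_⟩, ⟨h7, ?_, ?_⟩, ?_⟩
  · rw [List.head?_append] at h4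
    cases hl : l1 with
    | nil => exact absurd hl h1
    | cons u t =>
      rw [hl] at h4
      simpa using h4
  · exact List.getLast?_eq_some_getLast h1
  · exact List.head?_eq_some_head h2
  · rw [List.getLast?_append] at h5
    cases hl : l2.getLast? with
    | none =>
      rw [List.getLast?_eq_none_iff] at hl
      exact absurd hl h2
    | some u =>
      rw [hl] at h5
      simpa using h5
  · apply h8
    · exact List.getLast?_eq_some_getLast h1
    · exact List.head?_eq_some_head h2

theorem Arc.imp (H : ∀ x y, R x y → S x y) (h : Arc R l a b) : Arc S l a b :=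
  ⟨h.1.imp (fun x y hxy => H x y hxy), h.2⟩

theorem Arc.map {W : Type*} {T : W → W → Prop} (f : V → W) (H : ∀ x y, R x y → T (f x) (f y))
    (h : Arc R l a b) : Arc T (l.map f) (f a) (f b) := by
  obtain ⟨h1, h2, h3⟩ := h
  refine ⟨?_, ?_, ?_⟩
  · rw [List.isChain_map]
    exact h1.imp (fun x y hxy => H x y hxy)
  · rw [List.head?_map, h2]
    rfl
  · rw [List.getLast?_map, h3]
    rfl

theorem Arc.cons_head (h : Arc R (x :: l) a b) : a = x := by
  have := h.2.1
  simpa using this.symm

theorem Arc.split_mem (h : Arc R l a b) (hx : x ∈ l) (hxa : x ≠ a) :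
    ∃ s t c, l = s ++ x :: t ∧ Arc R s a c ∧ R c x ∧ Arc R (x :: t) x b := by
  obtain ⟨s, t, rfl⟩ := List.append_of_mem hx
  have hs : s ≠ [] := by
    intro h0
    subst h0
    exact hxa (h.cons_head).symm
  obtain ⟨c, d, h1, h2, h3⟩ := h.unappend hs (List.cons_ne_nil _ _)
  have hd : d = x := h2.cons_head
  subst hd
  exact ⟨s, t, c, rfl, h1, h3, h2⟩

theorem Cyc.exists_rot (h : Cyc R l) (hx : x ∈ l) :
    ∃ l' f, l' ~r l ∧ Arc R l' x f ∧ R f x := by
  obtain ⟨a, b, h1, h2⟩ := h
  by_cases hxa : x = a
  · subst hxa
    exact ⟨l, b, List.IsRotated.refl _, h1, h2⟩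
  · obtain ⟨s, t, c, rfl, h3, h4, h5⟩ := h1.split_mem hx hxa
    exact ⟨(x :: t) ++ s, c, List.isRotated_append, h5.append h2 h3, h4⟩

theorem Cyc.rotated (h : Cyc R l) (hr : l' ~r l) (hne : l ≠ []) : Cyc R l' := by
  obtain ⟨n, hn⟩ := hr.symm
  subst hn
  -- rotate along a splitting
  obtain ⟨a, b, h1, h2⟩ := h
  rw [List.rotate_eq_drop_append_take_mod]
  by_cases h0 : n % l.length = 0
  · rw [h0]
    simpa using ⟨a, b, h1, h2⟩
  · have hlen : n % l.length < l.length := Nat.mod_lt _ (List.length_pos_iff.2 hne)
    have hsplit : List.take (n % l.length) l ++ List.drop (n % l.length) l = l :=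
      List.take_append_drop _ _
    rw [← hsplit] at h1
    obtain ⟨c, d, h3, h4, h5⟩ := h1.unappend (by
        intro h6
        rw [List.take_eq_nil_iff] at h6
        rcases h6 with h6 | h6
        · exact h0 h6
        · exact hne h6) (by
        intro h6
        rw [List.drop_eq_nil_iff] at h6
        omega)
    exact ⟨d, c, h4.append h2 h3, h5⟩

theorem rot_eq_of_head {l l' : List V} (hr : l' ~r l) (hnd : l.Nodup)
    (hh : l'.head? = l.head?) : l' = l := by
  obtain ⟨n, hn⟩ := hr.symm
  subst hn
  by_cases hne : l = []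
  · simp [hne]
  have hpos : 0 < l.length := List.length_pos_iff.2 hne
  have hlen : n % l.length < l.length := Nat.mod_lt _ hpos
  have h1 : (l.rotate n).head? = l[n % l.length]? := by
    rw [List.head?_eq_getElem?, List.getElem?_rotate hpos]
    simp
  rw [h1, List.head?_eq_getElem?, List.getElem?_eq_getElem hlen,
    List.getElem?_eq_getElem hpos] at hh
  have h2 : l[n % l.length] = l[0] := by simpa using hh
  have h3 := (List.Nodup.getElem_inj_iff hnd).1 h2
  rw [← List.rotate_mod, h3, List.rotate_zero]

/-- `f` is the member before `e` on the closed chain `Z`. -/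
def IsPred (R : V → V → Prop) (Z : List V) (f e : V) : Prop :=
  ∃ l, l ~r Z ∧ Arc R l e f ∧ R f e

theorem IsPred.exists {Z : List V} {e : V} (h : Cyc R Z) (he : e ∈ Z) : ∃ f, IsPred R Z f e := by
  obtain ⟨l', f, h1, h2, h3⟩ := h.exists_rot he
  exact ⟨f, l', h1, h2, h3⟩

theorem IsPred.unique {Z : List V} {e f f' : V} (hnd : Z.Nodup) (h : IsPred R Z f e)
    (h' : IsPred R Z f' e) : f = f' := by
  obtain ⟨l, h1, h2, _⟩ := h
  obtain ⟨l', h1', h2', _⟩ := h'
  have hnd' : l.Nodup := h1.symm.nodup_iff.1 hnd
  have h3 : l' = l := rot_eq_of_head (h1'.trans h1.symm) hnd' (by rw [h2.2.1, h2'.2.1])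
  subst h3
  have := h2.2.2
  rw [h2'.2.2] at this
  simpa using this.symm

theorem IsPred.mem {Z : List V} {e f : V} (h : IsPred R Z f e) : f ∈ Z := by
  obtain ⟨l, h1, h2, _⟩ := h
  exact h1.perm.subset h2.last_mem

theorem IsPred.rel {Z : List V} {e f : V} (h : IsPred R Z f e) : R f e := by
  obtain ⟨l, _, _, h3⟩ := h
  exact h3

theorem dg_perm {l l' : List V} (h : List.Perm l l') (x : V) : dg R x l = dg R x l' := by
  unfold dg
  rw [List.toFinset_eq_of_perm _ _ h]

theorem dg_mono {l l' : List V} (h : l ⊆ l') (H : ∀ z, S z x → R z x) : dg S x l ≤ dg R x l' := by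
  unfold dg
  apply Finset.card_le_card
  intro z hz
  rw [Finset.mem_filter, List.mem_toFinset] at hz ⊢
  exact ⟨h hz.1, H z hz.2⟩

/-- The counting step of the Ore rotation. -/
theorem ore_split (hirr : ∀ x, ¬ R x x) {l : List V} {x y : V} (hhead : l.head? = some x)
    (hlast : l.getLast? = some y) (hdeg : l.length ≤ dg R x l + dg R y l) :
    ∃ s1 a b s2, l = s1 ++ a :: b :: s2 ∧ R a y ∧ R b x := by
  have hne : l ≠ [] := by
    intro h0
    simp [h0] at hhead
  have hpos : 0 < l.length := List.length_pos_iff.2 hne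
  have h0 : l[0] = x := by
    have : l[0]? = some x := by rwa [← List.head?_eq_getElem?]
    rw [List.getElem?_eq_getElem hpos] at this
    simpa using this
  have hlastE : l[l.length - 1] = y := by
    have : l[l.length - 1]? = some y := by rwa [← List.getLast?_eq_getElem?]
    rw [List.getElem?_eq_getElem (by omega)] at this
    simpa using this
  let A := (Finset.range (l.length - 1)).filter (fun i => R (l.getD i x) y)
  let B := (Finset.range (l.length - 1)).filter (fun i => R (l.getD (i + 1) x) x)
  have hA : dg R y l ≤ A.card := by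
    have hsub : l.toFinset.filter (fun z => R z y) ⊆ A.image (fun i => l.getD i x) := by
      intro z hz
      rw [Finset.mem_filter, List.mem_toFinset] at hz
      obtain ⟨hz1, hz2⟩ := hz
      obtain ⟨i, hi, rfl⟩ := List.mem_iff_getElem.1 hz1
      have hne' : i ≠ l.length - 1 := by
        intro h
        subst h
        rw [hlastE] at hz2
        exact hirr _ hz2
      rw [Finset.mem_image]
      refine ⟨i, ?_, by simp [hi]⟩
      rw [Finset.mem_filter, Finset.mem_range]
      refine ⟨by omega, ?_⟩
      simpa [hi] using hz2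
    exact le_trans (Finset.card_le_card hsub) Finset.card_image_le
  have hB : dg R x l ≤ B.card := by
    have hsub : l.toFinset.filter (fun z => R z x) ⊆ B.image (fun i => l.getD (i + 1) x) := by
      intro z hz
      rw [Finset.mem_filter, List.mem_toFinset] at hz
      obtain ⟨hz1, hz2⟩ := hz
      obtain ⟨i, hi, rfl⟩ := List.mem_iff_getElem.1 hz1
      have hne' : i ≠ 0 := by
        intro h
        subst h
        rw [h0] at hz2
        exact hirr _ hz2
      have hi' : i - 1 + 1 = i := by omega
      rw [Finset.mem_image]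
      refine ⟨i - 1, ?_, by simp [hi', hi]⟩
      rw [Finset.mem_filter, Finset.mem_range]
      refine ⟨by omega, ?_⟩
      simpa [hi', hi] using hz2
    exact le_trans (Finset.card_le_card hsub) Finset.card_image_le
  have hinter : (A ∩ B).Nonempty := by
    apply Finset.inter_nonempty_of_card_lt_card_add_card (s := Finset.range (l.length - 1))
    · exact Finset.filter_subset _ _
    · exact Finset.filter_subset _ _
    · rw [Finset.card_range]
      omega
  obtain ⟨i, hi⟩ := hinter
  rw [Finset.mem_inter, Finset.mem_filter, Finset.mem_filter, Finset.mem_range] at hi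
  obtain ⟨⟨hi1, hi2⟩, ⟨_, hi3⟩⟩ := hi
  have h1 : i < l.length := by omega
  have h2 : i + 1 < l.length := by omega
  refine ⟨l.take i, l[i], l[i + 1], l.drop (i + 2), ?_, ?_, ?_⟩
  · rw [← List.drop_eq_getElem_cons h2, ← List.drop_eq_getElem_cons h1, List.take_append_drop]
  · simpa [h1] using hi2
  · simpa [h2] using hi3

/-- The Ore rotation. -/
theorem ore_cycle (hs : ∀ x y, R x y → R y x) (hirr : ∀ x, ¬ R x x) {l : List V} {x y : V}
    (h : Arc R l x y) (hdeg : l.length ≤ dg R x l + dg R y l) :
    ∃ l', List.Perm l' l ∧ Cyc R l' := by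
  obtain ⟨s1, a, b, s2, hl, h1, h2⟩ := ore_split hirr h.2.1 h.2.2 hdeg
  subst hl
  have h3 : s1 ++ a :: b :: s2 = (s1 ++ [a]) ++ (b :: s2) := by simp
  rw [h3] at h
  obtain ⟨c, d, h4, h5, h6⟩ := h.unappend (by simp) (by simp)
  have hd : d = b := h5.cons_head
  have hc : c = a := by
    have := h4.2.2
    simpa using this.symm
  subst hc hd
  refine ⟨(s1 ++ [c]) ++ (d :: s2).reverse, ?_, ?_⟩
  · rw [h3]
    exact List.Perm.append_left _ (List.reverse_perm _)
  · exact ⟨x, d, h4.append h1 (h5.reverse hs), h2⟩

/-- The relation `R` together with the extra pair `x`, `y`. -/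
def vir (R : V → V → Prop) (x y : V) : V → V → Prop :=
  fun a b => R a b ∨ (a = x ∧ b = y) ∨ (a = y ∧ b = x)

theorem vir_symm (hs : ∀ x y, R x y → R y x) (x y a b : V) (h : vir R x y a b) : vir R x y b a := by
  rcases h with h | ⟨h1, h2⟩ | ⟨h1, h2⟩
  · exact Or.inl (hs _ _ h)
  · exact Or.inr (Or.inr ⟨h2, h1⟩)
  · exact Or.inr (Or.inl ⟨h2, h1⟩)

theorem vir_irr (hirr : ∀ x, ¬ R x x) (hxy : x ≠ y) (a : V) : ¬ vir R x y a a := by
  rintro (h | ⟨h1, h2⟩ | ⟨h1, h2⟩)
  · exact hirr _ h
  · exact hxy (h1.symm.trans h2)
  · exact hxy (h2.symm.trans h1)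

/-- Removing an extra pair from a closed chain when the two members have large degree sum
(the closure step of Bondy and Chvátal). -/
theorem close_virtual (hs : ∀ x y, R x y → R y x) (hirr : ∀ x, ¬ R x x) {x y : V} (hxy : x ≠ y)
    {l : List V} (hnd : l.Nodup) (hc : Cyc (vir R x y) l) (hx : x ∈ l) (h3 : 3 ≤ l.length)
    (hdeg : l.length ≤ dg R x l + dg R y l) : ∃ l', List.Perm l' l ∧ Cyc R l' := by
  obtain ⟨l1, f, h1, h2, h4⟩ := hc.exists_rot hx
  have hperm := h1.perm
  have hnd1 : l1.Nodup := hperm.nodup_iff.2 hnd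
  have hdeg1 : l1.length ≤ dg R x l1 + dg R y l1 := by
    rw [hperm.length_eq, dg_perm hperm, dg_perm hperm]
    exact hdeg
  cases l1 with
  | nil => exact absurd h2.head_mem (by simp)
  | cons u rest =>
    have hu : x = u := h2.cons_head
    subst hu
    have hxrest : x ∉ rest := (List.nodup_cons.1 hnd1).1
    have hrestnd : rest.Nodup := (List.nodup_cons.1 hnd1).2
    have hchain : rest.IsChain R := by
      have hch := h2.1
      rw [List.isChain_cons] at hch
      refine List.IsChain.imp_of_mem_imp ?_ hch.2
      intro a b ha hb hab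
      have hb' : b ∈ rest := hb
      rcases hab with hab | ⟨h5, _⟩ | ⟨_, h5⟩
      · exact hab
      · subst h5
        exact absurd ha hxrest
      · subst h5
        exact absurd hb' hxrest
    cases rest with
    | nil =>
      have : f = x := by
        have := h2.2.2
        simpa using this.symm
      subst this
      exact absurd h4 (vir_irr hirr hxy _)
    | cons g r =>
      have hrestArc : Arc R (g :: r) g f := by
        refine ⟨hchain, rfl, ?_⟩
        have h5 := h2.2.2
        rw [List.getLast?_cons_cons] at h5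
        exact h5
      have hxg : vir R x y x g := by
        have := h2.1
        rw [List.isChain_cons_cons] at this
        exact this.1
      have hfx : R f x ∨ f = y := by
        rcases h4 with h5 | ⟨_, h5⟩ | ⟨h5, _⟩
        · exact Or.inl h5
        · exact absurd h5 hxy
        · exact Or.inr h5
      have hxg' : R x g ∨ g = y := by
        rcases hxg with h5 | ⟨_, h5⟩ | ⟨h5, _⟩
        · exact Or.inl h5
        · exact Or.inr h5
        · exact absurd h5 hxy
      rcases hxg' with hxg' | hxg'
      · -- the chain from `x` is genuine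
        have hArc : Arc R (x :: g :: r) x f :=
          (Arc.single x).append hxg' hrestArc
        rcases hfx with hfx | hfx
        · exact ⟨x :: g :: r, hperm, x, f, hArc, hfx⟩
        · subst hfx
          obtain ⟨l', h5, h6⟩ := ore_cycle hs hirr hArc hdeg1
          exact ⟨l', h5.trans hperm, h6⟩
      · subst hxg'
        rcases hfx with hfx | hfx
        · have hArc : Arc R ((g :: r) ++ [x]) g x :=
            hrestArc.append hfx (Arc.single x)
          have hp : List.Perm ((g :: r) ++ [x]) (x :: g :: r) := List.perm_append_singleton _ _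
          obtain ⟨l', h5, h6⟩ := ore_cycle hs hirr hArc (by
            rw [hp.length_eq, dg_perm hp, dg_perm hp]
            omega)
          exact ⟨l', h5.trans (hp.trans hperm), h6⟩
        · -- both closing pairs are the extra pair: too short
          exfalso
          rw [hfx] at hrestArc
          have hlast : g ∈ r := by
            cases r with
            | nil =>
              rw [hperm.symm.length_eq] at h3
              simp at h3
            | cons s r' =>
              have h5 := hrestArc.2.2
              rw [List.getLast?_cons_cons] at h5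
              exact List.mem_of_getLast? h5
          exact (List.nodup_cons.1 hrestnd).1 hlast

end Vale.Agent.Lib.P048
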