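import Vale.Agent.Lib.P048.Ctx

/-!
The closed chain on the positions from `js` on, and the ways to get the parity of `k`.
-/

namespace Vale.Agent.Lib.P048

open scoped Classical

variable {V : Type*} {G : SimpleGraph V}

theorem ca_con {Z : List V} {p q : V} (h : Consec Z p q) : CA Z p q := Or.inl (Or.inl h)

theorem Cyc.lift {R S : V → V → Prop} {Z : List V} (H : ∀ x y, R x y → S x y) (h : Cyc R Z) :
    Cyc S Z := by
  obtain ⟨a, b, h1, h2⟩ := h
  exact ⟨a, b, h1.imp H, H _ _ h2⟩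

/-- The closed chain over all positions from `js` on. -/
structure Zfac (G : SimpleGraph V) (v : ℕ → V) (s js : ℕ) (Zf : List V) : Prop where
  nd : Zf.Nodup
  arc : Arc G.Adj Zf (v js) (v (2 * s))
  cl : G.Adj (v (2 * s)) (v js)
  len : Zf.length = 2 * s - js + 1
  mem : ∀ i, js ≤ i → i ≤ 2 * s → v i ∈ Zf
  sub : ∀ y ∈ Zf, ∃ i, i ≤ 2 * s ∧ v i = y
  con : ∀ i, js ≤ i → i < 2 * s → Consec Zf (v i) (v (i + 1))

theorem Top.exists_Zf {v : ℕ → V} {s js : ℕ} (T : Top G v s js) : ∃ Zf, Zfac G v s js Zf := by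
  have hle := T.hle
  obtain ⟨P, h1, h2, h3, h4⟩ := T.strip.full_run2 js (2 * s - js) (by omega)
  rw [show js + (2 * s - js) = 2 * s by omega] at h1 h3 h4
  obtain ⟨h5, _⟩ := T.strip.cyc_of_pos h1 hle T.hjs.symm
  refine ⟨P.map v, h5, h1.map v (fun _ _ hab => hab.2.2), T.hjs.symm, by simp [h2], ?_, ?_, ?_⟩
  · intro i h6 h7
    exact List.mem_map_of_mem ((h3 i).2 ⟨h6, h7⟩)
  · intro y hy
    obtain ⟨i, hi, rfl⟩ := List.mem_map.1 hy
    exact ⟨i, ((h3 i).1 hi).2, rfl⟩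
  · intro i h6 h7
    obtain ⟨s1, t1, e1⟩ := h4 i h6 h7
    exact ⟨s1.map v, t1.map v, by rw [e1]; simp⟩

namespace Zfac

variable {v : ℕ → V} {s js : ℕ} {Zf : List V}

theorem cyc (F : Zfac G v s js Zf) : Cyc G.Adj Zf := ⟨_, _, F.arc, F.cl⟩

theorem cycH (F : Zfac G v s js Zf) : Cyc (HH G v s).Adj Zf :=
  Cyc.lift (fun _ _ h => Or.inl h) F.cyc

theorem memE (F : Zfac G v s js Zf) (T : Top G v s js) {e : V} (he : e ∈ EE G v s) : e ∈ Zf := by
  obtain ⟨i, hi, rfl⟩ := Finset.mem_image.1 he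
  obtain ⟨c, _, _, h2, h3⟩ := T.wit hi
  exact F.mem i (by omega) (T.pos_le hi)

/-- Adding one member on a step of the closed chain. -/
theorem insert_one (F : Zfac G v s js Zf) {e t y : V} (hN : Nb Zf e t) (hy : y ∉ Zf)
    (h1 : G.Adj e y) (h2 : G.Adj y t) :
    ∃ Z, Z.Nodup ∧ Cyc (HH G v s).Adj Z ∧ Zf ⊆ Z ∧ Z.length = Zf.length + 1 ∧
      ∀ p q, Nb Zf p q → ¬ (p = e ∧ q = t) → Nb Z p q := by
  obtain ⟨f, hf⟩ := IsPred.exists F.cyc hN.right_mem
  have hfe : f = e := nb_pred_unique F.nd hf.nb hN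
  subst hfe
  obtain ⟨l, h3, h4, _⟩ := hf
  obtain ⟨s1, s2, s3⟩ := splice (m := [y]) h3 h4 (Arc.single y) h1 h2
  have hnd : (Zf ++ [y]).Nodup := by
    rw [List.nodup_append]
    refine ⟨F.nd, by simp, ?_⟩
    intro a ha b hb hab
    subst hab
    simp only [List.mem_cons, List.not_mem_nil, or_false] at hb
    subst hb
    exact hy ha
  refine ⟨_, s1.nodup_iff.2 hnd, Cyc.lift (fun _ _ h => Or.inl h) s2, ?_, ?_, s3⟩
  · intro z hz
    exact s1.symm.subset (List.mem_append_left _ hz)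
  · rw [s1.length_eq]
    simp

end Zfac

namespace Ctx

variable [Fintype V] {v : ℕ → V} {s js k a : ℕ} {Zf : List V}

theorem dg_Zf (C : Ctx G v s js k a) (F : Zfac G v s js Zf) {i : ℕ} (hi : i ∈ PosE G v s) :
    k ≤ dg G.Adj (v i) Zf + (Oset G v s (v i)).card + 1 := by
  have h1 := Top.count C.hδ (v := v) (s := s) (v i)
  have h2 := C.nn_le (e := v i) (Z := Zf) (fun j hj hadj => F.mem j (C.see hi hj hadj) hj)
  omega

theorem dg_Zf' (C : Ctx G v s js k a) (F : Zfac G v s js Zf) :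
    ∀ e ∈ EE G v s, k - a - 1 ≤ dg G.Adj e Zf := by
  intro e he
  obtain ⟨i, hi, rfl⟩ := Finset.mem_image.1 he
  have h1 := C.dg_Zf F hi
  have h2 := C.oset_card C.hα hi
  omega

/-- The number of blocks. -/
theorem blocks (C : Ctx G v s js k a) :
    k ≤ (Oset G v s (v (2 * s))).card + (2 * s - js + 1) / 2 + (Fp G v s).card + 2 := by
  have h1 := Top.count C.hδ (v := v) (s := s) (v (2 * s))
  have h2 := C.count_blocks
  omega

theorem x_pos (G : SimpleGraph V) (v : ℕ → V) (s : ℕ) : 2 * s ∈ PosE G v s :=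
  mem_PosE.2 (Or.inl rfl)

theorem rho_pos (G : SimpleGraph V) (v : ℕ → V) (s : ℕ) : 2 * s - 1 ∈ PosE G v s :=
  mem_PosE.2 (Or.inr (Or.inl rfl))

theorem x_E (G : SimpleGraph V) (v : ℕ → V) (s : ℕ) : v (2 * s) ∈ EE G v s :=
  Finset.mem_image_of_mem _ (x_pos G v s)

theorem rho_E (G : SimpleGraph V) (v : ℕ → V) (s : ℕ) : v (2 * s - 1) ∈ EE G v s :=
  Finset.mem_image_of_mem _ (rho_pos G v s)

theorem hub1_E {z : ℕ} (hz : z ∈ Fp G v s) : v (2 * z + 2) ∈ EE G v s :=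
  Finset.mem_image_of_mem _ (mem_PosE.2 (Or.inr (Or.inr ⟨z, hz, Or.inl rfl⟩)))

theorem hub2_E {z : ℕ} (hz : z ∈ Fp G v s) : v (2 * z + 3) ∈ EE G v s :=
  Finset.mem_image_of_mem _ (mem_PosE.2 (Or.inr (Or.inr ⟨z, hz, Or.inr rfl⟩)))

/-- The blocks whose odd member is not the member before the end. -/
noncomputable def Az (G : SimpleGraph V) (v : ℕ → V) (s : ℕ) : Finset ℕ :=
  (Fp G v s).filter (fun z => z + 3 ≤ s)

theorem mem_Az {z : ℕ} : z ∈ Az G v s ↔ z ∈ Fp G v s ∧ z + 3 ≤ s := by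
  simp [Az]

theorem Az_card1 : (Fp G v s).card ≤ (Az G v s).card + 1 := by
  have hsub : Fp G v s ⊆ insert (s - 2) (Az G v s) := by
    intro z hz
    rw [Finset.mem_insert, mem_Az]
    have := (mem_Fp.1 hz).1
    by_cases h : z + 3 ≤ s
    · exact Or.inr ⟨hz, h⟩
    · exact Or.inl (by omega)
  exact le_trans (Finset.card_le_card hsub) (Finset.card_insert_le _ _)

theorem Az_card2 (h : s - 2 ∉ Fp G v s) : Az G v s = Fp G v s := by
  apply Finset.filter_true_of_mem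
  intro z hz
  have := (mem_Fp.1 hz).1
  by_contra h2
  have h3 : z = s - 2 := by omega
  exact h (h3 ▸ hz)

/-- The general case with the exception at most `x` itself, and all pairs but those at `i0`. -/
theorem gen (C : Ctx G v s js k a) (F : Zfac G v s js Zf) (Z : List V) (hnd : Z.Nodup)
    (hcyc : Cyc (HH G v s).Adj Z) (hsub : Zf ⊆ Z) (i0 : ℕ)
    (hc : ∀ i, js ≤ i → i < 2 * s → i ≠ i0 → CA Z (v i) (v (i + 1)))
    (T' : Finset V) (Y : Finset ℕ) (hT : T' ⊆ {v (2 * s - 1)})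
    (hT2 : v (2 * s - 1) ∈ T' → 2 * s - 2 ≠ i0 ∧ 2 * s - 1 ≠ i0)
    (hY : ∀ z ∈ Y, z ∈ Az G v s ∧ 2 * z + 2 ≠ i0 ∧ 2 * z + 3 ≠ i0)
    (hcount : k - Z.length ≤ 2 * (T'.card + Y.card))
    (hlen : Z.length ≤ k) (hpar : Z.length % 2 = k % 2) : False := by
  have hs1 := C.one
  have hlt := C.lt2
  have hZE : ∀ e ∈ EE G v s, e ∈ Z := fun e he => hsub (F.memE C.toTop he)
  refine C.finish Z (EE G v s) (v (2 * s)) T' Y (Finset.Subset.refl _) (x_E G v s) hnd hcyc hZE ?_ ?_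
    (x_E G v s) ?_ ?_ ?_ hcount hlen hpar
  · intro e he
    exact le_trans (C.dg_Zf' F e he) (dg_mono hsub (fun _ hz => hz))
  · exact C.hout_gen (fun e he => Or.inl (hZE e he))
      (fun i h1 h2 => Or.inl (hsub (F.mem i h1 h2)))
  · intro z hz
    obtain ⟨h1, h2, h3⟩ := hY z hz
    obtain ⟨h4, h5⟩ := mem_Az.1 h1
    have h6 := C.Fp_low h4
    have hadj : G.Adj (v (2 * z + 2)) (v (2 * z + 4)) :=
      C.strip.adj_even (i := z + 1) (by omega) (by omega) (by omega)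
    exact ⟨h5, hub1_E h4, hub2_E h4, v (2 * z + 4), G.ne_of_adj hadj, Or.inl hadj,
      hc (2 * z + 2) (by omega) (by omega) h2, hc (2 * z + 3) (by omega) (by omega) h3⟩
  · intro t ht
    have htρ : t = v (2 * s - 1) := by simpa using hT ht
    subst htρ
    obtain ⟨h1, h2⟩ := hT2 ht
    have hadj : G.Adj (v (2 * s - 2)) (v (2 * s)) :=
      C.strip.adj_even (i := s - 1) (by omega) (by omega) (by omega)
    have h3 := hc (2 * s - 1) (by omega) (by omega) h2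
    rw [show 2 * s - 1 + 1 = 2 * s by omega] at h3
    have h4 := hc (2 * s - 2) (by omega) (by omega) h1
    rw [show 2 * s - 2 + 1 = 2 * s - 1 by omega] at h4
    exact ⟨Or.inl rfl, rho_E G v s, v (2 * s - 2), (G.ne_of_adj hadj).symm, Or.inl hadj.symm, h3.symm,
      h4.symm⟩
  · exact le_trans (Finset.card_le_card hT) (by simp)

end Ctx

end Vale.Agent.Lib.P048
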