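import Vale.Agent.Lib.P048.Cases

/-!
The four ways to reach the parity of `k`.
-/

set_option linter.unusedSectionVars false

namespace Vale.Agent.Lib.P048

open scoped Classical

variable {V : Type*} {G : SimpleGraph V}

theorem Consec.map {W : Type*} (f : V → W) {l : List V} {p q : V} (h : Consec l p q) :
    Consec (l.map f) (f p) (f q) := by
  obtain ⟨s1, t1, e1⟩ := h
  exact ⟨s1.map f, t1.map f, by rw [e1]; simp⟩

namespace Ctx

variable [Fintype V] {v : ℕ → V} {s js k a : ℕ} {Zf : List V}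

theorem oset_adj (C : Ctx G v s js k a) {i j : ℕ} (hi : i ∈ PosE G v s) (hj : j ≤ 2 * s)
    (h : (Oset G v s (v i)).card = a) : ∃ y ∈ Oset G v s (v i), G.Adj y (v j) := by
  by_contra hno
  push Not at hno
  have hnot : v j ∉ Oset G v s (v i) := fun h' => (mem_Oset.1 h').2 j hj rfl
  have h1 := C.hα (insert (v j) (Oset G v s (v i))) (by
    intro p hp q hq
    rcases Finset.mem_insert.1 hp with rfl | hp <;> rcases Finset.mem_insert.1 hq with rfl | hq
    · exact G.irrefl
    · exact fun h' => hno q hq h'.symm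
    · exact hno p hp
    · exact C.oset_indep hi hp hq)
  rw [Finset.card_insert_of_notMem hnot] at h1
  omega

theorem oset_not_Zf (F : Zfac G v s js Zf) {e y : V} (hy : y ∈ Oset G v s e) : y ∉ Zf := by
  intro h
  obtain ⟨i, hi, rfl⟩ := F.sub y h
  exact (mem_Oset.1 hy).2 i hi rfl

/-- The parity of the whole window is right, and the block below the top is not a full block. -/
theorem case_match_top (C : Ctx G v s js k a) (F : Zfac G v s js Zf)
    (hpar : (2 * s - js + 1) % 2 = k % 2) (h : s - 2 ∉ Fp G v s) : False := by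
  have h1 := C.fc
  have h2 := C.blocks
  have h3 := C.oset_card C.hα (x_pos G v s)
  have h4 := C.hka
  have h5 := Az_card2 h
  have h6 := C.lt2
  have h7 := F.len
  refine C.gen F Zf F.nd F.cycH (List.Subset.refl _) (2 * s)
    (fun i h8 h9 _ => ca_con (F.con i h8 h9)) {v (2 * s - 1)} (Az G v s) (Finset.Subset.refl _) ?_ ?_
    ?_ (by omega) (by omega)
  · intro _
    have := C.one
    omega
  · intro z hz
    have h8 := (mem_Fp.1 (mem_Az.1 hz).1).1
    exact ⟨hz, by omega, by omega⟩
  · rw [Finset.card_singleton, h5]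
    omega

/-- Adding a member on the closing step. -/
theorem case_x (C : Ctx G v s js k a) (F : Zfac G v s js Zf)
    (hpar : (2 * s - js + 1) % 2 ≠ k % 2) (h : (Oset G v s (v (2 * s))).card = a) : False := by
  have h1 := C.fc
  have h2 := C.blocks
  have h4 := C.hka
  have h5 := Az_card1 (G := G) (v := v) (s := s)
  have h6 := C.lt2
  have h7 := F.len
  have hs1 := C.one
  obtain ⟨y, hy, hyt⟩ := C.oset_adj (x_pos G v s) (j := js) (by omega) h
  obtain ⟨Z, c1, c2, c3, c4, c5⟩ := F.insert_one (e := v (2 * s)) (t := v js) (y := y)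
    (Or.inr ⟨F.arc.2.2, F.arc.2.1⟩) (oset_not_Zf F hy) (mem_Oset.1 hy).1 hyt
  refine C.gen F Z c1 c2 c3 (2 * s)
    (fun i h8 h9 _ => Or.inl (c5 _ _ (Or.inl (F.con i h8 h9)) ?_)) {v (2 * s - 1)} (Az G v s)
    (Finset.Subset.refl _) ?_ ?_ ?_ (by omega) (by omega)
  · rintro ⟨h10, _⟩
    have := C.strip.inj _ _ (by omega) (by omega) h10
    omega
  · intro _
    omega
  · intro z hz
    have h8 := (mem_Fp.1 (mem_Az.1 hz).1).1
    exact ⟨hz, by omega, by omega⟩
  · rw [Finset.card_singleton]
    omega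

/-- Adding a member on a step at a possible end. -/
theorem case_e (C : Ctx G v s js k a) (F : Zfac G v s js Zf)
    (hpar : (2 * s - js + 1) % 2 ≠ k % 2) (hx : (Oset G v s (v (2 * s))).card ≠ a) {i0 : ℕ}
    (hi0 : i0 ∈ PosE G v s) (h : (Oset G v s (v i0)).card = a) : False := by
  have h1 := C.fc
  have h2 := C.blocks
  have h3 := C.oset_card C.hα (x_pos G v s)
  have h4 := C.hka
  have h5 := Az_card1 (G := G) (v := v) (s := s)
  have h6 := C.lt2
  have h7 := F.len
  have hs1 := C.one
  have hi1 := C.pos_le hi0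
  have hi2 : i0 ≠ 2 * s := by
    intro h8
    subst h8
    exact hx h
  have hi3 : js ≤ i0 := by
    obtain ⟨c, _, _, h8, h9⟩ := C.wit hi0
    omega
  obtain ⟨y, hy, hyt⟩ := C.oset_adj hi0 (j := i0 + 1) (by omega) h
  obtain ⟨Z, c1, c2, c3, c4, c5⟩ := F.insert_one (e := v i0) (t := v (i0 + 1)) (y := y)
    (Or.inl (F.con i0 hi3 (by omega))) (oset_not_Zf F hy) (mem_Oset.1 hy).1 hyt
  have hc : ∀ i, js ≤ i → i < 2 * s → i ≠ i0 → CA Z (v i) (v (i + 1)) := by
    intro i h8 h9 h10
    refine Or.inl (c5 _ _ (Or.inl (F.con i h8 h9)) ?_)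
    rintro ⟨h11, _⟩
    exact h10 (C.strip.inj _ _ (by omega) (by omega) h11)
  obtain ⟨p, hp1, hp2⟩ : ∃ p, p % 2 = 1 ∧ (p = i0 ∨ p = i0 + 1) :=
    ⟨i0 + (i0 + 1) % 2, by omega, by omega⟩
  by_cases hp : p = 2 * s - 1
  · refine C.gen F Z c1 c2 c3 i0 hc ∅ (Az G v s) (Finset.empty_subset _) (by simp) ?_ ?_
      (by omega) (by omega)
    · intro z hz
      have h8 := (mem_Az.1 hz).2
      exact ⟨hz, by omega, by omega⟩
    · rw [Finset.card_empty]
      omega
  · have h8 := Finset.pred_card_le_card_erase (s := Az G v s) (a := (p - 3) / 2)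
    refine C.gen F Z c1 c2 c3 i0 hc {v (2 * s - 1)} ((Az G v s).erase ((p - 3) / 2))
      (Finset.Subset.refl _) ?_ ?_ ?_ (by omega) (by omega)
    · intro _
      omega
    · intro z hz
      obtain ⟨h9, h10⟩ := Finset.mem_erase.1 hz
      have h11 := (mem_Az.1 h10).2
      exact ⟨h10, by omega, by omega⟩
    · rw [Finset.card_singleton]
      omega

/-- Leaving out the member before the end. -/
theorem case_all (C : Ctx G v s js k a)
    (hpar : (2 * s - js + 1) % 2 ≠ k % 2)
    (hall : ∀ i ∈ PosE G v s, (Oset G v s (v i)).card ≠ a) : False := by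
  have h1 := C.fc
  have h2 := C.blocks
  have h3 := C.oset_card C.hα (x_pos G v s)
  have h3' := hall _ (x_pos G v s)
  have h4 := C.hka
  have h5 := Az_card1 (G := G) (v := v) (s := s)
  have h6 := C.lt2
  have hs1 := C.one
  obtain ⟨P1, p1, p2, p3, p4⟩ := C.strip.full_run2 js (2 * s - 2 - js) (by omega)
  rw [show js + (2 * s - 2 - js) = 2 * s - 2 by omega] at p1 p3 p4
  have hadjwx : G.Adj (v (2 * s - 2)) (v (2 * s)) :=
    C.strip.adj_even (i := s - 1) (by omega) (by omega) (by omega)
  have harc : Arc (Rp G v (2 * s)) (P1 ++ [2 * s]) js (2 * s) :=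
    p1.append ⟨by omega, by omega, hadjwx⟩ (Arc.single _)
  obtain ⟨n1, n2⟩ := C.strip.cyc_of_pos harc C.hle C.hjs.symm
  have hlenZ : ((P1 ++ [2 * s]).map v).length = 2 * s - 2 - js + 2 := by
    simp [p2]
  have hmemZ : ∀ i, js ≤ i → i ≤ 2 * s → i ≠ 2 * s - 1 → v i ∈ (P1 ++ [2 * s]).map v := by
    intro i h7 h8 h9
    apply List.mem_map_of_mem
    by_cases h10 : i = 2 * s
    · subst h10
      simp
    · exact List.mem_append_left _ ((p3 i).2 ⟨h7, by omega⟩)
  have hconZ : ∀ i, js ≤ i → i < 2 * s - 2 → Consec ((P1 ++ [2 * s]).map v) (v i) (v (i + 1)) := by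
    intro i h7 h8
    exact Consec.map v (consec_append.2 (Or.inl (p4 i h7 h8)))
  have hconW : Consec ((P1 ++ [2 * s]).map v) (v (2 * s - 2)) (v (2 * s)) :=
    Consec.map v (consec_append.2 (Or.inr (Or.inr ⟨p1.2.2, by simp⟩)))
  generalize (P1 ++ [2 * s]).map v = Z0 at n1 n2 hlenZ hmemZ hconZ hconW
  let T' : Finset V := ({v (2 * s - 2)} : Finset V).filter (fun _ => s - 2 ∈ Fp G v s)
  have hT'mem : ∀ t ∈ T', t = v (2 * s - 2) ∧ s - 2 ∈ Fp G v s := by
    intro t ht
    simp only [T', Finset.mem_filter, Finset.mem_singleton] at ht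
    exact ht
  have hT'card : (Fp G v s).card ≤ T'.card + (Az G v s).card := by
    by_cases h7 : s - 2 ∈ Fp G v s
    · have h8 : T' = {v (2 * s - 2)} := by
        simp only [T']
        rw [Finset.filter_true_of_mem (fun _ _ => h7)]
      rw [h8, Finset.card_singleton]
      omega
    · rw [Az_card2 h7]
      omega
  have hT'1 : T'.card ≤ 1 := by
    refine le_trans (Finset.card_filter_le _ _) ?_
    simp
  have hρE := rho_E G v s
  have hEne : ∀ i ∈ PosE G v s, v i ∈ Z0 ∨ v i = v (2 * s - 1) := by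
    intro i hi
    obtain ⟨c, _, _, h8, h9⟩ := C.wit hi
    have h10 := C.pos_le hi
    by_cases h11 : i = 2 * s - 1
    · subst h11
      exact Or.inr rfl
    · exact Or.inl (hmemZ i (by omega) h10 h11)
  have hWpos : ∀ i, js ≤ i → i ≤ 2 * s → v i ∈ Z0 ∨ v i = v (2 * s - 1) := by
    intro i h7 h8
    by_cases h11 : i = 2 * s - 1
    · subst h11
      exact Or.inr rfl
    · exact Or.inl (hmemZ i h7 h8 h11)
  refine C.finish Z0 ((EE G v s).erase (v (2 * s - 1))) (v (2 * s - 1)) T' (Az G v s)
    (Finset.erase_subset _ _) hρE n1 (Cyc.lift (fun _ _ h => Or.inl h) n2) ?_ ?_ ?_ ?_ ?_ ?_ hT'1 ?_ ?_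
    ?_
  · intro e he
    obtain ⟨h7, h8⟩ := Finset.mem_erase.1 he
    obtain ⟨i, hi, rfl⟩ := Finset.mem_image.1 h8
    rcases hEne i hi with h9 | h9
    · exact h9
    · exact absurd h9 h7
  · intro e he
    obtain ⟨i, hi, rfl⟩ := Finset.mem_image.1 he
    have h7 := Top.count C.hδ (v := v) (s := s) (v i)
    have h8 := C.oset_card C.hα hi
    have h9 := hall i hi
    have h10 := C.nn_le2 (e := v i) (Z := Z0) (r := v (2 * s - 1)) (fun j hj hadj =>
      hWpos j (C.see hi hj hadj) hj)
    omega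
  · intro e he
    exact C.hout_gen (W := Z0) (q := v (2 * s - 1)) (by
      intro e' he'
      obtain ⟨i, hi, rfl⟩ := Finset.mem_image.1 he'
      exact hEne i hi) hWpos e (Finset.mem_of_mem_erase he)
  · refine Finset.mem_erase.2 ⟨?_, x_E G v s⟩
    intro h7
    have := C.strip.inj _ _ (by omega) (by omega) h7
    omega
  · intro z hz
    obtain ⟨h7, h8⟩ := mem_Az.1 hz
    have h9 := C.Fp_low h7
    have hadj : G.Adj (v (2 * z + 2)) (v (2 * z + 4)) :=
      C.strip.adj_even (i := z + 1) (by omega) (by omega) (by omega)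
    refine ⟨h8, Finset.mem_erase.2 ⟨?_, hub1_E h7⟩, Finset.mem_erase.2 ⟨?_, hub2_E h7⟩,
      v (2 * z + 4), G.ne_of_adj hadj, Or.inl hadj, ca_con (hconZ (2 * z + 2) (by omega) (by omega)),
      ca_con (hconZ (2 * z + 3) (by omega) (by omega))⟩
    · intro h10
      have := C.strip.inj _ _ (by omega) (by omega) h10
      omega
    · intro h10
      have := C.strip.inj _ _ (by omega) (by omega) h10
      omega
  · intro t ht
    obtain ⟨rfl, h7⟩ := hT'mem t ht
    obtain ⟨h8, _, h9⟩ := mem_Fp.1 h7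
    have hc : 2 * (s - 2) + 1 = 2 * s - 3 := by omega
    rw [hc] at h9
    have h10 := C.Fp_low h7
    have h11 : v (2 * s - 2) ∈ EE G v s := by
      have := hub1_E h7
      rwa [show 2 * (s - 2) + 2 = 2 * s - 2 by omega] at this
    have h12 := hconZ (2 * s - 3) (by omega) (by omega)
    rw [show 2 * s - 3 + 1 = 2 * s - 2 by omega] at h12
    refine ⟨Or.inr rfl, Finset.mem_erase.2 ⟨?_, h11⟩, v (2 * s - 3), G.ne_of_adj h9, Or.inl h9,
      (ca_con hconW).symm, (ca_con h12).symm⟩
    intro h13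
    have := C.strip.inj _ _ (by omega) (by omega) h13
    omega
  · omega
  · omega
  · omega

/-- The parity of the whole window is right, and the block below the top is a full block: the
first step is done by hand, since it brings a new skippable member. -/
theorem case_match_pending (C : Ctx G v s js k a) (F : Zfac G v s js Zf)
    (hpar : (2 * s - js + 1) % 2 = k % 2) (h : s - 2 ∈ Fp G v s) : False := by
  have h1 := C.fc
  have h2 := C.blocks
  have h3 := C.oset_card C.hα (x_pos G v s)
  have h4 := C.hka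
  have h5 := Az_card1 (G := G) (v := v) (s := s)
  have h6 := C.lt2
  have h7 := F.len
  have hs1 := C.one
  obtain ⟨hs2, _, hxc⟩ := mem_Fp.1 h
  rw [show 2 * (s - 2) + 1 = 2 * s - 3 by omega] at hxc
  have hjs4 := C.Fp_low h
  have hrev : List.Perm Zf.reverse Zf := List.reverse_perm Zf
  have hadjwx : G.Adj (v (2 * s - 2)) (v (2 * s)) :=
    C.strip.adj_even (i := s - 1) (by omega) (by omega) (by omega)
  have hcon : ∀ {i i' : ℕ}, js ≤ i → i < 2 * s → i' = i + 1 → Consec Zf (v i) (v i') := by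
    intro i i' h8 h9 h10
    subst h10
    exact F.con i h8 h9
  have hnb : ∀ {i i' : ℕ}, js ≤ i → i < 2 * s → i' = i + 1 → Nb Zf.reverse (v i') (v i) :=
    fun h8 h9 h10 => nb_reverse (Or.inl (hcon h8 h9 h10))
  have hw : v (2 * s - 2) ∈ EE G v s := by
    have := hub1_E h
    rwa [show 2 * (s - 2) + 2 = 2 * s - 2 by omega] at this
  have hZE : ∀ e ∈ EE G v s, e ∈ Zf := fun e he => F.memE C.toTop he
  have hdg0 := C.dg_Zf' F
  obtain ⟨Z', r, r', c1, c2, c3, c4, c5, c6, cut, K1, K2⟩ := hub_core C.Hδ C.Hα C.hka (EE G v s)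
    (Z := Zf.reverse)
    (C.noH (W := Zf.reverse) (fun e he => by rw [dg_perm hrev]; exact hdg0 e he))
    (List.nodup_reverse.2 F.nd) (Cyc.reverse F.cycH)
    (fun e he => List.mem_reverse.2 (hZE e he))
    (fun e he => by
      rw [dg_perm hrev]
      exact le_trans (hdg0 e he) (dg_mono (fun _ hz => hz) (fun _ hz => Or.inl hz)))
    (by rw [List.length_reverse]; omega) (by rw [List.length_reverse]; omega)
    (h := v (2 * s - 1)) (A := v (2 * s)) (B := v (2 * s - 2))
    (rho_E G v s) (x_E G v s) (Or.inl hadjwx.symm)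
    (hnb (by omega) (by omega) (by omega)) (hnb (by omega) (by omega) (by omega))
    (by
      intro y y' h8 h9 h10 h11
      refine C.hout_gen (W := Zf.reverse) (q := v (2 * s))
        (fun e he => Or.inl (List.mem_reverse.2 (hZE e he)))
        (fun i h12 h13 => Or.inl (List.mem_reverse.2 (F.mem i h12 h13))) _ (rho_E G v s) y y' h8 h9
        h10 h11 ?_ ?_
      · rintro rfl
        exact h10 (List.mem_reverse.2 (F.mem _ (by omega) (by omega)))
      · rintro rfl
        exact h11 (List.mem_reverse.2 (F.mem _ (by omega) (by omega))))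
  have hnd2 : (Zf.reverse ++ [r, r']).Nodup := by
    rw [List.nodup_append]
    refine ⟨List.nodup_reverse.2 F.nd, by simp [c3], ?_⟩
    intro x hx y hy hxy
    subst hxy
    simp only [List.mem_cons, List.not_mem_nil, or_false] at hy
    rcases hy with hy | hy
    · subst hy
      exact c1 hx
    · subst hy
      exact c2 hx
  have hlen3 : Z'.length = Zf.length + 2 := by
    rw [c4.length_eq]
    simp
  have hsub : Zf ⊆ Z' := fun x hx =>
    c4.symm.subset (List.mem_append_left _ (List.mem_reverse.2 hx))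
  have hZ'E : ∀ e ∈ EE G v s, e ∈ Z' := fun e he => hsub (hZE e he)
  have hcaZ : ∀ {i i' : ℕ}, js ≤ i → i < 2 * s → i' = i + 1 → CA Zf.reverse (v i) (v i') :=
    fun h8 h9 h10 => ca_reverse (ca_con (hcon h8 h9 h10))
  refine C.finish Z' (EE G v s) (v (2 * s)) {v (2 * s - 2)} (Az G v s) (Finset.Subset.refl _)
    (x_E G v s) (c4.nodup_iff.2 hnd2) c5 hZ'E ?_ ?_ (x_E G v s) ?_ ?_ (by simp) ?_ (by omega)
    (by omega)
  · intro e he
    exact le_trans (hdg0 e he) (dg_mono hsub (fun _ hz => hz))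
  · exact C.hout_gen (fun e he => Or.inl (hZ'E e he))
      (fun i h8 h9 => Or.inl (hsub (F.mem i h8 h9)))
  · intro z hz
    obtain ⟨h8, h9⟩ := mem_Az.1 hz
    have h10 := C.Fp_low h8
    have hadj : G.Adj (v (2 * z + 2)) (v (2 * z + 4)) :=
      C.strip.adj_even (i := z + 1) (by omega) (by omega) (by omega)
    obtain ⟨b, e1, e2, e3, e4⟩ := keep_one (G := HH G v s) (E0 := EE G v s) (Z := Zf.reverse)
      (Z' := Z') (h := v (2 * s - 1)) (A := v (2 * s)) (B := v (2 * s - 2)) (j := v (2 * z + 3))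
      (Aj := v (2 * z + 2)) (bj := v (2 * z + 4)) (cut := cut) (List.nodup_reverse.2 F.nd)
      (hnb (by omega) (by omega) (by omega)) (hnb (by omega) (by omega) (by omega)) c6 K1 K2
      (fun e he e' he' hne => Or.inr ⟨he, he', hne⟩) (hub2_E h8) (hub1_E h8) (rho_E G v s)
      (x_E G v s)
      (fun h11 => by
        have := C.strip.inj _ _ (by omega) (by omega) h11
        omega)
      (fun h11 => by
        have := C.strip.inj _ _ (by omega) (by omega) h11
        omega)
      (fun h11 => by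
        have := C.strip.inj _ _ (by omega) (by omega) h11
        omega)
      (fun h11 => by
        have := C.strip.inj _ _ (by omega) (by omega) h11
        omega)
      (G.ne_of_adj hadj) (Or.inl hadj) (hcaZ (by omega) (by omega) (by omega))
      (hcaZ (by omega) (by omega) (by omega))
    exact ⟨h9, hub1_E h8, hub2_E h8, b, e1, e2, e3, e4⟩
  · intro t ht
    have hte : t = v (2 * s - 2) := by simpa using ht
    subst hte
    refine ⟨Or.inr rfl, hw, v (2 * s - 3), G.ne_of_adj hxc, Or.inl hxc, c6, ?_⟩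
    refine K2 _ _ (hnb (by omega) (by omega) (by omega)) ?_ ?_ (Or.inl hw)
    · intro h8
      have := C.strip.inj _ _ (by omega) (by omega) h8
      omega
    · intro h8
      have := C.strip.inj _ _ (by omega) (by omega) h8
      omega
  · rw [Finset.card_singleton]
    omega

/-- A graph in the context does not exist. -/
theorem absurd_ctx (C : Ctx G v s js k a) : False := by
  obtain ⟨Zf, F⟩ := C.toTop.exists_Zf
  by_cases hpar : (2 * s - js + 1) % 2 = k % 2
  · by_cases h : s - 2 ∈ Fp G v s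
    · exact C.case_match_pending F hpar h
    · exact C.case_match_top F hpar h
  · by_cases hx : (Oset G v s (v (2 * s))).card = a
    · exact C.case_x F hpar hx
    · by_cases he : ∃ i ∈ PosE G v s, (Oset G v s (v i)).card = a
      · obtain ⟨i, hi, h⟩ := he
        exact C.case_e F hpar hx hi h
      · exact C.case_all hpar (fun i hi h => he ⟨i, hi, h⟩)

end Ctx

/-- The minimum degree theorem for `k ≥ 2 a + 2`. -/
theorem thmC [Fintype V] [Nonempty V] {k a : ℕ} (G : SimpleGraph V) (hka : 2 * a + 2 ≤ k)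
    (hδ : ∀ v, k ≤ (Finset.univ.filter (G.Adj v)).card + 1)
    (hα : ∀ S : Finset V, (∀ x ∈ S, ∀ y ∈ S, ¬ G.Adj x y) → S.card ≤ a) :
    ∃ l : List V, l.Nodup ∧ Cyc G.Adj l ∧ l.length = k := by
  by_contra hno
  have noC : ∀ l : List V, l.Nodup → Cyc G.Adj l → l.length ≠ k :=
    fun l h1 h2 h3 => hno ⟨l, h1, h2, h3⟩
  obtain ⟨s, v0, hv0, hmax⟩ := exists_max_strip G
  have hmax' : ∀ u', ¬ IsStrip G u' (s + 1) := fun u' h => by
    have := hmax _ _ h
    omega
  have hs1 : 1 ≤ s := by
    by_contra h0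
    have h1 : s = 0 := by omega
    subst h1
    have h2 := nbr_count hδ hα hmax' hv0 v0 (fun j hj => ⟨j, hj, rfl⟩)
    have : ((Finset.range (2 * 0 + 1)).filter (fun i => G.Adj (v0 (2 * 0)) (v0 i))) = ∅ := by
      apply Finset.filter_eq_empty_iff.2
      intro i hi
      have hi' := Finset.mem_range.1 hi
      have hi0 : i = 0 := by omega
      subst hi0
      exact G.irrefl
    rw [this] at h2
    simp only [Finset.card_empty] at h2
    have h3 := hα {v0 0} (by
      intro x hx y hy
      simp only [Finset.mem_singleton] at hx hy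
      subst hx hy
      exact G.irrefl)
    simp only [Finset.card_singleton] at h3
    omega
  have hex : ∃ j, ∃ u, IsStrip G u s ∧ j ≤ 2 * s ∧ G.Adj (u j) (u (2 * s)) :=
    ⟨2 * s - 1, v0, hv0, by omega, hv0.adj_succ (by omega) (le_refl _)⟩
  obtain ⟨v, h1, h2, h3⟩ := Nat.find_spec hex
  have hmin : ∀ u, IsStrip G u s → ∀ j, j ≤ 2 * s → G.Adj (u j) (u (2 * s)) → Nat.find hex ≤ j :=
    fun u hu j hj hadj => Nat.find_min' hex ⟨u, hu, hj, hadj⟩
  exact Ctx.absurd_ctx (G := G) (v := v) (s := s) (js := Nat.find hex) (k := k) (a := a)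
    { strip := h1, one := hs1, hmax := hmax', hmin := hmin, hjs := h3, hle := h2, hδ := hδ,
      hα := hα, hka := hka, noC := noC }

end Vale.Agent.Lib.P048
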