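import Vale.Agent.Lib.P048.Engine2

/-!
The closure of a graph on a set of members of large degree.
-/

namespace Vale.Agent.Lib.P048

open scoped Classical

variable {V : Type*}

/-- The relation `R` together with a list of extra pairs. -/
def virs (R : V → V → Prop) : List (V × V) → V → V → Prop
  | [] => R
  | p :: ps => vir (virs R ps) p.1 p.2

theorem virs_le {R : V → V → Prop} (ps : List (V × V)) {x y : V} (h : R x y) : virs R ps x y := by
  induction ps with
  | nil => exact h
  | cons p ps ih => exact Or.inl ih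

theorem virs_mem {R : V → V → Prop} {ps : List (V × V)} {p : V × V} (h : p ∈ ps) :
    virs R ps p.1 p.2 := by
  induction ps with
  | nil => simp at h
  | cons p' ps ih =>
    rcases List.mem_cons.1 h with h | h
    · subst h
      exact Or.inr (Or.inl ⟨rfl, rfl⟩)
    · exact Or.inl (ih h)

theorem virs_symm {R : V → V → Prop} (hs : ∀ x y, R x y → R y x) (ps : List (V × V)) :
    ∀ x y, virs R ps x y → virs R ps y x := by
  induction ps with
  | nil => exact hs
  | cons p ps ih => exact vir_symm ih _ _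

theorem virs_irr {R : V → V → Prop} (hirr : ∀ x, ¬ R x x) (ps : List (V × V))
    (hps : ∀ p ∈ ps, p.1 ≠ p.2) : ∀ x, ¬ virs R ps x x := by
  induction ps with
  | nil => exact hirr
  | cons p ps ih =>
    exact vir_irr (ih (fun q hq => hps q (List.mem_cons_of_mem _ hq)))
      (hps p (List.mem_cons_self))

/-- A closed chain that avoids a member does not use its extra pairs. -/
theorem cyc_drop {R : V → V → Prop} {x y : V} {l : List V} (hc : Cyc (vir R x y) l) (hx : x ∉ l) :
    Cyc R l := by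
  obtain ⟨a, b, h1, h2⟩ := hc
  have ha := h1.head_mem
  have hb := h1.last_mem
  refine ⟨a, b, ⟨?_, h1.2⟩, ?_⟩
  · refine List.IsChain.imp_of_mem_imp ?_ h1.1
    intro c d hc' hd hcd
    rcases hcd with h3 | ⟨h3, _⟩ | ⟨_, h3⟩
    · exact h3
    · exact absurd (h3 ▸ hc') hx
    · exact absurd (h3 ▸ hd) hx
  · rcases h2 with h3 | ⟨h3, _⟩ | ⟨_, h3⟩
    · exact h3
    · exact absurd (h3 ▸ hb) hx
    · exact absurd (h3 ▸ ha) hx

theorem virs_remove {R : V → V → Prop} (hs : ∀ x y, R x y → R y x) (hirr : ∀ x, ¬ R x x)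
    (ps : List (V × V)) {L : List V} (hps : ∀ p ∈ ps, p.1 ≠ p.2)
    (hdeg : ∀ p ∈ ps, L.length ≤ dg R p.1 L + dg R p.2 L)
    (hnd : L.Nodup) (h3 : 3 ≤ L.length) :
    ∀ l, List.Perm l L → Cyc (virs R ps) l → ∃ l', List.Perm l' L ∧ Cyc R l' := by
  induction ps with
  | nil =>
    intro l h1 h2
    exact ⟨l, h1, h2⟩
  | cons p ps ih =>
    intro l h1 h2
    have hps' : ∀ q ∈ ps, q.1 ≠ q.2 := fun q hq => hps q (List.mem_cons_of_mem _ hq)
    have hdeg' : ∀ q ∈ ps, L.length ≤ dg R q.1 L + dg R q.2 L :=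
      fun q hq => hdeg q (List.mem_cons_of_mem _ hq)
    by_cases hx : p.1 ∈ l
    · have hp := hdeg p List.mem_cons_self
      obtain ⟨l', h4, h5⟩ := close_virtual (virs_symm hs ps) (virs_irr hirr ps hps')
        (hps p List.mem_cons_self) (h1.nodup_iff.2 hnd) h2 hx (by rw [h1.length_eq]; exact h3) (by
          rw [h1.length_eq, dg_perm h1, dg_perm h1]
          have h6 : dg R p.1 L ≤ dg (virs R ps) p.1 L :=
            dg_mono (fun _ hz => hz) (fun z hz => virs_le ps hz)
          have h7 : dg R p.2 L ≤ dg (virs R ps) p.2 L :=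
            dg_mono (fun _ hz => hz) (fun z hz => virs_le ps hz)
          omega)
      exact ih hps' hdeg' l' (h4.trans h1) h5
    · exact ih hps' hdeg' l h1 (cyc_drop h2 hx)

/-- The graph `G` with all the pairs of `E` added. -/
def closeOn (G : SimpleGraph V) (E : Finset V) : SimpleGraph V where
  Adj u v := G.Adj u v ∨ (u ∈ E ∧ v ∈ E ∧ u ≠ v)
  symm := ⟨by
    intro u v h
    rcases h with h | ⟨h1, h2, h3⟩
    · exact Or.inl h.symm
    · exact Or.inr ⟨h2, h1, h3.symm⟩⟩
  loopless := ⟨by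
    intro u h
    rcases h with h | ⟨_, _, h3⟩
    · exact G.irrefl h
    · exact h3 rfl⟩

theorem closeOn_adj {G : SimpleGraph V} {E : Finset V} {u v : V} :
    (closeOn G E).Adj u v ↔ G.Adj u v ∨ (u ∈ E ∧ v ∈ E ∧ u ≠ v) := Iff.rfl

/-- A closed chain of the closure gives a closed chain of the graph on the same members, when the
members of `E` have large degree on it. -/
theorem unclose (G : SimpleGraph V) (E : Finset V) {l : List V} (hnd : l.Nodup) (h3 : 3 ≤ l.length)
    (hc : Cyc (closeOn G E).Adj l) (hdeg : ∀ e ∈ E, l.length ≤ 2 * dg G.Adj e l) :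
    ∃ l', List.Perm l' l ∧ Cyc G.Adj l' := by
  let ps : List (V × V) := ((E ×ˢ E).toList).filter (fun p => p.1 ≠ p.2)
  have hpsmem : ∀ u v, u ∈ E → v ∈ E → u ≠ v → (u, v) ∈ ps := by
    intro u v h1 h2 h4
    simp only [ps, List.mem_filter, Finset.mem_toList, Finset.mem_product, decide_eq_true_eq]
    exact ⟨⟨h1, h2⟩, h4⟩
  have hpsE : ∀ p ∈ ps, p.1 ∈ E ∧ p.2 ∈ E ∧ p.1 ≠ p.2 := by
    intro p hp
    simp only [ps, List.mem_filter, Finset.mem_toList, Finset.mem_product, decide_eq_true_eq] at hp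
    exact ⟨hp.1.1, hp.1.2, hp.2⟩
  have himp : ∀ u v, (closeOn G E).Adj u v → virs G.Adj ps u v := by
    intro u v h
    rcases h with h | ⟨h1, h2, h4⟩
    · exact virs_le ps h
    · exact virs_mem (p := (u, v)) (hpsmem u v h1 h2 h4)
  obtain ⟨a, b, h1, h2⟩ := hc
  refine virs_remove (fun x y h => h.symm) (fun x => G.irrefl) ps (fun p hp => (hpsE p hp).2.2) ?_
    hnd h3 l (List.Perm.refl _) ⟨a, b, h1.imp himp, himp _ _ h2⟩
  intro p hp
  have h4 := hdeg _ (hpsE p hp).1
  have h5 := hdeg _ (hpsE p hp).2.1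
  omega

end Vale.Agent.Lib.P048
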