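import Mathlib.Tactic
import Mathlib.Data.Finset.Card

/-!
Jump families on a ladder: the combinatorial core of the far chord lemma.
-/

namespace Vale.Agent.Lib.P048

/-- The number of indices jumped over by a jump. -/
def sk (J : ℕ × ℕ) : ℕ := J.2 - J.1 - 1

/-- The total number of indices jumped over by a family of jumps. -/
def skT (T : List (ℕ × ℕ)) : ℕ := (T.map sk).sum

/-- A valid family of jumps: sorted, pairwise disjoint, each jump an `A` pair below `L`. -/
def Vld (A : ℕ → ℕ → Prop) (L : ℕ) (T : List (ℕ × ℕ)) : Prop :=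
  (∀ J ∈ T, J.1 + 2 ≤ J.2 ∧ J.2 < L ∧ A J.1 J.2) ∧ T.Pairwise (fun J J' => J.2 ≤ J'.1)

theorem skT_nil : skT [] = 0 := rfl

theorem skT_cons (J : ℕ × ℕ) (T : List (ℕ × ℕ)) : skT (J :: T) = sk J + skT T := by
  simp [skT]

theorem skT_append (S T : List (ℕ × ℕ)) : skT (S ++ T) = skT S + skT T := by
  simp [skT]

theorem Vld.tail {A : ℕ → ℕ → Prop} {L : ℕ} {J : ℕ × ℕ} {T : List (ℕ × ℕ)}
    (h : Vld A L (J :: T)) : Vld A L T := by
  refine ⟨fun K hK => h.1 K (List.mem_cons_of_mem _ hK), ?_⟩
  exact (List.pairwise_cons.1 h.2).2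

theorem Vld.bound {A : ℕ → ℕ → Prop} {L : ℕ} :
    ∀ (T : List (ℕ × ℕ)) (l : ℕ), Vld A L T → l < L → (∀ J ∈ T, l ≤ J.1) →
      skT T + T.length + l + 1 ≤ L := by
  intro T
  induction T with
  | nil =>
    intro l _ hl _
    simp [skT_nil]
    omega
  | cons J T ih =>
    intro l hV hl hlJ
    have h1 := hV.1 J (List.mem_cons_self)
    have h2 := hlJ J (List.mem_cons_self)
    have h3 : ∀ K ∈ T, J.2 ≤ K.1 := (List.pairwise_cons.1 hV.2).1
    have h4 := ih J.2 hV.tail h1.2.1 h3
    rw [skT_cons, List.length_cons]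
    unfold sk
    omega

theorem Vld.mono {A : ℕ → ℕ → Prop} {L L' : ℕ} {T : List (ℕ × ℕ)} (h : Vld A L T) (hL : L ≤ L') :
    Vld A L' T := by
  refine ⟨fun J hJ => ?_, h.2⟩
  obtain ⟨h1, h2, h3⟩ := h.1 J hJ
  exact ⟨h1, by omega, h3⟩

theorem Vld.remove {A : ℕ → ℕ → Prop} {L : ℕ} {T1 T2 : List (ℕ × ℕ)} {J : ℕ × ℕ}
    (h : Vld A L (T1 ++ J :: T2)) : Vld A L (T1 ++ T2) := by
  refine ⟨fun K hK => h.1 K ?_, ?_⟩
  · rcases List.mem_append.1 hK with hK | hK
    · exact List.mem_append_left _ hK
    · exact List.mem_append_right _ (List.mem_cons_of_mem _ hK)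
  · have h2 := h.2
    rw [List.pairwise_append, List.pairwise_cons] at h2
    rw [List.pairwise_append]
    refine ⟨h2.1, h2.2.1.2, fun a ha b hb => h2.2.2 a ha b (List.mem_cons_of_mem _ hb)⟩

theorem Vld.replace {A : ℕ → ℕ → Prop} {L : ℕ} {T1 T2 : List (ℕ × ℕ)} {J : ℕ × ℕ} {u w : ℕ}
    (h : Vld A L (T1 ++ J :: T2)) (h1 : J.1 ≤ u) (h2 : u + 2 ≤ w) (h3 : w ≤ J.2) (h4 : A u w) :
    Vld A L (T1 ++ (u, w) :: T2) := by
  have hJ := h.1 J (by simp)
  have hP := h.2
  rw [List.pairwise_append, List.pairwise_cons] at hP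
  refine ⟨fun K hK => ?_, ?_⟩
  · rcases List.mem_append.1 hK with hK | hK
    · exact h.1 K (List.mem_append_left _ hK)
    · rcases List.mem_cons.1 hK with rfl | hK
      · exact ⟨h2, by have := hJ.2.1; simp only; omega, h4⟩
      · exact h.1 K (List.mem_append_right _ (List.mem_cons_of_mem _ hK))
  · rw [List.pairwise_append, List.pairwise_cons]
    refine ⟨hP.1, ⟨fun K hK => ?_, hP.2.1.2⟩, fun a ha b hb => ?_⟩
    · have := hP.2.1.1 K hK
      simp only
      omega
    · rcases List.mem_cons.1 hb with rfl | hb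
      · have := hP.2.2 a ha J (by simp)
        simp only
        omega
      · exact hP.2.2 a ha b (List.mem_cons_of_mem _ hb)

/-- Greedy peeling from the top index: an independent set and a short route. -/
theorem peel (A : ℕ → ℕ → Prop) (N : ℕ) (hunit : ∀ i, i < N → A i (i + 1)) :
    ∀ i : ℕ, 1 ≤ i → i ≤ N → ∃ (I : Finset ℕ) (T : List (ℕ × ℕ)),
      Vld A (i + 1) T ∧ (∀ x ∈ I, 1 ≤ x ∧ x ≤ i) ∧
      (∀ x ∈ I, ∀ y ∈ I, x < y → ¬ A x y) ∧ i ≤ skT T + 2 * I.card := by
  intro i
  induction i using Nat.strong_induction_on with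
  | _ i ih =>
    intro hi hiN
    classical
    have hex : ∃ j, j < i ∧ A j i := ⟨i - 1, by omega, by
      have := hunit (i - 1) (by omega)
      rwa [show i - 1 + 1 = i by omega] at this⟩
    set p := Nat.find hex with hp
    have hp1 : p < i ∧ A p i := Nat.find_spec hex
    have hp2 : ∀ j, j < p → ¬ (j < i ∧ A j i) := fun j hj => Nat.find_min hex hj
    -- the jump step
    have hstep : ∃ St : List (ℕ × ℕ), Vld A (i + 1) St ∧ skT St + p + 1 = i ∧
        (∀ J ∈ St, p ≤ J.1) := by
      by_cases hc : p + 1 = i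
      · refine ⟨[], ⟨by simp, by simp⟩, ?_, by simp⟩
        simp [skT_nil]
        omega
      · refine ⟨[(p, i)], ⟨?_, by simp⟩, ?_, by simp⟩
        · intro J hJ
          simp only [List.mem_singleton] at hJ
          subst hJ
          refine ⟨?_, ?_, hp1.2⟩
          · simp only
            omega
          · simp
        · simp only [skT, sk, List.map_cons, List.map_nil, List.sum_cons, List.sum_nil]
          omega
    obtain ⟨St, hSt1, hSt2, hSt3⟩ := hstep
    by_cases hp0 : p ≤ 1
    · refine ⟨{i}, St, hSt1, ?_, ?_, ?_⟩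
      · intro x hx
        simp only [Finset.mem_singleton] at hx
        omega
      · intro x hx y hy hxy
        simp only [Finset.mem_singleton] at hx hy
        omega
      · simp only [Finset.card_singleton]
        omega
    · obtain ⟨I', T', hV', hI1, hI2, hI3⟩ := ih (p - 1) (by omega) (by omega) (by omega)
      have hnotin : i ∉ I' := by
        intro h
        have := (hI1 i h).2
        omega
      refine ⟨insert i I', T' ++ St, ?_, ?_, ?_, ?_⟩
      · refine ⟨?_, ?_⟩
        · intro J hJ
          rcases List.mem_append.1 hJ with hJ | hJ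
          · obtain ⟨h1, h2, h3⟩ := hV'.1 J hJ
            exact ⟨h1, by omega, h3⟩
          · exact hSt1.1 J hJ
        · rw [List.pairwise_append]
          refine ⟨hV'.2, hSt1.2, ?_⟩
          intro J hJ K hK
          have h1 := (hV'.1 J hJ).2.1
          have h2 := hSt3 K hK
          omega
      · intro x hx
        rcases Finset.mem_insert.1 hx with hx' | hx'
        · subst hx'
          exact ⟨hi, le_refl _⟩
        · have := hI1 x hx'
          omega
      · intro x hx y hy hxy hA
        rcases Finset.mem_insert.1 hx with hx' | hx'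
        · rcases Finset.mem_insert.1 hy with hy' | hy'
          · omega
          · have := (hI1 y hy').2
            omega
        · rcases Finset.mem_insert.1 hy with hy' | hy'
          · have h1 := (hI1 x hx').2
            subst hy'
            exact hp2 x (by omega) ⟨by omega, hA⟩
          · exact hI2 x hx' y hy' hxy hA
      · rw [Finset.card_insert_of_notMem hnotin, skT_append]
        omega

/-- Selecting every third jump of a sorted family. -/
theorem select (A : ℕ → ℕ → Prop) (B C : ℕ) (Q : ℕ × ℕ → Finset ℕ) (lo : ℕ × ℕ → ℕ) :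
    ∀ (n : ℕ) (T : List (ℕ × ℕ)), T.length ≤ n → T.Pairwise (fun J J' => J.2 ≤ J'.1) →
      (∀ J ∈ T, J.1 ≤ J.2) →
      (∀ J ∈ T, ∀ x ∈ Q J, lo J ≤ x ∧ x < J.2) →
      (∀ J ∈ T, J.1 ≤ lo J) →
      (∀ J ∈ T, ∀ x ∈ Q J, ∀ y ∈ Q J, x < y → ¬ A x y) →
      (∀ J ∈ T, ∀ J1 ∈ T, ∀ J2 ∈ T, ∀ J3 ∈ T, J.2 ≤ J1.1 → J1.2 ≤ J2.1 → J2.2 ≤ J3.1 →
        ∀ x ∈ Q J, ∀ y ∈ Q J3, ¬ A x y) →
      (∀ J ∈ T, C ≤ (Q J).card * B) →
      ∃ I : Finset ℕ, (∀ x ∈ I, ∃ J ∈ T, x ∈ Q J) ∧ (∀ x ∈ I, ∀ y ∈ I, x < y → ¬ A x y) ∧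
        T.length * C ≤ 3 * (I.card * B) := by
  intro n
  induction n using Nat.strong_induction_on with
  | _ n ih =>
    intro T hn hP h0 h1 h2 h3 h4 h5
    rcases T with _ | ⟨J, _ | ⟨J1, _ | ⟨J2, R⟩⟩⟩
    · exact ⟨∅, by simp, by simp, by simp⟩
    · refine ⟨Q J, fun x hx => ⟨J, by simp, hx⟩, h3 J (by simp), ?_⟩
      have := h5 J (by simp)
      simp only [List.length_singleton]
      omega
    · refine ⟨Q J, fun x hx => ⟨J, by simp, hx⟩, h3 J (by simp), ?_⟩
      have := h5 J (by simp)
      simp only [List.length_cons, List.length_nil]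
      omega
    · have hP' := hP
      rw [List.pairwise_cons] at hP'
      obtain ⟨hPa, hPb⟩ := hP'
      have hP'' := hPb
      rw [List.pairwise_cons] at hP''
      obtain ⟨hPc, hPd⟩ := hP''
      have hP3 := hPd
      rw [List.pairwise_cons] at hP3
      obtain ⟨hPe, hPf⟩ := hP3
      have hRsub : ∀ K ∈ R, K ∈ J :: J1 :: J2 :: R := fun K hK => by simp [hK]
      obtain ⟨I', hI1, hI2, hI3⟩ := ih R.length (by simp at hn; omega) R (le_refl _) hPf
        (fun K hK => h0 K (hRsub K hK))
        (fun K hK => h1 K (hRsub K hK)) (fun K hK => h2 K (hRsub K hK))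
        (fun K hK => h3 K (hRsub K hK))
        (fun K hK K1 hK1 K2 hK2 K3 hK3 => h4 K (hRsub K hK) K1 (hRsub K1 hK1) K2 (hRsub K2 hK2)
          K3 (hRsub K3 hK3))
        (fun K hK => h5 K (hRsub K hK))
      have hJmem : J ∈ J :: J1 :: J2 :: R := by simp
      have hJ1mem : J1 ∈ J :: J1 :: J2 :: R := by simp
      have hJ2mem : J2 ∈ J :: J1 :: J2 :: R := by simp
      have horder : ∀ x ∈ Q J, ∀ y ∈ I', x < y := by
        intro x hx y hy
        obtain ⟨K, hK, hyK⟩ := hI1 y hy
        have a1 := (h1 J hJmem x hx).2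
        have a2 := (h1 K (hRsub K hK) y hyK).1
        have a3 := h2 K (hRsub K hK)
        have a4 := hPe K hK
        have a5 := hPa J1 (by simp)
        have a6 := hPc J2 (by simp)
        have a7 := h0 J1 hJ1mem
        have a8 := h0 J2 hJ2mem
        omega
      have hdisj : Disjoint (Q J) I' := by
        rw [Finset.disjoint_left]
        intro x hx hx'
        exact lt_irrefl _ (horder x hx x hx')
      classical
      refine ⟨Q J ∪ I', ?_, ?_, ?_⟩
      · intro x hx
        rcases Finset.mem_union.1 hx with hx | hx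
        · exact ⟨J, hJmem, hx⟩
        · obtain ⟨K, hK, hxK⟩ := hI1 x hx
          exact ⟨K, hRsub K hK, hxK⟩
      · intro x hx y hy hxy
        rcases Finset.mem_union.1 hx with hx | hx
        · rcases Finset.mem_union.1 hy with hy | hy
          · exact h3 J hJmem x hx y hy hxy
          · obtain ⟨K, hK, hyK⟩ := hI1 y hy
            exact h4 J hJmem J1 hJ1mem J2 hJ2mem K (hRsub K hK) (hPa J1 (by simp))
              (hPc J2 (by simp)) (hPe K hK) x hx y hyK
        · rcases Finset.mem_union.1 hy with hy | hy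
          · exact absurd (horder y hy x hx) (by omega)
          · exact hI2 x hx y hy hxy
      · rw [Finset.card_union_of_disjoint hdisj]
        have h5J := h5 J hJmem
        simp only [List.length_cons]
        have e1 : (R.length + 1 + 1 + 1) * C = R.length * C + 3 * C := by ring
        have e2 : 3 * (((Q J).card + I'.card) * B) = 3 * ((Q J).card * B) + 3 * (I'.card * B) := by
          ring
        rw [e1, e2]
        omega

theorem core (A : ℕ → ℕ → Prop) (L k k' e a : ℕ) (hk : k' + e = k) (he : e ≤ 2)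
    (hka : 3 * a + 6 ≤ k) (hL : k' + 1 ≤ L)
    (hunit : ∀ i, i + 1 < L → A i (i + 1))
    (hband : ∀ i j, i < j → A i j → 2 * (j - i) + 2 ≤ k)
    (hind : ∀ I : Finset ℕ, (∀ x ∈ I, 1 ≤ x ∧ x < L) →
      (∀ x ∈ I, ∀ y ∈ I, x < y → ¬ A x y) → I.card ≤ a)
    (hnohit : ∀ T, Vld A L T → L ≤ k' + skT T → 2 * L ≤ k' + 2 * skT T + T.length) : False := by
  classical
  -- the initial family from peeling
  obtain ⟨I0, T0, hT0V, hI01, hI02, hI03⟩ :=
    peel A (L - 1) (fun i hi => hunit i (by omega)) (L - 1) (by omega) (le_refl _)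
  rw [show L - 1 + 1 = L by omega] at hT0V
  have hI0a : I0.card ≤ a := hind I0 (fun x hx => by have := hI01 x hx; omega) hI02
  have hT0L := Vld.bound T0 0 hT0V (by omega) (by simp)
  have hT0P : L ≤ k' + skT T0 := by omega
  have hT0len : T0.length ≤ 2 * a := by omega
  -- a minimiser
  let M : List (ℕ × ℕ) → ℕ := fun T => T.length * (L + 1) + skT T
  have hexM : ∃ n, ∃ T, Vld A L T ∧ L ≤ k' + skT T ∧ M T = n := ⟨_, T0, hT0V, hT0P, rfl⟩
  obtain ⟨T, hTV, hTP, hTM⟩ := Nat.find_spec hexM
  have hmin : ∀ T', Vld A L T' → L ≤ k' + skT T' → M T ≤ M T' := by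
    intro T' h1 h2
    rw [hTM]
    exact Nat.find_min' hexM ⟨T', h1, h2, rfl⟩
  clear hTM
  have hbnd : ∀ T', Vld A L T' → skT T' + T'.length + 1 ≤ L := by
    intro T' h
    have := Vld.bound T' 0 h (by omega) (by simp)
    omega
  have hlen_le : ∀ T', Vld A L T' → L ≤ k' + skT T' → T.length ≤ T'.length := by
    intro T' h1 h2
    by_contra hcon
    have h3 := hmin T' h1 h2
    have h4 := hbnd T' h1
    have h5 : (T'.length + 1) * (L + 1) ≤ T.length * (L + 1) :=
      Nat.mul_le_mul_right _ (by omega)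
    have h6 : (T'.length + 1) * (L + 1) = T'.length * (L + 1) + (L + 1) := by ring
    simp only [M] at h3
    omega
  have hb : T.length ≤ 2 * a := le_trans (hlen_le T0 hT0V hT0P) hT0len
  have hTne : 1 ≤ T.length := by
    rcases T with _ | ⟨J, T⟩
    · simp [skT_nil] at hTP
      omega
    · simp
  have hNH := hnohit T hTV hTP
  obtain ⟨g, hg⟩ : ∃ g, skT T + k' = L + g := ⟨skT T + k' - L, by omega⟩
  have hg1 : k' ≤ 2 * g + T.length := by omega
  have hg2 : 2 ≤ g := by omega
  -- the local information at each jump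
  have hloc : ∀ J ∈ T, ∃ D, sk J = g + D ∧ 1 ≤ D ∧ 2 * D + 4 ≤ e + T.length ∧
      (∀ u w, J.1 < u → u + 2 ≤ w → w ≤ J.2 → D + 1 ≤ w - u → ¬ A u w) := by
    intro J hJ
    obtain ⟨T1, T2, rfl⟩ := List.append_of_mem hJ
    have hJV := hTV.1 J hJ
    have hskT : skT (T1 ++ J :: T2) = skT T1 + sk J + skT T2 := by
      rw [skT_append, skT_cons]
      ring
    have hrem := hTV.remove
    have hremlt : ¬ L ≤ k' + skT (T1 ++ T2) := by
      intro hcon
      have h1 := hlen_le _ hrem hcon
      simp only [List.length_append, List.length_cons] at h1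
      omega
    rw [skT_append] at hremlt
    have hbandJ := hband J.1 J.2 (by omega) hJV.2.2
    have hskJ : sk J + 1 + J.1 = J.2 := by
      unfold sk
      omega
    refine ⟨sk J - g, by omega, by omega, ?_, ?_⟩
    · simp only [List.length_append, List.length_cons] at hg1 ⊢
      omega
    · intro u w h1 h2 h3 h4 hA
      have hV2 := hTV.replace (le_of_lt h1) h2 h3 hA
      have hsk2 : skT (T1 ++ (u, w) :: T2) = skT T1 + (w - u - 1) + skT T2 := by
        rw [skT_append, skT_cons]
        simp only [sk]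
        ring
      by_cases hcase : L ≤ k' + skT (T1 ++ (u, w) :: T2)
      · have h5 := hmin _ hV2 hcase
        simp only [M, List.length_append, List.length_cons] at h5
        rw [hsk2, hskT] at h5
        omega
      · rw [hsk2] at hcase
        omega
  choose! D hD1 hD2 hD3 hD4 using hloc
  have hT0 : ∀ J ∈ T, J.1 ≤ J.2 := fun J hJ => by
    have := (hTV.1 J hJ).1
    omega
  have hspan : ∀ J ∈ T, J.1 + g + 2 ≤ J.2 := by
    intro J hJ
    have h1 := (hTV.1 J hJ).1
    have h2 := hD1 J hJ
    have h3 := hD2 J hJ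
    unfold sk at h2
    omega
  have hmemL : ∀ J ∈ T, J.2 < L := fun J hJ => (hTV.1 J hJ).2.1
  by_cases hcase : 2 * T.length ≤ 3 * a
  · -- many indices per jump
    let q : ℕ × ℕ → ℕ := fun J => (sk J + D J) / (D J + 1)
    let Q : ℕ × ℕ → Finset ℕ := fun J =>
      (Finset.range (q J)).image (fun l => J.1 + 1 + l * (D J + 1))
    have hq : ∀ J ∈ T, sk J ≤ q J * (D J + 1) ∧ (q J - 1) * (D J + 1) + 1 ≤ sk J ∧ 1 ≤ q J := by
      intro J hJ
      have h1 := hD1 J hJ
      have h2 := hD2 J hJ
      have h3 : (D J + 1) * q J + (sk J + D J) % (D J + 1) = sk J + D J :=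
        Nat.div_add_mod _ _
      have h4 : (sk J + D J) % (D J + 1) < D J + 1 := Nat.mod_lt _ (by omega)
      have h5 : 1 ≤ q J := by
        apply Nat.div_pos
        · omega
        · omega
      refine ⟨?_, ?_, h5⟩
      · have : q J * (D J + 1) = (D J + 1) * q J := Nat.mul_comm _ _
        omega
      · obtain ⟨q', hq'⟩ : ∃ q', q J = q' + 1 := ⟨q J - 1, by omega⟩
        have h6 : (D J + 1) * q J = q' * (D J + 1) + (D J + 1) := by
          rw [hq']
          ring
        have h7 : (q J - 1) * (D J + 1) = q' * (D J + 1) := by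
          rw [hq']
          simp
        omega
    have hQmem : ∀ J ∈ T, ∀ x ∈ Q J, J.1 + 1 ≤ x ∧ x < J.2 := by
      intro J hJ x hx
      obtain ⟨l, hl, rfl⟩ := Finset.mem_image.1 hx
      have hl' := Finset.mem_range.1 hl
      obtain ⟨h1, h2, h3⟩ := hq J hJ
      have h4 : l * (D J + 1) ≤ (q J - 1) * (D J + 1) := Nat.mul_le_mul_right _ (by omega)
      have h5 := (hTV.1 J hJ).1
      have h6 : sk J + 1 + J.1 = J.2 := by
        unfold sk
        omega
      omega
    have hcard : ∀ J, (Q J).card = q J := by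
      intro J
      simp only [Q]
      rw [Finset.card_image_of_injective]
      · simp
      · intro l1 l2 h
        have h1 : l1 * (D J + 1) = l2 * (D J + 1) := by
          simp only at h
          omega
        exact Nat.eq_of_mul_eq_mul_right (by omega) h1
    obtain ⟨I, hI1, hI2, hI3⟩ := select A (T.length + e - 2) (k - 4) Q (fun J => J.1 + 1)
      T.length T (le_refl _) hTV.2 hT0
      (fun J hJ x hx => hQmem J hJ x hx)
      (fun J _ => by simp)
      (by
        intro J hJ x hx y hy hxy
        obtain ⟨l1, hl1, rfl⟩ := Finset.mem_image.1 hx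
        obtain ⟨l2, hl2, rfl⟩ := Finset.mem_image.1 hy
        have hl12 : l1 < l2 := by
          by_contra hcon
          have : l2 * (D J + 1) ≤ l1 * (D J + 1) := Nat.mul_le_mul_right _ (by omega)
          omega
        have h1 : (l1 + 1) * (D J + 1) ≤ l2 * (D J + 1) := Nat.mul_le_mul_right _ (by omega)
        have h2 : (l1 + 1) * (D J + 1) = l1 * (D J + 1) + (D J + 1) := by ring
        have h3 := hD2 J hJ
        have hy' := (hQmem J hJ _ hy).2
        refine hD4 J hJ _ _ (by omega) (by omega) (by omega) (by omega))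
      (by
        intro J hJ J1 hJ1 J2 hJ2 J3 hJ3 h12 h23 h34 x hx y hy hA
        have hx' := (hQmem J hJ x hx).2
        have hy' := (hQmem J3 hJ3 y hy).1
        have h1 := hspan J1 hJ1
        have h2 := hspan J2 hJ2
        have h3 := hband x y (by omega) hA
        have h4 : y - x + 1 ≥ 2 * g + 7 := by omega
        omega)
      (by
        intro J hJ
        rw [hcard]
        obtain ⟨h1, h2, h3⟩ := hq J hJ
        obtain ⟨q', hq'⟩ : ∃ q', q J = q' + 1 := ⟨q J - 1, by omega⟩
        rw [hq'] at h1 ⊢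
        have h4 := hD1 J hJ
        have h5 := hD3 J hJ
        have h6 : (q' + 1) * (D J + 1) = q' * (D J + 1) + (D J + 1) := by ring
        have h7 : q' * (D J + 1) + 1 ≥ g := by omega
        have h8 : (q' + 1) * (T.length + e - 2) =
            q' * (T.length + e - 2) + (T.length + e - 2) := by ring
        have h9 : q' * (2 * (D J + 1)) ≤ q' * (T.length + e - 2) :=
          Nat.mul_le_mul_left _ (by omega)
        have h10 : q' * (2 * (D J + 1)) = 2 * (q' * (D J + 1)) := by ring
        omega)
    have hIa : I.card ≤ a := hind I (fun x hx => by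
        obtain ⟨J, hJ, hxJ⟩ := hI1 x hx
        have h1 := hQmem J hJ x hxJ
        have h2 := hmemL J hJ
        omega) hI2
    -- final count
    have h1 : I.card * (T.length + e - 2) ≤ a * T.length :=
      Nat.mul_le_mul hIa (by omega)
    have h2 : T.length * (3 * a + 2) ≤ T.length * (k - 4) :=
      Nat.mul_le_mul_left _ (by omega)
    have h3 : T.length * (3 * a + 2) = 3 * (a * T.length) + 2 * T.length := by ring
    omega
  · -- many jumps
    let Q : ℕ × ℕ → Finset ℕ := fun J => {J.1 + g - 1, J.2 - 1}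
    have hQmem : ∀ J ∈ T, ∀ x ∈ Q J, J.1 + g - 1 ≤ x ∧ x < J.2 := by
      intro J hJ x hx
      have h1 := hspan J hJ
      simp only [Q, Finset.mem_insert, Finset.mem_singleton] at hx
      omega
    obtain ⟨I, hI1, hI2, hI3⟩ := select A 1 2 Q (fun J => J.1 + g - 1)
      T.length T (le_refl _) hTV.2 hT0
      (fun J hJ x hx => hQmem J hJ x hx)
      (fun J _ => by omega)
      (by
        intro J hJ x hx y hy hxy
        have h1 := hD1 J hJ
        have h2 := hD2 J hJ
        have h3 := hspan J hJ
        have h4 := (hTV.1 J hJ).1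
        have h6 : sk J + 1 + J.1 = J.2 := by
          unfold sk
          omega
        simp only [Q, Finset.mem_insert, Finset.mem_singleton] at hx hy
        refine hD4 J hJ _ _ ?_ ?_ ?_ ?_ <;> omega)
      (by
        intro J hJ J1 hJ1 J2 hJ2 J3 hJ3 h12 h23 h34 x hx y hy hA
        have hx' := (hQmem J hJ x hx).2
        have hy' := (hQmem J3 hJ3 y hy).1
        have h1 := hspan J1 hJ1
        have h2 := hspan J2 hJ2
        have h3 := hband x y (by omega) hA
        omega)
      (by
        intro J hJ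
        have h1 := hD1 J hJ
        have h2 := hD2 J hJ
        have h3 := hspan J hJ
        have h4 : (Q J).card = 2 := by
          simp only [Q]
          rw [Finset.card_pair]
          have h6 : sk J + 1 + J.1 = J.2 := by
            unfold sk
            omega
          omega
        rw [h4])
    have hIa : I.card ≤ a := hind I (fun x hx => by
        obtain ⟨J, hJ, hxJ⟩ := hI1 x hx
        have h1 := hQmem J hJ x hxJ
        have h2 := hmemL J hJ
        omega) hI2
    omega

end Vale.Agent.Lib.P048
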