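import Vale.Agent.Lib.P048.Core

/-!
The sharper form of the jump family lemma.
-/

namespace Vale.Agent.Lib.P048

/-- Greedy peeling, also counting the jumps. -/
theorem peel2 (A : ℕ → ℕ → Prop) (N : ℕ) (hunit : ∀ i, i < N → A i (i + 1)) :
    ∀ i : ℕ, 1 ≤ i → i ≤ N → ∃ (I : Finset ℕ) (T : List (ℕ × ℕ)),
      Vld A (i + 1) T ∧ (∀ x ∈ I, 1 ≤ x ∧ x ≤ i) ∧
      (∀ x ∈ I, ∀ y ∈ I, x < y → ¬ A x y) ∧ i ≤ skT T + 2 * I.card ∧ T.length ≤ I.card := by
  intro i
  induction i using Nat.strong_induction_on with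
  | _ i ih =>
    intro hi hiN
    classical
    have hex : ∃ j, j < i ∧ A j i := ⟨i - 1, by omega, by
      have := hunit (i - 1) (by omega)
      rwa [show i - 1 + 1 = i by omega] at this⟩
    set p := Nat.find hex with hp
    have hp1 : p < i ∧ A p i := Nat.find_spec hex
    have hp2 : ∀ j, j < p → ¬ (j < i ∧ A j i) := fun j hj => Nat.find_min hex hj
    -- the jump step
    have hstep : ∃ St : List (ℕ × ℕ), Vld A (i + 1) St ∧ skT St + p + 1 = i ∧
        (∀ J ∈ St, p ≤ J.1) ∧ St.length ≤ 1 := by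
      by_cases hc : p + 1 = i
      · refine ⟨[], ⟨by simp, by simp⟩, ?_, by simp, by simp⟩
        simp [skT_nil]
        omega
      · refine ⟨[(p, i)], ⟨?_, by simp⟩, ?_, by simp, by simp⟩
        · intro J hJ
          simp only [List.mem_singleton] at hJ
          subst hJ
          refine ⟨?_, ?_, hp1.2⟩
          · simp only
            omega
          · simp
        · simp only [skT, sk, List.map_cons, List.map_nil, List.sum_cons, List.sum_nil]
          omega
    obtain ⟨St, hSt1, hSt2, hSt3, hSt4⟩ := hstep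
    by_cases hp0 : p ≤ 1
    · refine ⟨{i}, St, hSt1, ?_, ?_, ?_, ?_⟩
      · intro x hx
        simp only [Finset.mem_singleton] at hx
        omega
      · intro x hx y hy hxy
        simp only [Finset.mem_singleton] at hx hy
        omega
      · simp only [Finset.card_singleton]
        omega
      · simp only [Finset.card_singleton]
        omega
    · obtain ⟨I', T', hV', hI1, hI2, hI3, hI4⟩ := ih (p - 1) (by omega) (by omega) (by omega)
      have hnotin : i ∉ I' := by
        intro h
        have := (hI1 i h).2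
        omega
      refine ⟨insert i I', T' ++ St, ?_, ?_, ?_, ?_, ?_⟩
      · refine ⟨?_, ?_⟩
        · intro J hJ
          rcases List.mem_append.1 hJ with hJ | hJ
          · obtain ⟨h1, h2, h3⟩ := hV'.1 J hJ
            exact ⟨h1, by omega, h3⟩
          · exact hSt1.1 J hJ
        · rw [List.pairwise_append]
          refine ⟨hV'.2, hSt1.2, ?_⟩
          intro J hJ K hK
          have h1 := (hV'.1 J hJ).2.1
          have h2 := hSt3 K hK
          omega
      · intro x hx
        rcases Finset.mem_insert.1 hx with hx' | hx'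
        · subst hx'
          exact ⟨hi, le_refl _⟩
        · have := hI1 x hx'
          omega
      · intro x hx y hy hxy hA
        rcases Finset.mem_insert.1 hx with hx' | hx'
        · rcases Finset.mem_insert.1 hy with hy' | hy'
          · omega
          · have := (hI1 y hy').2
            omega
        · rcases Finset.mem_insert.1 hy with hy' | hy'
          · have h1 := (hI1 x hx').2
            subst hy'
            exact hp2 x (by omega) ⟨by omega, hA⟩
          · exact hI2 x hx' y hy' hxy hA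
      · rw [Finset.card_insert_of_notMem hnotin, skT_append]
        omega
      · rw [Finset.card_insert_of_notMem hnotin, List.length_append]
        omega

/-- The points of a jump `(l, l + g + X)`, spaced `X` apart, from the offset `1 + W - p` on. -/
theorem points (A : ℕ → ℕ → Prop) (g W G X p l : ℕ) (hW : g = W + G) (hG : 1 ≤ G)
    (hX2 : 2 ≤ X) (hXW : X ≤ W) (hp : p ≤ W)
    (hsub : ∀ u w, l < u → u + 2 ≤ w → w ≤ l + g + X → X ≤ w - u → ¬ A u w) :
    ∃ Q : Finset ℕ, (∀ x ∈ Q, l + 1 + W - p ≤ x ∧ x ≤ l + g + X) ∧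
      (∀ x ∈ Q, ∀ y ∈ Q, x < y → ¬ A x y) ∧ 2 * W + G + p ≤ W * Q.card + X := by
  classical
  let c := (G + p + X - 1) / X
  have hXpos : 0 < X := by omega
  have hc1 : X * c + (G + p + X - 1) % X = G + p + X - 1 := Nat.div_add_mod _ _
  have hc2 : (G + p + X - 1) % X < X := Nat.mod_lt _ hXpos
  have hc3 : 1 ≤ c := by
    apply Nat.div_pos
    · omega
    · omega
  have hcX : G + p ≤ X * c := by omega
  have hcX2 : X * c ≤ G + p + X - 1 := by omega
  let f := l + 1 + W - p
  let Q : Finset ℕ := (Finset.range (c + 1)).image (fun t => f + t * X)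
  have hQmem : ∀ x ∈ Q, ∃ t, t ≤ c ∧ x = f + t * X := by
    intro x hx
    obtain ⟨t, ht, rfl⟩ := Finset.mem_image.1 hx
    exact ⟨t, by have := Finset.mem_range.1 ht; omega, rfl⟩
  have hcard : Q.card = c + 1 := by
    simp only [Q]
    rw [Finset.card_image_of_injective, Finset.card_range]
    intro a b h
    simp only at h
    have h1 : a * X = b * X := by omega
    exact Nat.eq_of_mul_eq_mul_right hXpos h1
  refine ⟨Q, ?_, ?_, ?_⟩
  · intro x hx
    obtain ⟨t, ht, rfl⟩ := hQmem x hx
    have h1 : t * X ≤ c * X := Nat.mul_le_mul_right _ ht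
    have h2 : c * X = X * c := Nat.mul_comm _ _
    simp only [f]
    omega
  · intro x hx y hy hxy
    obtain ⟨t, ht, rfl⟩ := hQmem x hx
    obtain ⟨t', ht', rfl⟩ := hQmem y hy
    have h0 : t < t' := by
      by_contra hcon
      have : t' * X ≤ t * X := Nat.mul_le_mul_right _ (by omega)
      omega
    have h1 : (t + 1) * X ≤ t' * X := Nat.mul_le_mul_right _ h0
    have h2 : (t + 1) * X = t * X + X := by ring
    have h3 : t' * X ≤ c * X := Nat.mul_le_mul_right _ ht'
    have h4 : c * X = X * c := Nat.mul_comm _ _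
    apply hsub
    · simp only [f]
      omega
    · omega
    · simp only [f] at *
      omega
    · omega
  · rw [hcard]
    -- `W * (c + 1) + X ≥ 2 W + G + p`
    obtain ⟨c', hc'⟩ : ∃ c', c = c' + 1 := ⟨c - 1, by omega⟩
    have h1 : X * c = X * c' + X := by rw [hc']; ring
    have h2 : X * c' ≤ W * c' := Nat.mul_le_mul_right _ hXW
    have h3 : W * (c + 1) = W * c' + 2 * W := by rw [hc']; ring
    omega

/-- The two families of points, taken from every other jump. -/
theorem two_families (A : ℕ → ℕ → Prop) (g W G L : ℕ) (hW : g = W + G) (hG : 1 ≤ G)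
    (hfar : ∀ x y, x < y → g + W + 1 ≤ y - x → ¬ A x y) (Xf : ℕ × ℕ → ℕ) :
    ∀ (T : List (ℕ × ℕ)) (p l : ℕ), p ≤ W → T.Pairwise (fun J J' => J.2 ≤ J'.1) →
      (∀ J ∈ T, l ≤ J.1) → (∀ J ∈ T, J.2 < L) →
      (∀ J ∈ T, 2 ≤ Xf J ∧ Xf J ≤ W ∧ J.2 = J.1 + g + Xf J ∧
        ∀ u w, J.1 < u → u + 2 ≤ w → w ≤ J.2 → Xf J ≤ w - u → ¬ A u w) →
      ∃ I1 I2 : Finset ℕ, (∀ x ∈ I1, l + 1 + W - p ≤ x ∧ x < L) ∧ (∀ x ∈ I2, l + g + W + 1 ≤ x ∧ x < L) ∧
        (∀ x ∈ I1, ∀ y ∈ I1, x < y → ¬ A x y) ∧ (∀ x ∈ I2, ∀ y ∈ I2, x < y → ¬ A x y) ∧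
        T.length * (2 * W + G) + p ≤ W * (I1.card + I2.card) + W := by
  classical
  intro T
  induction T with
  | nil =>
    intro p l hp _ _ _ _
    exact ⟨∅, ∅, by simp, by simp, by simp, by simp, by simpa using hp⟩
  | cons J T ih =>
    intro p l hp hP hl hL hJ
    obtain ⟨hX1, hX2, hX3, hX4⟩ := hJ J (by simp)
    have hPJ : ∀ K ∈ T, J.2 ≤ K.1 := (List.pairwise_cons.1 hP).1
    obtain ⟨I1, I2, h1, h2, h3, h4, h5⟩ := ih (Xf J) J.2 hX2 (List.pairwise_cons.1 hP).2 hPJ
      (fun K hK => hL K (by simp [hK])) (fun K hK => hJ K (by simp [hK]))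
    obtain ⟨Q, h6, h7, h8⟩ := points A g W G (Xf J) p J.1 hW hG hX1 hX2 hp
      (by rw [← hX3]; exact hX4)
    have hJl := hl J (by simp)
    have hJL := hL J (by simp)
    have hord : ∀ x ∈ Q, ∀ y ∈ I2, x < y := by
      intro x hx y hy
      have a1 := (h6 x hx).2
      have a2 := (h2 y hy).1
      omega
    have hdisj : Disjoint Q I2 := by
      rw [Finset.disjoint_left]
      intro x hx hx'
      exact lt_irrefl _ (hord x hx x hx')
    refine ⟨Q ∪ I2, I1, ?_, ?_, ?_, h3, ?_⟩
    · intro x hx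
      rcases Finset.mem_union.1 hx with hx | hx
      · have a1 := h6 x hx
        omega
      · have a1 := h2 x hx
        omega
    · intro x hx
      have a1 := h1 x hx
      omega
    · intro x hx y hy hxy
      rcases Finset.mem_union.1 hx with hx | hx
      · rcases Finset.mem_union.1 hy with hy | hy
        · exact h7 x hx y hy hxy
        · apply hfar x y hxy
          have a1 := (h6 x hx).2
          have a2 := (h2 y hy).1
          omega
      · rcases Finset.mem_union.1 hy with hy | hy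
        · exact absurd (hord y hy x hx) (by omega)
        · exact h4 x hx y hy hxy
    · rw [Finset.card_union_of_disjoint hdisj, List.length_cons]
      have e1 : (T.length + 1) * (2 * W + G) = T.length * (2 * W + G) + (2 * W + G) := by ring
      have e2 : W * (Q.card + I2.card + I1.card) = W * Q.card + W * (I1.card + I2.card) := by ring
      rw [e1, e2]
      omega

/-- The sharper jump family lemma: for a target `k' = k - e` with `e ≤ 2` and `2 a + 1 ≤ k'`. -/
theorem core2 (A : ℕ → ℕ → Prop) (L k k' e a : ℕ) (hk : k' + e = k) (he : e ≤ 2)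
    (hka : 2 * a + 1 ≤ k') (hL : k' + 1 ≤ L)
    (hunit : ∀ i, i + 1 < L → A i (i + 1))
    (hband : ∀ i j, i < j → A i j → 2 * (j - i) + 2 ≤ k)
    (hind : ∀ I : Finset ℕ, (∀ x ∈ I, 1 ≤ x ∧ x < L) →
      (∀ x ∈ I, ∀ y ∈ I, x < y → ¬ A x y) → I.card ≤ a)
    (hnohit : ∀ T, Vld A L T → L ≤ k' + skT T → 2 * L ≤ k' + 2 * skT T + T.length) : False := by
  classical
  -- the initial family from peeling
  obtain ⟨I0, T0, hT0V, hI01, hI02, hI03, hI04⟩ :=
    peel2 A (L - 1) (fun i hi => hunit i (by omega)) (L - 1) (by omega) (le_refl _)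
  rw [show L - 1 + 1 = L by omega] at hT0V
  have hI0a : I0.card ≤ a := hind I0 (fun x hx => by have := hI01 x hx; omega) hI02
  have hT0P : L ≤ k' + skT T0 := by omega
  have hT0len : T0.length ≤ a := by omega
  -- a minimiser
  let M : List (ℕ × ℕ) → ℕ := fun T => T.length * (L + 1) + skT T
  have hexM : ∃ n, ∃ T, Vld A L T ∧ L ≤ k' + skT T ∧ M T = n := ⟨_, T0, hT0V, hT0P, rfl⟩
  obtain ⟨T, hTV, hTP, hTM⟩ := Nat.find_spec hexM
  have hmin : ∀ T', Vld A L T' → L ≤ k' + skT T' → M T ≤ M T' := by
    intro T' h1 h2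
    rw [hTM]
    exact Nat.find_min' hexM ⟨T', h1, h2, rfl⟩
  clear hTM
  have hbnd : ∀ T', Vld A L T' → skT T' + T'.length + 1 ≤ L := by
    intro T' h
    have := Vld.bound T' 0 h (by omega) (by simp)
    omega
  have hlen_le : ∀ T', Vld A L T' → L ≤ k' + skT T' → T.length ≤ T'.length := by
    intro T' h1 h2
    by_contra hcon
    have h3 := hmin T' h1 h2
    have h4 := hbnd T' h1
    have h5 : (T'.length + 1) * (L + 1) ≤ T.length * (L + 1) :=
      Nat.mul_le_mul_right _ (by omega)
    have h6 : (T'.length + 1) * (L + 1) = T'.length * (L + 1) + (L + 1) := by ring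
    simp only [M] at h3
    omega
  have hb : T.length ≤ a := le_trans (hlen_le T0 hT0V hT0P) hT0len
  have hTne : 1 ≤ T.length := by
    rcases T with _ | ⟨J, T⟩
    · simp [skT_nil] at hTP
      omega
    · simp
  have hNH := hnohit T hTV hTP
  obtain ⟨g, hg⟩ : ∃ g, skT T + k' = L + g := ⟨skT T + k' - L, by omega⟩
  have hg1 : k' ≤ 2 * g + T.length := by omega
  -- the local information at each jump
  have hloc : ∀ J ∈ T, ∃ D, sk J = g + D ∧ 1 ≤ D ∧
      (∀ u w, J.1 < u → u + 2 ≤ w → w ≤ J.2 → D + 1 ≤ w - u → ¬ A u w) := by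
    intro J hJ
    obtain ⟨T1, T2, rfl⟩ := List.append_of_mem hJ
    have hJV := hTV.1 J hJ
    have hskT : skT (T1 ++ J :: T2) = skT T1 + sk J + skT T2 := by
      rw [skT_append, skT_cons]
      ring
    have hrem := hTV.remove
    have hremlt : ¬ L ≤ k' + skT (T1 ++ T2) := by
      intro hcon
      have h1 := hlen_le _ hrem hcon
      simp only [List.length_append, List.length_cons] at h1
      omega
    rw [skT_append] at hremlt
    have hskJ : sk J + 1 + J.1 = J.2 := by
      unfold sk
      omega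
    refine ⟨sk J - g, by omega, by omega, ?_⟩
    intro u w h1 h2 h3 h4 hA
    have hV2 := hTV.replace (le_of_lt h1) h2 h3 hA
    have hsk2 : skT (T1 ++ (u, w) :: T2) = skT T1 + (w - u - 1) + skT T2 := by
      rw [skT_append, skT_cons]
      simp only [sk]
      ring
    by_cases hcase : L ≤ k' + skT (T1 ++ (u, w) :: T2)
    · have h5 := hmin _ hV2 hcase
      simp only [M, List.length_append, List.length_cons] at h5
      rw [hsk2, hskT] at h5
      omega
    · rw [hsk2] at hcase
      omega
  choose! D hD1 hD2 hD3 using hloc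
  -- the width parameters
  obtain ⟨J0, hJ0⟩ : ∃ J0, J0 ∈ T := List.exists_mem_of_length_pos (by omega)
  have hspan : ∀ J ∈ T, J.2 = J.1 + g + (D J + 1) ∧ g + (D J + 1) ≤ (k - 2) / 2 := by
    intro J hJ
    have h1 := (hTV.1 J hJ)
    have h2 := hD1 J hJ
    have h3 := hband J.1 J.2 (by omega) h1.2.2
    unfold sk at h2
    omega
  obtain ⟨W, hWdef⟩ : ∃ W, g + W = (k - 2) / 2 := by
    have := (hspan J0 hJ0).2
    exact ⟨(k - 2) / 2 - g, by omega⟩
  have hX : ∀ J ∈ T, D J + 1 ≤ W := by
    intro J hJ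
    have := (hspan J hJ).2
    omega
  have hW2 : 2 ≤ W := by
    have := hX J0 hJ0
    have := hD2 J0 hJ0
    omega
  have hWb : 2 * W + 2 ≤ T.length + e := by omega
  obtain ⟨G, hG⟩ : ∃ G, g = W + G := ⟨g - W, by omega⟩
  have hG1 : 1 ≤ G := by omega
  have hfar : ∀ x y, x < y → g + W + 1 ≤ y - x → ¬ A x y := by
    intro x y hxy h1 hA
    have := hband x y hxy hA
    omega
  obtain ⟨I1, I2, h1, h2, h3, h4, h5⟩ := two_families A g W G L hG hG1 hfar (fun J => D J + 1) T W 0
    (le_refl _) hTV.2 (by simp) (fun J hJ => (hTV.1 J hJ).2.1)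
    (fun J hJ => ⟨by have := hD2 J hJ; omega, hX J hJ, (hspan J hJ).1, hD3 J hJ⟩)
  have hI1a : I1.card ≤ a := hind I1 (fun x hx => by have := h1 x hx; omega) h3
  have hI2a : I2.card ≤ a := hind I2 (fun x hx => by have := h2 x hx; omega) h4
  -- the final count
  have h6 : W * (2 * T.length + 2 * G) ≤ W * (I1.card + I2.card) := by
    have e1 : T.length * (2 * W + G) = W * (2 * T.length) + T.length * G := by ring
    have e2 : W * (2 * T.length + 2 * G) = W * (2 * T.length) + (2 * W) * G := by ring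
    have e3 : (2 * W) * G ≤ T.length * G := Nat.mul_le_mul_right _ (by omega)
    omega
  have h7 := Nat.le_of_mul_le_mul_left h6 (by omega)
  omega

end Vale.Agent.Lib.P048
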