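import Vale.Agent.Lib.P048.Top

/-!
The closure graph of the possible ends of a longest strip, and the way to finish.
-/

namespace Vale.Agent.Lib.P048

open scoped Classical

variable {V : Type*} {G : SimpleGraph V}

/-- All the hypotheses on a graph without a `k`-cycle. -/
structure Ctx [Fintype V] (G : SimpleGraph V) (v : ℕ → V) (s js k a : ℕ) : Prop
    extends Top G v s js where
  hδ : ∀ w, k ≤ (Finset.univ.filter (G.Adj w)).card + 1
  hα : ∀ S : Finset V, (∀ x ∈ S, ∀ y ∈ S, ¬ G.Adj x y) → S.card ≤ a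
  hka : 2 * a + 2 ≤ k
  noC : ∀ l : List V, l.Nodup → Cyc G.Adj l → l.length ≠ k

/-- The closure on the possible ends. -/
noncomputable abbrev HH (G : SimpleGraph V) (v : ℕ → V) (s : ℕ) : SimpleGraph V :=
  closeOn G (EE G v s)

/-- The fixed first neighbour of a skippable member. -/
noncomputable def aFn (v : ℕ → V) (s : ℕ) (h : V) : V :=
  if h = v (2 * s - 1) ∨ h = v (2 * s - 2) then v (2 * s)
  else v (Function.invFunOn v (Set.Iic (2 * s)) h - 1)

namespace Ctx

variable [Fintype V] {v : ℕ → V} {s js k a : ℕ}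

theorem Hδ (C : Ctx G v s js k a) :
    ∀ w, k ≤ (Finset.univ.filter ((HH G v s).Adj w)).card + 1 := by
  intro w
  refine le_trans (C.hδ w) (Nat.add_le_add_right (Finset.card_le_card ?_) 1)
  intro y hy
  simp only [Finset.mem_filter, Finset.mem_univ, true_and] at hy ⊢
  exact Or.inl hy

theorem Hα (C : Ctx G v s js k a) :
    ∀ S : Finset V, (∀ x ∈ S, ∀ y ∈ S, ¬ (HH G v s).Adj x y) → S.card ≤ a := by
  intro S hS
  exact C.hα S (fun x hx y hy h => hS x hx y hy (Or.inl h))

theorem a_pos (C : Ctx G v s js k a) : 1 ≤ a := by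
  have h := C.hα {v 0} (by
    intro x hx y hy
    simp only [Finset.mem_singleton] at hx hy
    subst hx hy
    exact G.irrefl)
  simpa using h

/-- The far chord bound. -/
theorem fc (C : Ctx G v s js k a) : 2 * s - js + 2 ≤ k := by
  have h1 := C.lt2
  exact C.strip.far_chord2 C.hka C.hα C.noC js (2 * s) (by omega) (le_refl _) (by omega) C.hjs

theorem noH (C : Ctx G v s js k a) {W : List V}
    (hW : ∀ e ∈ EE G v s, k - a - 1 ≤ dg G.Adj e W) :
    ∀ l : List V, l.Nodup → Cyc (HH G v s).Adj l → W ⊆ l → l.length ≠ k := by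
  intro l h1 h2 h3 h4
  have h5 := C.hka
  have h6 := C.a_pos
  obtain ⟨l', h7, h8⟩ := unclose G (EE G v s) h1 (by omega) h2 (by
    intro e he
    have h9 := hW e he
    have h10 : dg G.Adj e W ≤ dg G.Adj e l := dg_mono h3 (fun _ hz => hz)
    omega)
  exact C.noC l' (h7.nodup_iff.2 h1) h8 (by rw [h7.length_eq]; exact h4)

theorem hout_gen (C : Ctx G v s js k a) {W : List V} {q : V}
    (hE : ∀ e ∈ EE G v s, e ∈ W ∨ e = q)
    (hWpos : ∀ i, js ≤ i → i ≤ 2 * s → v i ∈ W ∨ v i = q) :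
    ∀ e ∈ EE G v s, ∀ y y', (HH G v s).Adj e y → (HH G v s).Adj e y' → y ∉ W → y' ∉ W → y ≠ q →
      y' ≠ q → ¬ (HH G v s).Adj y y' := by
  intro e he y y' h1 h2 h3 h4 h5 h6 h7
  obtain ⟨i0, hi0, rfl⟩ := Finset.mem_image.1 he
  have hnE : ∀ y, y ∉ W → y ≠ q → y ∉ EE G v s := by
    intro y hy hy2 hin
    rcases hE y hin with h | h
    · exact hy h
    · exact hy2 h
  have hmem : ∀ y, (HH G v s).Adj (v i0) y → y ∉ W → y ≠ q → y ∈ Oset G v s (v i0) := by
    intro y hadj hy hy2
    have hG : G.Adj (v i0) y := by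
      rcases hadj with h | ⟨_, h, _⟩
      · exact h
      · exact absurd h (hnE y hy hy2)
    refine mem_Oset.2 ⟨hG, ?_⟩
    intro i hi hvi
    subst hvi
    have hjs := C.see hi0 hi hG
    rcases hWpos i hjs hi with h | h
    · exact hy h
    · exact hy2 h
  have hG : G.Adj y y' := by
    rcases h7 with h | ⟨h, _, _⟩
    · exact h
    · exact absurd h (hnE y h3 h5)
  exact C.oset_indep hi0 (hmem y h1 h3 h5) (hmem y' h2 h4 h6) hG

/-- Positions of neighbours that lie on `Z` count for the degree on `Z`. -/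
theorem nn_le (C : Ctx G v s js k a) {e : V} {Z : List V}
    (h : ∀ i, i ≤ 2 * s → G.Adj e (v i) → v i ∈ Z) : (Nn G v s e).card ≤ dg G.Adj e Z := by
  have hinj : Set.InjOn v (Nn G v s e : Set ℕ) := by
    intro p hp q hq hpq
    simp only [Nn, Finset.coe_filter, Finset.mem_range, Set.mem_setOf_eq] at hp hq
    exact C.strip.inj p q (by omega) (by omega) hpq
  rw [← Finset.card_image_of_injOn hinj]
  unfold dg
  apply Finset.card_le_card
  intro y hy
  obtain ⟨i, hi, rfl⟩ := Finset.mem_image.1 hy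
  simp only [Nn, Finset.mem_filter, Finset.mem_range] at hi
  rw [Finset.mem_filter, List.mem_toFinset]
  exact ⟨h i (by omega) hi.2, hi.2.symm⟩

theorem nn_le2 (C : Ctx G v s js k a) {e r : V} {Z : List V}
    (h : ∀ i, i ≤ 2 * s → G.Adj e (v i) → v i ∈ Z ∨ v i = r) :
    (Nn G v s e).card ≤ dg G.Adj e Z + 1 := by
  have hinj : Set.InjOn v (Nn G v s e : Set ℕ) := by
    intro p hp q hq hpq
    simp only [Nn, Finset.coe_filter, Finset.mem_range, Set.mem_setOf_eq] at hp hq
    exact C.strip.inj p q (by omega) (by omega) hpq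
  rw [← Finset.card_image_of_injOn hinj]
  unfold dg
  have hsub : (Nn G v s e).image v ⊆ insert r (Z.toFinset.filter (fun z => G.Adj z e)) := by
    intro y hy
    obtain ⟨i, hi, rfl⟩ := Finset.mem_image.1 hy
    simp only [Nn, Finset.mem_filter, Finset.mem_range] at hi
    rw [Finset.mem_insert, Finset.mem_filter, List.mem_toFinset]
    rcases h i (by omega) hi.2 with h1 | h1
    · exact Or.inr ⟨h1, hi.2.symm⟩
    · exact Or.inl h1
  exact le_trans (Finset.card_le_card hsub) (Finset.card_insert_le _ _)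

theorem aFn_hub (C : Ctx G v s js k a) {z : ℕ} (hz : z + 3 ≤ s) :
    aFn v s (v (2 * z + 3)) = v (2 * z + 2) := by
  unfold aFn
  rw [if_neg]
  · have hinj : Set.InjOn v (Set.Iic (2 * s)) := by
      intro p hp q hq hpq
      exact C.strip.inj p q hp hq hpq
    have h1 : Function.invFunOn v (Set.Iic (2 * s)) (v (2 * z + 3)) = 2 * z + 3 :=
      hinj.leftInvOn_invFunOn (by
        simp only [Set.mem_Iic]
        omega)
    rw [h1]
    rfl
  · rintro (h | h)
    · have := C.strip.inj _ _ (by omega) (by omega) h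
      omega
    · have := C.strip.inj _ _ (by omega) (by omega) h
      omega

omit [Fintype V] in
theorem aFn_top {h : V} (hh : h = v (2 * s - 1) ∨ h = v (2 * s - 2)) :
    aFn v s h = v (2 * s) := by
  unfold aFn
  rw [if_pos hh]

/-- The way to finish: enough skippable members on a closed chain of the closure. -/
theorem finish (C : Ctx G v s js k a) (Z : List V) (E0 : Finset V) (q : V) (T' : Finset V)
    (Y : Finset ℕ) (hE0 : E0 ⊆ EE G v s) (hqE : q ∈ EE G v s)
    (hnd : Z.Nodup) (hZ : Cyc (HH G v s).Adj Z)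
    (hE0Z : ∀ e ∈ E0, e ∈ Z)
    (hdg : ∀ e ∈ EE G v s, k - a - 1 ≤ dg G.Adj e Z)
    (hout : ∀ e ∈ E0, ∀ y y', (HH G v s).Adj e y → (HH G v s).Adj e y' → y ∉ Z → y' ∉ Z → y ≠ q →
      y' ≠ q → ¬ (HH G v s).Adj y y')
    (hxE0 : v (2 * s) ∈ E0)
    (hY : ∀ z ∈ Y, z + 3 ≤ s ∧ v (2 * z + 2) ∈ E0 ∧ v (2 * z + 3) ∈ E0 ∧
      ∃ b, v (2 * z + 2) ≠ b ∧ (HH G v s).Adj (v (2 * z + 2)) b ∧
        CA Z (v (2 * z + 2)) (v (2 * z + 3)) ∧ CA Z (v (2 * z + 3)) b)
    (hT : ∀ t ∈ T', (t = v (2 * s - 1) ∨ t = v (2 * s - 2)) ∧ t ∈ E0 ∧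
      ∃ b, v (2 * s) ≠ b ∧ (HH G v s).Adj (v (2 * s)) b ∧ CA Z (v (2 * s)) t ∧ CA Z t b)
    (hT1 : T'.card ≤ 1)
    (hcount : k - Z.length ≤ 2 * (T'.card + Y.card))
    (hlen : Z.length ≤ k) (hpar : Z.length % 2 = k % 2) : False := by
  have hs1 := C.one
  have hinj := C.strip.inj
  let Im := Y.image (fun z => v (2 * z + 3))
  let Live := T' ∪ Im
  have hImmem : ∀ h ∈ Im, ∃ z ∈ Y, h = v (2 * z + 3) := by
    intro h hh
    obtain ⟨z, hz, rfl⟩ := Finset.mem_image.1 hh
    exact ⟨z, hz, rfl⟩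
  have hdisj : Disjoint T' Im := by
    rw [Finset.disjoint_left]
    intro t ht ht'
    obtain ⟨z, hz, rfl⟩ := hImmem t ht'
    have hz3 := (hY z hz).1
    rcases (hT _ ht).1 with h | h
    · have := hinj _ _ (by omega) (by omega) h
      omega
    · have := hinj _ _ (by omega) (by omega) h
      omega
  have hImcard : Im.card = Y.card := by
    apply Finset.card_image_of_injOn
    intro z hz z' hz' hzz
    have h1 := (hY z hz).1
    have h2 := (hY z' hz').1
    have := hinj _ _ (by omega) (by omega) hzz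
    omega
  have hLivecard : Live.card = T'.card + Y.card := by
    rw [Finset.card_union_of_disjoint hdisj, hImcard]
  have hLE : Live ⊆ E0 := by
    intro h hh
    rcases Finset.mem_union.1 hh with hh | hh
    · exact (hT h hh).2.1
    · obtain ⟨z, hz, rfl⟩ := hImmem h hh
      exact (hY z hz).2.2.1
  have hxnot : v (2 * s) ∉ Live := by
    intro hin
    rcases Finset.mem_union.1 hin with hin | hin
    · rcases (hT _ hin).1 with h | h
      · have := hinj _ _ (by omega) (by omega) h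
        omega
      · have := hinj _ _ (by omega) (by omega) h
        omega
    · obtain ⟨z, hz, h⟩ := hImmem _ hin
      have h1 := (hY z hz).1
      have := hinj _ _ (by omega) (by omega) h
      omega
  have hevennot : ∀ z ∈ Y, v (2 * z + 2) ∉ Live := by
    intro z hz hin
    have h0 := (hY z hz).1
    rcases Finset.mem_union.1 hin with hin | hin
    · rcases (hT _ hin).1 with h | h
      · have := hinj _ _ (by omega) (by omega) h
        omega
      · have := hinj _ _ (by omega) (by omega) h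
        omega
    · obtain ⟨z', hz', h⟩ := hImmem _ hin
      have h1 := (hY z' hz').1
      have := hinj _ _ (by omega) (by omega) h
      omega
  have hOK : LiveOK2 (HH G v s) E0 Live Z (aFn v s) := by
    intro h hh
    rcases Finset.mem_union.1 hh with hh | hh
    · obtain ⟨h1, h2, b, h3, h4, h5, h6⟩ := hT h hh
      rw [aFn_top h1]
      exact ⟨hxE0, hxnot, b, h3, h4, h5, h6⟩
    · obtain ⟨z, hz, rfl⟩ := hImmem h hh
      obtain ⟨h1, h2, h3, b, h4, h5, h6, h7⟩ := hY z hz
      rw [C.aFn_hub h1]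
      exact ⟨h2, hevennot z hz, b, h4, h5, h6, h7⟩
  have hInj : Set.InjOn (aFn v s) (Live : Set V) := by
    have hval : ∀ h ∈ Live, ∃ i, aFn v s h = v i ∧ i ≤ 2 * s ∧
        ((i = 2 * s ∧ h ∈ T') ∨ ∃ z ∈ Y, i = 2 * z + 2 ∧ h = v (2 * z + 3)) := by
      intro h hh
      rcases Finset.mem_union.1 hh with hh | hh
      · exact ⟨2 * s, aFn_top (hT h hh).1, le_refl _, Or.inl ⟨rfl, hh⟩⟩
      · obtain ⟨z, hz, rfl⟩ := hImmem h hh
        have h1 := (hY z hz).1
        exact ⟨2 * z + 2, C.aFn_hub h1, by omega, Or.inr ⟨z, hz, rfl, rfl⟩⟩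
    intro h hh h' hh' heq
    obtain ⟨i, h1, h2, h3⟩ := hval h hh
    obtain ⟨i', h1', h2', h3'⟩ := hval h' hh'
    rw [h1, h1'] at heq
    have hii := hinj _ _ h2 h2' heq
    rcases h3 with ⟨h4, h5⟩ | ⟨z, hz, h4, h5⟩ <;> rcases h3' with ⟨h4', h5'⟩ | ⟨z', hz', h4', h5'⟩
    · exact Finset.card_le_one.1 hT1 h h5 h' h5'
    · have := (hY z' hz').1
      omega
    · have := (hY z hz).1
      omega
    · have : z = z' := by omega
      subst this
      rw [h5, h5']
  refine hub_iter2 C.Hδ C.Hα C.hka E0 (aFn v s) q Z (C.noH hdg) ?_ ?_ _ Live Z rfl ?_ hnd hZ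
    (List.Subset.refl _) hE0Z hLE hOK hInj ?_ hout hlen hpar
  · intro e he e' he' hne
    exact Or.inr ⟨hE0 he, hE0 he', hne⟩
  · intro e he hne
    exact Or.inr ⟨hE0 he, hqE, hne⟩
  · rw [hLivecard]
    exact hcount
  · intro e he
    exact le_trans (hdg e (hE0 he)) (dg_mono (fun _ hz => hz) (fun _ hz => Or.inl hz))

end Ctx

end Vale.Agent.Lib.P048
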