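import Vale.Agent.Lib.P048.Arc
import Mathlib.Combinatorics.SimpleGraph.Basic

/-!
Adding two vertices to a closed chain: the port arguments.
-/

namespace Vale.Agent.Lib.P048

open scoped Classical

variable {V : Type*} {R : V → V → Prop} (G : SimpleGraph V)

theorem two_paths {P1 P2 : List V} {a b c d : V} (h1 : Arc G.Adj P1 a b) (h2 : Arc G.Adj P2 c d)
    (hnd : (P1 ++ P2).Nodup) (h3 : 3 ≤ (P1 ++ P2).length)
    (hda : (P1 ++ P2).length ≤ dg G.Adj d (P1 ++ P2) + dg G.Adj a (P1 ++ P2))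
    (hbc : (P1 ++ P2).length ≤ dg G.Adj b (P1 ++ P2) + dg G.Adj c (P1 ++ P2)) :
    ∃ l', List.Perm l' (P1 ++ P2) ∧ Cyc G.Adj l' := by
  have hdisj := List.disjoint_of_nodup_append hnd
  have had : d ≠ a := fun h => hdisj h1.head_mem (h ▸ h2.last_mem)
  have hbc' : b ≠ c := fun h => hdisj h1.last_mem (h ▸ h2.head_mem)
  have hs : ∀ x y, G.Adj x y → G.Adj y x := fun x y h => h.symm
  have hirr : ∀ x, ¬ G.Adj x x := fun x => G.irrefl
  have hs1 := vir_symm (R := G.Adj) hs b c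
  have hirr1 := vir_irr (R := G.Adj) hirr hbc'
  have hsub : ∀ x y, G.Adj x y → vir (vir G.Adj b c) d a x y := fun x y h => Or.inl (Or.inl h)
  have hc2 : Cyc (vir (vir G.Adj b c) d a) (P1 ++ P2) :=
    ⟨a, d, (h1.imp hsub).append (Or.inl (Or.inr (Or.inl ⟨rfl, rfl⟩))) (h2.imp hsub),
      Or.inr (Or.inl ⟨rfl, rfl⟩)⟩
  obtain ⟨l1, hl1, hc1⟩ := close_virtual hs1 hirr1 had hnd hc2
    (List.mem_append_right _ h2.last_mem) h3 (by
      have e1 : dg G.Adj d (P1 ++ P2) ≤ dg (vir G.Adj b c) d (P1 ++ P2) :=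
        dg_mono (List.Subset.refl _) (fun z hz => Or.inl hz)
      have e2 : dg G.Adj a (P1 ++ P2) ≤ dg (vir G.Adj b c) a (P1 ++ P2) :=
        dg_mono (List.Subset.refl _) (fun z hz => Or.inl hz)
      omega)
  obtain ⟨l2, hl2, hc0⟩ := close_virtual hs hirr hbc' (hl1.nodup_iff.2 hnd) hc1
    (hl1.symm.subset (List.mem_append_left _ h1.last_mem))
    (by rw [hl1.length_eq]; exact h3)
    (by rw [hl1.length_eq, dg_perm hl1, dg_perm hl1]; exact hbc)
  exact ⟨l2, hl2.trans hl1, hc0⟩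

theorem ports2 {Z : List V} (hnd : Z.Nodup) {e e' f f' : V} (hp : IsPred R Z f e)
    (hp' : IsPred R Z f' e') (hne : e ≠ e') :
    ∃ l1 l2, (l1 ++ l2) ~r Z ∧ Arc R l1 e f' ∧ Arc R l2 e' f := by
  obtain ⟨l, h1, h2, h3⟩ := hp
  obtain ⟨l', h1', h2', h3'⟩ := hp'
  have hmem : e' ∈ l := h1.perm.symm.subset (h1'.perm.subset h2'.head_mem)
  obtain ⟨s, t, c, rfl, h4, h5, h6⟩ := h2.split_mem hmem (Ne.symm hne)
  have hc : c = f' := by
    apply IsPred.unique hnd (R := R) (e := e')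
    · exact ⟨(e' :: t) ++ s, List.isRotated_append.trans h1, h6.append h3 h4, h5⟩
    · exact ⟨l', h1', h2', h3'⟩
  subst hc
  exact ⟨s, e' :: t, h1, h4, h6⟩

/-- Four arcs around a closed chain; each arc ends just before the head of the next arc. -/
def Ports4 (R : V → V → Prop) (Z : List V) (f : V → V) (p1 p2 p3 p4 : V) : Prop :=
  ∃ A1 A2 A3 A4, (A1 ++ (A2 ++ (A3 ++ A4))) ~r Z ∧ Arc R A1 p1 (f p2) ∧ Arc R A2 p2 (f p3) ∧
    Arc R A3 p3 (f p4) ∧ Arc R A4 p4 (f p1)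

theorem Ports4.shift {Z : List V} {f : V → V} {p1 p2 p3 p4 : V} (h : Ports4 R Z f p1 p2 p3 p4) :
    Ports4 R Z f p2 p3 p4 p1 := by
  obtain ⟨A1, A2, A3, A4, h0, h1, h2, h3, h4⟩ := h
  refine ⟨A2, A3, A4, A1, ?_, h2, h3, h4, h1⟩
  have : (A2 ++ (A3 ++ (A4 ++ A1))) = ((A2 ++ (A3 ++ A4)) ++ A1) := by simp
  rw [this]
  exact List.isRotated_append.trans h0

theorem ord2 {l : List V} {a b : V} (ha : a ∈ l) (hb : b ∈ l) (hab : a ≠ b) :
    ∃ s0 s1 s2, l = s0 ++ a :: (s1 ++ b :: s2) ∨ l = s0 ++ b :: (s1 ++ a :: s2) := by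
  obtain ⟨s, t, rfl⟩ := List.append_of_mem ha
  rcases List.mem_append.1 hb with hb | hb
  · obtain ⟨s', t', rfl⟩ := List.append_of_mem hb
    exact ⟨s', t', t, Or.inr (by simp)⟩
  · rcases List.mem_cons.1 hb with hb | hb
    · exact absurd hb.symm hab
    · obtain ⟨s', t', rfl⟩ := List.append_of_mem hb
      exact ⟨s, s', t', Or.inl rfl⟩

/-- The members `a`, `b`, `c` occur in this order in `l`. -/
def Ord3 (l : List V) (a b c : V) : Prop :=
  ∃ s0 s1 s2 s3, l = s0 ++ a :: (s1 ++ b :: (s2 ++ c :: s3))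

theorem ord3 {l : List V} {a b c : V} (ha : a ∈ l) (hb : b ∈ l) (hc : c ∈ l) (hab : a ≠ b)
    (hac : a ≠ c) (hbc : b ≠ c) :
    Ord3 l a b c ∨ Ord3 l a c b ∨ Ord3 l b a c ∨ Ord3 l b c a ∨ Ord3 l c a b ∨ Ord3 l c b a := by
  obtain ⟨s, t, rfl⟩ := List.append_of_mem ha
  have hb' : b ∈ s ∨ b ∈ t := by
    rcases List.mem_append.1 hb with h | h
    · exact Or.inl h
    · rcases List.mem_cons.1 h with h | h
      · exact absurd h.symm hab
      · exact Or.inr h
  have hc' : c ∈ s ∨ c ∈ t := by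
    rcases List.mem_append.1 hc with h | h
    · exact Or.inl h
    · rcases List.mem_cons.1 h with h | h
      · exact absurd h.symm hac
      · exact Or.inr h
  rcases hb' with hb' | hb' <;> rcases hc' with hc' | hc'
  · obtain ⟨s0, s1, s2, h | h⟩ := ord2 hb' hc' hbc
    · subst h
      exact Or.inr (Or.inr (Or.inr (Or.inl ⟨s0, s1, s2, t, by simp⟩)))
    · subst h
      exact Or.inr (Or.inr (Or.inr (Or.inr (Or.inr ⟨s0, s1, s2, t, by simp⟩))))
  · obtain ⟨s0, s1, rfl⟩ := List.append_of_mem hb'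
    obtain ⟨t0, t1, rfl⟩ := List.append_of_mem hc'
    exact Or.inr (Or.inr (Or.inl ⟨s0, s1, t0, t1, by simp⟩))
  · obtain ⟨s0, s1, rfl⟩ := List.append_of_mem hc'
    obtain ⟨t0, t1, rfl⟩ := List.append_of_mem hb'
    exact Or.inr (Or.inr (Or.inr (Or.inr (Or.inl ⟨s0, s1, t0, t1, by simp⟩))))
  · obtain ⟨s0, s1, s2, h | h⟩ := ord2 hb' hc' hbc
    · subst h
      exact Or.inl ⟨s, s0, s1, s2, rfl⟩
    · subst h
      exact Or.inr (Or.inl ⟨s, s0, s1, s2, rfl⟩)

theorem ports_of_ord3 {Z l : List V} (hnd : Z.Nodup) {f : V → V} {p a b c : V}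
    (hrot : l ~r Z) (hl : Arc R l p (f p)) (hcl : R (f p) p)
    (hpa : a ≠ p) (ha : IsPred R Z (f a) a) (hb : IsPred R Z (f b) b) (hc : IsPred R Z (f c) c)
    (hord : Ord3 l a b c) : Ports4 R Z f p a b c := by
  obtain ⟨s0, s1, s2, s3, rfl⟩ := hord
  have hs0 : s0 ≠ [] := by
    intro h0
    subst h0
    exact hpa hl.cons_head.symm
  obtain ⟨g1, d1, h1, h2, h3⟩ := hl.unappend hs0 (List.cons_ne_nil _ _)
  have hd1 : d1 = a := h2.cons_head
  subst hd1
  have e2 : (d1 :: (s1 ++ b :: (s2 ++ c :: s3))) = (d1 :: s1) ++ (b :: (s2 ++ c :: s3)) := by simp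
  rw [e2] at h2
  obtain ⟨g2, d2, h4, h5, h6⟩ := h2.unappend (List.cons_ne_nil _ _) (List.cons_ne_nil _ _)
  have hd2 : d2 = b := h5.cons_head
  subst hd2
  have e3 : (d2 :: (s2 ++ c :: s3)) = (d2 :: s2) ++ (c :: s3) := by simp
  rw [e3] at h5
  obtain ⟨g3, d3, h7, h8, h9⟩ := h5.unappend (List.cons_ne_nil _ _) (List.cons_ne_nil _ _)
  have hd3 : d3 = c := h8.cons_head
  subst hd3
  have hg1 : g1 = f d1 := by
    apply IsPred.unique hnd (R := R) (e := d1) _ ha
    refine ⟨(d1 :: (s1 ++ d2 :: (s2 ++ d3 :: s3))) ++ s0, List.isRotated_append.trans hrot, ?_, h3⟩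
    have := ((h4.append h6 (h7.append h9 h8)).append hcl h1)
    simpa using this
  have hg2 : g2 = f d2 := by
    apply IsPred.unique hnd (R := R) (e := d2) _ hb
    refine ⟨(d2 :: (s2 ++ d3 :: s3)) ++ (s0 ++ d1 :: s1), ?_, ?_, h6⟩
    · have : s0 ++ d1 :: (s1 ++ d2 :: (s2 ++ d3 :: s3)) =
          (s0 ++ d1 :: s1) ++ (d2 :: (s2 ++ d3 :: s3)) := by simp
      rw [this] at hrot
      exact List.isRotated_append.trans hrot
    · have := ((h7.append h9 h8).append hcl (h1.append h3 h4))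
      simpa using this
  have hg3 : g3 = f d3 := by
    apply IsPred.unique hnd (R := R) (e := d3) _ hc
    refine ⟨(d3 :: s3) ++ (s0 ++ d1 :: (s1 ++ d2 :: s2)), ?_, ?_, h9⟩
    · have : s0 ++ d1 :: (s1 ++ d2 :: (s2 ++ d3 :: s3)) =
          (s0 ++ d1 :: (s1 ++ d2 :: s2)) ++ (d3 :: s3) := by simp
      rw [this] at hrot
      exact List.isRotated_append.trans hrot
    · have := h8.append hcl (h1.append h3 (h4.append h6 h7))
      simpa using this
  subst hg1 hg2 hg3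
  refine ⟨s0, d1 :: s1, d2 :: s2, d3 :: s3, ?_, h1, h4, h7, h8⟩
  simpa using hrot

theorem ear12 {Z : List V} (hnd : Z.Nodup) {f : V → V} {p1 p2 p3 p4 u w : V} {D : ℕ}
    (h : Ports4 G.Adj Z f p1 p2 p3 p4)
    (hu2 : G.Adj (f p2) u) (hu3 : G.Adj (f p3) u) (hw4 : G.Adj (f p4) w) (hw1 : G.Adj (f p1) w)
    (hu : u ∉ Z) (hw : w ∉ Z) (huw : u ≠ w)
    (d1 : D ≤ dg G.Adj p1 Z) (d2 : D ≤ dg G.Adj p2 Z) (d3 : D ≤ dg G.Adj p3 Z)
    (d4 : D ≤ dg G.Adj p4 Z) (hD : Z.length + 2 ≤ 2 * D) (h1Z : 1 ≤ Z.length) :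
    ∃ Z', List.Perm Z' (Z ++ [u, w]) ∧ Cyc G.Adj Z' := by
  obtain ⟨A1, A2, A3, A4, h0, h1, h2, h3, h4⟩ := h
  have hs : ∀ x y, G.Adj x y → G.Adj y x := fun x y h => h.symm
  have hP1 : Arc G.Adj (A1 ++ u :: A2.reverse) p1 p2 := by
    have := h1.append hu2 ((Arc.single u).append hu3.symm (h2.reverse hs))
    simpa using this
  have hP2 : Arc G.Adj (A3 ++ w :: A4.reverse) p3 p4 := by
    have := h3.append hw4 ((Arc.single w).append hw1.symm (h4.reverse hs))
    simpa using this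
  have hperm : List.Perm ((A1 ++ u :: A2.reverse) ++ (A3 ++ w :: A4.reverse)) (Z ++ [u, w]) := by
    have e1 : List.Perm ((A1 ++ u :: A2.reverse) ++ (A3 ++ w :: A4.reverse))
        ((A1 ++ (A2 ++ (A3 ++ A4))) ++ [u, w]) := by
      rw [List.perm_iff_count]
      intro a
      simp only [List.count_append, List.count_cons, List.count_reverse, List.count_nil]
      ring
    exact e1.trans (h0.perm.append_right _)
  have hnd2 : (Z ++ [u, w]).Nodup := by
    rw [List.nodup_append]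
    refine ⟨hnd, by simp [huw], ?_⟩
    intro a ha b hb hab
    subst hab
    simp only [List.mem_cons, List.not_mem_nil, or_false] at hb
    rcases hb with hb | hb
    · subst hb
      exact hu ha
    · subst hb
      exact hw ha
  have hlen : ((A1 ++ u :: A2.reverse) ++ (A3 ++ w :: A4.reverse)).length = Z.length + 2 := by
    rw [hperm.length_eq]
    simp
  have hsub : Z ⊆ (A1 ++ u :: A2.reverse) ++ (A3 ++ w :: A4.reverse) := by
    intro a ha
    exact hperm.symm.subset (List.mem_append_left _ ha)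
  have dg' : ∀ p, D ≤ dg G.Adj p Z →
      D ≤ dg G.Adj p ((A1 ++ u :: A2.reverse) ++ (A3 ++ w :: A4.reverse)) := fun p hp =>
    le_trans hp (dg_mono hsub (fun _ hz => hz))
  obtain ⟨l', h5, h6⟩ := two_paths G hP1 hP2 (hperm.nodup_iff.2 hnd2) (by omega)
    (by have := dg' p4 d4; have := dg' p1 d1; omega)
    (by have := dg' p2 d2; have := dg' p3 d3; omega)
  exact ⟨l', h5.trans hperm, h6⟩

theorem ear13 {Z : List V} (hnd : Z.Nodup) {f : V → V} {p1 p2 p3 p4 u w : V} {D : ℕ}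
    (h : Ports4 G.Adj Z f p1 p2 p3 p4)
    (hu2 : G.Adj (f p2) u) (hu4 : G.Adj (f p4) u) (hw1 : G.Adj (f p1) w) (hw3 : G.Adj (f p3) w)
    (hu : u ∉ Z) (hw : w ∉ Z) (huw : u ≠ w)
    (d1 : D ≤ dg G.Adj p1 Z) (d2 : D ≤ dg G.Adj p2 Z) (d3 : D ≤ dg G.Adj p3 Z)
    (d4 : D ≤ dg G.Adj p4 Z) (hD : Z.length + 2 ≤ 2 * D) (h1Z : 1 ≤ Z.length) :
    ∃ Z', List.Perm Z' (Z ++ [u, w]) ∧ Cyc G.Adj Z' := by
  obtain ⟨A1, A2, A3, A4, h0, h1, h2, h3, h4⟩ := h
  have hs : ∀ x y, G.Adj x y → G.Adj y x := fun x y h => h.symm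
  have hP1 : Arc G.Adj (A1 ++ u :: A3.reverse) p1 p3 := by
    have := h1.append hu2 ((Arc.single u).append hu4.symm (h3.reverse hs))
    simpa using this
  have hP2 : Arc G.Adj (A4 ++ w :: A2.reverse) p4 p2 := by
    have := h4.append hw1 ((Arc.single w).append hw3.symm (h2.reverse hs))
    simpa using this
  have hperm : List.Perm ((A1 ++ u :: A3.reverse) ++ (A4 ++ w :: A2.reverse)) (Z ++ [u, w]) := by
    have e1 : List.Perm ((A1 ++ u :: A3.reverse) ++ (A4 ++ w :: A2.reverse))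
        ((A1 ++ (A2 ++ (A3 ++ A4))) ++ [u, w]) := by
      rw [List.perm_iff_count]
      intro a
      simp only [List.count_append, List.count_cons, List.count_reverse, List.count_nil]
      ring
    exact e1.trans (h0.perm.append_right _)
  have hnd2 : (Z ++ [u, w]).Nodup := by
    rw [List.nodup_append]
    refine ⟨hnd, by simp [huw], ?_⟩
    intro a ha b hb hab
    subst hab
    simp only [List.mem_cons, List.not_mem_nil, or_false] at hb
    rcases hb with hb | hb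
    · subst hb
      exact hu ha
    · subst hb
      exact hw ha
  have hlen : ((A1 ++ u :: A3.reverse) ++ (A4 ++ w :: A2.reverse)).length = Z.length + 2 := by
    rw [hperm.length_eq]
    simp
  have hsub : Z ⊆ (A1 ++ u :: A3.reverse) ++ (A4 ++ w :: A2.reverse) := by
    intro a ha
    exact hperm.symm.subset (List.mem_append_left _ ha)
  have dg' : ∀ p, D ≤ dg G.Adj p Z →
      D ≤ dg G.Adj p ((A1 ++ u :: A3.reverse) ++ (A4 ++ w :: A2.reverse)) := fun p hp =>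
    le_trans hp (dg_mono hsub (fun _ hz => hz))
  obtain ⟨l', h5, h6⟩ := two_paths G hP1 hP2 (hperm.nodup_iff.2 hnd2) (by omega)
    (by have := dg' p2 d2; have := dg' p1 d1; omega)
    (by have := dg' p3 d3; have := dg' p4 d4; omega)
  exact ⟨l', h5.trans hperm, h6⟩

/-- Two vertices with common ports at four different places extend the closed chain. -/
theorem ext_two {Z : List V} (hnd : Z.Nodup) {f : V → V} {x x' y y' u w : V} {D : ℕ}
    (hx : IsPred G.Adj Z (f x) x) (hx' : IsPred G.Adj Z (f x') x')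
    (hy : IsPred G.Adj Z (f y) y) (hy' : IsPred G.Adj Z (f y') y')
    (n1 : x ≠ x') (n2 : x ≠ y) (n3 : x ≠ y') (n4 : x' ≠ y) (n5 : x' ≠ y') (n6 : y ≠ y')
    (hux : G.Adj (f x) u) (hux' : G.Adj (f x') u) (hwy : G.Adj (f y) w) (hwy' : G.Adj (f y') w)
    (hu : u ∉ Z) (hw : w ∉ Z) (huw : u ≠ w)
    (d1 : D ≤ dg G.Adj x Z) (d2 : D ≤ dg G.Adj x' Z) (d3 : D ≤ dg G.Adj y Z)
    (d4 : D ≤ dg G.Adj y' Z) (hD : Z.length + 2 ≤ 2 * D) :
    ∃ Z', List.Perm Z' (Z ++ [u, w]) ∧ Cyc G.Adj Z' := by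
  have h1Z : 1 ≤ Z.length := by
    have := hx.mem
    exact List.length_pos_of_mem this
  have hsw : List.Perm (Z ++ [w, u]) (Z ++ [u, w]) :=
    List.Perm.append_left _ (List.Perm.swap _ _ _)
  have hwu : w ≠ u := Ne.symm huw
  obtain ⟨l, h1, h2, h3⟩ := id hx
  have hm : ∀ z f', IsPred G.Adj Z f' z → z ∈ l := by
    intro z f' hz
    obtain ⟨l', h4, h5, _⟩ := hz
    exact h1.perm.symm.subset (h4.perm.subset h5.head_mem)
  rcases ord3 (hm _ _ hx') (hm _ _ hy) (hm _ _ hy') n4 n5 n6 with h | h | h | h | h | h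
  · have hP := ports_of_ord3 hnd h1 h2 h3 (Ne.symm n1) hx' hy hy' h
    obtain ⟨Z', h4, h5⟩ := ear12 G hnd hP.shift hwy hwy' hux hux' hw hu hwu d2 d3 d4 d1 hD h1Z
    exact ⟨Z', h4.trans hsw, h5⟩
  · have hP := ports_of_ord3 hnd h1 h2 h3 (Ne.symm n1) hx' hy' hy h
    obtain ⟨Z', h4, h5⟩ := ear12 G hnd hP.shift hwy' hwy hux hux' hw hu hwu d2 d4 d3 d1 hD h1Z
    exact ⟨Z', h4.trans hsw, h5⟩
  · have hP := ports_of_ord3 hnd h1 h2 h3 (Ne.symm n2) hy hx' hy' h
    obtain ⟨Z', h4, h5⟩ := ear13 G hnd hP hwy hwy' hux hux' hw hu hwu d1 d3 d2 d4 hD h1Z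
    exact ⟨Z', h4.trans hsw, h5⟩
  · have hP := ports_of_ord3 hnd h1 h2 h3 (Ne.symm n2) hy hy' hx' h
    obtain ⟨Z', h4, h5⟩ := ear12 G hnd hP hwy hwy' hux' hux hw hu hwu d1 d3 d4 d2 hD h1Z
    exact ⟨Z', h4.trans hsw, h5⟩
  · have hP := ports_of_ord3 hnd h1 h2 h3 (Ne.symm n3) hy' hx' hy h
    obtain ⟨Z', h4, h5⟩ := ear13 G hnd hP hwy' hwy hux hux' hw hu hwu d1 d4 d2 d3 hD h1Z
    exact ⟨Z', h4.trans hsw, h5⟩
  · have hP := ports_of_ord3 hnd h1 h2 h3 (Ne.symm n3) hy' hy hx' h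
    obtain ⟨Z', h4, h5⟩ := ear12 G hnd hP hwy' hwy hux' hux hw hu hwu d1 d4 d3 d2 hD h1Z
    exact ⟨Z', h4.trans hsw, h5⟩

/-- Two adjacent new vertices at two different places extend the closed chain. -/
theorem ext_one {Z : List V} (hnd : Z.Nodup) {e e' f f' r r' : V}
    (hp : IsPred G.Adj Z f e) (hp' : IsPred G.Adj Z f' e') (hne : e ≠ e')
    (hr : r ∉ Z) (hr' : r' ∉ Z) (hrr : r ≠ r') (h1 : G.Adj f r) (h2 : G.Adj f' r')
    (h3 : G.Adj r r') (hd : Z.length + 2 ≤ dg G.Adj e Z + dg G.Adj e' Z) :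
    ∃ Z', List.Perm Z' (Z ++ [r', r]) ∧ Cyc G.Adj Z' := by
  have hs : ∀ x y, G.Adj x y → G.Adj y x := fun x y h => h.symm
  have hirr : ∀ x, ¬ G.Adj x x := fun x => G.irrefl
  obtain ⟨A1, A2, h0, h4, h5⟩ := ports2 hnd hp hp' hne
  have hP : Arc G.Adj (A1 ++ r' :: r :: A2.reverse) e e' := by
    have := h4.append h2 ((Arc.single r').append h3.symm
      ((Arc.single r).append h1.symm (h5.reverse hs)))
    simpa using this
  have hperm : List.Perm (A1 ++ r' :: r :: A2.reverse) (Z ++ [r', r]) := by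
    have e1 : List.Perm (A1 ++ r' :: r :: A2.reverse) ((A1 ++ A2) ++ [r', r]) := by
      rw [List.perm_iff_count]
      intro a
      simp only [List.count_append, List.count_cons, List.count_reverse, List.count_nil]
      ring
    exact e1.trans (h0.perm.append_right _)
  have hnd2 : (Z ++ [r', r]).Nodup := by
    rw [List.nodup_append]
    refine ⟨hnd, by simp [Ne.symm hrr], ?_⟩
    intro a ha b hb hab
    subst hab
    simp only [List.mem_cons, List.not_mem_nil, or_false] at hb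
    rcases hb with hb | hb
    · subst hb
      exact hr' ha
    · subst hb
      exact hr ha
  have h1Z : 1 ≤ Z.length := List.length_pos_of_mem hp.mem
  have hlen : (A1 ++ r' :: r :: A2.reverse).length = Z.length + 2 := by
    rw [hperm.length_eq]
    simp
  have hsub : Z ⊆ A1 ++ r' :: r :: A2.reverse := by
    intro a ha
    exact hperm.symm.subset (List.mem_append_left _ ha)
  have hc : Cyc (vir G.Adj e' e) (A1 ++ r' :: r :: A2.reverse) :=
    ⟨e, e', hP.imp (fun _ _ h => Or.inl h), Or.inr (Or.inl ⟨rfl, rfl⟩)⟩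
  obtain ⟨l', h6, h7⟩ := close_virtual hs hirr (Ne.symm hne) (hperm.nodup_iff.2 hnd2) hc
    hP.last_mem (by omega) (by
      have e1 : dg G.Adj e Z ≤ dg G.Adj e (A1 ++ r' :: r :: A2.reverse) :=
        dg_mono hsub (fun _ hz => hz)
      have e2 : dg G.Adj e' Z ≤ dg G.Adj e' (A1 ++ r' :: r :: A2.reverse) :=
        dg_mono hsub (fun _ hz => hz)
      omega)
  exact ⟨l', h6.trans hperm, h7⟩

/-- One extension step, or a bound on the number of ports. -/
theorem step [Fintype V] {k a D : ℕ} (hδ : ∀ v, k ≤ (Finset.univ.filter (G.Adj v)).card + 1)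
    (hα : ∀ S : Finset V, (∀ x ∈ S, ∀ y ∈ S, ¬ G.Adj x y) → S.card ≤ a)
    (E : Finset V) {Z : List V} (hnd : Z.Nodup) (hZ : Cyc G.Adj Z) (hEZ : ∀ e ∈ E, e ∈ Z)
    (hdeg : ∀ e ∈ E, D ≤ dg G.Adj e Z) (hD : Z.length + 2 ≤ 2 * D) (hlen : Z.length + 2 ≤ k) :
    E.card ≤ a + 2 ∨
      ∃ u w Z', u ∉ Z ∧ w ∉ Z ∧ u ≠ w ∧ List.Perm Z' (Z ++ [u, w]) ∧ Cyc G.Adj Z' := by
  by_cases hext : ∃ u w Z', u ∉ Z ∧ w ∉ Z ∧ u ≠ w ∧ List.Perm Z' (Z ++ [u, w]) ∧ Cyc G.Adj Z'
  · exact Or.inr hext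
  left
  have noext : ∀ u w Z', u ∉ Z → w ∉ Z → u ≠ w → List.Perm Z' (Z ++ [u, w]) → ¬ Cyc G.Adj Z' :=
    fun u w Z' h1 h2 h3 h4 h5 => hext ⟨u, w, Z', h1, h2, h3, h4, h5⟩
  have hf : ∀ e ∈ E, ∃ f, IsPred G.Adj Z f e := fun e he => IsPred.exists hZ (hEZ e he)
  choose! f hf using hf
  let A : V → Finset V := fun e => Finset.univ.filter (fun r => G.Adj (f e) r ∧ r ∉ Z)
  have hAmem : ∀ e r, r ∈ A e ↔ G.Adj (f e) r ∧ r ∉ Z := by
    intro e r
    simp [A]
  have hA2 : ∀ e ∈ E, 2 ≤ (A e).card := by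
    intro e he
    have h1 := hδ (f e)
    have hfZ : f e ∈ Z := (hf e he).mem
    have hsub : Finset.univ.filter (G.Adj (f e)) ⊆ A e ∪ (Z.toFinset.erase (f e)) := by
      intro r hr
      rw [Finset.mem_filter] at hr
      rw [Finset.mem_union, hAmem, Finset.mem_erase, List.mem_toFinset]
      by_cases hrZ : r ∈ Z
      · exact Or.inr ⟨(G.ne_of_adj hr.2).symm, hrZ⟩
      · exact Or.inl ⟨hr.2, hrZ⟩
    have h2 := Finset.card_le_card hsub
    have h3 := Finset.card_union_le (A e) (Z.toFinset.erase (f e))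
    rw [Finset.card_erase_of_mem (List.mem_toFinset.2 hfZ), List.toFinset_card_of_nodup hnd] at h3
    have h4 : 0 < Z.length := List.length_pos_of_mem hfZ
    omega
  have hP1 : ∀ e ∈ E, ∀ e' ∈ E, e ≠ e' → ∀ r ∈ A e, ∀ r' ∈ A e', r ≠ r' → ¬ G.Adj r r' := by
    intro e he e' he' hne r hr r' hr' hrr h3
    rw [hAmem] at hr hr'
    have hd1 := hdeg e he
    have hd2 := hdeg e' he'
    obtain ⟨Z', h4, h5⟩ := ext_one G hnd (hf e he) (hf e' he') hne hr.2 hr'.2 hrr hr.1 hr'.1 h3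
      (by omega)
    exact noext r' r Z' hr'.2 hr.2 (Ne.symm hrr) h4 h5
  have hP2 : ∀ x ∈ E, ∀ x' ∈ E, ∀ y ∈ E, ∀ y' ∈ E, x ≠ x' → x ≠ y → x ≠ y' → x' ≠ y → x' ≠ y' →
      y ≠ y' → ∀ u w, u ∈ A x → u ∈ A x' → w ∈ A y → w ∈ A y' → u ≠ w → False := by
    intro x hx x' hx' y hy y' hy' n1 n2 n3 n4 n5 n6 u w h1 h2 h3 h4 huw
    rw [hAmem] at h1 h2 h3 h4
    obtain ⟨Z', h5, h6⟩ := ext_two G hnd (hf x hx) (hf x' hx') (hf y hy) (hf y' hy')
      n1 n2 n3 n4 n5 n6 h1.1 h2.1 h3.1 h4.1 h1.2 h3.2 huw (hdeg x hx) (hdeg x' hx')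
      (hdeg y hy) (hdeg y' hy') hD
    exact noext u w Z' h1.2 h3.2 huw h5 h6
  have hfin : ∀ X : Finset V, X ⊆ E → ∀ rep : V → V, (∀ y ∈ X, rep y ∈ A y) →
      Set.InjOn rep (X : Set V) → X.card ≤ a := by
    intro X hX rep hrep hinj
    have h1 := hα (X.image rep) (by
      intro p hp q hq
      obtain ⟨y, hy, rfl⟩ := Finset.mem_image.1 hp
      obtain ⟨y', hy', rfl⟩ := Finset.mem_image.1 hq
      by_cases hyy : y = y'
      · subst hyy
        exact G.irrefl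
      · exact hP1 y (hX hy) y' (hX hy') hyy _ (hrep y hy) _ (hrep y' hy')
          (fun h => hyy (hinj hy hy' h)))
    rwa [Finset.card_image_of_injOn hinj] at h1
  by_cases hcherry : ∃ x ∈ E, ∃ x' ∈ E, x ≠ x' ∧ ∃ u, u ∈ A x ∧ u ∈ A x'
  · obtain ⟨x, hx, x', hx', n1, u, hu1, hu2⟩ := hcherry
    have hrepex : ∀ y ∈ E, ∃ r ∈ A y, r ≠ u := fun y hy =>
      Finset.exists_mem_ne (by have := hA2 y hy; omega) u
    choose! rep hrep1 hrep2 using hrepex
    let X := (E.erase x).erase x'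
    have hXE : X ⊆ E := fun z hz => Finset.mem_of_mem_erase (Finset.mem_of_mem_erase hz)
    have h1 : X.card ≤ a := hfin X hXE rep (fun y hy => hrep1 y (hXE hy)) (by
      intro y hy y' hy' heq
      by_contra hne
      have hy1 : y ≠ x' := (Finset.mem_erase.1 hy).1
      have hy2 : y ≠ x := (Finset.mem_erase.1 (Finset.mem_erase.1 hy).2).1
      have hy1' : y' ≠ x' := (Finset.mem_erase.1 hy').1
      have hy2' : y' ≠ x := (Finset.mem_erase.1 (Finset.mem_erase.1 hy').2).1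
      exact hP2 x hx x' hx' y (hXE hy) y' (hXE hy') n1 (Ne.symm hy2) (Ne.symm hy2')
        (Ne.symm hy1) (Ne.symm hy1') hne u (rep y) hu1 hu2 (hrep1 y (hXE hy))
        (heq ▸ hrep1 y' (hXE hy')) (Ne.symm (hrep2 y (hXE hy))))
    have h2 : E.card ≤ X.card + 2 := by
      have h3 := Finset.pred_card_le_card_erase (s := E) (a := x)
      have h4 := Finset.pred_card_le_card_erase (s := E.erase x) (a := x')
      simp only [X]
      omega
    omega
  · have hrepex : ∀ y ∈ E, ∃ r, r ∈ A y := fun y hy =>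
      Finset.card_pos.1 (by have := hA2 y hy; omega)
    choose! rep hrep1 using hrepex
    have h1 : E.card ≤ a := hfin E (Finset.Subset.refl _) rep hrep1 (by
      intro y hy y' hy' heq
      by_contra hne
      exact hcherry ⟨y, hy, y', hy', hne, rep y, hrep1 y hy, heq ▸ hrep1 y' hy'⟩)
    omega

/-- Lemma H: a closed chain through many high degree members, of the right parity and length at
most `k`, bounds the number of these members, when there is no closed chain of length `k`. -/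
theorem lemma_H [Fintype V] {k a D : ℕ} (hδ : ∀ v, k ≤ (Finset.univ.filter (G.Adj v)).card + 1)
    (hα : ∀ S : Finset V, (∀ x ∈ S, ∀ y ∈ S, ¬ G.Adj x y) → S.card ≤ a)
    (noC : ∀ l : List V, l.Nodup → Cyc G.Adj l → l.length ≠ k)
    (E : Finset V) (W : List V) (hEW : ∀ e ∈ E, e ∈ W) (hdeg : ∀ e ∈ E, D ≤ dg G.Adj e W)
    (hD : k ≤ 2 * D) :
    ∀ (n : ℕ) (Z : List V), k - Z.length ≤ n → Z.Nodup → Cyc G.Adj Z → W ⊆ Z → Z.length ≤ k →
      Z.length % 2 = k % 2 → E.card ≤ a + 2 := by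
  intro n
  induction n with
  | zero =>
    intro Z h0 hnd hZ hWZ hlen hpar
    exact absurd (by omega) (noC Z hnd hZ)
  | succ n ih =>
    intro Z h0 hnd hZ hWZ hlen hpar
    have hne := noC Z hnd hZ
    have hlen2 : Z.length + 2 ≤ k := by omega
    rcases step G hδ hα E hnd hZ (fun e he => hWZ (hEW e he))
      (fun e he => le_trans (hdeg e he) (dg_mono hWZ (fun _ hz => hz))) (by omega) hlen2 with
      h | ⟨u, w, Z', hu, hw, huw, hperm, hc⟩
    · exact h
    · have hnd2 : (Z ++ [u, w]).Nodup := by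
        rw [List.nodup_append]
        refine ⟨hnd, by simp [huw], ?_⟩
        intro a ha b hb hab
        subst hab
        simp only [List.mem_cons, List.not_mem_nil, or_false] at hb
        rcases hb with hb | hb
        · subst hb
          exact hu ha
        · subst hb
          exact hw ha
      have hlen3 : Z'.length = Z.length + 2 := by
        rw [hperm.length_eq]
        simp
      exact ih Z' (by omega) (hperm.nodup_iff.2 hnd2) hc (fun x hx =>
        hperm.symm.subset (List.mem_append_left _ (hWZ hx))) (by omega) (by omega)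

end Vale.Agent.Lib.P048
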