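import Vale.Agent.Lib.P048.Strip
import Vale.Agent.Lib.P048.Ports

/-!
The minimum degree theorem: large minimum degree and small independence number force a cycle of
length exactly `k`.
-/

namespace Vale.Agent.Lib.P048

open scoped Classical

variable {V : Type*} {G : SimpleGraph V}

theorem IsStrip.full_run {u : ℕ → V} {s : ℕ} (hu : IsStrip G u s) (j : ℕ) :
    ∀ n, j + n ≤ 2 * s → ∃ P, Arc (Rp G u (2 * s)) P j (j + n) ∧ P.length = n + 1 ∧
      ∀ x, x ∈ P ↔ j ≤ x ∧ x ≤ j + n := by
  intro n
  induction n with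
  | zero =>
    intro _
    refine ⟨[j], Arc.single _, rfl, ?_⟩
    intro x
    simp only [List.mem_singleton]
    omega
  | succ n ih =>
    intro h
    obtain ⟨P, h1, h2, h3⟩ := ih (by omega)
    refine ⟨P ++ [j + (n + 1)], h1.append ⟨by omega, by omega, hu.adj_succ (by omega) (by omega)⟩
      (Arc.single _), by simp [h2], ?_⟩
    intro x
    simp only [List.mem_append, h3, List.mem_singleton]
    omega

/-- A route over all positions from `j` on, missing at most one position, of the parity of `k`. -/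
theorem IsStrip.run_parity {u : ℕ → V} {s : ℕ} (hu : IsStrip G u s) {j : ℕ} (hj : j + 2 ≤ 2 * s)
    (k : ℕ) : ∃ P r, Arc (Rp G u (2 * s)) P j (2 * s) ∧ P.length % 2 = k % 2 ∧
      P.length ≤ 2 * s - j + 1 ∧ (∀ x ∈ P, j ≤ x ∧ x ≤ 2 * s) ∧
      (∀ x, j ≤ x → x ≤ 2 * s → x ∈ P ∨ x = r) := by
  by_cases hpar : (2 * s - j + 1) % 2 = k % 2
  · obtain ⟨P, h1, h2, h3⟩ := hu.full_run j (2 * s - j) (by omega)
    rw [show j + (2 * s - j) = 2 * s by omega] at h1
    refine ⟨P, 0, h1, by omega, by omega, ?_, ?_⟩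
    · intro x hx
      have := (h3 x).1 hx
      omega
    · intro x hx1 hx2
      exact Or.inl ((h3 x).2 ⟨hx1, by omega⟩)
  · obtain ⟨z, hz1, hz2⟩ : ∃ z, j ≤ 2 * z ∧ 2 * z + 2 ≤ 2 * s :=
      ⟨(j + 1) / 2, by omega, by omega⟩
    obtain ⟨P1, h1, h2, h3⟩ := hu.full_run j (2 * z - j) (by omega)
    rw [show j + (2 * z - j) = 2 * z by omega] at h1 h3
    obtain ⟨P2, h4, h5, h6⟩ := hu.full_run (2 * z + 2) (2 * s - (2 * z + 2)) (by omega)
    rw [show 2 * z + 2 + (2 * s - (2 * z + 2)) = 2 * s by omega] at h4 h6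
    refine ⟨P1 ++ P2, 2 * z + 1, h1.append ⟨by omega, by omega, ?_⟩ h4, ?_, ?_, ?_, ?_⟩
    · exact hu.adj_even (i := z) (by omega) rfl rfl
    · rw [List.length_append]
      omega
    · rw [List.length_append]
      omega
    · intro x hx
      rcases List.mem_append.1 hx with hx | hx
      · have := (h3 x).1 hx
        omega
      · have := (h6 x).1 hx
        omega
    · intro x hx1 hx2
      by_cases hx3 : x ≤ 2 * z
      · exact Or.inl (List.mem_append_left _ ((h3 x).2 ⟨hx1, hx3⟩))
      · by_cases hx4 : x = 2 * z + 1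
        · exact Or.inr hx4
        · exact Or.inl (List.mem_append_right _ ((h6 x).2 ⟨by omega, hx2⟩))

/-- A strip `u` ending in `e` that agrees with the strip `v` below position `c` and permutes the
positions of `v` from `c` on. -/
structure Wit (G : SimpleGraph V) (v : ℕ → V) (s : ℕ) (e : V) (c : ℕ) (u : ℕ → V) : Prop where
  strip : IsStrip G u s
  last : u (2 * s) = e
  low : ∀ j, j < c → u j = v j
  fw : ∀ j, c ≤ j → j ≤ 2 * s → ∃ i, c ≤ i ∧ i ≤ 2 * s ∧ u j = v i
  bw : ∀ i, c ≤ i → i ≤ 2 * s → ∃ j, c ≤ j ∧ j ≤ 2 * s ∧ v i = u j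

theorem wit_self {v : ℕ → V} {s : ℕ} (hv : IsStrip G v s) : Wit G v s (v (2 * s)) (2 * s) v :=
  ⟨hv, rfl, fun _ _ => rfl, fun j h1 h2 => ⟨j, h1, h2, rfl⟩, fun j h1 h2 => ⟨j, h1, h2, rfl⟩⟩

theorem wit_rot {v : ℕ → V} {s z : ℕ} (hv : IsStrip G v s) (hz : z + 2 ≤ s)
    (h1 : G.Adj (v (2 * s)) (v (2 * z))) (h2 : G.Adj (v (2 * s)) (v (2 * z + 1))) :
    Wit G v s (v (2 * z + 2)) (2 * z + 2) (rot v (2 * s) (2 * z + 2)) := by
  refine ⟨hv.rotate rfl (by omega) h1 h2, ?_, ?_, ?_, ?_⟩
  · unfold rot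
    rw [if_neg (by omega)]
    congr 1
    omega
  · intro j hj
    unfold rot
    rw [if_pos hj]
  · intro j h3 h4
    refine ⟨2 * s + (2 * z + 2) - j, by omega, by omega, ?_⟩
    unfold rot
    rw [if_neg (by omega)]
  · intro i h3 h4
    refine ⟨2 * s + (2 * z + 2) - i, by omega, by omega, ?_⟩
    unfold rot
    rw [if_neg (by omega)]
    congr 1
    omega

theorem wit_swp {v : ℕ → V} {s z : ℕ} (hv : IsStrip G v s) (hz : z + 2 ≤ s)
    (h1 : G.Adj (v (2 * s)) (v (2 * z))) (h2 : G.Adj (v (2 * s)) (v (2 * z + 1))) :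
    Wit G v s (v (2 * z + 3)) (2 * z + 2) (swp (rot v (2 * s) (2 * z + 2)) (2 * s)) := by
  refine ⟨(hv.rotate rfl (by omega) h1 h2).swap (by omega), ?_, ?_, ?_, ?_⟩
  · unfold swp rot
    rw [if_pos rfl, if_neg (by omega)]
    congr 1
    omega
  · intro j hj
    unfold swp rot
    rw [if_neg (by omega), if_neg (by omega), if_pos hj]
  · intro j h3 h4
    unfold swp rot
    by_cases hj1 : j = 2 * s
    · subst hj1
      refine ⟨2 * z + 3, by omega, by omega, ?_⟩
      rw [if_pos rfl, if_neg (by omega)]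
      congr 1
      omega
    · by_cases hj2 : j = 2 * s - 1
      · subst hj2
        refine ⟨2 * z + 2, by omega, by omega, ?_⟩
        rw [if_neg hj1, if_pos rfl, if_neg (by omega)]
        congr 1
        omega
      · refine ⟨2 * s + (2 * z + 2) - j, by omega, by omega, ?_⟩
        rw [if_neg hj1, if_neg hj2, if_neg (by omega)]
  · intro i h3 h4
    unfold swp rot
    by_cases hj1 : i = 2 * z + 2
    · subst hj1
      refine ⟨2 * s - 1, by omega, by omega, ?_⟩
      rw [if_neg (by omega), if_pos rfl, if_neg (by omega)]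
      congr 1
      omega
    · by_cases hj2 : i = 2 * z + 3
      · subst hj2
        refine ⟨2 * s, by omega, by omega, ?_⟩
        rw [if_pos rfl, if_neg (by omega)]
        congr 1
        omega
      · refine ⟨2 * s + (2 * z + 2) - i, by omega, by omega, ?_⟩
        rw [if_neg (by omega), if_neg (by omega), if_neg (by omega)]
        congr 1
        omega

section main

variable [Fintype V] {k a : ℕ}

theorem strip_bound {u : ℕ → V} {s : ℕ} (hu : IsStrip G u s) : 2 * s + 1 ≤ Fintype.card V := by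
  have h1 : ((Finset.range (2 * s + 1)).image u).card = 2 * s + 1 := by
    rw [Finset.card_image_of_injOn, Finset.card_range]
    intro i hi j hj h
    have hi' := Finset.mem_range.1 hi
    have hj' := Finset.mem_range.1 hj
    exact hu.inj i j (by omega) (by omega) h
  calc 2 * s + 1 = _ := h1.symm
    _ ≤ _ := Finset.card_le_univ _

theorem exists_max_strip [Nonempty V] (G : SimpleGraph V) :
    ∃ s u, IsStrip G u s ∧ ∀ s' u', IsStrip G u' s' → s' ≤ s := by
  obtain ⟨v0⟩ := ‹Nonempty V›
  let P : ℕ → Prop := fun s => ∃ u, IsStrip G u s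
  have h0 : P 0 := ⟨fun _ => v0, fun i j hi hj _ => by omega, fun i hi => by omega⟩
  have hs := Nat.findGreatest_spec (P := P) (n := Fintype.card V) (Nat.zero_le _) h0
  obtain ⟨u, hu⟩ := hs
  refine ⟨_, u, hu, ?_⟩
  intro s' u' hu'
  apply Nat.le_findGreatest
  · have := strip_bound hu'
    omega
  · exact ⟨u', hu'⟩

theorem nbr_count (hδ : ∀ v, k ≤ (Finset.univ.filter (G.Adj v)).card + 1)
    (hα : ∀ S : Finset V, (∀ x ∈ S, ∀ y ∈ S, ¬ G.Adj x y) → S.card ≤ a)
    {s : ℕ} (hmax : ∀ u', ¬ IsStrip G u' (s + 1)) {u : ℕ → V} (hu : IsStrip G u s) (v : ℕ → V)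
    (hvu : ∀ j, j ≤ 2 * s → ∃ i, i ≤ 2 * s ∧ u j = v i) :
    k ≤ ((Finset.range (2 * s + 1)).filter (fun i => G.Adj (u (2 * s)) (v i))).card + a + 1 := by
  let out := Finset.univ.filter (fun x => G.Adj (u (2 * s)) x ∧ ∀ i, i ≤ 2 * s → u i ≠ x)
  have hout : out.card ≤ a := by
    apply hα
    intro x hx y hy hxy
    simp only [out, Finset.mem_filter, Finset.mem_univ, true_and] at hx hy
    obtain ⟨u', hu'⟩ := hu.extend hx.2 hy.2 hxy hx.1 hy.1
    exact hmax u' hu'
  have hsub : Finset.univ.filter (G.Adj (u (2 * s))) ⊆ out ∪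
      ((Finset.range (2 * s + 1)).filter (fun i => G.Adj (u (2 * s)) (v i))).image v := by
    intro x hx
    simp only [Finset.mem_filter, Finset.mem_univ, true_and] at hx
    rw [Finset.mem_union]
    by_cases hc : ∀ i, i ≤ 2 * s → u i ≠ x
    · left
      simp only [out, Finset.mem_filter, Finset.mem_univ, true_and]
      exact ⟨hx, hc⟩
    · right
      simp only [not_forall, not_not] at hc
      obtain ⟨i, hi, hix⟩ := hc
      obtain ⟨i', hi', hi2⟩ := hvu i hi
      rw [Finset.mem_image]
      refine ⟨i', ?_, by rw [← hi2, hix]⟩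
      rw [Finset.mem_filter, Finset.mem_range]
      refine ⟨by omega, ?_⟩
      rw [← hi2, hix]
      exact hx
  have h1 := Finset.card_le_card hsub
  have h2 := Finset.card_union_le out
    (((Finset.range (2 * s + 1)).filter (fun i => G.Adj (u (2 * s)) (v i))).image v)
  have h3 : (((Finset.range (2 * s + 1)).filter (fun i => G.Adj (u (2 * s)) (v i))).image v).card ≤
      ((Finset.range (2 * s + 1)).filter (fun i => G.Adj (u (2 * s)) (v i))).card :=
    Finset.card_image_le
  have h4 := hδ (u (2 * s))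
  omega

/-- The minimum degree theorem. -/
theorem thmA [Nonempty V] (G : SimpleGraph V) (hka : 3 * a + 6 ≤ k)
    (hδ : ∀ v, k ≤ (Finset.univ.filter (G.Adj v)).card + 1)
    (hα : ∀ S : Finset V, (∀ x ∈ S, ∀ y ∈ S, ¬ G.Adj x y) → S.card ≤ a) :
    ∃ l : List V, l.Nodup ∧ Cyc G.Adj l ∧ l.length = k := by
  by_contra hno
  have noC : ∀ l : List V, l.Nodup → Cyc G.Adj l → l.length ≠ k :=
    fun l h1 h2 h3 => hno ⟨l, h1, h2, h3⟩
  obtain ⟨s, v, hv, hmax⟩ := exists_max_strip G
  have hmax' : ∀ u', ¬ IsStrip G u' (s + 1) := fun u' h => by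
    have := hmax _ _ h
    omega
  have hfc : ∀ u, IsStrip G u s → ∀ p q, p < q → q ≤ 2 * s → G.Adj (u p) (u q) → q - p + 2 ≤ k :=
    fun u hu => hu.far_chord hka hα noC
  have hnb := nbr_count hδ hα hmax' hv v (fun j hj => ⟨j, hj, rfl⟩)
  -- positions of neighbours of the end, in blocks of two
  let O := (Finset.range s).filter (fun z => G.Adj (v (2 * s)) (v (2 * z + 1)))
  let Ev := (Finset.range s).filter (fun z => G.Adj (v (2 * s)) (v (2 * z)))
  let Bk := (Finset.range s).filter (fun z => 2 * s + 1 ≤ 2 * z + k)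
  have hNsub : (Finset.range (2 * s + 1)).filter (fun i => G.Adj (v (2 * s)) (v i)) ⊆
      O.image (fun z => 2 * z + 1) ∪ Ev.image (fun z => 2 * z) := by
    intro i hi
    rw [Finset.mem_filter, Finset.mem_range] at hi
    obtain ⟨hi1, hi2⟩ := hi
    have hi3 : i ≠ 2 * s := by
      intro h
      subst h
      exact G.irrefl hi2
    rw [Finset.mem_union, Finset.mem_image, Finset.mem_image]
    rcases Nat.even_or_odd' i with ⟨z, hz | hz⟩
    · right
      subst hz
      refine ⟨z, ?_, rfl⟩
      simp only [Ev, Finset.mem_filter, Finset.mem_range]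
      exact ⟨by omega, hi2⟩
    · left
      subst hz
      refine ⟨z, ?_, rfl⟩
      simp only [O, Finset.mem_filter, Finset.mem_range]
      exact ⟨by omega, hi2⟩
  have hNcard : ((Finset.range (2 * s + 1)).filter (fun i => G.Adj (v (2 * s)) (v i))).card ≤
      O.card + Ev.card := by
    refine le_trans (Finset.card_le_card hNsub) (le_trans (Finset.card_union_le _ _) ?_)
    exact Nat.add_le_add Finset.card_image_le Finset.card_image_le
  have hOB : O ∪ Ev ⊆ Bk := by
    intro z hz
    simp only [O, Ev, Bk, Finset.mem_union, Finset.mem_filter, Finset.mem_range] at hz ⊢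
    rcases hz with ⟨h1, h2⟩ | ⟨h1, h2⟩
    · have := hfc v hv (2 * z + 1) (2 * s) (by omega) (le_refl _) h2.symm
      exact ⟨h1, by omega⟩
    · have := hfc v hv (2 * z) (2 * s) (by omega) (le_refl _) h2.symm
      exact ⟨h1, by omega⟩
  have hBk : 2 * Bk.card + 1 ≤ k := by
    have h1 : Bk.card ≤ (Finset.range ((k - 1) / 2)).card := by
      apply Finset.card_le_card_of_injOn (fun z => s - 1 - z)
      · intro z hz
        simp only [Bk, Finset.coe_filter, Finset.mem_range, Set.mem_setOf_eq] at hz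
        simp only [Finset.coe_range, Set.mem_Iio]
        omega
      · intro x hx y hy hxy
        simp only [Bk, Finset.coe_filter, Finset.mem_range, Set.mem_setOf_eq] at hx hy
        simp only at hxy
        omega
    rw [Finset.card_range] at h1
    omega
  let F := O ∩ Ev
  have hOEv : O.card + Ev.card ≤ Bk.card + F.card := by
    rw [← Finset.card_union_add_card_inter]
    exact Nat.add_le_add_right (Finset.card_le_card hOB) _
  let F' := F.erase (s - 1)
  have hF' : F.card ≤ F'.card + 1 := by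
    have := Finset.pred_card_le_card_erase (s := F) (a := s - 1)
    simp only [F']
    omega
  have hF'mem : ∀ z ∈ F', z + 2 ≤ s ∧ G.Adj (v (2 * s)) (v (2 * z)) ∧
      G.Adj (v (2 * s)) (v (2 * z + 1)) := by
    intro z hz
    simp only [F', F, O, Ev, Finset.mem_erase, Finset.mem_inter, Finset.mem_filter,
      Finset.mem_range] at hz
    exact ⟨by omega, hz.2.2.2, hz.2.1.2⟩
  have hs1 : 1 ≤ s := by
    by_contra h0
    have h1 : s = 0 := by omega
    subst h1
    have : ((Finset.range (2 * 0 + 1)).filter (fun i => G.Adj (v (2 * 0)) (v i))) = ∅ := by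
      apply Finset.filter_eq_empty_iff.2
      intro i hi
      have hi' := Finset.mem_range.1 hi
      have hi0 : i = 0 := by omega
      subst hi0
      exact G.irrefl
    rw [this] at hnb
    simp only [Finset.card_empty] at hnb
    omega
  -- the set of possible ends
  let PosE : Finset ℕ :=
    insert (2 * s) (F'.image (fun z => 2 * z + 2) ∪ F'.image (fun z => 2 * z + 3))
  let E := PosE.image v
  have hPosle : ∀ i ∈ PosE, i ≤ 2 * s := by
    intro i hi
    simp only [PosE, Finset.mem_insert, Finset.mem_union, Finset.mem_image] at hi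
    rcases hi with h | ⟨z, hz, rfl⟩ | ⟨z, hz, rfl⟩
    · omega
    · have := (hF'mem z hz).1
      omega
    · have := (hF'mem z hz).1
      omega
  have hPosCard : PosE.card = 2 * F'.card + 1 := by
    have hd1 : Disjoint (F'.image (fun z => 2 * z + 2)) (F'.image (fun z => 2 * z + 3)) := by
      rw [Finset.disjoint_left]
      intro x hx hx'
      obtain ⟨z, _, rfl⟩ := Finset.mem_image.1 hx
      obtain ⟨z', _, hz'⟩ := Finset.mem_image.1 hx'
      omega
    have hnot : 2 * s ∉ F'.image (fun z => 2 * z + 2) ∪ F'.image (fun z => 2 * z + 3) := by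
      intro h
      rcases Finset.mem_union.1 h with h | h
      · obtain ⟨z, hz, hz'⟩ := Finset.mem_image.1 h
        have := (hF'mem z hz).1
        omega
      · obtain ⟨z, hz, hz'⟩ := Finset.mem_image.1 h
        have := (hF'mem z hz).1
        omega
    simp only [PosE]
    rw [Finset.card_insert_of_notMem hnot, Finset.card_union_of_disjoint hd1,
      Finset.card_image_of_injective, Finset.card_image_of_injective]
    · omega
    · intro x y h
      simp only at h
      omega
    · intro x y h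
      simp only at h
      omega
  have hEcard : E.card = 2 * F'.card + 1 := by
    simp only [E]
    rw [Finset.card_image_of_injOn, hPosCard]
    intro i hi j hj h
    exact hv.inj i j (hPosle i hi) (hPosle j hj) h
  have hbE : v (2 * s) ∈ E := by
    simp only [E, PosE]
    exact Finset.mem_image_of_mem _ (Finset.mem_insert_self _ _)
  have hbt : G.Adj (v (2 * s)) (v (2 * s - 1)) :=
    (hv.adj_succ (a := 2 * s - 1) (by omega) (le_refl _)).symm
  have hwit : ∀ e ∈ E, ∃ c u i, Wit G v s e c u ∧ 2 ≤ c ∧ G.Adj (v (2 * s)) (v (c - 2)) ∧ c ≤ i ∧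
      i ≤ 2 * s ∧ e = v i := by
    intro e he
    obtain ⟨i, hi, rfl⟩ := Finset.mem_image.1 he
    simp only [PosE, Finset.mem_insert, Finset.mem_union, Finset.mem_image] at hi
    rcases hi with h | ⟨z, hz, rfl⟩ | ⟨z, hz, rfl⟩
    · subst h
      refine ⟨2 * s, v, 2 * s, wit_self hv, by omega, ?_, by omega, by omega, rfl⟩
      exact (hv.adj_even (i := s - 1) (by omega) (by omega) (by omega)).symm
    · obtain ⟨h1, h2, h3⟩ := hF'mem z hz
      refine ⟨2 * z + 2, _, 2 * z + 2, wit_rot hv h1 h2 h3, by omega, ?_, by omega, by omega, rfl⟩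
      rw [show 2 * z + 2 - 2 = 2 * z by omega]
      exact h2
    · obtain ⟨h1, h2, h3⟩ := hF'mem z hz
      refine ⟨2 * z + 2, _, 2 * z + 3, wit_swp hv h1 h2 h3, by omega, ?_, by omega, by omega, rfl⟩
      rw [show 2 * z + 2 - 2 = 2 * z by omega]
      exact h2
  -- the lowest position seen from the set of possible ends
  have hjex : ∃ j, j ≤ 2 * s ∧ ∃ e ∈ E, G.Adj e (v j) :=
    ⟨2 * s - 1, by omega, v (2 * s), hbE, hbt⟩
  obtain ⟨hj1, eS, heS, hj2⟩ := Nat.find_spec hjex
  have hjmin : ∀ j, j ≤ 2 * s → ∀ e ∈ E, G.Adj e (v j) → Nat.find hjex ≤ j :=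
    fun j h1 e he h2 => Nat.find_min' hjex ⟨h1, e, he, h2⟩
  generalize Nat.find hjex = js at hj1 hj2 hjmin
  have hjc : ∀ e ∈ E, ∀ c u i, Wit G v s e c u → 2 ≤ c → G.Adj (v (2 * s)) (v (c - 2)) → c ≤ i →
      i ≤ 2 * s → e = v i → js + 2 ≤ c := by
    intro e _ c u i _ h2 h3 h4 h5 _
    have := hjmin (c - 2) (by omega) (v (2 * s)) hbE h3
    omega
  obtain ⟨cS, uS, iS, hW, hW1, hW2, hW3, hW4, hW5⟩ := hwit eS heS
  have hjcS := hjc eS heS cS uS iS hW hW1 hW2 hW3 hW4 hW5
  have hj3 : G.Adj (uS js) (uS (2 * s)) := by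
    rw [hW.last, hW.low js (by omega)]
    exact hj2.symm
  have hspan := hfc uS hW.strip js (2 * s) (by omega) (le_refl _) hj3
  obtain ⟨P, r, hP1, hP2, hP3, hP4, hP5⟩ := hW.strip.run_parity (j := js) (by omega) k
  obtain ⟨hZnd, hZc⟩ := hW.strip.cyc_of_pos hP1 (by omega) hj3.symm
  -- every position from `js` on is a position of `uS`
  have hvu : ∀ i, js ≤ i → i ≤ 2 * s → ∃ j, js ≤ j ∧ j ≤ 2 * s ∧ v i = uS j := by
    intro i h1 h2
    by_cases h3 : i < cS
    · exact ⟨i, h1, h2, (hW.low i h3).symm⟩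
    · obtain ⟨j, h4, h5, h6⟩ := hW.bw i (by omega) h2
      exact ⟨j, by omega, h5, h6⟩
  let Z := P.map uS
  have hvZ : ∀ i, js ≤ i → i ≤ 2 * s → v i ∈ Z ∨ v i = uS r := by
    intro i h1 h2
    obtain ⟨j, h3, h4, h5⟩ := hvu i h1 h2
    rcases hP5 j h3 h4 with h6 | h6
    · left
      rw [h5]
      exact List.mem_map_of_mem h6
    · right
      rw [h5, h6]
  let E' := E.erase (uS r)
  have hE'Z : ∀ e ∈ E', e ∈ Z := by
    intro e he
    rw [Finset.mem_erase] at he
    obtain ⟨c, u, i, h1, h2, h3, h4, h5, h6⟩ := hwit e he.2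
    have h7 := hjc e he.2 c u i h1 h2 h3 h4 h5 h6
    rcases hvZ i (by omega) h5 with h8 | h8
    · rw [h6]
      exact h8
    · exact absurd (h6.trans h8) he.1
  have hE'deg : ∀ e ∈ E', k - a - 2 ≤ dg G.Adj e Z := by
    intro e he
    rw [Finset.mem_erase] at he
    obtain ⟨c, u, i, h1, h2, h3, h4, h5, h6⟩ := hwit e he.2
    have hcount := nbr_count hδ hα hmax' h1.strip v (by
      intro j hj
      by_cases hjc' : j < c
      · exact ⟨j, hj, h1.low j hjc'⟩
      · obtain ⟨i', h7, h8, h9⟩ := h1.fw j (by omega) hj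
        exact ⟨i', h8, h9⟩)
    rw [h1.last] at hcount
    have hsub : ((Finset.range (2 * s + 1)).filter (fun i => G.Adj e (v i))).image v ⊆
        insert (uS r) (Z.toFinset.filter (fun z => G.Adj z e)) := by
      intro x hx
      obtain ⟨i', hi', rfl⟩ := Finset.mem_image.1 hx
      rw [Finset.mem_filter, Finset.mem_range] at hi'
      have h7 := hjmin i' (by omega) e he.2 hi'.2
      rcases hvZ i' h7 (by omega) with h8 | h8
      · apply Finset.mem_insert_of_mem
        rw [Finset.mem_filter, List.mem_toFinset]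
        exact ⟨h8, hi'.2.symm⟩
      · rw [h8]
        exact Finset.mem_insert_self _ _
    have h7 := Finset.card_le_card hsub
    rw [Finset.card_image_of_injOn (by
      intro p hp q hq hpq
      have hp' := (Finset.mem_filter.1 hp).1
      have hq' := (Finset.mem_filter.1 hq).1
      have hp'' := Finset.mem_range.1 hp'
      have hq'' := Finset.mem_range.1 hq'
      exact hv.inj p q (by omega) (by omega) hpq)] at h7
    have h8 := Finset.card_insert_le (uS r) (Z.toFinset.filter (fun z => G.Adj z e))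
    unfold dg
    omega
  have hZlen : Z.length = P.length := by simp [Z]
  have hfinal := lemma_H G hδ hα noC E' Z hE'Z hE'deg (by omega) (k - Z.length) Z (le_refl _)
    hZnd hZc (List.Subset.refl _) (by omega) (by omega)
  have hE'card : E.card ≤ E'.card + 1 := by
    have := Finset.pred_card_le_card_erase (s := E) (a := uS r)
    simp only [E']
    omega
  omega

end main

end Vale.Agent.Lib.P048
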