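import Vale.Agent.Lib.P048.Strip
import Vale.Agent.Lib.P048.Core2

/-!
The far chord lemma for chords with an upper end of even position.
-/

namespace Vale.Agent.Lib.P048

open scoped Classical

variable {V : Type*} {G : SimpleGraph V}

/-- In a strip, with no `k`-cycle and no large independent set, a member of even position and a
member below it that are adjacent are at most `k - 2` positions apart. -/
theorem IsStrip.far_chord2 {u : ℕ → V} {s k a : ℕ} (hu : IsStrip G u s) (hka : 2 * a + 2 ≤ k)
    (hα : ∀ S : Finset V, (∀ x ∈ S, ∀ y ∈ S, ¬ G.Adj x y) → S.card ≤ a)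
    (noC : ∀ l : List V, l.Nodup → Cyc G.Adj l → l.length ≠ k) :
    ∀ p q, p < q → q ≤ 2 * s → q % 2 = 0 → G.Adj (u p) (u q) → q - p + 2 ≤ k := by
  intro p0 q0 hpq0 hq0 hq0e hadj0
  by_contra hcon
  have ha1 : 1 ≤ a := by
    have h := hα {u 0} (by
      intro x hx y hy
      simp only [Finset.mem_singleton] at hx hy
      subst hx hy
      exact G.irrefl)
    simpa using h
  -- a counterexample of minimal span
  have hexP : ∃ d, k ≤ d + 1 ∧ ∃ p q, p + d = q ∧ q ≤ 2 * s ∧ q % 2 = 0 ∧ G.Adj (u p) (u q) :=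
    ⟨q0 - p0, by omega, p0, q0, by omega, hq0, hq0e, hadj0⟩
  obtain ⟨hd, p, q, hpq, hq, hqe, hadj⟩ := Nat.find_spec hexP
  have hmin : ∀ p' q', p' < q' → q' ≤ 2 * s → q' % 2 = 0 → G.Adj (u p') (u q') →
      q' - p' < Nat.find hexP → q' - p' + 2 ≤ k := by
    intro p' q' h1 h2 h2' h3 h4
    by_contra h5
    exact Nat.find_min hexP h4 ⟨by omega, p', q', by omega, h2, h2', h3⟩
  generalize Nat.find hexP = d at hd hpq hmin
  -- the spine between the two ends
  obtain ⟨x0, e1, hx0, he1⟩ : ∃ x0 e1, p + e1 = 2 * x0 ∧ e1 ≤ 1 :=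
    ⟨(p + 1) / 2, (p + 1) / 2 * 2 - p, by omega, by omega⟩
  obtain ⟨L, hL, hL1⟩ : ∃ L, q = 2 * (x0 + (L - 1)) ∧ 1 ≤ L :=
    ⟨(q - 2 * x0) / 2 + 1, by omega, by omega⟩
  have hxL : x0 + L ≤ s + 1 := by omega
  let A : ℕ → ℕ → Prop := fun i j =>
    G.Adj (u (2 * (x0 + i))) (u (2 * (x0 + j))) ∧ 2 * (j - i) + 2 ≤ k
  -- a family of jumps with the right count gives a `k`-cycle
  have hnohit : ∀ T, Vld A L T → L ≤ (k - e1) + skT T →
      2 * L ≤ (k - e1) + 2 * skT T + T.length := by
    intro T hV h1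
    by_contra h2
    obtain ⟨P, hP1, hP2⟩ := hu.jump_run x0 L hxL A (fun i j hij => hij.1) T 0
      ((k - e1) + skT T - L) hV (by omega) (by simp) (by omega)
    -- attach the lower end
    have hstart : ∃ P1, Arc (Rp G u (2 * s)) P1 p (2 * (x0 + (L - 1))) ∧
        P1.length = P.length + e1 := by
      by_cases h : e1 = 0
      · have : p = 2 * (x0 + 0) := by omega
        rw [this]
        exact ⟨P, hP1, by omega⟩
      · have he : e1 = 1 := by omega
        refine ⟨[p] ++ P, (Arc.single p).append ⟨by omega, by omega, ?_⟩ hP1, ?_⟩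
        · exact hu.adj_succ (by omega) (by omega)
        · simp [he]
    obtain ⟨P1, hP3, hP4⟩ := hstart
    rw [← hL] at hP3
    obtain ⟨hn1, hn2⟩ := hu.cyc_of_pos hP3 (by omega) hadj.symm
    apply noC _ hn1 hn2
    rw [List.length_map]
    omega
  have hLk : (k - e1) + 1 ≤ L := by
    by_contra h
    have h1 := hnohit [] ⟨by simp, by simp⟩ (by simp only [skT_nil]; omega)
    simp only [skT_nil, List.length_nil] at h1
    omega
  refine core2 A L k (k - e1) e1 a (by omega) (by omega) (by omega) hLk ?_ ?_ ?_ hnohit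
  · -- unit steps
    intro i hi
    refine ⟨?_, by omega⟩
    exact hu.adj_even (i := x0 + i) (by omega) rfl (by omega)
  · -- the band
    intro i j _ hA
    exact hA.2
  · -- independent sets
    intro I hI1 hI2
    let Y : ℕ → V := fun i => u (2 * (x0 + i))
    have hYinj : Set.InjOn Y (I : Set ℕ) := by
      intro x hx y hy hxy
      have h1 := hI1 x hx
      have h2 := hI1 y hy
      have := hu.inj _ _ (by omega) (by omega) hxy
      omega
    have hfar : ∀ x ∈ I, ∀ y ∈ I, x < y → ¬ G.Adj (Y x) (Y y) := by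
      intro x hx y hy hxy h
      have h1 := hI1 x hx
      have h2 := hI1 y hy
      have h3 := hmin _ _ (by omega) (by omega) (by omega) h (by omega)
      exact hI2 x hx y hy hxy ⟨h, by omega⟩
    have h1 := hα (I.image Y) (by
      intro v hv w hw
      obtain ⟨x, hx, rfl⟩ := Finset.mem_image.1 hv
      obtain ⟨y, hy, rfl⟩ := Finset.mem_image.1 hw
      rcases lt_trichotomy x y with h | h | h
      · exact hfar x hx y hy h
      · subst h
        exact G.irrefl
      · exact fun h' => hfar y hy x hx h h'.symm)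
    rwa [Finset.card_image_of_injOn hYinj] at h1

end Vale.Agent.Lib.P048
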