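import Vale.Agent.Lib.P048.Arc

/-!
Consecutive members of lists and of closed lists.
-/

namespace Vale.Agent.Lib.P048

variable {V : Type*}

/-- `y` comes directly after `x` in the list `l`. -/
def Consec (l : List V) (x y : V) : Prop := ∃ s t, l = s ++ x :: y :: t

/-- `y` comes directly after `x` in the list `l`, read cyclically. -/
def Nb (l : List V) (x y : V) : Prop :=
  Consec l x y ∨ (l.getLast? = some x ∧ l.head? = some y)

/-- `x` and `y` are consecutive in the list `l`, read cyclically, in one of the two orders. -/
def CA (l : List V) (x y : V) : Prop := Nb l x y ∨ Nb l y x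

theorem CA.symm {l : List V} {x y : V} (h : CA l x y) : CA l y x := Or.symm h

theorem Consec.left_mem {l : List V} {x y : V} (h : Consec l x y) : x ∈ l := by
  obtain ⟨s, t, rfl⟩ := h
  simp

theorem Consec.right_mem {l : List V} {x y : V} (h : Consec l x y) : y ∈ l := by
  obtain ⟨s, t, rfl⟩ := h
  simp

theorem consec_append {s t : List V} {x y : V} :
    Consec (s ++ t) x y ↔
      Consec s x y ∨ Consec t x y ∨ (s.getLast? = some x ∧ t.head? = some y) := by
  constructor
  · rintro ⟨s', t', h⟩
    rcases List.append_eq_append_iff.1 h with ⟨a', h1, h2⟩ | ⟨c', h1, h2⟩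
    · exact Or.inr (Or.inl ⟨a', t', h2⟩)
    · cases c' with
      | nil =>
        simp only [List.nil_append] at h2
        subst h2
        simp only [List.append_nil] at h1
        exact Or.inr (Or.inl ⟨[], t', rfl⟩)
      | cons c c'' =>
        simp only [List.cons_append, List.cons.injEq] at h2
        obtain ⟨h3, h4⟩ := h2
        subst h3
        cases c'' with
        | nil =>
          simp only [List.nil_append] at h4
          subst h4
          subst h1
          exact Or.inr (Or.inr ⟨by simp, by simp⟩)
        | cons d d' =>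
          simp only [List.cons_append, List.cons.injEq] at h4
          obtain ⟨h5, h6⟩ := h4
          subst h5
          subst h1
          exact Or.inl ⟨s', d', rfl⟩
  · rintro (⟨s', t', rfl⟩ | ⟨s', t', rfl⟩ | ⟨h1, h2⟩)
    · exact ⟨s', t' ++ t, by simp⟩
    · exact ⟨s ++ s', t', by simp⟩
    · obtain ⟨s', hs⟩ : ∃ s', s = s' ++ [x] := by
        have hne : s ≠ [] := by
          intro h0
          simp [h0] at h1
        refine ⟨s.dropLast, ?_⟩
        have h3 := List.dropLast_append_getLast hne
        have h4 : s.getLast hne = x := by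
          have := List.getLast?_eq_some_getLast hne
          rw [h1] at this
          simpa using this.symm
        rw [h4] at h3
        exact h3.symm
      cases t with
      | nil => simp at h2
      | cons c t' =>
        have : c = y := by simpa using h2
        subst this
        subst hs
        exact ⟨s', t', by simp⟩

theorem consec_reverse {l : List V} {x y : V} (h : Consec l x y) : Consec l.reverse y x := by
  obtain ⟨s, t, rfl⟩ := h
  exact ⟨t.reverse, s.reverse, by simp⟩

theorem nb_append {s t : List V} (hs : s ≠ []) (ht : t ≠ []) {x y : V} :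
    Nb (s ++ t) x y ↔ Consec s x y ∨ Consec t x y ∨ (s.getLast? = some x ∧ t.head? = some y) ∨
      (t.getLast? = some x ∧ s.head? = some y) := by
  have h1 : (s ++ t).getLast? = t.getLast? := by
    rw [List.getLast?_append]
    cases hl : t.getLast? with
    | none =>
      rw [List.getLast?_eq_none_iff] at hl
      exact absurd hl ht
    | some u => rfl
  have h2 : (s ++ t).head? = s.head? := by
    rw [List.head?_append]
    cases hl : s.head? with
    | none =>
      rw [List.head?_eq_none_iff] at hl
      exact absurd hl hs
    | some u => rfl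
  unfold Nb
  rw [consec_append, h1, h2]
  tauto

theorem nb_swap {s t : List V} {x y : V} (h : Nb (s ++ t) x y) : Nb (t ++ s) x y := by
  by_cases hs : s = []
  · subst hs
    simpa using h
  by_cases ht : t = []
  · subst ht
    simpa using h
  rw [nb_append hs ht] at h
  rw [nb_append ht hs]
  tauto

theorem nb_rot {l l' : List V} {x y : V} (hr : l' ~r l) (h : Nb l' x y) : Nb l x y := by
  obtain ⟨n, rfl⟩ := hr
  rw [List.rotate_eq_drop_append_take_mod]
  have h2 : l' = List.take (n % l'.length) l' ++ List.drop (n % l'.length) l' :=
    (List.take_append_drop _ _).symm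
  rw [h2] at h
  exact nb_swap h

theorem nb_reverse {l : List V} {x y : V} (h : Nb l x y) : Nb l.reverse y x := by
  rcases h with h | ⟨h1, h2⟩
  · exact Or.inl (consec_reverse h)
  · refine Or.inr ⟨?_, ?_⟩
    · rw [List.getLast?_reverse]
      exact h2
    · rw [List.head?_reverse]
      exact h1

theorem ca_reverse {l : List V} {x y : V} (h : CA l x y) : CA l.reverse x y := by
  rcases h with h | h
  · exact Or.inr (nb_reverse h)
  · exact Or.inl (nb_reverse h)

theorem Nb.left_mem {l : List V} {x y : V} (h : Nb l x y) : x ∈ l := by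
  rcases h with h | ⟨h1, _⟩
  · exact h.left_mem
  · exact List.mem_of_getLast? h1

theorem Nb.right_mem {l : List V} {x y : V} (h : Nb l x y) : y ∈ l := by
  rcases h with h | ⟨_, h2⟩
  · exact h.right_mem
  · exact List.mem_of_mem_head? h2

theorem nb_head {e : V} {m : List V} {f : V} (hnd : (e :: m).Nodup) (h : Nb (e :: m) f e) :
    (e :: m).getLast? = some f := by
  rcases h with ⟨s, t, h⟩ | ⟨h1, _⟩
  · exfalso
    have hem : e ∉ m := (List.nodup_cons.1 hnd).1
    cases s with
    | nil =>
      simp only [List.nil_append, List.cons.injEq] at h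
      apply hem
      rw [h.2]
      simp
    | cons c s' =>
      simp only [List.cons_append, List.cons.injEq] at h
      apply hem
      rw [h.2]
      simp
  · exact h1

/-- The member before a given one is unique. -/
theorem nb_pred_unique {l : List V} {f f' e : V} (hnd : l.Nodup) (h : Nb l f e) (h' : Nb l f' e) :
    f = f' := by
  have hmem := h.right_mem
  obtain ⟨s, t, rfl⟩ := List.append_of_mem hmem
  have h1 : Nb ((e :: t) ++ s) f e := nb_swap h
  have h2 : Nb ((e :: t) ++ s) f' e := nb_swap h'
  have hnd2 : ((e :: t) ++ s).Nodup := (List.perm_append_comm.nodup_iff).1 hnd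
  have h3 := nb_head hnd2 h1
  have h4 := nb_head hnd2 h2
  rw [h3] at h4
  simpa using h4

/-- The member after a given one is unique. -/
theorem nb_succ_unique {l : List V} {f e e' : V} (hnd : l.Nodup) (h : Nb l f e) (h' : Nb l f e') :
    e = e' :=
  nb_pred_unique (List.nodup_reverse.2 hnd) (nb_reverse h) (nb_reverse h')

theorem IsPred.nb {R : V → V → Prop} {Z : List V} {f e : V} (h : IsPred R Z f e) : Nb Z f e := by
  obtain ⟨l, h1, h2, _⟩ := h
  exact nb_rot h1 (Or.inr ⟨h2.2.2, h2.2.1⟩)

theorem consec_triple {l : List V} {a h b : V} (hnd : l.Nodup) (h1 : Consec l a h)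
    (h2 : Consec l h b) : ∃ P Q, l = P ++ a :: h :: b :: Q := by
  obtain ⟨P, t, rfl⟩ := h1
  have e : P ++ a :: h :: t = (P ++ [a]) ++ (h :: t) := by simp
  have hnd' : ((P ++ [a]) ++ (h :: t)).Nodup := by rwa [← e]
  have hdisj := List.disjoint_of_nodup_append hnd'
  have hht : h ∉ t := (List.nodup_cons.1 (List.nodup_append.1 hnd').2.1).1
  rw [e, consec_append] at h2
  rcases h2 with h2 | h2 | ⟨h3, _⟩
  · exact absurd (by simp) (hdisj h2.left_mem)
  · obtain ⟨s', t', h3⟩ := h2
    cases s' with
    | nil =>
      simp only [List.nil_append, List.cons.injEq, true_and] at h3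
      subst h3
      exact ⟨P, t', rfl⟩
    | cons c s'' =>
      simp only [List.cons_append, List.cons.injEq] at h3
      apply absurd _ hht
      rw [h3.2]
      simp
  · have : a = h := by simpa using h3
    subst this
    exact absurd (by simp) (hdisj (show a ∈ P ++ [a] by simp))

theorem consec_skip {P Q : List V} {a h b p q : V} (hc : Consec (P ++ a :: h :: b :: Q) p q)
    (hp : p ≠ h) (hq : q ≠ h) : Consec (P ++ a :: b :: Q) p q := by
  have e1 : P ++ a :: h :: b :: Q = (P ++ [a]) ++ (h :: b :: Q) := by simp
  have e2 : P ++ a :: b :: Q = (P ++ [a]) ++ (b :: Q) := by simp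
  rw [e1, consec_append] at hc
  rw [e2, consec_append]
  rcases hc with hc | hc | ⟨_, h2⟩
  · exact Or.inl hc
  · obtain ⟨s, t, h1⟩ := hc
    cases s with
    | nil =>
      simp only [List.nil_append, List.cons.injEq] at h1
      exact absurd h1.1.symm hp
    | cons c s' =>
      simp only [List.cons_append, List.cons.injEq] at h1
      exact Or.inr (Or.inl ⟨s', t, h1.2⟩)
  · exfalso
    apply hq
    simpa using h2.symm

theorem skip_arc {R : V → V → Prop} {P Q : List V} {a h b c d : V}
    (hA : Arc R (P ++ a :: h :: b :: Q) c d) (hab : R a b) : Arc R (P ++ a :: b :: Q) c d := by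
  have e1 : P ++ a :: h :: b :: Q = (P ++ [a]) ++ (h :: b :: Q) := by simp
  have e2 : P ++ a :: b :: Q = (P ++ [a]) ++ (b :: Q) := by simp
  rw [e1] at hA
  rw [e2]
  obtain ⟨c1, d1, h1, h2, _⟩ := hA.unappend (by simp) (by simp)
  have hc1 : c1 = a := by
    have := h1.2.2
    simpa using this.symm
  subst hc1
  refine h1.append hab ⟨?_, rfl, ?_⟩
  · have := h2.1
    rw [List.isChain_cons_cons] at this
    exact this.2
  · have := h2.2.2
    rw [List.getLast?_cons_cons] at this
    exact this

end Vale.Agent.Lib.P048
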