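import Vale.Agent.Lib.P048.Dense
import Vale.Agent.Lib.P048.Far
import Vale.Agent.Lib.P048.Hub

/-!
The minimum degree theorem in the range `k ≥ 2 a + 4`.
-/

namespace Vale.Agent.Lib.P048

open scoped Classical

variable {V : Type*} {G : SimpleGraph V}

/-- Full runs with their consecutive positions. -/
theorem IsStrip.full_run2 {u : ℕ → V} {s : ℕ} (hu : IsStrip G u s) (j : ℕ) :
    ∀ n, j + n ≤ 2 * s → ∃ P, Arc (Rp G u (2 * s)) P j (j + n) ∧ P.length = n + 1 ∧
      (∀ x, x ∈ P ↔ j ≤ x ∧ x ≤ j + n) ∧ (∀ x, j ≤ x → x < j + n → Consec P x (x + 1)) := by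
  intro n
  induction n with
  | zero =>
    intro _
    refine ⟨[j], Arc.single _, rfl, ?_, ?_⟩
    · intro x
      simp only [List.mem_singleton]
      omega
    · intro x h1 h2
      omega
  | succ n ih =>
    intro h
    obtain ⟨P, h1, h2, h3, h4⟩ := ih (by omega)
    refine ⟨P ++ [j + (n + 1)], h1.append ⟨by omega, by omega, hu.adj_succ (by omega) (by omega)⟩
      (Arc.single _), by simp [h2], ?_, ?_⟩
    · intro x
      simp only [List.mem_append, h3, List.mem_singleton]
      omega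
    · intro x h5 h6
      rw [consec_append]
      by_cases h7 : x < j + n
      · exact Or.inl (h4 x h5 h7)
      · have h8 : x = j + n := by omega
        subst h8
        refine Or.inr (Or.inr ⟨h1.2.2, ?_⟩)
        simp
        omega

/-- A route over all positions from `j` on except possibly one position `r`, of the parity of
`k`. -/
theorem IsStrip.run_parity2 {u : ℕ → V} {s : ℕ} (hu : IsStrip G u s) {j : ℕ} (hj : j + 2 ≤ 2 * s)
    (k : ℕ) : ∃ P r, Arc (Rp G u (2 * s)) P j (2 * s) ∧ P.length % 2 = k % 2 ∧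
      P.length ≤ 2 * s - j + 1 ∧ 2 * s - j ≤ P.length ∧ (∀ x ∈ P, j ≤ x ∧ x ≤ 2 * s) ∧
      r % 2 = 1 ∧ r ≤ j + 2 ∧ (∀ x, j ≤ x → x ≤ 2 * s → x ≠ r → x ∈ P) ∧
      (∀ x, j ≤ x → x + 1 ≤ 2 * s → x ≠ r → x + 1 ≠ r → Consec P x (x + 1)) := by
  obtain ⟨z, hz1, hz2, hz3⟩ : ∃ z, j ≤ 2 * z ∧ 2 * z + 2 ≤ 2 * s ∧ 2 * z + 1 ≤ j + 2 :=
    ⟨(j + 1) / 2, by omega, by omega, by omega⟩
  by_cases hpar : (2 * s - j + 1) % 2 = k % 2
  · obtain ⟨P, h1, h2, h3, h4⟩ := hu.full_run2 j (2 * s - j) (by omega)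
    rw [show j + (2 * s - j) = 2 * s by omega] at h1 h3 h4
    refine ⟨P, 2 * z + 1, h1, by omega, by omega, by omega, ?_, by omega, hz3, ?_, ?_⟩
    · intro x hx
      have := (h3 x).1 hx
      omega
    · intro x hx1 hx2 _
      exact (h3 x).2 ⟨hx1, hx2⟩
    · intro x hx1 hx2 _ _
      exact h4 x hx1 (by omega)
  · obtain ⟨P1, h1, h2, h3, h4⟩ := hu.full_run2 j (2 * z - j) (by omega)
    rw [show j + (2 * z - j) = 2 * z by omega] at h1 h3 h4
    obtain ⟨P2, h5, h6, h7, h8⟩ := hu.full_run2 (2 * z + 2) (2 * s - (2 * z + 2)) (by omega)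
    rw [show 2 * z + 2 + (2 * s - (2 * z + 2)) = 2 * s by omega] at h5 h7 h8
    refine ⟨P1 ++ P2, 2 * z + 1, h1.append ⟨by omega, by omega, ?_⟩ h5, ?_, ?_, ?_, ?_, by omega,
      hz3, ?_, ?_⟩
    · exact hu.adj_even (i := z) (by omega) rfl rfl
    · rw [List.length_append]
      omega
    · rw [List.length_append]
      omega
    · rw [List.length_append]
      omega
    · intro x hx
      rcases List.mem_append.1 hx with hx | hx
      · have := (h3 x).1 hx
        omega
      · have := (h7 x).1 hx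
        omega
    · intro x hx1 hx2 hx3
      by_cases hx4 : x ≤ 2 * z
      · exact List.mem_append_left _ ((h3 x).2 ⟨hx1, hx4⟩)
      · exact List.mem_append_right _ ((h7 x).2 ⟨by omega, hx2⟩)
    · intro x hx1 hx2 hx3 hx4
      rw [consec_append]
      by_cases hx5 : x < 2 * z
      · exact Or.inl (h4 x hx1 hx5)
      · exact Or.inr (Or.inl (h8 x (by omega) (by omega)))

/-- `x` is one of the two members of the strip `v` at the positions `2 z + 2`, `2 z + 3`. -/
def InPair (v : ℕ → V) (z : ℕ) (x : V) : Prop := x = v (2 * z + 2) ∨ x = v (2 * z + 3)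

/-- Every pair of the strip `v` appears in `u` at neighbouring positions, the odd one below the
top position. -/
def PP (u v : ℕ → V) (s : ℕ) : Prop :=
  ∀ z, z + 2 ≤ s → ∃ j, j % 2 = 1 ∧ j + 1 ≤ 2 * s ∧ InPair v z (u j) ∧
    (InPair v z (u (j - 1)) ∨ InPair v z (u (j + 1)))

theorem pp_self (v : ℕ → V) (s : ℕ) : PP v v s := by
  intro z hz
  refine ⟨2 * z + 3, by omega, by omega, Or.inr rfl, Or.inl (Or.inl ?_)⟩
  rw [show 2 * z + 3 - 1 = 2 * z + 2 by omega]

theorem pp_rot (v : ℕ → V) (s y : ℕ) (hy : y + 2 ≤ s) : PP (rot v (2 * s) (2 * y + 2)) v s := by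
  intro z hz
  unfold rot
  by_cases h : 2 * z + 3 < 2 * y + 2
  · refine ⟨2 * z + 3, by omega, by omega, Or.inr ?_, Or.inl (Or.inl ?_)⟩
    · rw [if_pos h]
    · rw [if_pos (by omega)]
      rw [show 2 * z + 3 - 1 = 2 * z + 2 by omega]
  · refine ⟨2 * s + (2 * y + 2) - (2 * z + 3), by omega, by omega, Or.inr ?_, Or.inr (Or.inl ?_)⟩
    · rw [if_neg (by omega)]
      congr 1
      omega
    · rw [if_neg (by omega)]
      congr 1
      omega

theorem pp_swp (v : ℕ → V) (s y : ℕ) (hy : y + 2 ≤ s) :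
    PP (swp (rot v (2 * s) (2 * y + 2)) (2 * s)) v s := by
  intro z hz
  unfold swp rot
  by_cases h : 2 * z + 3 < 2 * y + 2
  · refine ⟨2 * z + 3, by omega, by omega, Or.inr ?_, Or.inl (Or.inl ?_)⟩
    · rw [if_neg (by omega), if_neg (by omega), if_pos h]
    · rw [if_neg (by omega), if_neg (by omega), if_pos (by omega)]
      rw [show 2 * z + 3 - 1 = 2 * z + 2 by omega]
  · by_cases h2 : z = y
    · subst h2
      refine ⟨2 * s - 1, by omega, by omega, Or.inl ?_, Or.inr (Or.inr ?_)⟩
      · rw [if_neg (by omega), if_pos rfl, if_neg (by omega)]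
        congr 1
        omega
      · rw [show 2 * s - 1 + 1 = 2 * s by omega, if_pos rfl, if_neg (by omega)]
        congr 1
        omega
    · refine ⟨2 * s + (2 * y + 2) - (2 * z + 3), by omega, by omega, Or.inr ?_, Or.inr (Or.inl ?_)⟩
      · rw [if_neg (by omega), if_neg (by omega), if_neg (by omega)]
        congr 1
        omega
      · rw [if_neg (by omega), if_neg (by omega), if_neg (by omega)]
        congr 1
        omega

section main

variable [Fintype V] {k a : ℕ}

/-- The minimum degree theorem for `k ≥ 2 a + 4`. -/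
theorem thmB [Nonempty V] (G : SimpleGraph V) (hka : 2 * a + 4 ≤ k)
    (hδ : ∀ v, k ≤ (Finset.univ.filter (G.Adj v)).card + 1)
    (hα : ∀ S : Finset V, (∀ x ∈ S, ∀ y ∈ S, ¬ G.Adj x y) → S.card ≤ a) :
    ∃ l : List V, l.Nodup ∧ Cyc G.Adj l ∧ l.length = k := by
  by_contra hno
  have noC : ∀ l : List V, l.Nodup → Cyc G.Adj l → l.length ≠ k :=
    fun l h1 h2 h3 => hno ⟨l, h1, h2, h3⟩
  obtain ⟨s, v, hv, hmax⟩ := exists_max_strip G
  have hmax' : ∀ u', ¬ IsStrip G u' (s + 1) := fun u' h => by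
    have := hmax _ _ h
    omega
  have hfc : ∀ u, IsStrip G u s → ∀ p q, p < q → q ≤ 2 * s → q % 2 = 0 → G.Adj (u p) (u q) →
      q - p + 2 ≤ k := fun u hu => hu.far_chord2 (by omega) hα noC
  have hnb := nbr_count hδ hα hmax' hv v (fun j hj => ⟨j, hj, rfl⟩)
  -- positions of neighbours of the end, in blocks of two
  let O := (Finset.range s).filter (fun z => G.Adj (v (2 * s)) (v (2 * z + 1)))
  let Ev := (Finset.range s).filter (fun z => G.Adj (v (2 * s)) (v (2 * z)))
  have hNsub : (Finset.range (2 * s + 1)).filter (fun i => G.Adj (v (2 * s)) (v i)) ⊆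
      O.image (fun z => 2 * z + 1) ∪ Ev.image (fun z => 2 * z) := by
    intro i hi
    rw [Finset.mem_filter, Finset.mem_range] at hi
    obtain ⟨hi1, hi2⟩ := hi
    have hi3 : i ≠ 2 * s := by
      intro h
      subst h
      exact G.irrefl hi2
    rw [Finset.mem_union, Finset.mem_image, Finset.mem_image]
    rcases Nat.even_or_odd' i with ⟨z, hz | hz⟩
    · right
      subst hz
      refine ⟨z, ?_, rfl⟩
      simp only [Ev, Finset.mem_filter, Finset.mem_range]
      exact ⟨by omega, hi2⟩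
    · left
      subst hz
      refine ⟨z, ?_, rfl⟩
      simp only [O, Finset.mem_filter, Finset.mem_range]
      exact ⟨by omega, hi2⟩
  have hNcard : ((Finset.range (2 * s + 1)).filter (fun i => G.Adj (v (2 * s)) (v i))).card ≤
      O.card + Ev.card := by
    refine le_trans (Finset.card_le_card hNsub) (le_trans (Finset.card_union_le _ _) ?_)
    exact Nat.add_le_add Finset.card_image_le Finset.card_image_le
  let F := O ∩ Ev
  let F' := F.erase (s - 1)
  have hF' : F.card ≤ F'.card + 1 := by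
    have := Finset.pred_card_le_card_erase (s := F) (a := s - 1)
    simp only [F']
    omega
  have hF'mem : ∀ z ∈ F', z + 2 ≤ s ∧ G.Adj (v (2 * s)) (v (2 * z)) ∧
      G.Adj (v (2 * s)) (v (2 * z + 1)) := by
    intro z hz
    simp only [F', F, O, Ev, Finset.mem_erase, Finset.mem_inter, Finset.mem_filter,
      Finset.mem_range] at hz
    exact ⟨by omega, hz.2.2.2, hz.2.1.2⟩
  have hs1 : 1 ≤ s := by
    by_contra h0
    have h1 : s = 0 := by omega
    subst h1
    have : ((Finset.range (2 * 0 + 1)).filter (fun i => G.Adj (v (2 * 0)) (v i))) = ∅ := by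
      apply Finset.filter_eq_empty_iff.2
      intro i hi
      have hi' := Finset.mem_range.1 hi
      have hi0 : i = 0 := by omega
      subst hi0
      exact G.irrefl
    rw [this] at hnb
    simp only [Finset.card_empty] at hnb
    omega
  -- the set of possible ends
  let PosE : Finset ℕ :=
    insert (2 * s) (F'.image (fun z => 2 * z + 2) ∪ F'.image (fun z => 2 * z + 3))
  let E := PosE.image v
  have hPosle : ∀ i ∈ PosE, i ≤ 2 * s := by
    intro i hi
    simp only [PosE, Finset.mem_insert, Finset.mem_union, Finset.mem_image] at hi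
    rcases hi with h | ⟨z, hz, rfl⟩ | ⟨z, hz, rfl⟩
    · omega
    · have := (hF'mem z hz).1
      omega
    · have := (hF'mem z hz).1
      omega
  have hbE : v (2 * s) ∈ E := by
    simp only [E, PosE]
    exact Finset.mem_image_of_mem _ (Finset.mem_insert_self _ _)
  have hpairE : ∀ z ∈ F', ∀ x, InPair v z x → x ∈ E := by
    intro z hz x hx
    simp only [E, PosE]
    rcases hx with rfl | rfl
    · exact Finset.mem_image_of_mem _ (Finset.mem_insert_of_mem (Finset.mem_union_left _
        (Finset.mem_image_of_mem _ hz)))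
    · exact Finset.mem_image_of_mem _ (Finset.mem_insert_of_mem (Finset.mem_union_right _
        (Finset.mem_image_of_mem _ hz)))
  have hbt : G.Adj (v (2 * s)) (v (2 * s - 1)) :=
    (hv.adj_succ (a := 2 * s - 1) (by omega) (le_refl _)).symm
  have hwit : ∀ e ∈ E, ∃ c u i, Wit G v s e c u ∧ 2 ≤ c ∧ G.Adj (v (2 * s)) (v (c - 2)) ∧ c ≤ i ∧
      i ≤ 2 * s ∧ e = v i ∧ c % 2 = 0 ∧ PP u v s := by
    intro e he
    obtain ⟨i, hi, rfl⟩ := Finset.mem_image.1 he
    simp only [PosE, Finset.mem_insert, Finset.mem_union, Finset.mem_image] at hi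
    rcases hi with h | ⟨z, hz, rfl⟩ | ⟨z, hz, rfl⟩
    · subst h
      refine ⟨2 * s, v, 2 * s, wit_self hv, by omega, ?_, by omega, by omega, rfl, by omega,
        pp_self v s⟩
      exact (hv.adj_even (i := s - 1) (by omega) (by omega) (by omega)).symm
    · obtain ⟨h1, h2, h3⟩ := hF'mem z hz
      refine ⟨2 * z + 2, _, 2 * z + 2, wit_rot hv h1 h2 h3, by omega, ?_, by omega, by omega, rfl,
        by omega, pp_rot v s z h1⟩
      rw [show 2 * z + 2 - 2 = 2 * z by omega]
      exact h2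
    · obtain ⟨h1, h2, h3⟩ := hF'mem z hz
      refine ⟨2 * z + 2, _, 2 * z + 3, wit_swp hv h1 h2 h3, by omega, ?_, by omega, by omega, rfl,
        by omega, pp_swp v s z h1⟩
      rw [show 2 * z + 2 - 2 = 2 * z by omega]
      exact h2
  -- the lowest position seen from the set of possible ends
  have hjex : ∃ j, j ≤ 2 * s ∧ ∃ e ∈ E, G.Adj e (v j) :=
    ⟨2 * s - 1, by omega, v (2 * s), hbE, hbt⟩
  obtain ⟨hj1, eS, heS, hj2⟩ := Nat.find_spec hjex
  have hjmin : ∀ j, j ≤ 2 * s → ∀ e ∈ E, G.Adj e (v j) → Nat.find hjex ≤ j :=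
    fun j h1 e he h2 => Nat.find_min' hjex ⟨h1, e, he, h2⟩
  generalize Nat.find hjex = js at hj1 hj2 hjmin
  have hjc : ∀ e ∈ E, ∀ c u i, Wit G v s e c u → 2 ≤ c → G.Adj (v (2 * s)) (v (c - 2)) → c ≤ i →
      i ≤ 2 * s → e = v i → js + 2 ≤ c := by
    intro e _ c u i _ h2 h3 h4 h5 _
    have := hjmin (c - 2) (by omega) (v (2 * s)) hbE h3
    omega
  obtain ⟨cS, uS, iS, hW, hW1, hW2, hW3, hW4, hW5, hW6, hW7⟩ := hwit eS heS
  have hjcS := hjc eS heS cS uS iS hW hW1 hW2 hW3 hW4 hW5
  have hj3 : G.Adj (uS js) (uS (2 * s)) := by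
    rw [hW.last, hW.low js (by omega)]
    exact hj2.symm
  have hspan := hfc uS hW.strip js (2 * s) (by omega) (le_refl _) (by omega) hj3
  obtain ⟨P, r, hP1, hP2, hP3, hP3', hP4, hr1, hr2, hP5, hP6⟩ :=
    hW.strip.run_parity2 (j := js) (by omega) k
  obtain ⟨hZnd, hZc⟩ := hW.strip.cyc_of_pos hP1 (by omega) hj3.symm
  have hrc : r < cS := by omega
  have hur : uS r = v r := hW.low r hrc
  -- every position from `js` on is a position of `uS`
  have hvu : ∀ i, js ≤ i → i ≤ 2 * s → ∃ j, js ≤ j ∧ j ≤ 2 * s ∧ v i = uS j := by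
    intro i h1 h2
    by_cases h3 : i < cS
    · exact ⟨i, h1, h2, (hW.low i h3).symm⟩
    · obtain ⟨j, h4, h5, h6⟩ := hW.bw i (by omega) h2
      exact ⟨j, by omega, h5, h6⟩
  let Z := P.map uS
  have hZmem : ∀ j, js ≤ j → j ≤ 2 * s → j ≠ r → uS j ∈ Z := fun j h1 h2 h3 =>
    List.mem_map_of_mem (hP5 j h1 h2 h3)
  have hvZ : ∀ i, js ≤ i → i ≤ 2 * s → v i ∈ Z ∨ v i = uS r := by
    intro i h1 h2
    obtain ⟨j, h3, h4, h5⟩ := hvu i h1 h2
    by_cases h6 : j = r
    · right
      rw [h5, h6]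
    · left
      rw [h5]
      exact hZmem j h3 h4 h6
  let ρ := uS r
  let E0 := E.erase ρ
  have hE0Z : ∀ e ∈ E0, e ∈ Z := by
    intro e he
    rw [Finset.mem_erase] at he
    obtain ⟨c, u, i, h1, h2, h3, h4, h5, h6, _, _⟩ := hwit e he.2
    have h7 := hjc e he.2 c u i h1 h2 h3 h4 h5 h6
    rcases hvZ i (by omega) h5 with h8 | h8
    · rw [h6]
      exact h8
    · exact absurd (h6.trans h8) he.1
  have hE0deg : ∀ e ∈ E0, k - a - 2 ≤ dg G.Adj e Z := by
    intro e he
    rw [Finset.mem_erase] at he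
    obtain ⟨c, u, i, h1, h2, h3, h4, h5, h6, _, _⟩ := hwit e he.2
    have hcount := nbr_count hδ hα hmax' h1.strip v (by
      intro j hj
      by_cases hjc' : j < c
      · exact ⟨j, hj, h1.low j hjc'⟩
      · obtain ⟨i', h7, h8, h9⟩ := h1.fw j (by omega) hj
        exact ⟨i', h8, h9⟩)
    rw [h1.last] at hcount
    have hsub : ((Finset.range (2 * s + 1)).filter (fun i => G.Adj e (v i))).image v ⊆
        insert (uS r) (Z.toFinset.filter (fun z => G.Adj z e)) := by
      intro x hx
      obtain ⟨i', hi', rfl⟩ := Finset.mem_image.1 hx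
      rw [Finset.mem_filter, Finset.mem_range] at hi'
      have h7 := hjmin i' (by omega) e he.2 hi'.2
      rcases hvZ i' h7 (by omega) with h8 | h8
      · apply Finset.mem_insert_of_mem
        rw [Finset.mem_filter, List.mem_toFinset]
        exact ⟨h8, hi'.2.symm⟩
      · rw [h8]
        exact Finset.mem_insert_self _ _
    have h7 := Finset.card_le_card hsub
    rw [Finset.card_image_of_injOn (by
      intro p hp q hq hpq
      have hp' := (Finset.mem_filter.1 hp).1
      have hq' := (Finset.mem_filter.1 hq).1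
      have hp'' := Finset.mem_range.1 hp'
      have hq'' := Finset.mem_range.1 hq'
      exact hv.inj p q (by omega) (by omega) hpq)] at h7
    have h8 := Finset.card_insert_le (uS r) (Z.toFinset.filter (fun z => G.Adj z e))
    unfold dg
    omega
  have hE0out : ∀ e ∈ E0, ∀ y y', G.Adj e y → G.Adj e y' → y ∉ Z → y' ∉ Z → y ≠ ρ → y' ≠ ρ →
      ¬ G.Adj y y' := by
    intro e he y y' h1 h2 h3 h4 h5 h6 hyy
    rw [Finset.mem_erase] at he
    obtain ⟨c, u, i, hw, _, _, _, h7, _, _, _⟩ := hwit e he.2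
    have hnotv : ∀ x, G.Adj e x → x ∉ Z → x ≠ ρ → ∀ j, j ≤ 2 * s → u j ≠ x := by
      intro x hx hxZ hxρ j hj hjx
      have hvx : ∃ i', i' ≤ 2 * s ∧ x = v i' := by
        by_cases hjc' : j < c
        · exact ⟨j, hj, by rw [← hjx]; exact hw.low j hjc'⟩
        · obtain ⟨i', _, h8, h9⟩ := hw.fw j (by omega) hj
          exact ⟨i', h8, by rw [← hjx]; exact h9⟩
      obtain ⟨i', h8, rfl⟩ := hvx
      have h9 := hjmin i' h8 e he.2 hx
      rcases hvZ i' h9 h8 with h10 | h10
      · exact hxZ h10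
      · exact hxρ h10
    obtain ⟨u', hu'⟩ := hw.strip.extend (hnotv y h1 h3 h5) (hnotv y' h2 h4 h6) hyy
      (by rw [hw.last]; exact h1) (by rw [hw.last]; exact h2)
    exact hmax' u' hu'
  -- the hubs
  let J := (Finset.range (2 * s + 1)).filter (fun j => j % 2 = 1 ∧ j + 1 ≤ 2 * s ∧ js + 2 ≤ j ∧
    j ≠ r ∧ uS j ∈ E ∧ (uS (j - 1) ∈ E ∨ uS (j + 1) ∈ E))
  let Live := J.image uS
  have hJmem : ∀ j ∈ J, j % 2 = 1 ∧ j + 1 ≤ 2 * s ∧ js + 2 ≤ j ∧ j ≠ r ∧ uS j ∈ E ∧
      (uS (j - 1) ∈ E ∨ uS (j + 1) ∈ E) := fun j hj => (Finset.mem_filter.1 hj).2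
  have hLivecard : Live.card = J.card := by
    apply Finset.card_image_of_injOn
    intro x hx y hy hxy
    have h1 := hJmem x hx
    have h2 := hJmem y hy
    exact hW.strip.inj x y (by omega) (by omega) hxy
  have huinj : ∀ x y, x ≤ 2 * s → y ≤ 2 * s → uS x = uS y → x = y := hW.strip.inj
  have hneρ : ∀ j, j ≤ 2 * s → j ≠ r → uS j ≠ ρ := fun j h1 h2 h3 =>
    h2 (huinj j r h1 (by omega) h3)
  have hLiveE0 : Live ⊆ E0 := by
    intro x hx
    obtain ⟨j, hj, rfl⟩ := Finset.mem_image.1 hx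
    obtain ⟨h1, h2, h3, h4, h5, _⟩ := hJmem j hj
    exact Finset.mem_erase.2 ⟨hneρ j (by omega) h4, h5⟩
  have heven_notLive : ∀ i, i ≤ 2 * s → i % 2 = 0 → uS i ∉ Live := by
    intro i hi hi2 hin
    obtain ⟨j, hj, hij⟩ := Finset.mem_image.1 hin
    obtain ⟨h1, h2, _⟩ := hJmem j hj
    have := huinj j i (by omega) hi hij
    omega
  have hLiveOK : LiveOK G E0 Live Z := by
    intro h hh
    obtain ⟨j, hj, rfl⟩ := Finset.mem_image.1 hh
    obtain ⟨h1, h2, h3, h4, h5, h6⟩ := hJmem j hj
    obtain ⟨i, hi⟩ : ∃ i, j = 2 * i + 1 := ⟨j / 2, by omega⟩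
    subst hi
    have hadj : G.Adj (uS (2 * i)) (uS (2 * i + 2)) := hW.strip.adj_even (i := i) (by omega) rfl rfl
    have hne : uS (2 * i) ≠ uS (2 * i + 2) := G.ne_of_adj hadj
    have hc1 : CA Z (uS (2 * i)) (uS (2 * i + 1)) := by
      left
      left
      obtain ⟨s1, t1, e1⟩ := hP6 (2 * i) (by omega) (by omega) (by omega) (by omega)
      refine ⟨s1.map uS, t1.map uS, ?_⟩
      simp only [Z]
      rw [e1]
      simp
    have hc2 : CA Z (uS (2 * i + 1)) (uS (2 * i + 2)) := by
      left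
      left
      obtain ⟨s1, t1, e1⟩ := hP6 (2 * i + 1) (by omega) (by omega) (by omega) (by omega)
      refine ⟨s1.map uS, t1.map uS, ?_⟩
      simp only [Z]
      rw [e1]
      simp
    rw [show 2 * i + 1 - 1 = 2 * i by omega, show 2 * i + 1 + 1 = 2 * i + 2 by omega] at h6
    rcases h6 with h6 | h6
    · exact ⟨uS (2 * i), uS (2 * i + 2), Finset.mem_erase.2 ⟨hneρ _ (by omega) (by omega), h6⟩,
        heven_notLive _ (by omega) (by omega), heven_notLive _ (by omega) (by omega), hne, hadj,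
        hc1, hc2⟩
    · exact ⟨uS (2 * i + 2), uS (2 * i), Finset.mem_erase.2 ⟨hneρ _ (by omega) (by omega), h6⟩,
        heven_notLive _ (by omega) (by omega), heven_notLive _ (by omega) (by omega), hne.symm,
        hadj.symm, hc2.symm, hc1.symm⟩
  -- the number of hubs
  have hF'low : ∀ z ∈ F', js ≤ 2 * z := fun z hz =>
    hjmin (2 * z) (by have := (hF'mem z hz).1; omega) (v (2 * s)) hbE (hF'mem z hz).2.1
  have hpos : ∀ z ∈ F', ∃ j ∈ J, InPair v z (uS j) := by
    intro z hz
    obtain ⟨hz1, _, _⟩ := hF'mem z hz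
    obtain ⟨j, h1, h2, h3, h4⟩ := hW7 z hz1
    have hzl := hF'low z hz
    have hlow : js + 2 ≤ j := by
      by_cases hjc' : j < cS
      · rw [hW.low j hjc'] at h3
        rcases h3 with h3 | h3
        · have := hv.inj _ _ (by omega) (by omega) h3
          omega
        · have := hv.inj _ _ (by omega) (by omega) h3
          omega
      · omega
    have hjr : j ≠ r := by
      intro h
      subst h
      rw [hur] at h3
      rcases h3 with h3 | h3
      · have := hv.inj _ _ (by omega) (by omega) h3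
        omega
      · have := hv.inj _ _ (by omega) (by omega) h3
        omega
    refine ⟨j, Finset.mem_filter.2 ⟨Finset.mem_range.2 (by omega), h1, h2, hlow, hjr,
      hpairE z hz _ h3, ?_⟩, h3⟩
    rcases h4 with h4 | h4
    · exact Or.inl (hpairE z hz _ h4)
    · exact Or.inr (hpairE z hz _ h4)
  choose! jf hjf1 hjf2 using hpos
  have hJcard : F'.card ≤ J.card := by
    apply Finset.card_le_card_of_injOn jf
    · intro z hz
      exact hjf1 z hz
    · intro z hz z' hz' hzz
      have h1 := hjf2 z hz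
      have h2 := hjf2 z' hz'
      have hz1 := (hF'mem z hz).1
      have hz2 := (hF'mem z' hz').1
      rw [← hzz] at h2
      rcases h1 with h1 | h1 <;> rcases h2 with h2 | h2
      · have := hv.inj _ _ (by omega) (by omega) (h1.symm.trans h2)
        omega
      · have := hv.inj _ _ (by omega) (by omega) (h1.symm.trans h2)
        omega
      · have := hv.inj _ _ (by omega) (by omega) (h1.symm.trans h2)
        omega
      · have := hv.inj _ _ (by omega) (by omega) (h1.symm.trans h2)
        omega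
  -- the blocks in the window
  let Bkw := (Finset.range s).filter (fun z => js ≤ 2 * z + 1)
  have hOB : O ∪ Ev ⊆ Bkw := by
    intro z hz
    simp only [O, Ev, Bkw, Finset.mem_union, Finset.mem_filter, Finset.mem_range] at hz ⊢
    rcases hz with ⟨h1, h2⟩ | ⟨h1, h2⟩
    · have := hjmin (2 * z + 1) (by omega) (v (2 * s)) hbE h2
      exact ⟨h1, by omega⟩
    · have := hjmin (2 * z) (by omega) (v (2 * s)) hbE h2
      exact ⟨h1, by omega⟩
  have hBk : Bkw.card ≤ (2 * s - js + 1) / 2 := by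
    have h1 : Bkw.card ≤ (Finset.range ((2 * s - js + 1) / 2)).card := by
      apply Finset.card_le_card_of_injOn (fun z => s - 1 - z)
      · intro z hz
        simp only [Bkw, Finset.coe_filter, Finset.mem_range, Set.mem_setOf_eq] at hz
        simp only [Finset.coe_range, Set.mem_Iio]
        omega
      · intro x hx y hy hxy
        simp only [Bkw, Finset.coe_filter, Finset.mem_range, Set.mem_setOf_eq] at hx hy
        simp only at hxy
        omega
    rwa [Finset.card_range] at h1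
  have hOEv : O.card + Ev.card ≤ Bkw.card + F.card := by
    rw [← Finset.card_union_add_card_inter]
    exact Nat.add_le_add_right (Finset.card_le_card hOB) _
  have hZlen : Z.length = P.length := by simp [Z]
  refine hub_iter hδ hα noC hka E0 ρ _ Live Z rfl ?_ hZnd hZc hE0Z hLiveE0 hLiveOK hE0deg hE0out
    (by omega) (by omega)
  rw [hLivecard]
  omega

end main

end Vale.Agent.Lib.P048
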