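import Vale.Agent.Lib.P048.Top4

/-!
The minimum degree theorem for `k = 2 a + 2`.
-/

namespace Vale.Agent.Lib.P048

open scoped Classical

variable {V : Type*} {G : SimpleGraph V}

/-- Apexes of a strip with two members of `E0` around them are hubs. -/
theorem liveok_strip {u : ℕ → V} {s : ℕ} (hu : IsStrip G u s) (E0 : Finset V) (J0 : Finset ℕ)
    (Z : List V)
    (hJ : ∀ j ∈ J0, j % 2 = 1 ∧ j + 1 ≤ 2 * s ∧ (u (j - 1) ∈ E0 ∨ u (j + 1) ∈ E0) ∧
      Consec Z (u (j - 1)) (u j) ∧ Consec Z (u j) (u (j + 1))) :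
    LiveOK G E0 (J0.image u) Z := by
  have heven : ∀ i, i ≤ 2 * s → i % 2 = 0 → u i ∉ J0.image u := by
    intro i hi hi2 hin
    obtain ⟨j, hj, hij⟩ := Finset.mem_image.1 hin
    obtain ⟨h1, h2, _⟩ := hJ j hj
    have := hu.inj j i (by omega) hi hij
    omega
  intro h hh
  obtain ⟨j, hj, rfl⟩ := Finset.mem_image.1 hh
  obtain ⟨h1, h2, h3, h4, h5⟩ := hJ j hj
  obtain ⟨i, hi⟩ : ∃ i, j = 2 * i + 1 := ⟨j / 2, by omega⟩
  subst hi
  have hadj : G.Adj (u (2 * i)) (u (2 * i + 2)) := hu.adj_even (i := i) (by omega) rfl rfl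
  have hne : u (2 * i) ≠ u (2 * i + 2) := G.ne_of_adj hadj
  simp only [show 2 * i + 1 - 1 = 2 * i by omega, show 2 * i + 1 + 1 = 2 * i + 2 by omega] at h3 h4 h5
  have hc1 : CA Z (u (2 * i)) (u (2 * i + 1)) := Or.inl (Or.inl h4)
  have hc2 : CA Z (u (2 * i + 1)) (u (2 * i + 2)) := Or.inl (Or.inl h5)
  rcases h3 with h3 | h3
  · exact ⟨u (2 * i), u (2 * i + 2), h3, heven _ (by omega) (by omega),
      heven _ (by omega) (by omega), hne, hadj, hc1, hc2⟩
  · exact ⟨u (2 * i + 2), u (2 * i), h3, heven _ (by omega) (by omega),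
      heven _ (by omega) (by omega), hne.symm, hadj.symm, hc2.symm, hc1.symm⟩

section main

variable [Fintype V] {k a : ℕ}

/-- The minimum degree theorem for `k = 2 a + 2`. -/
theorem thmD [Nonempty V] (G : SimpleGraph V) (hk : k = 2 * a + 2)
    (hδ : ∀ v, k ≤ (Finset.univ.filter (G.Adj v)).card + 1)
    (hα : ∀ S : Finset V, (∀ x ∈ S, ∀ y ∈ S, ¬ G.Adj x y) → S.card ≤ a) :
    ∃ l : List V, l.Nodup ∧ Cyc G.Adj l ∧ l.length = k := by
  by_contra hno
  have noC : ∀ l : List V, l.Nodup → Cyc G.Adj l → l.length ≠ k :=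
    fun l h1 h2 h3 => hno ⟨l, h1, h2, h3⟩
  obtain ⟨s, v0, hv0, hmax⟩ := exists_max_strip G
  have hmax' : ∀ u', ¬ IsStrip G u' (s + 1) := fun u' h => by
    have := hmax _ _ h
    omega
  have hfc : ∀ u, IsStrip G u s → ∀ p q, p < q → q ≤ 2 * s → q % 2 = 0 → G.Adj (u p) (u q) →
      q - p + 2 ≤ k := fun u hu => hu.far_chord2 (by omega) hα noC
  have hs1 : 1 ≤ s := by
    by_contra h0
    have h1 : s = 0 := by omega
    subst h1
    have hnb0 := nbr_count hδ hα hmax' hv0 v0 (fun j hj => ⟨j, hj, rfl⟩)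
    have : ((Finset.range (2 * 0 + 1)).filter (fun i => G.Adj (v0 (2 * 0)) (v0 i))) = ∅ := by
      apply Finset.filter_eq_empty_iff.2
      intro i hi
      have hi' := Finset.mem_range.1 hi
      have hi0 : i = 0 := by omega
      subst hi0
      exact G.irrefl
    rw [this] at hnb0
    simp only [Finset.card_empty] at hnb0
    omega
  obtain ⟨v, m, hv, hm1, hcl, hndbl⟩ := top_clique hs1 hv0
  have hnb := nbr_count hδ hα hmax' hv v (fun j hj => ⟨j, hj, rfl⟩)
  -- positions of neighbours of the end, in blocks of two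
  let O := (Finset.range s).filter (fun z => G.Adj (v (2 * s)) (v (2 * z + 1)))
  let Ev := (Finset.range s).filter (fun z => G.Adj (v (2 * s)) (v (2 * z)))
  have hNsub : (Finset.range (2 * s + 1)).filter (fun i => G.Adj (v (2 * s)) (v i)) ⊆
      O.image (fun z => 2 * z + 1) ∪ Ev.image (fun z => 2 * z) := by
    intro i hi
    rw [Finset.mem_filter, Finset.mem_range] at hi
    obtain ⟨hi1, hi2⟩ := hi
    have hi3 : i ≠ 2 * s := by
      intro h
      subst h
      exact G.irrefl hi2
    rw [Finset.mem_union, Finset.mem_image, Finset.mem_image]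
    rcases Nat.even_or_odd' i with ⟨z, hz | hz⟩
    · right
      subst hz
      refine ⟨z, ?_, rfl⟩
      simp only [Ev, Finset.mem_filter, Finset.mem_range]
      exact ⟨by omega, hi2⟩
    · left
      subst hz
      refine ⟨z, ?_, rfl⟩
      simp only [O, Finset.mem_filter, Finset.mem_range]
      exact ⟨by omega, hi2⟩
  have hNcard : ((Finset.range (2 * s + 1)).filter (fun i => G.Adj (v (2 * s)) (v i))).card ≤
      O.card + Ev.card := by
    refine le_trans (Finset.card_le_card hNsub) (le_trans (Finset.card_union_le _ _) ?_)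
    exact Nat.add_le_add Finset.card_image_le Finset.card_image_le
  let F := O ∩ Ev
  let F' := F.erase (s - 1)
  have hF' : F.card ≤ F'.card + 1 := by
    have := Finset.pred_card_le_card_erase (s := F) (a := s - 1)
    simp only [F']
    omega
  have hF'mem : ∀ z ∈ F', z + 2 ≤ s ∧ G.Adj (v (2 * s)) (v (2 * z)) ∧
      G.Adj (v (2 * s)) (v (2 * z + 1)) := by
    intro z hz
    simp only [F', F, O, Ev, Finset.mem_erase, Finset.mem_inter, Finset.mem_filter,
      Finset.mem_range] at hz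
    exact ⟨by omega, hz.2.2.2, hz.2.1.2⟩
  have hF'm : ∀ z ∈ F', z + 1 ≠ m := by
    intro z hz e
    obtain ⟨_, h2, h3⟩ := hF'mem z hz
    apply hndbl (by omega)
    rw [show 2 * m - 2 = 2 * z by omega, show 2 * m - 1 = 2 * z + 1 by omega]
    exact ⟨h2, h3⟩
  have hmF' : m + 2 ≤ s → m ∈ F' := by
    intro h
    simp only [F', F, O, Ev, Finset.mem_erase, Finset.mem_inter, Finset.mem_filter,
      Finset.mem_range]
    exact ⟨by omega, ⟨by omega, (hcl _ _ (by omega) (by omega) (le_refl _)).symm⟩,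
      ⟨by omega, (hcl _ _ (by omega) (by omega) (le_refl _)).symm⟩⟩
  -- the set of possible ends
  let PosE : Finset ℕ :=
    insert (2 * s) (insert (2 * m + 1) (F'.image (fun z => 2 * z + 2) ∪ F'.image (fun z => 2 * z + 3)))
  let E := PosE.image v
  have hPosle : ∀ i ∈ PosE, i ≤ 2 * s := by
    intro i hi
    simp only [PosE, Finset.mem_insert, Finset.mem_union, Finset.mem_image] at hi
    rcases hi with h | h | ⟨z, hz, rfl⟩ | ⟨z, hz, rfl⟩
    · omega
    · omega
    · have := (hF'mem z hz).1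
      omega
    · have := (hF'mem z hz).1
      omega
  have hbE : v (2 * s) ∈ E := by
    simp only [E, PosE]
    exact Finset.mem_image_of_mem _ (Finset.mem_insert_self _ _)
  have h0E : v (2 * m + 1) ∈ E := by
    simp only [E, PosE]
    exact Finset.mem_image_of_mem _ (Finset.mem_insert_of_mem (Finset.mem_insert_self _ _))
  have hpairE : ∀ z ∈ F', ∀ x, InPair v z x → x ∈ E := by
    intro z hz x hx
    simp only [E, PosE]
    rcases hx with rfl | rfl
    · exact Finset.mem_image_of_mem _ (Finset.mem_insert_of_mem (Finset.mem_insert_of_mem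
        (Finset.mem_union_left _ (Finset.mem_image_of_mem _ hz))))
    · exact Finset.mem_image_of_mem _ (Finset.mem_insert_of_mem (Finset.mem_insert_of_mem
        (Finset.mem_union_right _ (Finset.mem_image_of_mem _ hz))))
  have hm2E : v (2 * m + 2) ∈ E := by
    by_cases h : m + 2 ≤ s
    · exact hpairE m (hmF' h) _ (Or.inl rfl)
    · rw [show 2 * m + 2 = 2 * s by omega]
      exact hbE
  have hxlow : G.Adj (v (2 * s)) (v (2 * s - 2)) :=
    (hv.adj_even (i := s - 1) (by omega) (by omega) (by omega)).symm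
  have hxm : G.Adj (v (2 * s)) (v (2 * m)) := (hcl _ _ (le_refl _) (by omega) (le_refl _)).symm
  have hwit : ∀ e ∈ E, ∃ c u i, Wit G v s e c u ∧
      ((∃ t, t + 2 ≤ c ∧ t ≤ 2 * s ∧ G.Adj (v (2 * s)) (v t)) ∨ c = 2 * m + 1) ∧ c ≤ i ∧
      i ≤ 2 * s ∧ e = v i ∧
      (∀ z ∈ F', ∃ j, j % 2 = 1 ∧ j + 1 ≤ 2 * s ∧ InPair v z (u j) ∧
        (InPair v z (u (j - 1)) ∨ InPair v z (u (j + 1)))) ∧ PX E v u s m c := by
    intro e he
    obtain ⟨i, hi, rfl⟩ := Finset.mem_image.1 he
    simp only [PosE, Finset.mem_insert, Finset.mem_union, Finset.mem_image] at hi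
    rcases hi with h | h | ⟨z, hz, rfl⟩ | ⟨z, hz, rfl⟩
    · subst h
      exact ⟨2 * s, v, 2 * s, wit_self hv, Or.inl ⟨2 * s - 2, by omega, by omega, hxlow⟩, le_refl _,
        le_refl _, rfl, fun z hz => pp_self v s z (hF'mem z hz).1, px_self hm1 hm2E⟩
    · subst h
      exact ⟨2 * m + 1, _, 2 * m + 1, wit_top hv hm1 hcl, Or.inr rfl, le_refl _, by omega, rfl,
        fun z hz => pp_top v s m z (hF'mem z hz).1 (hF'm z hz), px_top hm1 hm2E h0E⟩
    · obtain ⟨h1, h2, h3⟩ := hF'mem z hz
      exact ⟨2 * z + 2, _, 2 * z + 2, wit_rot hv h1 h2 h3,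
        Or.inl ⟨2 * z, by omega, by omega, h2⟩, le_refl _, by omega, rfl,
        fun y hy => pp_rot v s z h1 y (hF'mem y hy).1, px_rot hm1 h1 (hF'm z hz) hm2E hbE⟩
    · obtain ⟨h1, h2, h3⟩ := hF'mem z hz
      exact ⟨2 * z + 2, _, 2 * z + 3, wit_swp hv h1 h2 h3,
        Or.inl ⟨2 * z, by omega, by omega, h2⟩, by omega, by omega, rfl,
        fun y hy => pp_swp v s z h1 y (hF'mem y hy).1, px_swp hm1 h1 (hF'm z hz) hm2E hbE⟩
  -- the lowest position seen from the set of possible ends
  have hjex : ∃ j, j ≤ 2 * s ∧ ∃ e ∈ E, G.Adj e (v j) :=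
    ⟨2 * s - 2, by omega, v (2 * s), hbE, hxlow⟩
  obtain ⟨hj1, eS0, heS0, hj2⟩ := Nat.find_spec hjex
  have hjmin : ∀ j, j ≤ 2 * s → ∀ e ∈ E, G.Adj e (v j) → Nat.find hjex ≤ j :=
    fun j h1 e he h2 => Nat.find_min' hjex ⟨h1, e, he, h2⟩
  generalize Nat.find hjex = js at hj1 hj2 hjmin
  have hjm : js ≤ 2 * m := hjmin (2 * m) (by omega) (v (2 * s)) hbE hxm
  have hjlt : ∀ c, ((∃ t, t + 2 ≤ c ∧ t ≤ 2 * s ∧ G.Adj (v (2 * s)) (v t)) ∨ c = 2 * m + 1) →
      js + 1 ≤ c := by
    rintro c (⟨t, h1, h2, h3⟩ | h1)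
    · have := hjmin t h2 (v (2 * s)) hbE h3
      omega
    · omega
  -- a strip whose end sees the lowest position
  obtain ⟨eS, cS, uS, iS, hW, hcS, hj2', heS, hW3, hW4, hW5, hPP, hPX⟩ : ∃ eS c u i,
      Wit G v s eS c u ∧ js + 2 ≤ c ∧ G.Adj eS (v js) ∧ eS ∈ E ∧ c ≤ i ∧ i ≤ 2 * s ∧ eS = v i ∧
      (∀ z ∈ F', ∃ j, j % 2 = 1 ∧ j + 1 ≤ 2 * s ∧ InPair v z (u j) ∧
        (InPair v z (u (j - 1)) ∨ InPair v z (u (j + 1)))) ∧ PX E v u s m c := by
    obtain ⟨c, u, i, h1, h2, h3, h4, h5, h6, h7⟩ := hwit eS0 heS0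
    by_cases hc : js + 2 ≤ c
    · exact ⟨eS0, c, u, i, h1, hc, hj2, heS0, h3, h4, h5, h6, h7⟩
    · have hc2 : c = 2 * m + 1 := by
        rcases h2 with ⟨t, a1, a2, a3⟩ | h2
        · have := hjmin t a2 (v (2 * s)) hbE a3
          omega
        · exact h2
      have hjs : js = 2 * m := by omega
      refine ⟨v (2 * s), 2 * s, v, 2 * s, wit_self hv, by omega, by rw [hjs]; exact hxm, hbE,
        le_refl _, le_refl _, rfl, fun z hz => pp_self v s z (hF'mem z hz).1, px_self hm1 hm2E⟩
  have hj3 : G.Adj (uS js) (uS (2 * s)) := by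
    rw [hW.last, hW.low js (by omega)]
    exact hj2'.symm
  have hspan := hfc uS hW.strip js (2 * s) (by omega) (le_refl _) (by omega) hj3
  obtain ⟨P, hP1, hP2, hP3, hP4⟩ := hW.strip.full_run2 js (2 * s - js) (by omega)
  rw [show js + (2 * s - js) = 2 * s by omega] at hP1 hP3 hP4
  obtain ⟨hZnd, hZc⟩ := hW.strip.cyc_of_pos hP1 (by omega) hj3.symm
  -- every position from `js` on is a position of `uS`
  have hvu : ∀ i, js ≤ i → i ≤ 2 * s → ∃ j, js ≤ j ∧ j ≤ 2 * s ∧ v i = uS j := by
    intro i h1 h2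
    by_cases h3 : i < cS
    · exact ⟨i, h1, h2, (hW.low i h3).symm⟩
    · obtain ⟨j, h4, h5, h6⟩ := hW.bw i (by omega) h2
      exact ⟨j, by omega, h5, h6⟩
  have huv : ∀ j, j ≤ 2 * s → ∃ i, i ≤ 2 * s ∧ uS j = v i := by
    intro j hj
    by_cases h3 : j < cS
    · exact ⟨j, hj, hW.low j h3⟩
    · obtain ⟨i, _, h5, h6⟩ := hW.fw j (by omega) hj
      exact ⟨i, h5, h6⟩
  let Zp := P.map uS
  have hZpe : Zp = P.map uS := rfl
  have hZplen : Zp.length = 2 * s - js + 1 := by
    rw [hZpe, List.length_map]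
    omega
  have hZmem : ∀ j, js ≤ j → j ≤ 2 * s → uS j ∈ Zp := fun j h1 h2 =>
    List.mem_map_of_mem ((hP3 j).2 ⟨h1, h2⟩)
  have hZpos : ∀ y ∈ Zp, ∃ j, js ≤ j ∧ j ≤ 2 * s ∧ y = uS j := by
    intro y hy
    obtain ⟨j, hj, rfl⟩ := List.mem_map.1 hy
    have := (hP3 j).1 hj
    exact ⟨j, this.1, this.2, rfl⟩
  have hZcon : ∀ x, js ≤ x → x + 1 ≤ 2 * s → Consec Zp (uS x) (uS (x + 1)) := by
    intro x h1 h2
    obtain ⟨s1, t1, e1⟩ := hP4 x h1 (by omega)
    refine ⟨s1.map uS, t1.map uS, ?_⟩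
    rw [hZpe, e1]
    simp
  have hvZ : ∀ i, js ≤ i → i ≤ 2 * s → v i ∈ Zp := by
    intro i h1 h2
    obtain ⟨j, h3, h4, h5⟩ := hvu i h1 h2
    rw [h5]
    exact hZmem j h3 h4
  have hEZ : ∀ e ∈ E, e ∈ Zp := by
    intro e he
    obtain ⟨c, u, i, h1, h2, h3, h4, h5, _, _⟩ := hwit e he
    have h7 := hjlt c h2
    rw [h5]
    exact hvZ i (by omega) h4
  have hEdeg : ∀ e ∈ E, k - a - 1 ≤ dg G.Adj e Zp := by
    intro e he
    obtain ⟨c, u, i, h1, h2, h3, h4, h5, _, _⟩ := hwit e he
    have hcount := nbr_count hδ hα hmax' h1.strip v (by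
      intro j hj
      by_cases hjc' : j < c
      · exact ⟨j, hj, h1.low j hjc'⟩
      · obtain ⟨i', h7, h8, h9⟩ := h1.fw j (by omega) hj
        exact ⟨i', h8, h9⟩)
    rw [h1.last] at hcount
    have hsub : ((Finset.range (2 * s + 1)).filter (fun i => G.Adj e (v i))).image v ⊆
        (Zp.toFinset.filter (fun z => G.Adj z e)) := by
      intro x hx
      obtain ⟨i', hi', rfl⟩ := Finset.mem_image.1 hx
      rw [Finset.mem_filter, Finset.mem_range] at hi'
      have h7 := hjmin i' (by omega) e he hi'.2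
      rw [Finset.mem_filter, List.mem_toFinset]
      exact ⟨hvZ i' h7 (by omega), hi'.2.symm⟩
    have h7 := Finset.card_le_card hsub
    rw [Finset.card_image_of_injOn (by
      intro p hp q hq hpq
      have hp' := (Finset.mem_filter.1 hp).1
      have hq' := (Finset.mem_filter.1 hq).1
      have hp'' := Finset.mem_range.1 hp'
      have hq'' := Finset.mem_range.1 hq'
      exact hv.inj p q (by omega) (by omega) hpq)] at h7
    unfold dg
    omega
  have hEout : ∀ e ∈ E, ∀ y y', G.Adj e y → G.Adj e y' → y ∉ Zp → y' ∉ Zp → ¬ G.Adj y y' := by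
    intro e he y y' h1 h2 h3 h4 hyy
    obtain ⟨c, u, i, hw, h0, _, _, h7, _, _⟩ := hwit e he
    have hnotv : ∀ x, G.Adj e x → x ∉ Zp → ∀ j, j ≤ 2 * s → u j ≠ x := by
      intro x hx hxZ j hj hjx
      have hvx : ∃ i', i' ≤ 2 * s ∧ x = v i' := by
        by_cases hjc' : j < c
        · exact ⟨j, hj, by rw [← hjx]; exact hw.low j hjc'⟩
        · obtain ⟨i', _, h8, h9⟩ := hw.fw j (by omega) hj
          exact ⟨i', h8, by rw [← hjx]; exact h9⟩
      obtain ⟨i', h8, rfl⟩ := hvx
      have h9 := hjmin i' h8 e he hx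
      exact hxZ (hvZ i' h9 h8)
    obtain ⟨u', hu'⟩ := hw.strip.extend (hnotv y h1 h3) (hnotv y' h2 h4) hyy
      (by rw [hw.last]; exact h1) (by rw [hw.last]; exact h2)
    exact hmax' u' hu'
  -- the hubs
  let J := (Finset.range (2 * s + 1)).filter (fun j => j % 2 = 1 ∧ j + 1 ≤ 2 * s ∧ js < j ∧
    uS j ∈ E ∧ (uS (j - 1) ∈ E ∨ uS (j + 1) ∈ E))
  have hJmem : ∀ j ∈ J, j % 2 = 1 ∧ j + 1 ≤ 2 * s ∧ js < j ∧ uS j ∈ E ∧
      (uS (j - 1) ∈ E ∨ uS (j + 1) ∈ E) := fun j hj => (Finset.mem_filter.1 hj).2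
  have huinj : ∀ x y, x ≤ 2 * s → y ≤ 2 * s → uS x = uS y → x = y := hW.strip.inj
  -- the hubs from the double blocks
  have hF'low : ∀ z ∈ F', js ≤ 2 * z := fun z hz =>
    hjmin (2 * z) (by have := (hF'mem z hz).1; omega) (v (2 * s)) hbE (hF'mem z hz).2.1
  have hpos : ∀ z ∈ F', ∃ j ∈ J, InPair v z (uS j) ∧ js + 2 ≤ j := by
    intro z hz
    obtain ⟨j, h1, h2, h3, h4⟩ := hPP z hz
    obtain ⟨hz1, _, _⟩ := hF'mem z hz
    have hzl := hF'low z hz
    have hlow : js + 2 ≤ j := by
      by_cases hjc' : j < cS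
      · rw [hW.low j hjc'] at h3
        rcases h3 with h3 | h3
        · have := hv.inj _ _ (by omega) (by omega) h3
          omega
        · have := hv.inj _ _ (by omega) (by omega) h3
          omega
      · omega
    refine ⟨j, Finset.mem_filter.2 ⟨Finset.mem_range.2 (by omega), h1, h2, by omega,
      hpairE z hz _ h3, ?_⟩, h3, hlow⟩
    rcases h4 with h4 | h4
    · exact Or.inl (hpairE z hz _ h4)
    · exact Or.inr (hpairE z hz _ h4)
  choose! jf hjf1 hjf2 hjf3 using hpos
  have hjfinj : Set.InjOn jf (F' : Set ℕ) := by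
    intro z hz z' hz' hzz
    have h1 := hjf2 z hz
    have h2 := hjf2 z' hz'
    have hz1 := (hF'mem z hz).1
    have hz2 := (hF'mem z' hz').1
    rw [← hzz] at h2
    rcases h1 with h1 | h1 <;> rcases h2 with h2 | h2
    · have := hv.inj _ _ (by omega) (by omega) (h1.symm.trans h2)
      omega
    · have := hv.inj _ _ (by omega) (by omega) (h1.symm.trans h2)
      omega
    · have := hv.inj _ _ (by omega) (by omega) (h1.symm.trans h2)
      omega
    · have := hv.inj _ _ (by omega) (by omega) (h1.symm.trans h2)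
      omega
  -- the extra hub
  obtain ⟨j0, hj01, hj02, hj03, hj04, hj05⟩ := hPX
  have hj0J : j0 ∈ J := by
    refine Finset.mem_filter.2 ⟨Finset.mem_range.2 (by omega), hj01, hj02, ?_, ?_, hj04⟩
    · rcases hj05 with h | h <;> omega
    · rcases hj03 with h | h <;> rw [h]
      · exact h0E
      · exact hbE
  have hj0new : j0 ∉ F'.image jf := by
    intro hin
    obtain ⟨z, hz, hzj⟩ := Finset.mem_image.1 hin
    have h1 := hjf2 z hz
    rw [hzj] at h1
    have hz1 := (hF'mem z hz).1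
    have hz2 := hF'm z hz
    rcases hj03 with h | h <;> rw [h] at h1 <;> rcases h1 with h1 | h1
    · have := hv.inj _ _ (by omega) (by omega) h1
      omega
    · have := hv.inj _ _ (by omega) (by omega) h1
      omega
    · have := hv.inj _ _ (by omega) (by omega) h1
      omega
    · have := hv.inj _ _ (by omega) (by omega) h1
      omega
  have hJcard : F'.card + 1 ≤ J.card := by
    have h1 : insert j0 (F'.image jf) ⊆ J := by
      intro x hx
      rcases Finset.mem_insert.1 hx with rfl | hx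
      · exact hj0J
      · obtain ⟨z, hz, rfl⟩ := Finset.mem_image.1 hx
        exact hjf1 z hz
    have h2 := Finset.card_le_card h1
    rwa [Finset.card_insert_of_notMem hj0new, Finset.card_image_of_injOn hjfinj] at h2
  -- the blocks in the window
  let Bkw := (Finset.range s).filter (fun z => js ≤ 2 * z + 1)
  have hOB : O ∪ Ev ⊆ Bkw := by
    intro z hz
    simp only [O, Ev, Bkw, Finset.mem_union, Finset.mem_filter, Finset.mem_range] at hz ⊢
    rcases hz with ⟨h1, h2⟩ | ⟨h1, h2⟩
    · have := hjmin (2 * z + 1) (by omega) (v (2 * s)) hbE h2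
      exact ⟨h1, by omega⟩
    · have := hjmin (2 * z) (by omega) (v (2 * s)) hbE h2
      exact ⟨h1, by omega⟩
  have hBk : Bkw.card ≤ (2 * s - js + 1) / 2 := by
    have h1 : Bkw.card ≤ (Finset.range ((2 * s - js + 1) / 2)).card := by
      apply Finset.card_le_card_of_injOn (fun z => s - 1 - z)
      · intro z hz
        simp only [Bkw, Finset.coe_filter, Finset.mem_range, Set.mem_setOf_eq] at hz
        simp only [Finset.coe_range, Set.mem_Iio]
        omega
      · intro x hx y hy hxy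
        simp only [Bkw, Finset.coe_filter, Finset.mem_range, Set.mem_setOf_eq] at hx hy
        simp only at hxy
        omega
    rwa [Finset.card_range] at h1
  have hOEv : O.card + Ev.card ≤ Bkw.card + F.card := by
    rw [← Finset.card_union_add_card_inter]
    exact Nat.add_le_add_right (Finset.card_le_card hOB) _
  -- the hubs on the whole window
  let Live := J.image uS
  have hLivecard : Live.card = J.card := by
    apply Finset.card_image_of_injOn
    intro x hx y hy hxy
    have h1 := hJmem x hx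
    have h2 := hJmem y hy
    exact huinj x y (by omega) (by omega) hxy
  have hLiveE : Live ⊆ E := by
    intro x hx
    obtain ⟨j, hj, rfl⟩ := Finset.mem_image.1 hx
    exact (hJmem j hj).2.2.2.1
  have hLiveOK : LiveOK G E Live Zp := by
    apply liveok_strip hW.strip
    intro j hj
    obtain ⟨h1, h2, h3, h4, h5⟩ := hJmem j hj
    refine ⟨h1, h2, h5, ?_, hZcon j (by omega) h2⟩
    have := hZcon (j - 1) (by omega) (by omega)
    rwa [show j - 1 + 1 = j by omega] at this
  by_cases hjsodd : js % 2 = 1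
  · -- the window has the parity of `k`
    refine hub_iter4 hδ hα noC (by omega) E _ Live Zp rfl ?_ hZnd hZc hEZ hLiveE hLiveOK hEdeg hEout
      (by omega) (by omega)
    rw [hLivecard]
    omega
  have hjs2 : js + 2 ≤ 2 * s := by omega
  by_cases hins : ∃ y p q, y ∉ Zp ∧ Nb Zp p q ∧ G.Adj y p ∧ G.Adj y q
  · -- a vertex can be inserted
    obtain ⟨y, p, q, hy, hpq, h1, h2⟩ := hins
    obtain ⟨Z2, hperm, hc, hedge, _, _⟩ := insert_nb hZnd hZc hpq h1 h2
    have hnd2 : Z2.Nodup := by
      rw [hperm.nodup_iff, List.nodup_append]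
      refine ⟨hZnd, by simp, ?_⟩
      intro x hx x' hx' hxx
      subst hxx
      simp only [List.mem_singleton] at hx'
      subst hx'
      exact hy hx
    have hsub : Zp ⊆ Z2 := fun x hx => hperm.symm.subset (List.mem_append_left _ hx)
    have hlen2 : Z2.length = Zp.length + 1 := by
      rw [hperm.length_eq, List.length_append, List.length_singleton]
    let Live2 := (Live.erase p).erase q
    have hLive2OK : LiveOK G E Live2 Z2 := by
      intro j hj
      have hjq : j ≠ q := (Finset.mem_erase.1 hj).1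
      have hjp : j ≠ p := (Finset.mem_erase.1 (Finset.mem_erase.1 hj).2).1
      have hjL : j ∈ Live := (Finset.mem_erase.1 (Finset.mem_erase.1 hj).2).2
      obtain ⟨a', b', c1, c2, c3, c4, c5, c6, c7⟩ := hLiveOK j hjL
      have hnot : ∀ x, x ∉ Live → x ∉ Live2 := fun x h3 h4 =>
        h3 (Finset.mem_of_mem_erase (Finset.mem_of_mem_erase h4))
      refine ⟨a', b', c1, hnot _ c2, hnot _ c3, c4, c5, ?_, ?_⟩
      · rcases c6 with c6 | c6
        · exact Or.inl (hedge _ _ c6 (fun e => hjq e.2))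
        · exact Or.inr (hedge _ _ c6 (fun e => hjp e.1))
      · rcases c7 with c7 | c7
        · exact Or.inl (hedge _ _ c7 (fun e => hjp e.1))
        · exact Or.inr (hedge _ _ c7 (fun e => hjq e.2))
    have hLive2card : Live.card ≤ Live2.card + 1 := by
      by_cases hpL : p ∈ Live
      · have hqL := live_not_both hZnd hLiveOK hpq hpL
        have e1 : Live2 = Live.erase p := by
          apply Finset.erase_eq_of_notMem
          exact fun h3 => hqL (Finset.mem_of_mem_erase h3)
        rw [e1, Finset.card_erase_of_mem hpL]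
        have := Finset.card_pos.2 ⟨p, hpL⟩
        omega
      · have e1 : Live.erase p = Live := Finset.erase_eq_of_notMem hpL
        have := Finset.pred_card_le_card_erase (s := Live) (a := q)
        simp only [Live2, e1]
        omega
    refine hub_iter4 hδ hα noC (by omega) E _ Live2 Z2 rfl ?_ hnd2 hc
      (fun e he => hsub (hEZ e he))
      (fun x hx => hLiveE (Finset.mem_of_mem_erase (Finset.mem_of_mem_erase hx))) hLive2OK
      (fun e he => le_trans (hEdeg e he) (dg_mono hsub (fun _ hz => hz)))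
      (fun e he y y' h3 h4 h5 h6 => hEout e he y y' h3 h4 (fun h7 => h5 (hsub h7))
        (fun h7 => h6 (hsub h7))) (by omega) (by omega)
    omega
  -- no vertex can be inserted: the degrees into the window are larger
  have hnoins : ∀ y p q, y ∉ Zp → Nb Zp p q → G.Adj y p → G.Adj y q → False :=
    fun y p q h1 h2 h3 h4 => hins ⟨y, p, q, h1, h2, h3, h4⟩
  let outZ : V → Finset V := fun e => Finset.univ.filter (fun y => G.Adj e y ∧ y ∉ Zp)
  have houtmem : ∀ e y, y ∈ outZ e ↔ G.Adj e y ∧ y ∉ Zp := by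
    intro e y
    simp [outZ]
  have hout1 : ∀ e ∈ E, (outZ e).card + 1 ≤ a := by
    intro e he
    obtain ⟨f, hf⟩ := IsPred.exists hZc (hEZ e he)
    have hfZ : f ∈ Zp := hf.mem
    have hfnot : f ∉ outZ e := by
      rw [houtmem]
      exact fun h => h.2 hfZ
    have h1 := hα (insert f (outZ e)) (by
      intro x hx y hy hadj
      have hside : ∀ w ∈ outZ e, ¬ G.Adj f w := by
        intro w hw hfw
        rw [houtmem] at hw
        exact hnoins w f e hw.2 hf.nb hfw.symm hw.1.symm
      rcases Finset.mem_insert.1 hx with h2 | hx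
      · rcases Finset.mem_insert.1 hy with h3 | hy
        · rw [h2, h3] at hadj
          exact G.irrefl hadj
        · rw [h2] at hadj
          exact hside y hy hadj
      · rcases Finset.mem_insert.1 hy with h3 | hy
        · rw [h3] at hadj
          exact hside x hx hadj.symm
        · rw [houtmem] at hx hy
          exact hEout e he x y hx.1 hy.1 hx.2 hy.2 hadj)
    rwa [Finset.card_insert_of_notMem hfnot] at h1
  have hdeg2 : ∀ e ∈ E, k - a ≤ dg G.Adj e Zp := by
    intro e he
    have h1 := hδ e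
    have hsub : Finset.univ.filter (G.Adj e) ⊆ outZ e ∪ Zp.toFinset.filter (fun z => G.Adj z e) := by
      intro y hy
      rw [Finset.mem_filter] at hy
      rw [Finset.mem_union, houtmem, Finset.mem_filter, List.mem_toFinset]
      by_cases hyZ : y ∈ Zp
      · exact Or.inr ⟨hyZ, hy.2.symm⟩
      · exact Or.inl ⟨hy.2, hyZ⟩
    have h2 := Finset.card_le_card hsub
    have h3 := Finset.card_union_le (outZ e) (Zp.toFinset.filter (fun z => G.Adj z e))
    have h4 := hout1 e he
    unfold dg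
    omega
  have hnb2 : k ≤ ((Finset.range (2 * s + 1)).filter (fun i => G.Adj (v (2 * s)) (v i))).card + a := by
    have h1 := hδ (v (2 * s))
    have hsub : Finset.univ.filter (G.Adj (v (2 * s))) ⊆ outZ (v (2 * s)) ∪
        ((Finset.range (2 * s + 1)).filter (fun i => G.Adj (v (2 * s)) (v i))).image v := by
      intro y hy
      rw [Finset.mem_filter] at hy
      rw [Finset.mem_union, houtmem, Finset.mem_image]
      by_cases hyZ : y ∈ Zp
      · right
        obtain ⟨j, _, h3, rfl⟩ := hZpos y hyZ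
        obtain ⟨i, h4, h5⟩ := huv j h3
        refine ⟨i, ?_, h5.symm⟩
        rw [Finset.mem_filter, Finset.mem_range]
        exact ⟨by omega, h5 ▸ hy.2⟩
      · exact Or.inl ⟨hy.2, hyZ⟩
    have h2 := Finset.card_le_card hsub
    have h3 := Finset.card_union_le (outZ (v (2 * s)))
      (((Finset.range (2 * s + 1)).filter (fun i => G.Adj (v (2 * s)) (v i))).image v)
    have h4 : (((Finset.range (2 * s + 1)).filter (fun i => G.Adj (v (2 * s)) (v i))).image v).card ≤
        ((Finset.range (2 * s + 1)).filter (fun i => G.Adj (v (2 * s)) (v i))).card :=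
      Finset.card_image_le
    have h5 := hout1 _ hbE
    omega
  -- the route without the apex `js + 1`
  obtain ⟨P2, a1, a2, a3, a4⟩ := hW.strip.full_run2 (js + 2) (2 * s - (js + 2)) (by omega)
  rw [show js + 2 + (2 * s - (js + 2)) = 2 * s by omega] at a1 a3 a4
  have hadj0 : G.Adj (uS js) (uS (js + 2)) :=
    hW.strip.adj_even (i := js / 2) (by omega) (by omega) (by omega)
  have hP' : Arc (Rp G uS (2 * s)) (js :: P2) js (2 * s) := by
    have := (Arc.single js).append (R := Rp G uS (2 * s)) (c := js + 2) ⟨by omega, by omega, hadj0⟩ a1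
    simpa using this
  obtain ⟨hZnd2, hZc2⟩ := hW.strip.cyc_of_pos hP' (by omega) hj3.symm
  let Z := (js :: P2).map uS
  have hZe : Z = (js :: P2).map uS := rfl
  have hZlen : Z.length = 2 * s - js := by
    rw [hZe, List.length_map, List.length_cons]
    omega
  have hZmem2 : ∀ j, js ≤ j → j ≤ 2 * s → j ≠ js + 1 → uS j ∈ Z := by
    intro j h1 h2 h3
    apply List.mem_map_of_mem
    by_cases h4 : j = js
    · subst h4
      simp
    · exact List.mem_cons_of_mem _ ((a3 j).2 ⟨by omega, h2⟩)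
  let ρ := uS (js + 1)
  have hρdef : ρ = uS (js + 1) := rfl
  have hρZ : ρ ∉ Z := by
    intro hin
    obtain ⟨j, hj, hjρ⟩ := List.mem_map.1 hin
    have hj' : j = js ∨ (js + 2 ≤ j ∧ j ≤ 2 * s) := by
      rcases List.mem_cons.1 hj with h | h
      · exact Or.inl h
      · exact Or.inr ((a3 j).1 h)
    have hle : j ≤ 2 * s := by
      rcases hj' with h | h <;> omega
    have := huinj j (js + 1) hle (by omega) hjρ
    rcases hj' with h | h <;> omega
  have hρc : G.Adj ρ (uS js) := (hW.strip.adj_succ (a := js) rfl (by omega)).symm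
  have hρd : G.Adj ρ (uS (js + 2)) := hW.strip.adj_succ (a := js + 1) (by omega) (by omega)
  have hcd : Nb Z (uS js) (uS (js + 2)) := by
    left
    cases hP2 : P2 with
    | nil =>
      have := a1.2.1
      rw [hP2] at this
      simp at this
    | cons c m' =>
      have hc : c = js + 2 := by
        have := a1.2.1
        rw [hP2] at this
        simpa using this
      subst hc
      refine ⟨[], m'.map uS, ?_⟩
      rw [hZe, hP2]
      simp
  let E0 := E.erase ρ
  have hE0E : ∀ e ∈ E0, e ∈ E := fun e he => Finset.mem_of_mem_erase he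
  have hZsub : ∀ y ∈ Zp, y = ρ ∨ y ∈ Z := by
    intro y hy
    obtain ⟨j, h1, h2, rfl⟩ := hZpos y hy
    by_cases h3 : j = js + 1
    · left
      rw [h3]
    · exact Or.inr (hZmem2 j h1 h2 h3)
  have hE0Z : ∀ e ∈ E0, e ∈ Z := by
    intro e he
    rcases hZsub e (hEZ e (hE0E e he)) with h | h
    · exact absurd h (Finset.mem_erase.1 he).1
    · exact h
  have hE0deg : ∀ e ∈ E0, k - a - 1 ≤ dg G.Adj e Z := by
    intro e he
    have h1 := hdeg2 e (hE0E e he)
    have hsub : Zp.toFinset.filter (fun z => G.Adj z e) ⊆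
        insert ρ (Z.toFinset.filter (fun z => G.Adj z e)) := by
      intro y hy
      rw [Finset.mem_filter, List.mem_toFinset] at hy
      rw [Finset.mem_insert, Finset.mem_filter, List.mem_toFinset]
      rcases hZsub y hy.1 with h | h
      · exact Or.inl h
      · exact Or.inr ⟨h, hy.2⟩
    have h2 := Finset.card_le_card hsub
    have h3 := Finset.card_insert_le ρ (Z.toFinset.filter (fun z => G.Adj z e))
    unfold dg at h1 ⊢
    omega
  have hE0out : ∀ e ∈ E0, ∀ y y', G.Adj e y → G.Adj e y' → y ∉ Z → y' ∉ Z → y ≠ ρ → y' ≠ ρ →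
      ¬ G.Adj y y' := by
    intro e he y y' h1 h2 h3 h4 h5 h6
    refine hEout e (hE0E e he) y y' h1 h2 ?_ ?_
    · intro h7
      rcases hZsub y h7 with h8 | h8
      · exact h5 h8
      · exact h3 h8
    · intro h7
      rcases hZsub y' h7 with h8 | h8
      · exact h6 h8
      · exact h4 h8
  -- the hubs on the route
  let J2 := J.erase (js + 1)
  let Live2 := J2.image uS
  have hJ2mem : ∀ j ∈ J2, j ≠ js + 1 ∧ j % 2 = 1 ∧ j + 1 ≤ 2 * s ∧ js < j ∧ uS j ∈ E ∧
      (uS (j - 1) ∈ E ∨ uS (j + 1) ∈ E) := fun j hj =>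
    ⟨(Finset.mem_erase.1 hj).1, hJmem j (Finset.mem_erase.1 hj).2⟩
  have hLive2card : Live2.card = J2.card := by
    apply Finset.card_image_of_injOn
    intro x hx y hy hxy
    have h1 := hJ2mem x hx
    have h2 := hJ2mem y hy
    exact huinj x y (by omega) (by omega) hxy
  have hneρ : ∀ j, j ≤ 2 * s → j ≠ js + 1 → uS j ≠ ρ := fun j h1 h2 h3 =>
    h2 (huinj j (js + 1) h1 (by omega) h3)
  have hLive2E : Live2 ⊆ E0 := by
    intro x hx
    obtain ⟨j, hj, rfl⟩ := Finset.mem_image.1 hx
    obtain ⟨h1, h2, h3, h4, h5, _⟩ := hJ2mem j hj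
    exact Finset.mem_erase.2 ⟨hneρ j (by omega) h1, h5⟩
  have hZcon2 : ∀ x, js + 2 ≤ x → x + 1 ≤ 2 * s → Consec Z (uS x) (uS (x + 1)) := by
    intro x h1 h2
    obtain ⟨s1, t1, e1⟩ := a4 x h1 (by omega)
    refine ⟨(js :: s1).map uS, t1.map uS, ?_⟩
    rw [hZe, e1]
    simp
  have hLive2OK : LiveOK G E0 Live2 Z := by
    apply liveok_strip hW.strip
    intro j hj
    obtain ⟨h0, h1, h2, h3, h4, h5⟩ := hJ2mem j hj
    refine ⟨h1, h2, ?_, ?_, hZcon2 j (by omega) h2⟩
    · rcases h5 with h5 | h5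
      · exact Or.inl (Finset.mem_erase.2 ⟨hneρ _ (by omega) (by omega), h5⟩)
      · exact Or.inr (Finset.mem_erase.2 ⟨hneρ _ (by omega) (by omega), h5⟩)
    · have := hZcon2 (j - 1) (by omega) (by omega)
      rwa [show j - 1 + 1 = j by omega] at this
  have heven2 : ∀ i, i ≤ 2 * s → i % 2 = 0 → uS i ∉ Live2 := by
    intro i hi hi2 hin
    obtain ⟨j, hj, hij⟩ := Finset.mem_image.1 hin
    obtain ⟨_, h1, h2, _⟩ := hJ2mem j hj
    have := huinj j i (by omega) hi hij
    omega
  have hJ2card : F'.card ≤ J2.card := by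
    apply Finset.card_le_card_of_injOn jf
    · intro z hz
      refine Finset.mem_erase.2 ⟨?_, hjf1 z hz⟩
      have h1 := hjf3 z hz
      have h2 := (hJmem _ (hjf1 z hz)).1
      omega
    · exact hjfinj
  refine hub_iterR hδ hα noC (by omega) E0 ρ _ Live2 Z _ _ rfl ?_ hZnd2 hZc2 hE0Z hLive2E hLive2OK
    hE0deg hE0out hρZ (Or.inl hcd) hρc hρd (heven2 _ (by omega) (by omega))
    (heven2 _ (by omega) (by omega)) (by omega) (by omega)
  rw [hLive2card]
  omega

end main

end Vale.Agent.Lib.P048
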