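import Vale.Agent.Lib.P048.Hub

/-!
The extension engine in its sharpest form: the high degree members form a clique of the working
graph, and a closed chain grows by two members at the price of one skippable member.
-/

namespace Vale.Agent.Lib.P048

open scoped Classical

variable {V : Type*} (G : SimpleGraph V)

/-- One extension step, or a bound on the number of ports. -/
theorem step2 [Fintype V] {k a D : ℕ} (hδ : ∀ v, k ≤ (Finset.univ.filter (G.Adj v)).card + 1)
    (hα : ∀ S : Finset V, (∀ x ∈ S, ∀ y ∈ S, ¬ G.Adj x y) → S.card ≤ a)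
    (E : Finset V) {Z : List V} (hnd : Z.Nodup) (hZ : Cyc G.Adj Z) (hEZ : ∀ e ∈ E, e ∈ Z)
    (hdeg : ∀ e ∈ E, D ≤ dg G.Adj e Z) (hD : Z.length + 2 ≤ 2 * D) (hlen : Z.length + 2 ≤ k) :
    E.card ≤ a + 1 ∨
      ∃ u w Z', u ∉ Z ∧ w ∉ Z ∧ u ≠ w ∧ List.Perm Z' (Z ++ [u, w]) ∧ Cyc G.Adj Z' := by
  by_cases hext : ∃ u w Z', u ∉ Z ∧ w ∉ Z ∧ u ≠ w ∧ List.Perm Z' (Z ++ [u, w]) ∧ Cyc G.Adj Z'
  · exact Or.inr hext
  left
  have noext : ∀ u w Z', u ∉ Z → w ∉ Z → u ≠ w → List.Perm Z' (Z ++ [u, w]) → ¬ Cyc G.Adj Z' :=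
    fun u w Z' h1 h2 h3 h4 h5 => hext ⟨u, w, Z', h1, h2, h3, h4, h5⟩
  have hf : ∀ e ∈ E, ∃ f, IsPred G.Adj Z f e := fun e he => IsPred.exists hZ (hEZ e he)
  choose! f hf using hf
  let A : V → Finset V := fun e => Finset.univ.filter (fun r => G.Adj (f e) r ∧ r ∉ Z)
  have hAmem : ∀ e r, r ∈ A e ↔ G.Adj (f e) r ∧ r ∉ Z := by
    intro e r
    simp [A]
  have hA2 : ∀ e ∈ E, 2 ≤ (A e).card := by
    intro e he
    have h1 := hδ (f e)
    have hfZ : f e ∈ Z := (hf e he).mem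
    have hsub : Finset.univ.filter (G.Adj (f e)) ⊆ A e ∪ (Z.toFinset.erase (f e)) := by
      intro r hr
      rw [Finset.mem_filter] at hr
      rw [Finset.mem_union, hAmem, Finset.mem_erase, List.mem_toFinset]
      by_cases hrZ : r ∈ Z
      · exact Or.inr ⟨(G.ne_of_adj hr.2).symm, hrZ⟩
      · exact Or.inl ⟨hr.2, hrZ⟩
    have h2 := Finset.card_le_card hsub
    have h3 := Finset.card_union_le (A e) (Z.toFinset.erase (f e))
    rw [Finset.card_erase_of_mem (List.mem_toFinset.2 hfZ), List.toFinset_card_of_nodup hnd] at h3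
    have h4 : 0 < Z.length := List.length_pos_of_mem hfZ
    omega
  have hP1 : ∀ e ∈ E, ∀ e' ∈ E, e ≠ e' → ∀ r ∈ A e, ∀ r' ∈ A e', r ≠ r' → ¬ G.Adj r r' := by
    intro e he e' he' hne r hr r' hr' hrr h3
    rw [hAmem] at hr hr'
    have hd1 := hdeg e he
    have hd2 := hdeg e' he'
    obtain ⟨Z', h4, h5⟩ := ext_one G hnd (hf e he) (hf e' he') hne hr.2 hr'.2 hrr hr.1 hr'.1 h3
      (by omega)
    exact noext r' r Z' hr'.2 hr.2 (Ne.symm hrr) h4 h5
  have hP2 : ∀ x ∈ E, ∀ x' ∈ E, ∀ y ∈ E, ∀ y' ∈ E, x ≠ x' → x ≠ y → x ≠ y' → x' ≠ y → x' ≠ y' →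
      y ≠ y' → ∀ u w, u ∈ A x → u ∈ A x' → w ∈ A y → w ∈ A y' → u ≠ w → False := by
    intro x hx x' hx' y hy y' hy' n1 n2 n3 n4 n5 n6 u w h1 h2 h3 h4 huw
    rw [hAmem] at h1 h2 h3 h4
    obtain ⟨Z', h5, h6⟩ := ext_two G hnd (hf x hx) (hf x' hx') (hf y hy) (hf y' hy')
      n1 n2 n3 n4 n5 n6 h1.1 h2.1 h3.1 h4.1 h1.2 h3.2 huw (hdeg x hx) (hdeg x' hx')
      (hdeg y hy) (hdeg y' hy') hD
    exact noext u w Z' h1.2 h3.2 huw h5 h6
  by_cases hcherry : ∃ x ∈ E, ∃ x' ∈ E, x ≠ x' ∧ ∃ u, u ∈ A x ∧ u ∈ A x'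
  · obtain ⟨x, hx, x', hx', n1, u, hu1, hu2⟩ := hcherry
    have hrepex : ∀ y ∈ E, ∃ r ∈ A y, r ≠ u := fun y hy =>
      Finset.exists_mem_ne (by have := hA2 y hy; omega) u
    choose! rep hrep1 hrep2 using hrepex
    let X := (E.erase x).erase x'
    have hXE : X ⊆ E := fun z hz => Finset.mem_of_mem_erase (Finset.mem_of_mem_erase hz)
    have hinj : Set.InjOn rep (X : Set V) := by
      intro y hy y' hy' heq
      by_contra hne
      have hy1 : y ≠ x' := (Finset.mem_erase.1 hy).1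
      have hy2 : y ≠ x := (Finset.mem_erase.1 (Finset.mem_erase.1 hy).2).1
      have hy1' : y' ≠ x' := (Finset.mem_erase.1 hy').1
      have hy2' : y' ≠ x := (Finset.mem_erase.1 (Finset.mem_erase.1 hy').2).1
      exact hP2 x hx x' hx' y (hXE hy) y' (hXE hy') n1 (Ne.symm hy2) (Ne.symm hy2')
        (Ne.symm hy1) (Ne.symm hy1') hne u (rep y) hu1 hu2 (hrep1 y (hXE hy))
        (heq ▸ hrep1 y' (hXE hy')) (Ne.symm (hrep2 y (hXE hy)))
    have hunot : u ∉ X.image rep := by
      intro h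
      obtain ⟨y, hy, hyu⟩ := Finset.mem_image.1 h
      exact hrep2 y (hXE hy) hyu
    have h1 : (insert u (X.image rep)).card ≤ a := by
      apply hα
      intro p hp q hq
      rcases Finset.mem_insert.1 hp with rfl | hp
      · rcases Finset.mem_insert.1 hq with rfl | hq
        · exact G.irrefl
        · obtain ⟨y, hy, rfl⟩ := Finset.mem_image.1 hq
          have hy2 : x ≠ y := Ne.symm (Finset.mem_erase.1 (Finset.mem_erase.1 hy).2).1
          exact hP1 x hx y (hXE hy) hy2 _ hu1 _ (hrep1 y (hXE hy)) (Ne.symm (hrep2 y (hXE hy)))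
      · obtain ⟨y, hy, rfl⟩ := Finset.mem_image.1 hp
        rcases Finset.mem_insert.1 hq with rfl | hq
        · have hy2 : y ≠ x := (Finset.mem_erase.1 (Finset.mem_erase.1 hy).2).1
          exact hP1 y (hXE hy) x hx hy2 _ (hrep1 y (hXE hy)) _ hu1 (hrep2 y (hXE hy))
        · obtain ⟨y', hy', rfl⟩ := Finset.mem_image.1 hq
          by_cases hyy : y = y'
          · subst hyy
            exact G.irrefl
          · exact hP1 y (hXE hy) y' (hXE hy') hyy _ (hrep1 y (hXE hy)) _ (hrep1 y' (hXE hy'))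
              (fun h => hyy (hinj hy hy' h))
    rw [Finset.card_insert_of_notMem hunot, Finset.card_image_of_injOn hinj] at h1
    have h2 : E.card ≤ X.card + 2 := by
      have h3 := Finset.pred_card_le_card_erase (s := E) (a := x)
      have h4 := Finset.pred_card_le_card_erase (s := E.erase x) (a := x')
      simp only [X]
      omega
    omega
  · have hrepex : ∀ y ∈ E, ∃ r, r ∈ A y := fun y hy =>
      Finset.card_pos.1 (by have := hA2 y hy; omega)
    choose! rep hrep1 using hrepex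
    have hinj : Set.InjOn rep (E : Set V) := by
      intro y hy y' hy' heq
      by_contra hne
      exact hcherry ⟨y, hy, y', hy', hne, rep y, hrep1 y hy, heq ▸ hrep1 y' hy'⟩
    have h1 := hα (E.image rep) (by
      intro p hp q hq
      obtain ⟨y, hy, rfl⟩ := Finset.mem_image.1 hp
      obtain ⟨y', hy', rfl⟩ := Finset.mem_image.1 hq
      by_cases hyy : y = y'
      · subst hyy
        exact G.irrefl
      · exact hP1 y hy y' hy' hyy _ (hrep1 y hy) _ (hrep1 y' hy') (fun h => hyy (hinj hy hy' h)))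
    rw [Finset.card_image_of_injOn hinj] at h1
    omega

/-- Lemma H in the sharp form: only closed chains containing `W` are excluded. -/
theorem lemma_H2 [Fintype V] {k a D : ℕ} (hδ : ∀ v, k ≤ (Finset.univ.filter (G.Adj v)).card + 1)
    (hα : ∀ S : Finset V, (∀ x ∈ S, ∀ y ∈ S, ¬ G.Adj x y) → S.card ≤ a)
    (E : Finset V) (W : List V)
    (noC : ∀ l : List V, l.Nodup → Cyc G.Adj l → W ⊆ l → l.length ≠ k)
    (hEW : ∀ e ∈ E, e ∈ W) (hdeg : ∀ e ∈ E, D ≤ dg G.Adj e W)
    (hD : k ≤ 2 * D) :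
    ∀ (n : ℕ) (Z : List V), k - Z.length ≤ n → Z.Nodup → Cyc G.Adj Z → W ⊆ Z → Z.length ≤ k →
      Z.length % 2 = k % 2 → E.card ≤ a + 1 := by
  intro n
  induction n with
  | zero =>
    intro Z h0 hnd hZ hWZ hlen hpar
    exact absurd (by omega) (noC Z hnd hZ hWZ)
  | succ n ih =>
    intro Z h0 hnd hZ hWZ hlen hpar
    have hne := noC Z hnd hZ hWZ
    have hlen2 : Z.length + 2 ≤ k := by omega
    rcases step2 G hδ hα E hnd hZ (fun e he => hWZ (hEW e he))
      (fun e he => le_trans (hdeg e he) (dg_mono hWZ (fun _ hz => hz))) (by omega) hlen2 with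
      h | ⟨u, w, Z', hu, hw, huw, hperm, hc⟩
    · exact h
    · have hnd2 : (Z ++ [u, w]).Nodup := by
        rw [List.nodup_append]
        refine ⟨hnd, by simp [huw], ?_⟩
        intro a ha b hb hab
        subst hab
        simp only [List.mem_cons, List.not_mem_nil, or_false] at hb
        rcases hb with hb | hb
        · subst hb
          exact hu ha
        · subst hb
          exact hw ha
      have hlen3 : Z'.length = Z.length + 2 := by
        rw [hperm.length_eq]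
        simp
      exact ih Z' (by omega) (hperm.nodup_iff.2 hnd2) hc (fun x hx =>
        hperm.symm.subset (List.mem_append_left _ (hWZ hx))) (by omega) (by omega)

variable {G}

theorem ca_skip {P Q T : List V} {a b h : V} : CA (h :: ((P ++ a :: b :: Q) ++ T)) a b := by
  left
  left
  exact ⟨h :: P, Q ++ T, by simp⟩

/-- The step at a skippable member `h` with neighbours `A`, `B` on the closed chain. -/
theorem hub_core [Fintype V] {k a : ℕ}
    (hδ : ∀ v, k ≤ (Finset.univ.filter (G.Adj v)).card + 1)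
    (hα : ∀ S : Finset V, (∀ x ∈ S, ∀ y ∈ S, ¬ G.Adj x y) → S.card ≤ a)
    (hka : 2 * a + 2 ≤ k) (E0 : Finset V) {Z : List V}
    (noC : ∀ l : List V, l.Nodup → Cyc G.Adj l → Z ⊆ l → l.length ≠ k)
    (hnd : Z.Nodup) (hZ : Cyc G.Adj Z) (hE0Z : ∀ e ∈ E0, e ∈ Z)
    (hdeg : ∀ e ∈ E0, k - a - 1 ≤ dg G.Adj e Z)
    (hlen : Z.length + 2 ≤ k) (hpar : Z.length % 2 = k % 2) {h A B : V} (hh : h ∈ E0)
    (hA : A ∈ E0) (hadj : G.Adj A B) (hn1 : Nb Z A h) (hn2 : Nb Z h B)
    (hBo : ∀ y y', G.Adj h y → G.Adj h y' → y ∉ Z → y' ∉ Z → ¬ G.Adj y y') :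
    ∃ Z' r r', r ∉ Z ∧ r' ∉ Z ∧ r ≠ r' ∧ List.Perm Z' (Z ++ [r, r']) ∧ Cyc G.Adj Z' ∧
      CA Z' A B ∧ ∃ cut : V → Prop, (∀ z, cut z → CA Z' h z) ∧
        (∀ p q, Nb Z p q → p ≠ h → q ≠ h → (p ∈ E0 ∨ ¬ cut q) → CA Z' p q) := by
  classical
  have hpr : ∀ z ∈ Z, ∃ f, IsPred G.Adj Z f z := fun z hz => IsPred.exists hZ hz
  choose! pr hpr using hpr
  have prN : ∀ z ∈ Z, Nb Z (pr z) z := fun z hz => (hpr z hz).nb
  have hhZ : h ∈ Z := hn1.right_mem
  have hBZ : B ∈ Z := hn2.right_mem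
  have prB : pr B = h := nb_pred_unique hnd (prN B hBZ) hn2
  have prh : pr h = A := nb_pred_unique hnd (prN h hhZ) hn1
  have prinj : ∀ z ∈ Z, ∀ z' ∈ Z, pr z = pr z' → z = z' := by
    intro z hz z' hz' he
    have h1 := prN z hz
    rw [he] at h1
    exact nb_succ_unique hnd h1 (prN z' hz')
  have hAh : G.Adj A h := by
    have := (hpr h hhZ).rel
    rwa [prh] at this
  -- the ports
  let N := Z.toFinset.filter (fun z => G.Adj h z)
  let Nz := N.erase B
  have hNzmem : ∀ z, z ∈ Nz ↔ z ≠ B ∧ z ∈ Z ∧ G.Adj h z := by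
    intro z
    simp [Nz, N, List.mem_toFinset]
  let Gd := Nz.filter (fun z => pr z ∉ E0)
  have hGdmem : ∀ z ∈ Gd, z ≠ B ∧ z ∈ Z ∧ G.Adj h z ∧ pr z ∉ E0 := by
    intro z hz
    obtain ⟨h1, h2⟩ := Finset.mem_filter.1 hz
    obtain ⟨h4, h5, h6⟩ := (hNzmem z).1 h1
    exact ⟨h4, h5, h6, h2⟩
  let Ao : V → Finset V := fun z => Finset.univ.filter (fun y => G.Adj (pr z) y ∧ y ∉ Z)
  let Bo : Finset V := Finset.univ.filter (fun y => G.Adj h y ∧ y ∉ Z)
  have hAomem : ∀ z y, y ∈ Ao z ↔ G.Adj (pr z) y ∧ y ∉ Z := by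
    intro z y
    simp [Ao]
  have hBomem : ∀ y, y ∈ Bo ↔ G.Adj h y ∧ y ∉ Z := by
    intro y
    simp [Bo]
  by_cases hT1 : ∃ z ∈ Gd, ∃ r ∈ Ao z, ∃ y ∈ Bo, G.Adj r y
  · -- one port and one outside neighbour of the hub
    obtain ⟨z, hz, r, hr, y, hy, hry⟩ := hT1
    obtain ⟨hz1, hz2, hz3, hz4⟩ := hGdmem z hz
    rw [hAomem] at hr
    rw [hBomem] at hy
    obtain ⟨l, h1, h2, h3⟩ := hpr z hz2
    have hndl : l.Nodup := h1.perm.nodup_iff.2 hnd
    have hc1 : Consec l A h := by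
      rcases nb_rot h1.symm hn1 with h4 | ⟨_, h5⟩
      · exact h4
      · exfalso
        rw [h2.2.1] at h5
        have : z = h := by simpa using h5
        exact G.ne_of_adj hz3 this.symm
    have hc2 : Consec l h B := by
      rcases nb_rot h1.symm hn2 with h4 | ⟨_, h5⟩
      · exact h4
      · exfalso
        rw [h2.2.1] at h5
        have : z = B := by simpa using h5
        exact hz1 this
    obtain ⟨P, Q, hl⟩ := consec_triple hndl hc1 hc2
    obtain ⟨s1, s2, s3, s4⟩ := surgery1 G h1 hl h2 hadj hz3 hr.1 hry hy.1.symm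
    refine ⟨_, r, y, hr.2, hy.2, G.ne_of_adj hry, s1, s2, ca_skip, fun w => w = z,
      fun w hw => hw ▸ s4, ?_⟩
    intro p q hN hp hq hcut
    refine s3 p q hN hp hq ?_
    rintro ⟨h5, h6⟩
    rcases hcut with h7 | h7
    · exact hz4 (h5 ▸ h7)
    · exact h7 h6
  by_cases hT2 : ∃ z ∈ Gd, ∃ z' ∈ Gd, z ≠ z' ∧ ∃ r ∈ Ao z, ∃ r' ∈ Ao z', G.Adj r r'
  · -- two ports
    obtain ⟨z, hz, z', hz', hne, r, hr, r', hr', hrr⟩ := hT2
    have key : ∀ z ∈ Gd, ∀ z' ∈ Gd, ∀ r ∈ Ao z, ∀ r' ∈ Ao z', G.Adj r r' →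
        ∀ l1 l2 P Q, (l1 ++ l2) ~r Z → l1 = P ++ A :: h :: B :: Q → Arc G.Adj l1 z (pr z') →
        Arc G.Adj l2 z' (pr z) →
        ∃ Z' r r', r ∉ Z ∧ r' ∉ Z ∧ r ≠ r' ∧ List.Perm Z' (Z ++ [r, r']) ∧ Cyc G.Adj Z' ∧
          CA Z' A B ∧ ∃ cut : V → Prop, (∀ z, cut z → CA Z' h z) ∧
            (∀ p q, Nb Z p q → p ≠ h → q ≠ h → (p ∈ E0 ∨ ¬ cut q) → CA Z' p q) := by
      intro z hz z' hz' r hr r' hr' hrr l1 l2 P Q h0 h1 h2 h3
      obtain ⟨hz1, hz2, hz3, hz4⟩ := hGdmem z hz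
      obtain ⟨hz1', hz2', hz3', hz4'⟩ := hGdmem z' hz'
      rw [hAomem] at hr hr'
      obtain ⟨s1, s2, s3, s4, s5⟩ := surgery2 G h0 h1 h2 h3 hadj hz3 hz3' hr.1 hr'.1 hrr
      refine ⟨_, r', r, hr'.2, hr.2, (G.ne_of_adj hrr).symm, s1, s2, ca_skip,
        fun w => w = z ∨ w = z', ?_, ?_⟩
      · rintro w (rfl | rfl)
        · exact s4
        · exact s5
      · intro p q hN hp hq hcut
        refine s3 p q hN hp hq ?_ ?_
        · rintro ⟨h5, h6⟩
          rcases hcut with h7 | h7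
          · exact hz4' (h5 ▸ h7)
          · exact h7 (Or.inr h6)
        · rintro ⟨h5, h6⟩
          rcases hcut with h7 | h7
          · exact hz4 (h5 ▸ h7)
          · exact h7 (Or.inl h6)
    obtain ⟨hz1, hz2, hz3, hz4⟩ := hGdmem z hz
    obtain ⟨hz1', hz2', hz3', hz4'⟩ := hGdmem z' hz'
    obtain ⟨l1, l2, h0, h1, h2⟩ := ports2 hnd (hpr z hz2) (hpr z' hz2') hne
    have hndl : (l1 ++ l2).Nodup := h0.perm.nodup_iff.2 hnd
    have hn1' : Nb (l1 ++ l2) A h := nb_rot h0.symm hn1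
    have hn2' : Nb (l1 ++ l2) h B := nb_rot h0.symm hn2
    rw [nb_append h1.ne_nil h2.ne_nil] at hn1' hn2'
    have hzh : z ≠ h := (G.ne_of_adj hz3).symm
    have hzh' : z' ≠ h := (G.ne_of_adj hz3').symm
    have hdisj := List.disjoint_of_nodup_append hndl
    have hp1 : Consec l1 A h ∨ Consec l2 A h := by
      rcases hn1' with h3 | h3 | ⟨_, h4⟩ | ⟨_, h4⟩
      · exact Or.inl h3
      · exact Or.inr h3
      · rw [h2.2.1] at h4
        exact absurd (by simpa using h4) hzh'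
      · rw [h1.2.1] at h4
        exact absurd (by simpa using h4) hzh
    have hp2 : Consec l1 h B ∨ Consec l2 h B := by
      rcases hn2' with h3 | h3 | ⟨_, h4⟩ | ⟨_, h4⟩
      · exact Or.inl h3
      · exact Or.inr h3
      · rw [h2.2.1] at h4
        exact absurd (by simpa using h4) hz1'
      · rw [h1.2.1] at h4
        exact absurd (by simpa using h4) hz1
    rcases hp1 with hp1 | hp1 <;> rcases hp2 with hp2 | hp2
    · obtain ⟨P, Q, hl⟩ := consec_triple (List.nodup_append.1 hndl).1 hp1 hp2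
      exact key z hz z' hz' r hr r' hr' hrr l1 l2 P Q h0 hl h1 h2
    · exact absurd hp2.left_mem (hdisj hp1.right_mem)
    · exact absurd hp2.left_mem (fun h3 => hdisj h3 hp1.right_mem)
    · obtain ⟨P, Q, hl⟩ := consec_triple (List.nodup_append.1 hndl).2.1 hp1 hp2
      exact key z' hz' z hz r' hr' r hr hrr.symm l2 l1 P Q (List.isRotated_append.trans h0) hl h2 h1
  -- no extension: counting
  exfalso
  obtain ⟨P0, hP1, hP2, hP3⟩ := count_ports G hα Gd Ao Bo
    (by
      intro x hx y hy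
      rw [hBomem] at hx hy
      exact hBo x y hx.1 hy.1 hx.2 hy.2)
    (by
      intro i hi r hr y hy hadj'
      exact hT1 ⟨i, hi, r, hr, y, hy, hadj'⟩)
    (by
      intro i hi j hj hij r hr r' hr' hadj'
      exact hT2 ⟨i, hi, j, hj, hij, r, hr, r', hr', hadj'⟩)
  have hP0mem : ∀ z ∈ P0, z ∈ Z ∧ pr z ∉ E0 := by
    intro z hz
    obtain ⟨_, h2, _, h4⟩ := hGdmem z (hP1 hz)
    exact ⟨h2, h4⟩
  let E' := P0.image pr ∪ E0
  have hE'card : E'.card = P0.card + E0.card := by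
    simp only [E']
    rw [Finset.card_union_of_disjoint, Finset.card_image_of_injOn]
    · intro x hx y hy hxy
      exact prinj x (hP0mem x hx).1 y (hP0mem y hy).1 hxy
    · rw [Finset.disjoint_left]
      intro x hx hx'
      obtain ⟨z, hz, rfl⟩ := Finset.mem_image.1 hx
      exact (hP0mem z hz).2 hx'
  have hE'Z : ∀ e ∈ E', e ∈ Z := by
    intro e he
    rcases Finset.mem_union.1 he with he | he
    · obtain ⟨z, hz, rfl⟩ := Finset.mem_image.1 he
      exact (hpr z (hP0mem z hz).1).mem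
    · exact hE0Z e he
  have hE'deg : ∀ e ∈ E', k - a - 1 ≤ dg G.Adj e Z := by
    intro e he
    rcases Finset.mem_union.1 he with he | he
    · obtain ⟨z, hz, rfl⟩ := Finset.mem_image.1 he
      have h1 := hδ (pr z)
      have hsub : Finset.univ.filter (G.Adj (pr z)) ⊆
          (Z.toFinset.filter (fun y => G.Adj y (pr z))) ∪ Ao z := by
        intro y hy
        rw [Finset.mem_filter] at hy
        rw [Finset.mem_union, hAomem, Finset.mem_filter, List.mem_toFinset]
        by_cases hyZ : y ∈ Z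
        · exact Or.inl ⟨hyZ, hy.2.symm⟩
        · exact Or.inr ⟨hy.2, hyZ⟩
      have h2 := Finset.card_le_card hsub
      have h3 := Finset.card_union_le (Z.toFinset.filter (fun y => G.Adj y (pr z))) (Ao z)
      have h5 := hP3 z hz
      unfold dg
      omega
    · exact hdeg e he
  have hH := lemma_H2 G hδ hα E' Z noC hE'Z hE'deg (by omega) (k - Z.length) Z (le_refl _) hnd hZ
    (List.Subset.refl _) (by omega) hpar
  -- the degree of the hub
  have hdh : k ≤ Nz.card + Bo.card + 2 := by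
    have h1 := hδ h
    have hsub : Finset.univ.filter (G.Adj h) ⊆ N ∪ Bo := by
      intro y hy
      rw [Finset.mem_filter] at hy
      rw [Finset.mem_union, hBomem, Finset.mem_filter, List.mem_toFinset]
      by_cases hyZ : y ∈ Z
      · exact Or.inl ⟨hyZ, hy.2⟩
      · exact Or.inr ⟨hy.2, hyZ⟩
    have h2 := Finset.card_le_card hsub
    have h3 := Finset.card_union_le N Bo
    have h5 : N.card - 1 ≤ Nz.card := Finset.pred_card_le_card_erase
    omega
  -- the split of the neighbours of the hub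
  let NE := Nz.filter (fun z => pr z ∈ E0)
  have hsplit : Nz.card = Gd.card + NE.card := by
    have := Finset.card_filter_add_card_filter_not (s := Nz) (fun z => pr z ∉ E0)
    simp only [not_not] at this
    simp only [Gd, NE]
    omega
  have hNEmem : ∀ z ∈ NE, z ≠ B ∧ z ∈ Z ∧ G.Adj h z ∧ pr z ∈ E0 := by
    intro z hz
    obtain ⟨h1, h2⟩ := Finset.mem_filter.1 hz
    obtain ⟨h4, h5, h6⟩ := (hNzmem z).1 h1
    exact ⟨h4, h5, h6, h2⟩
  have hE0big : NE.card + 2 ≤ E0.card := by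
    have hcard1 : (NE.image pr).card = NE.card := by
      apply Finset.card_image_of_injOn
      intro x hx y hy hxy
      exact prinj x (hNEmem x hx).2.1 y (hNEmem y hy).2.1 hxy
    have hhnot : h ∉ NE.image pr := by
      intro hin
      obtain ⟨z, hz, hz2⟩ := Finset.mem_image.1 hin
      obtain ⟨h1, h3, _, _⟩ := hNEmem z hz
      apply h1
      apply prinj z h3 B hBZ
      rw [hz2, prB]
    have hAnot : A ∉ insert h (NE.image pr) := by
      intro hin
      rcases Finset.mem_insert.1 hin with hin | hin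
      · subst hin
        exact G.irrefl hAh
      · obtain ⟨z, hz, hz2⟩ := Finset.mem_image.1 hin
        obtain ⟨_, h3, h4, _⟩ := hNEmem z hz
        have h5 : z = h := by
          apply prinj z h3 h hhZ
          rw [hz2, prh]
        subst h5
        exact G.irrefl h4
    have hsub : insert A (insert h (NE.image pr)) ⊆ E0 := by
      intro x hx
      rcases Finset.mem_insert.1 hx with rfl | hx
      · exact hA
      · rcases Finset.mem_insert.1 hx with rfl | hx
        · exact hh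
        · obtain ⟨z, hz, rfl⟩ := Finset.mem_image.1 hx
          exact (hNEmem z hz).2.2.2
    have h1 := Finset.card_le_card hsub
    rw [Finset.card_insert_of_notMem hAnot, Finset.card_insert_of_notMem hhnot, hcard1] at h1
    omega
  omega

end Vale.Agent.Lib.P048
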