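import Vale.Agent.Lib.P048.Engine

/-!
Iterating the extension engine: a supply of skippable members and of two vertex extensions.
-/

namespace Vale.Agent.Lib.P048

open scoped Classical

variable {V : Type*} {G : SimpleGraph V}

/-- The skippable members of a closed chain, each with a fixed neighbour in `E0`. -/
def LiveOK2 (G : SimpleGraph V) (E0 Live : Finset V) (Z : List V) (aF : V → V) : Prop :=
  ∀ h ∈ Live, aF h ∈ E0 ∧ aF h ∉ Live ∧
    ∃ b, aF h ≠ b ∧ G.Adj (aF h) b ∧ CA Z (aF h) h ∧ CA Z h b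

/-- What survives the step of `hub_core` at `h` for another skippable member `j`. -/
theorem keep_one {E0 : Finset V} {Z Z' : List V} {h A B j Aj bj : V} {cut : V → Prop}
    (hnd : Z.Nodup) (hn1 : Nb Z A h) (hn2 : Nb Z h B) (hAB' : CA Z' A B)
    (K1 : ∀ z, cut z → CA Z' h z)
    (K2 : ∀ p q, Nb Z p q → p ≠ h → q ≠ h → (p ∈ E0 ∨ ¬ cut q) → CA Z' p q)
    (hcl : ∀ e ∈ E0, ∀ e' ∈ E0, e ≠ e' → G.Adj e e')
    (hj : j ∈ E0) (hAj : Aj ∈ E0) (hh : h ∈ E0) (hA : A ∈ E0)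
    (hjh : j ≠ h) (hjA : j ≠ A) (hAjh : Aj ≠ h) (hAjA : Aj ≠ A)
    (hne : Aj ≠ bj) (hadj : G.Adj Aj bj) (c1 : CA Z Aj j) (c2 : CA Z j bj) :
    ∃ b, Aj ≠ b ∧ G.Adj Aj b ∧ CA Z' Aj j ∧ CA Z' j b := by
  have c1' : CA Z' Aj j := by
    rcases c1 with c | c
    · exact K2 _ _ c hAjh hjh (Or.inl hAj)
    · exact (K2 _ _ c hjh hAjh (Or.inl hj)).symm
  by_cases hb : bj = h
  · subst hb
    have hjB : j = B := by
      rcases c2 with c | c
      · exact absurd (nb_pred_unique hnd c hn1) hjA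
      · exact nb_succ_unique hnd c hn2
    subst hjB
    exact ⟨A, hAjA, hcl _ hAj _ hA hAjA, c1', hAB'.symm⟩
  · rcases c2 with c | c
    · exact ⟨bj, hne, hadj, c1', K2 _ _ c hjh hb (Or.inl hj)⟩
    · by_cases hcut : cut j
      · exact ⟨h, hAjh, hcl _ hAj _ hh hAjh, c1', (K1 j hcut).symm⟩
      · exact ⟨bj, hne, hadj, c1', (K2 _ _ c hb hjh (Or.inr hcut)).symm⟩

/-- Replacing a step of a closed chain by a chain of new members. -/
theorem splice {Z l m : List V} {e t c d : V} (hrot : l ~r Z) (h1 : Arc G.Adj l t e)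
    (hm : Arc G.Adj m c d) (hec : G.Adj e c) (hdt : G.Adj d t) :
    List.Perm (l ++ m) (Z ++ m) ∧ Cyc G.Adj (l ++ m) ∧
      ∀ p q, Nb Z p q → ¬ (p = e ∧ q = t) → Nb (l ++ m) p q := by
  refine ⟨hrot.perm.append_right m, ⟨t, d, h1.append hec hm, hdt⟩, ?_⟩
  intro p q hN hne
  rcases nb_rot hrot.symm hN with h3 | ⟨h3, h4⟩
  · exact Or.inl (consec_append.2 (Or.inl h3))
  · exfalso
    apply hne
    rw [h1.2.2] at h3
    rw [h1.2.1] at h4
    exact ⟨by simpa using h3.symm, by simpa using h4.symm⟩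

/-- The oriented step with the fixed first neighbours. -/
theorem hub_oriented2 [Fintype V] {k a : ℕ}
    (hδ : ∀ v, k ≤ (Finset.univ.filter (G.Adj v)).card + 1)
    (hα : ∀ S : Finset V, (∀ x ∈ S, ∀ y ∈ S, ¬ G.Adj x y) → S.card ≤ a)
    (hka : 2 * a + 2 ≤ k) (E0 Live : Finset V) (aF : V → V) (q : V) {Z : List V}
    (noC : ∀ l : List V, l.Nodup → Cyc G.Adj l → Z ⊆ l → l.length ≠ k)
    (hnd : Z.Nodup) (hZ : Cyc G.Adj Z) (hE0Z : ∀ e ∈ E0, e ∈ Z) (hLE : Live ⊆ E0)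
    (hOK : LiveOK2 G E0 Live Z aF) (hinj : Set.InjOn aF (Live : Set V))
    (hcl : ∀ e ∈ E0, ∀ e' ∈ E0, e ≠ e' → G.Adj e e')
    (hq : ∀ e ∈ E0, e ≠ q → G.Adj e q)
    (hdeg : ∀ e ∈ E0, k - a - 1 ≤ dg G.Adj e Z)
    (hout : ∀ e ∈ E0, ∀ y y', G.Adj e y → G.Adj e y' → y ∉ Z → y' ∉ Z → y ≠ q → y' ≠ q →
      ¬ G.Adj y y')
    (hlen : Z.length + 2 ≤ k) (hpar : Z.length % 2 = k % 2) {h B : V} (hh : h ∈ Live)
    (hadj : G.Adj (aF h) B) (hn1 : Nb Z (aF h) h) (hn2 : Nb Z h B) :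
    ∃ Z' r r', r ∉ Z ∧ r' ∉ Z ∧ r ≠ r' ∧ List.Perm Z' (Z ++ [r, r']) ∧ Cyc G.Adj Z' ∧
      LiveOK2 G E0 (Live.erase h) Z' aF := by
  obtain ⟨hA, hAL, _⟩ := hOK h hh
  have hhE : h ∈ E0 := hLE hh
  have hhZ : h ∈ Z := hn1.right_mem
  have hgen : ∀ j ∈ Live.erase h, j ≠ h ∧ j ≠ aF h ∧ aF j ≠ h ∧ aF j ≠ aF h ∧ j ∈ Live := by
    intro j hj
    rw [Finset.mem_erase] at hj
    refine ⟨hj.1, ?_, ?_, ?_, hj.2⟩
    · intro h1
      exact hAL (h1 ▸ hj.2)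
    · intro h1
      exact (hOK j hj.2).2.1 (h1 ▸ hh)
    · intro h1
      exact hj.1 (hinj hj.2 hh h1)
  by_cases hbad : ∃ y y', G.Adj h y ∧ G.Adj h y' ∧ y ∉ Z ∧ y' ∉ Z ∧ G.Adj y y'
  · -- two new members next to `h`, one of them the exception
    obtain ⟨y, y', h1, h2, h3, h4, h5⟩ := hbad
    obtain ⟨y0, hy1, hy2, hy3, hq2⟩ : ∃ y0, G.Adj h y0 ∧ y0 ∉ Z ∧ G.Adj q y0 ∧ q ∉ Z := by
      by_cases h6 : y = q
      · subst h6
        exact ⟨y', h2, h4, h5, h3⟩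
      · by_cases h7 : y' = q
        · subst h7
          exact ⟨y, h1, h3, h5.symm, h4⟩
        · exact absurd h5 (hout h hhE y y' h1 h2 h3 h4 h6 h7)
    have hAq : aF h ≠ q := fun h6 => hq2 (h6 ▸ hE0Z _ hA)
    obtain ⟨f, hf⟩ := IsPred.exists hZ hhZ
    have hfA : f = aF h := nb_pred_unique hnd hf.nb hn1
    subst hfA
    obtain ⟨l, h6, h7, _⟩ := hf
    obtain ⟨s1, s2, s3⟩ := splice (m := [q, y0]) h6 h7
      ((Arc.single q).append (l' := [y0]) hy3 (Arc.single y0)) (hq _ hA hAq) hy1.symm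
    refine ⟨_, q, y0, hq2, hy2, G.ne_of_adj hy3, s1, s2, ?_⟩
    intro j hj
    obtain ⟨g1, g2, _, _, g5⟩ := hgen j hj
    obtain ⟨c1, c2, b, c3, c4, c5, c6⟩ := hOK j g5
    refine ⟨c1, fun h8 => c2 (Finset.mem_of_mem_erase h8), b, c3, c4, ?_, ?_⟩
    · rcases c5 with c | c
      · exact Or.inl (s3 _ _ c (fun h8 => g1 h8.2))
      · exact Or.inr (s3 _ _ c (fun h8 => g2 h8.1))
    · rcases c6 with c | c
      · exact Or.inl (s3 _ _ c (fun h8 => g2 h8.1))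
      · exact Or.inr (s3 _ _ c (fun h8 => g1 h8.2))
  · have hBo : ∀ y y', G.Adj h y → G.Adj h y' → y ∉ Z → y' ∉ Z → ¬ G.Adj y y' := by
      intro y y' h1 h2 h3 h4 h5
      exact hbad ⟨y, y', h1, h2, h3, h4, h5⟩
    obtain ⟨Z', r, r', c1, c2, c3, c4, c5, c6, cut, K1, K2⟩ := hub_core hδ hα hka E0 noC hnd hZ hE0Z
      hdeg hlen hpar hhE hA hadj hn1 hn2 hBo
    refine ⟨Z', r, r', c1, c2, c3, c4, c5, ?_⟩
    intro j hj
    obtain ⟨g1, g2, g3, g4, g5⟩ := hgen j hj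
    obtain ⟨d1, d2, b, d3, d4, d5, d6⟩ := hOK j g5
    obtain ⟨b', e1, e2, e3, e4⟩ := keep_one hnd hn1 hn2 c6 K1 K2 hcl (hLE g5) d1 hhE hA g1 g2 g3 g4
      d3 d4 d5 d6
    exact ⟨d1, fun h8 => d2 (Finset.mem_of_mem_erase h8), b', e1, e2, e3, e4⟩

/-- One step, in either direction of the closed chain. -/
theorem hub_step2 [Fintype V] {k a : ℕ}
    (hδ : ∀ v, k ≤ (Finset.univ.filter (G.Adj v)).card + 1)
    (hα : ∀ S : Finset V, (∀ x ∈ S, ∀ y ∈ S, ¬ G.Adj x y) → S.card ≤ a)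
    (hka : 2 * a + 2 ≤ k) (E0 Live : Finset V) (aF : V → V) (q : V) {Z : List V}
    (noC : ∀ l : List V, l.Nodup → Cyc G.Adj l → Z ⊆ l → l.length ≠ k)
    (hnd : Z.Nodup) (hZ : Cyc G.Adj Z) (hE0Z : ∀ e ∈ E0, e ∈ Z) (hLE : Live ⊆ E0)
    (hOK : LiveOK2 G E0 Live Z aF) (hinj : Set.InjOn aF (Live : Set V))
    (hcl : ∀ e ∈ E0, ∀ e' ∈ E0, e ≠ e' → G.Adj e e')
    (hq : ∀ e ∈ E0, e ≠ q → G.Adj e q)
    (hdeg : ∀ e ∈ E0, k - a - 1 ≤ dg G.Adj e Z)
    (hout : ∀ e ∈ E0, ∀ y y', G.Adj e y → G.Adj e y' → y ∉ Z → y' ∉ Z → y ≠ q → y' ≠ q →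
      ¬ G.Adj y y')
    (hlen : Z.length + 2 ≤ k) (hpar : Z.length % 2 = k % 2) {h : V} (hh : h ∈ Live) :
    ∃ Z' r r', r ∉ Z ∧ r' ∉ Z ∧ r ≠ r' ∧ List.Perm Z' (Z ++ [r, r']) ∧ Cyc G.Adj Z' ∧
      LiveOK2 G E0 (Live.erase h) Z' aF := by
  obtain ⟨hA, hAL, B, hAB, hadj, h1, h2⟩ := hOK h hh
  rcases h1 with h1 | h1 <;> rcases h2 with h2 | h2
  · exact hub_oriented2 hδ hα hka E0 Live aF q noC hnd hZ hE0Z hLE hOK hinj hcl hq hdeg hout hlen
      hpar hh hadj h1 h2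
  · exact absurd (nb_pred_unique hnd h1 h2) hAB
  · exact absurd (nb_succ_unique hnd h1 h2) hAB
  · have hrev : List.Perm Z.reverse Z := List.reverse_perm Z
    have hLR : LiveOK2 G E0 Live Z.reverse aF := by
      intro j hj
      obtain ⟨c1, c2, b, c3, c4, c5, c6⟩ := hOK j hj
      exact ⟨c1, c2, b, c3, c4, ca_reverse c5, ca_reverse c6⟩
    obtain ⟨Z', r, r', c1, c2, c3, c4, c5, c6⟩ := hub_oriented2 hδ hα hka E0 Live aF q
      (Z := Z.reverse) (fun l h3 h4 h5 => noC l h3 h4 (fun x hx => h5 (List.mem_reverse.2 hx)))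
      (List.nodup_reverse.2 hnd) (Cyc.reverse hZ) (fun e he => List.mem_reverse.2 (hE0Z e he)) hLE
      hLR hinj hcl hq (fun e he => by rw [dg_perm hrev]; exact hdeg e he)
      (fun e he y y' h3 h4 h5 h6 => hout e he y y' h3 h4 (fun h7 => h5 (List.mem_reverse.2 h7))
        (fun h7 => h6 (List.mem_reverse.2 h7)))
      (by simpa using hlen) (by simpa using hpar) hh hadj (nb_reverse h1) (nb_reverse h2)
    exact ⟨Z', r, r', fun h7 => c1 (List.mem_reverse.2 h7), fun h7 => c2 (List.mem_reverse.2 h7),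
      c3, c4.trans (hrev.append_right _), c5, c6⟩

/-- Repeating the step: enough skippable members give a closed chain of length `k`. -/
theorem hub_iter2 [Fintype V] {k a : ℕ}
    (hδ : ∀ v, k ≤ (Finset.univ.filter (G.Adj v)).card + 1)
    (hα : ∀ S : Finset V, (∀ x ∈ S, ∀ y ∈ S, ¬ G.Adj x y) → S.card ≤ a)
    (hka : 2 * a + 2 ≤ k) (E0 : Finset V) (aF : V → V) (q : V) (W : List V)
    (noC : ∀ l : List V, l.Nodup → Cyc G.Adj l → W ⊆ l → l.length ≠ k)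
    (hcl : ∀ e ∈ E0, ∀ e' ∈ E0, e ≠ e' → G.Adj e e')
    (hq : ∀ e ∈ E0, e ≠ q → G.Adj e q) :
    ∀ (n : ℕ) (Live : Finset V) (Z : List V), Live.card = n → k - Z.length ≤ 2 * n →
      Z.Nodup → Cyc G.Adj Z → W ⊆ Z → (∀ e ∈ E0, e ∈ Z) → Live ⊆ E0 →
      LiveOK2 G E0 Live Z aF → Set.InjOn aF (Live : Set V) →
      (∀ e ∈ E0, k - a - 1 ≤ dg G.Adj e Z) →
      (∀ e ∈ E0, ∀ y y', G.Adj e y → G.Adj e y' → y ∉ Z → y' ∉ Z → y ≠ q → y' ≠ q →
        ¬ G.Adj y y') →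
      Z.length ≤ k → Z.length % 2 = k % 2 → False := by
  intro n
  induction n with
  | zero =>
    intro Live Z _ h0 hnd hZ hW _ _ _ _ _ _ hlen _
    exact noC Z hnd hZ hW (by omega)
  | succ n ih =>
    intro Live Z hcard h0 hnd hZ hW hE0Z hLE hOK hinj hdeg hout hlen hpar
    by_cases hk : Z.length = k
    · exact noC Z hnd hZ hW hk
    obtain ⟨h, hh⟩ : ∃ h, h ∈ Live := Finset.card_pos.1 (by omega)
    obtain ⟨Z', r, r', c1, c2, c3, c4, c5, c6⟩ := hub_step2 hδ hα hka E0 Live aF q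
      (fun l h3 h4 h5 => noC l h3 h4 (fun x hx => h5 (hW hx))) hnd hZ hE0Z hLE
      hOK hinj hcl hq hdeg hout (by omega) hpar hh
    have hnd2 : (Z ++ [r, r']).Nodup := by
      rw [List.nodup_append]
      refine ⟨hnd, by simp [c3], ?_⟩
      intro x hx y hy hxy
      subst hxy
      simp only [List.mem_cons, List.not_mem_nil, or_false] at hy
      rcases hy with hy | hy
      · subst hy
        exact c1 hx
      · subst hy
        exact c2 hx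
    have hlen3 : Z'.length = Z.length + 2 := by
      rw [c4.length_eq]
      simp
    have hsub : Z ⊆ Z' := fun x hx => c4.symm.subset (List.mem_append_left _ hx)
    refine ih (Live.erase h) Z' (by rw [Finset.card_erase_of_mem hh]; omega) (by omega)
      (c4.nodup_iff.2 hnd2) c5 (fun x hx => hsub (hW hx)) (fun e he => hsub (hE0Z e he))
      (fun x hx => hLE (Finset.mem_of_mem_erase hx)) c6
      (fun x hx y hy hxy => hinj (Finset.mem_of_mem_erase hx) (Finset.mem_of_mem_erase hy) hxy)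
      (fun e he => le_trans (hdeg e he) (dg_mono hsub (fun _ hz => hz)))
      (fun e he y y' h3 h4 h5 h6 => hout e he y y' h3 h4 (fun h7 => h5 (hsub h7))
        (fun h7 => h6 (hsub h7))) (by omega) (by omega)

end Vale.Agent.Lib.P048
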