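import Vale.Agent.Lib.P048.Dense
import Mathlib.Combinatorics.SimpleGraph.Paths
import Mathlib.Combinatorics.SimpleGraph.Maps
import Mathlib.Combinatorics.SimpleGraph.Clique

/-!
From the minimum degree theorem to the Ramsey statement, and from closed lists to cycles.
-/

namespace Vale.Agent.Lib.P048

open scoped Classical

universe u

/-- The Ramsey form, for closed lists. -/
theorem ramsey_list {k : ℕ} : ∀ (a : ℕ) (V : Type u) [Fintype V] (G : SimpleGraph V),
    3 * a + 6 ≤ k → (k - 1) * a + 1 ≤ Fintype.card V →
    (∃ l : List V, l.Nodup ∧ Cyc G.Adj l ∧ l.length = k) ∨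
      ∃ S : Finset V, (∀ x ∈ S, ∀ y ∈ S, ¬ G.Adj x y) ∧ S.card = a + 1 := by
  intro a
  induction a with
  | zero =>
    intro V _ G _ hcard
    have hne : Nonempty V := by
      apply Fintype.card_pos_iff.1
      omega
    obtain ⟨v0⟩ := hne
    right
    refine ⟨{v0}, ?_, by simp⟩
    intro x hx y hy
    simp only [Finset.mem_singleton] at hx hy
    subst hx hy
    exact G.irrefl
  | succ a ih =>
    intro V _ G hka hcard
    by_contra hcon
    have hno1 : ¬ ∃ l : List V, l.Nodup ∧ Cyc G.Adj l ∧ l.length = k := fun h => hcon (Or.inl h)
    have hno2 : ¬ ∃ S : Finset V, (∀ x ∈ S, ∀ y ∈ S, ¬ G.Adj x y) ∧ S.card = a + 1 + 1 :=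
      fun h => hcon (Or.inr h)
    have hα : ∀ S : Finset V, (∀ x ∈ S, ∀ y ∈ S, ¬ G.Adj x y) → S.card ≤ a + 1 := by
      intro S hS
      by_contra h
      obtain ⟨S', h1, h2⟩ := Finset.exists_subset_card_eq (s := S) (n := a + 1 + 1) (by omega)
      exact hno2 ⟨S', fun x hx y hy => hS x (h1 hx) y (h1 hy), h2⟩
    by_cases hδ : ∀ v, k ≤ (Finset.univ.filter (G.Adj v)).card + 1
    · have hne : Nonempty V := by
        apply Fintype.card_pos_iff.1
        omega
      exact hno1 (thmA G hka hδ hα)
    · simp only [not_forall, not_le] at hδ
      obtain ⟨v, hv⟩ := hδ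
      -- delete a vertex of small degree together with its neighbours
      let P : V → Prop := fun x => x ≠ v ∧ ¬ G.Adj v x
      let W := {x : V // P x}
      have hcardW : (k - 1) * a + 1 ≤ Fintype.card W := by
        have h1 : Fintype.card W = (Finset.univ.filter P).card := Fintype.card_subtype P
        have h2 : Finset.univ ⊆ Finset.univ.filter P ∪
            insert v (Finset.univ.filter (G.Adj v)) := by
          intro x _
          rw [Finset.mem_union, Finset.mem_insert, Finset.mem_filter, Finset.mem_filter]
          by_cases h3 : x = v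
          · exact Or.inr (Or.inl h3)
          · by_cases h4 : G.Adj v x
            · exact Or.inr (Or.inr ⟨Finset.mem_univ _, h4⟩)
            · exact Or.inl ⟨Finset.mem_univ _, h3, h4⟩
        have h3 := Finset.card_le_card h2
        have h4 := Finset.card_union_le (Finset.univ.filter P)
          (insert v (Finset.univ.filter (G.Adj v)))
        have h5 := Finset.card_insert_le v (Finset.univ.filter (G.Adj v))
        rw [Finset.card_univ] at h3
        have h6 : (k - 1) * (a + 1) = (k - 1) * a + (k - 1) := by ring
        omega
      let G' : SimpleGraph W := G.comap Subtype.val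
      rcases ih W G' (by omega) hcardW with ⟨l, h1, h2, h3⟩ | ⟨S, h1, h2⟩
      · apply hno1
        refine ⟨l.map Subtype.val, ?_, ?_, by simpa using h3⟩
        · exact h1.map Subtype.val_injective
        · obtain ⟨x, y, h4, h5⟩ := h2
          exact ⟨x.1, y.1, h4.map _ (fun _ _ h => h), h5⟩
      · apply hno2
        have hvnot : v ∉ S.image Subtype.val := by
          intro h
          obtain ⟨x, _, hx⟩ := Finset.mem_image.1 h
          exact x.2.1 hx
        refine ⟨insert v (S.image Subtype.val), ?_, ?_⟩
        · intro x hx y hy hxy
          rcases Finset.mem_insert.1 hx with rfl | hx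
          · rcases Finset.mem_insert.1 hy with rfl | hy
            · exact G.irrefl hxy
            · obtain ⟨y', _, rfl⟩ := Finset.mem_image.1 hy
              exact y'.2.2 hxy
          · obtain ⟨x', hx', rfl⟩ := Finset.mem_image.1 hx
            rcases Finset.mem_insert.1 hy with rfl | hy
            · exact x'.2.2 hxy.symm
            · obtain ⟨y', hy', rfl⟩ := Finset.mem_image.1 hy
              exact h1 x' hx' y' hy' hxy
        · rw [Finset.card_insert_of_notMem hvnot,
            Finset.card_image_of_injective _ Subtype.val_injective, h2]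

variable {V : Type*} {G : SimpleGraph V}

/-- A chain with named ends gives a walk with the same support. -/
theorem walk_of_arc : ∀ (l : List V) (a b : V), Arc G.Adj l a b →
    ∃ w : G.Walk a b, w.support = l := by
  intro l
  induction l with
  | nil =>
    intro a b h
    exact absurd h.head_mem (by simp)
  | cons x r ih =>
    intro a b h
    have hxa : a = x := h.cons_head
    subst hxa
    cases r with
    | nil =>
      have hab : a = b := by
        have := h.2.2
        simpa using this
      subst hab
      exact ⟨SimpleGraph.Walk.nil, rfl⟩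
    | cons y r' =>
      have h1 := h.1
      rw [List.isChain_cons_cons] at h1
      have h2 : Arc G.Adj (y :: r') y b := by
        refine ⟨h1.2, rfl, ?_⟩
        have h3 := h.2.2
        rw [List.getLast?_cons_cons] at h3
        exact h3
      obtain ⟨w, hw⟩ := ih y b h2
      exact ⟨SimpleGraph.Walk.cons h1.1 w, by simp [hw]⟩

/-- A closed chain without repetition and of length at least three gives a cycle. -/
theorem cycle_of_list {l : List V} (hnd : l.Nodup) (hc : Cyc G.Adj l) (h3 : 3 ≤ l.length) :
    ∃ (v : V) (w : G.Walk v v), w.IsCycle ∧ w.length = l.length := by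
  obtain ⟨a, b, hArc, hba⟩ := hc
  obtain ⟨w, hw⟩ := walk_of_arc l a b hArc
  have hpath : w.IsPath := by
    rw [SimpleGraph.Walk.isPath_def, hw]
    exact hnd
  have hlen : w.length + 1 = l.length := by
    rw [← hw, SimpleGraph.Walk.length_support]
  refine ⟨b, SimpleGraph.Walk.cons hba w, ?_, ?_⟩
  · rw [SimpleGraph.Walk.cons_isCycle_iff]
    refine ⟨hpath, ?_⟩
    intro hedge
    -- an edge between the two ends of a path forces length one
    have key : ∀ (x y : V) (p : G.Walk x y), p.IsPath → s(y, x) ∈ p.edges → p.length = 1 := by
      intro x y p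
      induction p with
      | nil =>
        intro _ h
        simp at h
      | @cons x z y hxz q ih =>
        intro hq h
        rw [SimpleGraph.Walk.cons_isPath_iff] at hq
        rw [SimpleGraph.Walk.edges_cons, List.mem_cons] at h
        rcases h with h | h
        · have hyz : y = z := by
            rw [Sym2.eq_iff] at h
            rcases h with ⟨_, h2⟩ | ⟨h1, _⟩
            · exact absurd h2 hxz.ne
            · exact h1
          subst hyz
          have : q.length = 0 := by
            have hq0 := hq.1
            have := SimpleGraph.Walk.isPath_iff_eq_nil.1 hq0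
            rw [this]
            rfl
          simp [this]
        · exfalso
          apply hq.2
          have := SimpleGraph.Walk.snd_mem_support_of_mem_edges q h
          exact this
    have := key _ _ w hpath hedge
    omega
  · simp only [SimpleGraph.Walk.length_cons]
    omega

/-- The main result in terms of Mathlib notions only. -/
theorem ramsey_cycle_indep {V : Type u} [Fintype V] (G : SimpleGraph V) (m n : ℕ) (hn : 1 ≤ n)
    (hm : 3 * n + 3 ≤ m) (hcard : (m - 1) * (n - 1) + 1 ≤ Fintype.card V) :
    (∃ (v : V) (w : G.Walk v v), w.IsCycle ∧ w.length = m) ∨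
      ∃ s : Finset V, G.IsIndepSet (s : Set V) ∧ s.card = n := by
  obtain ⟨a, rfl⟩ : ∃ a, n = a + 1 := ⟨n - 1, by omega⟩
  rcases ramsey_list (k := m) a V G (by omega) (by simpa using hcard) with
    ⟨l, h1, h2, h3⟩ | ⟨S, h1, h2⟩
  · left
    obtain ⟨v, w, h4, h5⟩ := cycle_of_list h1 h2 (by omega)
    exact ⟨v, w, h4, by omega⟩
  · right
    refine ⟨S, ?_, h2⟩
    intro x hx y hy _
    exact h1 x hx y hy

end Vale.Agent.Lib.P048
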