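import Vale.Agent.Lib.P048.Hub

/-!
Adding two vertices to a closed chain at the price of a skippable member, when the closed chain
holds all members of the strip seen from the possible ends.
-/

namespace Vale.Agent.Lib.P048

open scoped Classical

variable {V : Type*} {G : SimpleGraph V}

theorem hub_oriented3 [Fintype V] {k a : ℕ}
    (hδ : ∀ v, k ≤ (Finset.univ.filter (G.Adj v)).card + 1)
    (hα : ∀ S : Finset V, (∀ x ∈ S, ∀ y ∈ S, ¬ G.Adj x y) → S.card ≤ a)
    (noC : ∀ l : List V, l.Nodup → Cyc G.Adj l → l.length ≠ k)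
    (hka : 2 * a + 3 ≤ k) (E0 Live : Finset V) {Z : List V}
    (hnd : Z.Nodup) (hZ : Cyc G.Adj Z) (hE0Z : ∀ e ∈ E0, e ∈ Z) (hLE : Live ⊆ E0)
    (hOK : LiveOK G E0 Live Z) (hdeg : ∀ e ∈ E0, k - a - 1 ≤ dg G.Adj e Z)
    (hout : ∀ e ∈ E0, ∀ y y', G.Adj e y → G.Adj e y' → y ∉ Z → y' ∉ Z → ¬ G.Adj y y')
    (hlen : Z.length + 2 ≤ k) (hpar : Z.length % 2 = k % 2) {h A B : V} (hh : h ∈ Live)
    (hA : A ∈ E0) (hAL : A ∉ Live) (hadj : G.Adj A B)
    (hn1 : Nb Z A h) (hn2 : Nb Z h B) :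
    ∃ Z' r r', r ∉ Z ∧ r' ∉ Z ∧ r ≠ r' ∧ List.Perm Z' (Z ++ [r, r']) ∧ Cyc G.Adj Z' ∧
      LiveOK G E0 (Live.erase h) Z' := by
  classical
  have hpr : ∀ z ∈ Z, ∃ f, IsPred G.Adj Z f z := fun z hz => IsPred.exists hZ hz
  choose! pr hpr using hpr
  have prN : ∀ z ∈ Z, Nb Z (pr z) z := fun z hz => (hpr z hz).nb
  have hhZ : h ∈ Z := hn1.right_mem
  have hBZ : B ∈ Z := hn2.right_mem
  have prB : pr B = h := nb_pred_unique hnd (prN B hBZ) hn2
  have prh : pr h = A := nb_pred_unique hnd (prN h hhZ) hn1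
  have prinj : ∀ z ∈ Z, ∀ z' ∈ Z, pr z = pr z' → z = z' := by
    intro z hz z' hz' he
    have h1 := prN z hz
    rw [he] at h1
    exact nb_succ_unique hnd h1 (prN z' hz')
  have hAh : G.Adj A h := by
    have := (hpr h hhZ).rel
    rwa [prh] at this
  have hOK' := hOK
  unfold LiveOK at hOK'
  choose! aL bL hL1 hL2 hL3 hL4 hL5 hL6 hL7 using hOK'
  -- the ports
  let N := Z.toFinset.filter (fun z => G.Adj h z)
  let Nz := N.erase B
  have hNzmem : ∀ z, z ∈ Nz ↔ z ≠ B ∧ z ∈ Z ∧ G.Adj h z := by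
    intro z
    simp [Nz, N, List.mem_toFinset]
  let Gd := Nz.filter (fun z => pr z ∉ E0 ∧ ¬ (z ∈ Live ∧ ¬ G.Adj h (aL z)))
  have hGdmem : ∀ z ∈ Gd, z ≠ B ∧ z ∈ Z ∧ G.Adj h z ∧ pr z ∉ E0 ∧ (z ∈ Live → G.Adj h (aL z)) := by
    intro z hz
    obtain ⟨h1, h2, h3⟩ := Finset.mem_filter.1 hz
    obtain ⟨h4, h5, h6⟩ := (hNzmem z).1 h1
    refine ⟨h4, h5, h6, h2, fun h7 => ?_⟩
    by_contra h8
    exact h3 ⟨h7, h8⟩
  let Ao : V → Finset V := fun z => Finset.univ.filter (fun y => G.Adj (pr z) y ∧ y ∉ Z)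
  let Bo : Finset V := Finset.univ.filter (fun y => G.Adj h y ∧ y ∉ Z)
  have hAomem : ∀ z y, y ∈ Ao z ↔ G.Adj (pr z) y ∧ y ∉ Z := by
    intro z y
    simp [Ao]
  have hBomem : ∀ y, y ∈ Bo ↔ G.Adj h y ∧ y ∉ Z := by
    intro y
    simp [Bo]
  -- what a surgery needs for the remaining hubs
  have hkeep : ∀ (Z' : List V) (cut : V → Prop), (∀ z, cut z → z ∈ Gd) →
      (∀ z, cut z → CA Z' h z) →
      (∀ p q, Nb Z p q → p ≠ h → q ≠ h → (∀ z, cut z → ¬ (p = pr z ∧ q = z)) → CA Z' p q) →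
      LiveOK G E0 (Live.erase h) Z' := by
    intro Z' cut hc1 hc2 hc3 j hj
    have hj' : j ∈ Live := Finset.mem_of_mem_erase hj
    have hjh : j ≠ h := (Finset.mem_erase.1 hj).1
    have ha1 := hL1 j hj'
    have ha2 := hL2 j hj'
    have ha3 := hL3 j hj'
    have ha5 := hL5 j hj'
    have ahne : aL j ≠ h := fun e => ha2 (e ▸ hh)
    have bhne : bL j ≠ h := fun e => ha3 (e ▸ hh)
    have hjE : j ∈ E0 := hLE hj'
    have hnotE : ∀ z, cut z → pr z ∉ E0 := fun z hz => (hGdmem z (hc1 z hz)).2.2.2.1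
    have hedge1 : CA Z' (aL j) j := by
      rcases hL6 j hj' with h1 | h1
      · refine hc3 _ _ h1 ahne hjh ?_
        rintro z hz ⟨h2, _⟩
        exact hnotE z hz (h2 ▸ ha1)
      · apply CA.symm
        refine hc3 _ _ h1 hjh ahne ?_
        rintro z hz ⟨h2, _⟩
        exact hnotE z hz (h2 ▸ hjE)
    by_cases hcut : ∃ z, cut z ∧ j = z
    · obtain ⟨z, hz, rfl⟩ := hcut
      have h1 := (hGdmem j (hc1 j hz)).2.2.2.2 hj'
      refine ⟨aL j, h, ha1, fun h2 => ha2 (Finset.mem_of_mem_erase h2),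
        fun h2 => (Finset.mem_erase.1 h2).1 rfl, ahne, h1.symm, hedge1, (hc2 j hz).symm⟩
    · refine ⟨aL j, bL j, ha1, fun h2 => ha2 (Finset.mem_of_mem_erase h2),
        fun h2 => ha3 (Finset.mem_of_mem_erase h2), hL4 j hj', ha5, hedge1, ?_⟩
      rcases hL7 j hj' with h1 | h1
      · refine hc3 _ _ h1 hjh bhne ?_
        rintro z hz ⟨h3, _⟩
        exact hnotE z hz (h3 ▸ hjE)
      · apply CA.symm
        refine hc3 _ _ h1 bhne hjh ?_
        rintro z hz ⟨_, h3⟩
        exact hcut ⟨z, hz, h3⟩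
  by_cases hT1 : ∃ z ∈ Gd, ∃ r ∈ Ao z, ∃ y ∈ Bo, G.Adj r y
  · -- one port and one outside neighbour of the hub
    obtain ⟨z, hz, r, hr, y, hy, hry⟩ := hT1
    obtain ⟨hz1, hz2, hz3, hz4, hz5⟩ := hGdmem z hz
    rw [hAomem] at hr
    rw [hBomem] at hy
    obtain ⟨l, h1, h2, h3⟩ := hpr z hz2
    have hndl : l.Nodup := h1.perm.nodup_iff.2 hnd
    have hc1 : Consec l A h := by
      rcases nb_rot h1.symm hn1 with h4 | ⟨_, h5⟩
      · exact h4
      · exfalso
        rw [h2.2.1] at h5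
        have : z = h := by simpa using h5
        exact G.ne_of_adj hz3 this.symm
    have hc2 : Consec l h B := by
      rcases nb_rot h1.symm hn2 with h4 | ⟨_, h5⟩
      · exact h4
      · exfalso
        rw [h2.2.1] at h5
        have : z = B := by simpa using h5
        exact hz1 this
    obtain ⟨P, Q, hl⟩ := consec_triple hndl hc1 hc2
    obtain ⟨s1, s2, s3, s4⟩ := surgery1 G h1 hl h2 hadj hz3 hr.1 hry hy.1.symm
    refine ⟨_, r, y, hr.2, hy.2, G.ne_of_adj hry, s1, s2, ?_⟩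
    refine hkeep _ (fun w => w = z) (fun w hw => hw ▸ hz) (fun w hw => hw ▸ s4) ?_
    intro p q hN hp hq hcut
    exact s3 p q hN hp hq (hcut z rfl)
  by_cases hT2 : ∃ z ∈ Gd, ∃ z' ∈ Gd, z ≠ z' ∧ ∃ r ∈ Ao z, ∃ r' ∈ Ao z', G.Adj r r'
  · -- two ports
    obtain ⟨z, hz, z', hz', hne, r, hr, r', hr', hrr⟩ := hT2
    have key : ∀ z ∈ Gd, ∀ z' ∈ Gd, ∀ r ∈ Ao z, ∀ r' ∈ Ao z', G.Adj r r' →
        ∀ l1 l2 P Q, (l1 ++ l2) ~r Z → l1 = P ++ A :: h :: B :: Q → Arc G.Adj l1 z (pr z') →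
        Arc G.Adj l2 z' (pr z) →
        ∃ Z' r r', r ∉ Z ∧ r' ∉ Z ∧ r ≠ r' ∧ List.Perm Z' (Z ++ [r, r']) ∧ Cyc G.Adj Z' ∧
          LiveOK G E0 (Live.erase h) Z' := by
      intro z hz z' hz' r hr r' hr' hrr l1 l2 P Q h0 h1 h2 h3
      obtain ⟨hz1, hz2, hz3, hz4, hz5⟩ := hGdmem z hz
      obtain ⟨hz1', hz2', hz3', hz4', hz5'⟩ := hGdmem z' hz'
      rw [hAomem] at hr hr'
      obtain ⟨s1, s2, s3, s4, s5⟩ := surgery2 G h0 h1 h2 h3 hadj hz3 hz3' hr.1 hr'.1 hrr
      refine ⟨_, r', r, hr'.2, hr.2, (G.ne_of_adj hrr).symm, s1, s2, ?_⟩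
      refine hkeep _ (fun w => w = z ∨ w = z') ?_ ?_ ?_
      · rintro w (rfl | rfl)
        · exact hz
        · exact hz'
      · rintro w (rfl | rfl)
        · exact s4
        · exact s5
      · intro p q hN hp hq hcut
        exact s3 p q hN hp hq (hcut z' (Or.inr rfl)) (hcut z (Or.inl rfl))
    obtain ⟨hz1, hz2, hz3, hz4, hz5⟩ := hGdmem z hz
    obtain ⟨hz1', hz2', hz3', hz4', hz5'⟩ := hGdmem z' hz'
    obtain ⟨l1, l2, h0, h1, h2⟩ := ports2 hnd (hpr z hz2) (hpr z' hz2') hne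
    have hndl : (l1 ++ l2).Nodup := h0.perm.nodup_iff.2 hnd
    have hn1' : Nb (l1 ++ l2) A h := nb_rot h0.symm hn1
    have hn2' : Nb (l1 ++ l2) h B := nb_rot h0.symm hn2
    rw [nb_append h1.ne_nil h2.ne_nil] at hn1' hn2'
    have hzh : z ≠ h := (G.ne_of_adj hz3).symm
    have hzh' : z' ≠ h := (G.ne_of_adj hz3').symm
    have hdisj := List.disjoint_of_nodup_append hndl
    have hp1 : Consec l1 A h ∨ Consec l2 A h := by
      rcases hn1' with h3 | h3 | ⟨_, h4⟩ | ⟨_, h4⟩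
      · exact Or.inl h3
      · exact Or.inr h3
      · rw [h2.2.1] at h4
        exact absurd (by simpa using h4) hzh'
      · rw [h1.2.1] at h4
        exact absurd (by simpa using h4) hzh
    have hp2 : Consec l1 h B ∨ Consec l2 h B := by
      rcases hn2' with h3 | h3 | ⟨_, h4⟩ | ⟨_, h4⟩
      · exact Or.inl h3
      · exact Or.inr h3
      · rw [h2.2.1] at h4
        exact absurd (by simpa using h4) hz1'
      · rw [h1.2.1] at h4
        exact absurd (by simpa using h4) hz1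
    rcases hp1 with hp1 | hp1 <;> rcases hp2 with hp2 | hp2
    · obtain ⟨P, Q, hl⟩ := consec_triple (List.nodup_append.1 hndl).1 hp1 hp2
      exact key z hz z' hz' r hr r' hr' hrr l1 l2 P Q h0 hl h1 h2
    · exact absurd hp2.left_mem (hdisj hp1.right_mem)
    · exact absurd hp2.left_mem (fun h3 => hdisj h3 hp1.right_mem)
    · obtain ⟨P, Q, hl⟩ := consec_triple (List.nodup_append.1 hndl).2.1 hp1 hp2
      exact key z' hz' z hz r' hr' r hr hrr.symm l2 l1 P Q (List.isRotated_append.trans h0) hl h2 h1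
  -- no extension: counting
  exfalso
  obtain ⟨P0, hP1, hP2, hP3⟩ := count_ports G hα Gd Ao Bo
    (by
      intro x hx y hy
      rw [hBomem] at hx hy
      exact hout h (hLE hh) x y hx.1 hy.1 hx.2 hy.2)
    (by
      intro i hi r hr y hy hadj'
      exact hT1 ⟨i, hi, r, hr, y, hy, hadj'⟩)
    (by
      intro i hi j hj hij r hr r' hr' hadj'
      exact hT2 ⟨i, hi, j, hj, hij, r, hr, r', hr', hadj'⟩)
  have hP0mem : ∀ z ∈ P0, z ∈ Z ∧ pr z ∉ E0 := by
    intro z hz
    obtain ⟨_, h2, _, h4, _⟩ := hGdmem z (hP1 hz)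
    exact ⟨h2, h4⟩
  let E' := P0.image pr ∪ E0
  have hE'card : E'.card = P0.card + E0.card := by
    simp only [E']
    rw [Finset.card_union_of_disjoint, Finset.card_image_of_injOn]
    · intro x hx y hy hxy
      exact prinj x (hP0mem x hx).1 y (hP0mem y hy).1 hxy
    · rw [Finset.disjoint_left]
      intro x hx hx'
      obtain ⟨z, hz, rfl⟩ := Finset.mem_image.1 hx
      exact (hP0mem z hz).2 hx'
  have hE'Z : ∀ e ∈ E', e ∈ Z := by
    intro e he
    rcases Finset.mem_union.1 he with he | he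
    · obtain ⟨z, hz, rfl⟩ := Finset.mem_image.1 he
      exact (hpr z (hP0mem z hz).1).mem
    · exact hE0Z e he
  have hE'deg : ∀ e ∈ E', k - a - 1 ≤ dg G.Adj e Z := by
    intro e he
    rcases Finset.mem_union.1 he with he | he
    · obtain ⟨z, hz, rfl⟩ := Finset.mem_image.1 he
      have h1 := hδ (pr z)
      have hsub : Finset.univ.filter (G.Adj (pr z)) ⊆
          (Z.toFinset.filter (fun y => G.Adj y (pr z))) ∪ (Ao z) := by
        intro y hy
        rw [Finset.mem_filter] at hy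
        rw [Finset.mem_union, hAomem, Finset.mem_filter, List.mem_toFinset]
        by_cases hyZ : y ∈ Z
        · exact Or.inl ⟨hyZ, hy.2.symm⟩
        · exact Or.inr ⟨hy.2, hyZ⟩
      have h2 := Finset.card_le_card hsub
      have h3 := Finset.card_union_le (Z.toFinset.filter (fun y => G.Adj y (pr z))) (Ao z)
      have h5 := hP3 z hz
      unfold dg
      omega
    · exact hdeg e he
  have hH := lemma_H G hδ hα noC E' Z hE'Z hE'deg (by omega) (k - Z.length) Z (le_refl _) hnd hZ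
    (List.Subset.refl _) (by omega) hpar
  -- the degree of the hub
  have hdh : k ≤ Nz.card + Bo.card + 2 := by
    have h1 := hδ h
    have hsub : Finset.univ.filter (G.Adj h) ⊆ N ∪ Bo := by
      intro y hy
      rw [Finset.mem_filter] at hy
      rw [Finset.mem_union, hBomem, Finset.mem_filter, List.mem_toFinset]
      by_cases hyZ : y ∈ Z
      · exact Or.inl ⟨hyZ, hy.2⟩
      · exact Or.inr ⟨hy.2, hyZ⟩
    have h2 := Finset.card_le_card hsub
    have h3 := Finset.card_union_le N Bo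
    have h5 : N.card - 1 ≤ Nz.card := Finset.pred_card_le_card_erase
    omega
  -- the split of the neighbours of the hub
  let NE := Nz.filter (fun z => pr z ∈ E0)
  let NB := Nz.filter (fun z => pr z ∉ E0 ∧ z ∈ Live ∧ ¬ G.Adj h (aL z))
  have hsplit : Nz.card ≤ Gd.card + (NE.card + NB.card) := by
    have hsub : Nz ⊆ Gd ∪ (NE ∪ NB) := by
      intro z hz
      rw [Finset.mem_union, Finset.mem_union]
      by_cases h1 : pr z ∈ E0
      · exact Or.inr (Or.inl (Finset.mem_filter.2 ⟨hz, h1⟩))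
      · by_cases h2 : z ∈ Live ∧ ¬ G.Adj h (aL z)
        · exact Or.inr (Or.inr (Finset.mem_filter.2 ⟨hz, h1, h2⟩))
        · exact Or.inl (Finset.mem_filter.2 ⟨hz, h1, h2⟩)
    have h1 := Finset.card_le_card hsub
    have h2 := Finset.card_union_le Gd (NE ∪ NB)
    have h3 := Finset.card_union_le NE NB
    omega
  have hNEmem : ∀ z ∈ NE, z ≠ B ∧ z ∈ Z ∧ G.Adj h z ∧ pr z ∈ E0 := by
    intro z hz
    obtain ⟨h1, h2⟩ := Finset.mem_filter.1 hz
    obtain ⟨h4, h5, h6⟩ := (hNzmem z).1 h1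
    exact ⟨h4, h5, h6, h2⟩
  have hNBmem : ∀ z ∈ NB, z ≠ B ∧ z ∈ Z ∧ G.Adj h z ∧ pr z ∉ E0 ∧ z ∈ Live ∧ ¬ G.Adj h (aL z) := by
    intro z hz
    obtain ⟨h1, h2⟩ := Finset.mem_filter.1 hz
    obtain ⟨h4, h5, h6⟩ := (hNzmem z).1 h1
    exact ⟨h4, h5, h6, h2⟩
  have hE0big : NE.card + NB.card + 2 ≤ E0.card := by
    have hd1 : Disjoint (NE.image pr) NB := by
      rw [Finset.disjoint_left]
      intro x hx hx'
      obtain ⟨z, hz, rfl⟩ := Finset.mem_image.1 hx
      obtain ⟨_, h2, _, h4⟩ := hNEmem z hz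
      obtain ⟨_, h5, _, h7, h8, h9⟩ := hNBmem _ hx'
      -- the hub `pr z` is followed by `z`, and by its first neighbour
      apply h9
      have h10 : aL (pr z) = z := by
        rcases hL6 _ h8 with h11 | h11
        · exfalso
          have h12 := nb_pred_unique hnd h11 (prN _ h5)
          exact h7 (h12 ▸ hL1 _ h8)
        · exact nb_succ_unique hnd h11 (prN z h2)
      rw [h10]
      obtain ⟨_, _, h6, _⟩ := hNEmem z hz
      exact h6
    have hcard1 : ((NE.image pr) ∪ NB).card = NE.card + NB.card := by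
      rw [Finset.card_union_of_disjoint hd1, Finset.card_image_of_injOn]
      intro x hx y hy hxy
      exact prinj x (hNEmem x hx).2.1 y (hNEmem y hy).2.1 hxy
    have hhnot : h ∉ (NE.image pr) ∪ NB := by
      intro hin
      rcases Finset.mem_union.1 hin with hin | hin
      · obtain ⟨z, hz, hz2⟩ := Finset.mem_image.1 hin
        obtain ⟨h1, h3, _, _⟩ := hNEmem z hz
        apply h1
        apply prinj z h3 B hBZ
        rw [hz2, prB]
      · obtain ⟨_, _, h3, _⟩ := hNBmem h hin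
        exact G.irrefl h3
    have hAnot : A ∉ insert h ((NE.image pr) ∪ NB) := by
      intro hin
      rcases Finset.mem_insert.1 hin with hin | hin
      · subst hin
        exact G.irrefl hAh
      · rcases Finset.mem_union.1 hin with hin | hin
        · obtain ⟨z, hz, hz2⟩ := Finset.mem_image.1 hin
          obtain ⟨_, h3, h4, _⟩ := hNEmem z hz
          have h5 : z = h := by
            apply prinj z h3 h hhZ
            rw [hz2, prh]
          subst h5
          exact G.irrefl h4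
        · exact hAL (hNBmem A hin).2.2.2.2.1
    have hsub : insert A (insert h ((NE.image pr) ∪ NB)) ⊆ E0 := by
      intro x hx
      rcases Finset.mem_insert.1 hx with rfl | hx
      · exact hA
      · rcases Finset.mem_insert.1 hx with rfl | hx
        · exact hLE hh
        · rcases Finset.mem_union.1 hx with hx | hx
          · obtain ⟨z, hz, rfl⟩ := Finset.mem_image.1 hx
            exact (hNEmem z hz).2.2.2
          · exact hLE (hNBmem x hx).2.2.2.2.1
    have h1 := Finset.card_le_card hsub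
    rw [Finset.card_insert_of_notMem hAnot, Finset.card_insert_of_notMem hhnot, hcard1] at h1
    omega
  omega

/-- One step, in either direction of the closed chain. -/
theorem hub_step3 [Fintype V] {k a : ℕ}
    (hδ : ∀ v, k ≤ (Finset.univ.filter (G.Adj v)).card + 1)
    (hα : ∀ S : Finset V, (∀ x ∈ S, ∀ y ∈ S, ¬ G.Adj x y) → S.card ≤ a)
    (noC : ∀ l : List V, l.Nodup → Cyc G.Adj l → l.length ≠ k)
    (hka : 2 * a + 3 ≤ k) (E0 Live : Finset V) {Z : List V}
    (hnd : Z.Nodup) (hZ : Cyc G.Adj Z) (hE0Z : ∀ e ∈ E0, e ∈ Z) (hLE : Live ⊆ E0)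
    (hOK : LiveOK G E0 Live Z) (hdeg : ∀ e ∈ E0, k - a - 1 ≤ dg G.Adj e Z)
    (hout : ∀ e ∈ E0, ∀ y y', G.Adj e y → G.Adj e y' → y ∉ Z → y' ∉ Z → ¬ G.Adj y y')
    (hlen : Z.length + 2 ≤ k) (hpar : Z.length % 2 = k % 2) {h : V} (hh : h ∈ Live) :
    ∃ Z' r r', r ∉ Z ∧ r' ∉ Z ∧ r ≠ r' ∧ List.Perm Z' (Z ++ [r, r']) ∧ Cyc G.Adj Z' ∧
      LiveOK G E0 (Live.erase h) Z' := by
  obtain ⟨A, B, hA, hAL, _, hAB, hadj, h1, h2⟩ := hOK h hh
  rcases h1 with h1 | h1 <;> rcases h2 with h2 | h2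
  · exact hub_oriented3 hδ hα noC hka E0 Live hnd hZ hE0Z hLE hOK hdeg hout hlen hpar hh hA hAL
      hadj h1 h2
  · exact absurd (nb_pred_unique hnd h1 h2) hAB
  · exact absurd (nb_succ_unique hnd h1 h2) hAB
  · have hrev : List.Perm Z.reverse Z := List.reverse_perm Z
    have hLR : LiveOK G E0 Live Z.reverse := by
      intro j hj
      obtain ⟨a', b', c1, c2, c3, c4, c5, c6, c7⟩ := hOK j hj
      exact ⟨a', b', c1, c2, c3, c4, c5, ca_reverse c6, ca_reverse c7⟩
    obtain ⟨Z', r, r', c1, c2, c3, c4, c5, c6⟩ := hub_oriented3 hδ hα noC hka E0 Live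
      (List.nodup_reverse.2 hnd) (Cyc.reverse hZ) (fun e he => List.mem_reverse.2 (hE0Z e he)) hLE
      hLR (fun e he => by rw [dg_perm hrev]; exact hdeg e he)
      (fun e he y y' h3 h4 h5 h6 => hout e he y y' h3 h4 (fun h7 => h5 (List.mem_reverse.2 h7))
        (fun h7 => h6 (List.mem_reverse.2 h7)))
      (by simpa using hlen) (by simpa using hpar) hh hA hAL hadj (nb_reverse h1) (nb_reverse h2)
    exact ⟨Z', r, r', fun h7 => c1 (List.mem_reverse.2 h7), fun h7 => c2 (List.mem_reverse.2 h7),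
      c3, c4.trans (hrev.append_right _), c5, c6⟩

/-- Repeating the step: enough hubs give a closed chain of length `k`. -/
theorem hub_iter3 [Fintype V] {k a : ℕ}
    (hδ : ∀ v, k ≤ (Finset.univ.filter (G.Adj v)).card + 1)
    (hα : ∀ S : Finset V, (∀ x ∈ S, ∀ y ∈ S, ¬ G.Adj x y) → S.card ≤ a)
    (noC : ∀ l : List V, l.Nodup → Cyc G.Adj l → l.length ≠ k)
    (hka : 2 * a + 3 ≤ k) (E0 : Finset V) :
    ∀ (n : ℕ) (Live : Finset V) (Z : List V), Live.card = n → k - Z.length ≤ 2 * n →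
      Z.Nodup → Cyc G.Adj Z → (∀ e ∈ E0, e ∈ Z) → Live ⊆ E0 → LiveOK G E0 Live Z →
      (∀ e ∈ E0, k - a - 1 ≤ dg G.Adj e Z) →
      (∀ e ∈ E0, ∀ y y', G.Adj e y → G.Adj e y' → y ∉ Z → y' ∉ Z → ¬ G.Adj y y') →
      Z.length ≤ k → Z.length % 2 = k % 2 → False := by
  intro n
  induction n with
  | zero =>
    intro Live Z _ h0 hnd hZ _ _ _ _ _ hlen _
    exact noC Z hnd hZ (by omega)
  | succ n ih =>
    intro Live Z hcard h0 hnd hZ hE0Z hLE hOK hdeg hout hlen hpar
    by_cases hk : Z.length = k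
    · exact noC Z hnd hZ hk
    obtain ⟨h, hh⟩ : ∃ h, h ∈ Live := Finset.card_pos.1 (by omega)
    obtain ⟨Z', r, r', c1, c2, c3, c4, c5, c6⟩ := hub_step3 hδ hα noC hka E0 Live hnd hZ hE0Z hLE
      hOK hdeg hout (by omega) hpar hh
    have hnd2 : (Z ++ [r, r']).Nodup := by
      rw [List.nodup_append]
      refine ⟨hnd, by simp [c3], ?_⟩
      intro x hx y hy hxy
      subst hxy
      simp only [List.mem_cons, List.not_mem_nil, or_false] at hy
      rcases hy with hy | hy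
      · subst hy
        exact c1 hx
      · subst hy
        exact c2 hx
    have hlen3 : Z'.length = Z.length + 2 := by
      rw [c4.length_eq]
      simp
    have hsub : Z ⊆ Z' := fun x hx => c4.symm.subset (List.mem_append_left _ hx)
    refine ih (Live.erase h) Z' (by rw [Finset.card_erase_of_mem hh]; omega) (by omega)
      (c4.nodup_iff.2 hnd2) c5 (fun e he => hsub (hE0Z e he))
      (fun x hx => hLE (Finset.mem_of_mem_erase hx)) c6
      (fun e he => le_trans (hdeg e he) (dg_mono hsub (fun _ hz => hz)))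
      (fun e he y y' h3 h4 h5 h6 => hout e he y y' h3 h4 (fun h7 => h5 (hsub h7))
        (fun h7 => h6 (hsub h7))) (by omega) (by omega)

end Vale.Agent.Lib.P048
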