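import Vale.Agent.Lib.P048.Hub4

/-!
Inserting a vertex between two consecutive members of a closed chain, and the third surgery.
-/

namespace Vale.Agent.Lib.P048

open scoped Classical

variable {V : Type*} {G : SimpleGraph V}

/-- Insert a new vertex between two consecutive members. -/
theorem insert_nb {Z : List V} (hnd : Z.Nodup) (hZ : Cyc G.Adj Z) {p q t : V} (hpq : Nb Z p q)
    (h1 : G.Adj t p) (h2 : G.Adj t q) :
    ∃ Z', List.Perm Z' (Z ++ [t]) ∧ Cyc G.Adj Z' ∧
      (∀ p' q', Nb Z p' q' → ¬ (p' = p ∧ q' = q) → Nb Z' p' q') ∧ Nb Z' p t ∧ Nb Z' t q := by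
  obtain ⟨f, hf⟩ := IsPred.exists hZ hpq.right_mem
  have hfp : f = p := nb_pred_unique hnd hf.nb hpq
  subst hfp
  obtain ⟨l, hl, hA, hc⟩ := hf
  have hA2 : Arc G.Adj (t :: l) t f := by
    have := (Arc.single t).append h2 hA
    simpa using this
  refine ⟨t :: l, ?_, ⟨t, f, hA2, h1.symm⟩, ?_, ?_, ?_⟩
  · have e1 : List.Perm (t :: l) (l ++ [t]) := by
      rw [List.perm_iff_count]
      intro c
      simp only [List.count_append, List.count_cons, List.count_nil]
      ring
    exact e1.trans (hl.perm.append_right _)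
  · intro p' q' hN hne
    have hN' : Nb l p' q' := nb_rot hl.symm hN
    rcases hN' with ⟨s, u, h3⟩ | ⟨h3, h4⟩
    · left
      exact ⟨t :: s, u, by rw [h3]; simp⟩
    · exfalso
      apply hne
      rw [hA.2.2] at h3
      rw [hA.2.1] at h4
      exact ⟨by simpa using h3.symm, by simpa using h4.symm⟩
  · right
    exact ⟨hA2.2.2, rfl⟩
  · left
    cases hlm : l with
    | nil =>
      have := hA.2.1
      rw [hlm] at this
      simp at this
    | cons c m =>
      have hc : c = q := by
        have := hA.2.1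
        rw [hlm] at this
        simpa using this
      subst hc
      exact ⟨[], m, by simp⟩

/-- A new vertex seeing the predecessor of a port and the member before the hub: the closed chain
grows by this vertex. -/
theorem surgery3 {Z l P Q : List V} {a h b z x r : V}
    (hrot : l ~r Z) (hl : l = P ++ a :: h :: b :: Q)
    (h1 : Arc G.Adj l z x) (hhz : G.Adj h z)
    (hxr : G.Adj x r) (har : G.Adj a r) (hbh : G.Adj b h) :
    List.Perm (h :: ((P ++ [a]) ++ r :: (b :: Q).reverse)) (Z ++ [r]) ∧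
      Cyc G.Adj (h :: ((P ++ [a]) ++ r :: (b :: Q).reverse)) ∧
      (∀ p q, Nb Z p q → p ≠ h → q ≠ h → ¬ (p = x ∧ q = z) →
        CA (h :: ((P ++ [a]) ++ r :: (b :: Q).reverse)) p q) ∧
      CA (h :: ((P ++ [a]) ++ r :: (b :: Q).reverse)) h z := by
  have hs : ∀ x y, G.Adj x y → G.Adj y x := fun x y h => h.symm
  have e1 : P ++ a :: h :: b :: Q = (P ++ [a]) ++ (h :: b :: Q) := by simp
  have h1' : Arc G.Adj ((P ++ [a]) ++ (h :: b :: Q)) z x := by
    rw [← e1, ← hl]
    exact h1
  obtain ⟨c1, d1, h2, h3, _⟩ := h1'.unappend (by simp) (by simp)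
  have hc1 : c1 = a := by
    have := h2.2.2
    simpa using this.symm
  subst hc1
  have hT : Arc G.Adj (b :: Q) b x := by
    refine ⟨?_, rfl, ?_⟩
    · have := h3.1
      rw [List.isChain_cons_cons] at this
      exact this.2
    · have := h3.2.2
      rw [List.getLast?_cons_cons] at this
      exact this
  have hBig : Arc G.Adj (h :: ((P ++ [c1]) ++ r :: (b :: Q).reverse)) h b := by
    have := (Arc.single h).append hhz (h2.append har ((Arc.single r).append hxr.symm
      (hT.reverse hs)))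
    simpa using this
  refine ⟨?_, ⟨h, b, hBig, hbh⟩, ?_, ?_⟩
  · subst hl
    have e2 : List.Perm (h :: ((P ++ [c1]) ++ r :: (b :: Q).reverse))
        ((P ++ c1 :: h :: b :: Q) ++ [r]) := by
      rw [List.perm_iff_count]
      intro c
      simp only [List.count_append, List.count_cons, List.count_reverse, List.count_nil]
      ring
    exact e2.trans (hrot.perm.append_right _)
  · intro p q hN hp hq hcut
    have hN' : Nb l p q := nb_rot hrot.symm hN
    rcases hN' with h4 | ⟨h4, h5⟩
    · rw [hl, e1, consec_append] at h4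
      rcases h4 with h4 | h4 | ⟨_, h6⟩
      · left
        left
        obtain ⟨s, t, h5⟩ := h4
        exact ⟨h :: s, t ++ r :: (b :: Q).reverse, by rw [h5]; simp⟩
      · obtain ⟨s, t, h5⟩ := h4
        cases s with
        | nil =>
          simp only [List.nil_append, List.cons.injEq] at h5
          exact absurd h5.1.symm hp
        | cons c s' =>
          simp only [List.cons_append, List.cons.injEq] at h5
          have h6 : Consec (b :: Q) p q := ⟨s', t, h5.2⟩
          obtain ⟨s2, t2, h7⟩ := consec_reverse h6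
          right
          left
          exact ⟨h :: ((P ++ [c1]) ++ r :: s2), t2, by rw [h7]; simp⟩
      · exact absurd (by simpa using h6.symm) hq
    · exfalso
      apply hcut
      rw [h1.2.2] at h4
      rw [h1.2.1] at h5
      exact ⟨by simpa using h4.symm, by simpa using h5.symm⟩
  · left
    left
    cases hMl : P ++ [c1] with
    | nil => simp at hMl
    | cons c m =>
      have hc : c = z := by
        have := h2.2.1
        rw [hMl] at this
        simpa using this
      subst hc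
      exact ⟨[], m ++ r :: (b :: Q).reverse, by simp⟩

/-- The counting argument for outside neighbours of ports, with one more member `x0` of the
independent set. -/
theorem count_ports2 [Fintype V] {a : ℕ} (G : SimpleGraph V)
    (hα : ∀ S : Finset V, (∀ x ∈ S, ∀ y ∈ S, ¬ G.Adj x y) → S.card ≤ a)
    {ι : Type*} (Gd : Finset ι) (A : ι → Finset V) (B : Finset V) (x0 : V)
    (hB : ∀ x ∈ B, ∀ y ∈ B, ¬ G.Adj x y)
    (hAB : ∀ i ∈ Gd, ∀ r ∈ A i, ∀ y ∈ B, ¬ G.Adj r y)
    (hAA : ∀ i ∈ Gd, ∀ j ∈ Gd, i ≠ j → ∀ r ∈ A i, ∀ r' ∈ A j, ¬ G.Adj r r')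
    (hx0B : ∀ y ∈ B, y ≠ x0 ∧ ¬ G.Adj y x0)
    (hx0A : ∀ i ∈ Gd, ∀ r ∈ A i, r ≠ x0 ∧ ¬ G.Adj r x0) :
    ∃ P0 : Finset ι, P0 ⊆ Gd ∧ Gd.card + B.card + 1 ≤ P0.card + a ∧ ∀ i ∈ P0, (A i).card + 1 ≤ a := by
  classical
  have : Nonempty V := ⟨x0⟩
  let Sh : Finset V := Finset.univ.filter (fun y => y ∈ B ∨ ∃ i ∈ Gd, ∃ j ∈ Gd, i ≠ j ∧ y ∈ A i ∧ y ∈ A j)
  have hShmem : ∀ y, y ∈ Sh ↔ y ∈ B ∨ ∃ i ∈ Gd, ∃ j ∈ Gd, i ≠ j ∧ y ∈ A i ∧ y ∈ A j := by
    intro y
    simp [Sh]
  have hSh0 : ∀ y ∈ Sh, y ≠ x0 ∧ ¬ G.Adj y x0 := by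
    intro y hy
    rcases (hShmem y).1 hy with hyB | ⟨i1, hi1, _, _, _, h1, _⟩
    · exact hx0B y hyB
    · exact hx0A i1 hi1 y h1
  -- a member of `Sh` has no neighbour among the outside neighbours of the ports
  have hSh1 : ∀ y ∈ Sh, ∀ i ∈ Gd, ∀ r ∈ A i, ¬ G.Adj y r := by
    intro y hy i hi r hr hadj
    rcases (hShmem y).1 hy with hyB | ⟨i1, hi1, i2, hi2, hne, h1, h2⟩
    · exact hAB i hi r hr y hyB hadj.symm
    · by_cases hc : i1 = i
      · subst hc
        exact hAA i2 hi2 i1 hi (Ne.symm hne) y h2 r hr hadj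
      · exact hAA i1 hi1 i hi hc y h1 r hr hadj
  have hSh2 : ∀ y ∈ Sh, ∀ y' ∈ Sh, ¬ G.Adj y y' := by
    intro y hy y' hy' hadj
    rcases (hShmem y').1 hy' with hyB | ⟨i1, hi1, i2, hi2, hne, h1, h2⟩
    · rcases (hShmem y).1 hy with hyB' | ⟨i3, hi3, i4, hi4, hne', h3, h4⟩
      · exact hB y hyB' y' hyB hadj
      · exact hAB i3 hi3 y h3 y' hyB hadj
    · exact hSh1 y hy i1 hi1 y' h1 hadj
  let P1 := Gd.filter (fun i => ¬ A i ⊆ Sh)
  let P0 := Gd.filter (fun i => A i ⊆ Sh)
  have hrep : ∀ i ∈ P1, ∃ r, r ∈ A i ∧ r ∉ Sh := by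
    intro i hi
    have := (Finset.mem_filter.1 hi).2
    simpa [Finset.not_subset] using this
  choose! rep hrep1 hrep2 using hrep
  have hP1G : ∀ i ∈ P1, i ∈ Gd := fun i hi => (Finset.mem_filter.1 hi).1
  have hinj : Set.InjOn rep (P1 : Set ι) := by
    intro i hi j hj hij
    by_contra hne
    apply hrep2 i hi
    rw [hShmem]
    refine Or.inr ⟨i, hP1G i hi, j, hP1G j hj, hne, hrep1 i hi, ?_⟩
    rw [hij]
    exact hrep1 j hj
  have hx0not : x0 ∉ Sh ∪ P1.image rep := by
    intro hin
    rcases Finset.mem_union.1 hin with hin | hin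
    · exact (hSh0 x0 hin).1 rfl
    · obtain ⟨i, hi, h1⟩ := Finset.mem_image.1 hin
      exact (hx0A i (hP1G i hi) _ (hrep1 i hi)).1 h1
  have hI : (insert x0 (Sh ∪ P1.image rep)).card ≤ a := by
    apply hα
    intro x hx y hy hadj
    have hside : ∀ w ∈ Sh ∪ P1.image rep, ¬ G.Adj w x0 := by
      intro w hw
      rcases Finset.mem_union.1 hw with hw | hw
      · exact (hSh0 w hw).2
      · obtain ⟨i, hi, rfl⟩ := Finset.mem_image.1 hw
        exact (hx0A i (hP1G i hi) _ (hrep1 i hi)).2
    rcases Finset.mem_insert.1 hx with h1 | hx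
    · rcases Finset.mem_insert.1 hy with h2 | hy
      · rw [h1, h2] at hadj
        exact G.irrefl hadj
      · rw [h1] at hadj
        exact hside y hy hadj.symm
    rcases Finset.mem_insert.1 hy with h2 | hy
    · rw [h2] at hadj
      exact hside x hx hadj
    rcases Finset.mem_union.1 hx with hx | hx
    · rcases Finset.mem_union.1 hy with hy | hy
      · exact hSh2 x hx y hy hadj
      · obtain ⟨j, hj, rfl⟩ := Finset.mem_image.1 hy
        exact hSh1 x hx j (hP1G j hj) _ (hrep1 j hj) hadj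
    · obtain ⟨i, hi, rfl⟩ := Finset.mem_image.1 hx
      rcases Finset.mem_union.1 hy with hy | hy
      · exact hSh1 y hy i (hP1G i hi) _ (hrep1 i hi) hadj.symm
      · obtain ⟨j, hj, rfl⟩ := Finset.mem_image.1 hy
        by_cases hij : i = j
        · subst hij
          exact G.irrefl hadj
        · exact hAA i (hP1G i hi) j (hP1G j hj) hij _ (hrep1 i hi) _ (hrep1 j hj) hadj
  have hdisj : Disjoint Sh (P1.image rep) := by
    rw [Finset.disjoint_left]
    intro x hx hx'
    obtain ⟨i, hi, rfl⟩ := Finset.mem_image.1 hx'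
    exact hrep2 i hi hx
  rw [Finset.card_insert_of_notMem hx0not, Finset.card_union_of_disjoint hdisj,
    Finset.card_image_of_injOn hinj] at hI
  have hBSh : B.card ≤ Sh.card := by
    apply Finset.card_le_card
    intro y hy
    rw [hShmem]
    exact Or.inl hy
  have hsplit : P0.card + P1.card = Gd.card := by
    simp only [P0, P1]
    exact Finset.card_filter_add_card_filter_not _
  refine ⟨P0, Finset.filter_subset _ _, by omega, ?_⟩
  intro i hi
  have h1 := Finset.card_le_card (Finset.mem_filter.1 hi).2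
  omega

end Vale.Agent.Lib.P048
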