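import Vale.Agent.Lib.P048.Final3

/-!
The minimum degree theorem in terms of Mathlib notions only.
-/

namespace Vale.Agent.Lib.P048

universe u

theorem min_degree_cycle {V : Type u} [Fintype V] [Nonempty V] (G : SimpleGraph V)
    [DecidableRel G.Adj] (k a : ℕ) (hka : 2 * a + 2 ≤ k) (hδ : k ≤ G.minDegree + 1)
    (hα : ∀ s : Finset V, G.IsIndepSet (s : Set V) → s.card ≤ a) :
    ∃ (v : V) (w : G.Walk v v), w.IsCycle ∧ w.length = k := by
  classical
  have h1 : ∀ v, k ≤ (Finset.univ.filter (G.Adj v)).card + 1 := by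
    intro v
    have h2 := G.minDegree_le_degree v
    have h3 : G.degree v = (Finset.univ.filter (G.Adj v)).card := by
      rw [← SimpleGraph.card_neighborFinset_eq_degree, SimpleGraph.neighborFinset_eq_filter]
    omega
  have h2 : ∀ S : Finset V, (∀ x ∈ S, ∀ y ∈ S, ¬ G.Adj x y) → S.card ≤ a := by
    intro S hS
    exact hα S (fun x hx y hy _ => hS x hx y hy)
  obtain ⟨v0⟩ := ‹Nonempty V›
  have h3 : 1 ≤ a := by
    have := h2 {v0} (by
      intro x hx y hy
      simp only [Finset.mem_singleton] at hx hy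
      subst hx hy
      exact G.irrefl)
    simpa using this
  obtain ⟨l, h4, h5, h6⟩ := thmC (a := a) (k := k) G hka (by
    intro v
    convert h1 v) h2
  obtain ⟨v, w, h7, h8⟩ := cycle_of_list h4 h5 (by omega)
  exact ⟨v, w, h7, by omega⟩

end Vale.Agent.Lib.P048
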