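import Vale.Agent.Lib.P048.Core
import Vale.Agent.Lib.P048.Arc
import Mathlib.Combinatorics.SimpleGraph.Basic

/-!
Strips of triangles and the far chord lemma.
-/

namespace Vale.Agent.Lib.P048

open scoped Classical

variable {V : Type*} {G : SimpleGraph V}

/-- A strip: a sequence of `2 * s + 1` different vertices in which the positions `2 * i`,
`2 * i + 1`, `2 * i + 2` span a triangle for every `i < s`. -/
structure IsStrip (G : SimpleGraph V) (u : ℕ → V) (s : ℕ) : Prop where
  inj : ∀ i j, i ≤ 2 * s → j ≤ 2 * s → u i = u j → i = j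
  tri : ∀ i, i < s → G.Adj (u (2 * i)) (u (2 * i + 1)) ∧ G.Adj (u (2 * i)) (u (2 * i + 2)) ∧
    G.Adj (u (2 * i + 1)) (u (2 * i + 2))

theorem IsStrip.adj_even {u : ℕ → V} {s : ℕ} (hu : IsStrip G u s) {i a b : ℕ} (hi : i < s)
    (ha : a = 2 * i) (hb : b = 2 * i + 2) : G.Adj (u a) (u b) := by
  subst ha hb
  exact (hu.tri i hi).2.1

theorem IsStrip.adj_succ {u : ℕ → V} {s : ℕ} (hu : IsStrip G u s) {a b : ℕ} (hb : b = a + 1)
    (hb2 : b ≤ 2 * s) : G.Adj (u a) (u b) := by
  subst hb
  rcases Nat.even_or_odd' a with ⟨c, hc | hc⟩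
  · subst hc
    exact (hu.tri c (by omega)).1
  · subst hc
    exact (hu.tri c (by omega)).2.2

/-- The relation between positions of a strip used for monotone routes. -/
def Rp (G : SimpleGraph V) (u : ℕ → V) (t : ℕ) (a b : ℕ) : Prop :=
  a < b ∧ b ≤ t ∧ G.Adj (u a) (u b)

theorem chain_le {u : ℕ → V} {t : ℕ} :
    ∀ (P : List ℕ) (p : ℕ), P.IsChain (Rp G u t) → P.head? = some p → p ≤ t → ∀ x ∈ P, x ≤ t := by
  intro P
  induction P with
  | nil => simp
  | cons a r ih =>
    intro p h1 h2 h3 x hx
    have hap : a = p := by simpa using h2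
    subst hap
    rcases List.mem_cons.1 hx with hx | hx
    · omega
    · cases r with
      | nil => simp at hx
      | cons b r' =>
        rw [List.isChain_cons_cons] at h1
        exact ih b h1.2 rfl h1.1.2.1 x hx

theorem chain_nodup {u : ℕ → V} {t : ℕ} {P : List ℕ} (h : P.IsChain (Rp G u t)) : P.Nodup := by
  have h1 : P.IsChain (· < ·) := h.imp (fun _ _ hab => hab.1)
  rw [List.isChain_iff_pairwise] at h1
  exact h1.imp (fun hab => ne_of_lt hab)

/-- A monotone route of positions, closed by an edge, gives a closed chain of vertices. -/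
theorem IsStrip.cyc_of_pos {u : ℕ → V} {s : ℕ} (hu : IsStrip G u s) {P : List ℕ} {p q : ℕ}
    (h : Arc (Rp G u (2 * s)) P p q) (hp : p ≤ 2 * s) (hcl : G.Adj (u q) (u p)) :
    (P.map u).Nodup ∧ Cyc G.Adj (P.map u) := by
  have hle := chain_le P p h.1 h.2.1 hp
  refine ⟨?_, u p, u q, h.map u (fun _ _ hab => hab.2.2), hcl⟩
  apply List.Nodup.map_on _ (chain_nodup h.1)
  intro x hx y hy hxy
  exact hu.inj x y (hle x hx) (hle y hy) hxy

/-- Runs along the spine of a strip, with any allowed number of apexes. -/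
theorem IsStrip.spine_run {u : ℕ → V} {s : ℕ} (hu : IsStrip G u s) (z : ℕ) :
    ∀ (l e : ℕ), e ≤ l → z + l ≤ s →
      ∃ P, Arc (Rp G u (2 * s)) P (2 * z) (2 * (z + l)) ∧ P.length = l + 1 + e := by
  intro l
  induction l with
  | zero =>
    intro e he _
    have he0 : e = 0 := by omega
    subst he0
    exact ⟨[2 * z], Arc.single _, rfl⟩
  | succ l ih =>
    intro e he hzl
    by_cases hel : e ≤ l
    · obtain ⟨P, h1, h2⟩ := ih e hel (by omega)
      refine ⟨P ++ [2 * (z + (l + 1))], h1.append ?_ (Arc.single _), ?_⟩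
      · refine ⟨by omega, by omega, ?_⟩
        exact hu.adj_even (i := z + l) (by omega) rfl (by omega)
      · simp [h2]
        omega
    · obtain ⟨P, h1, h2⟩ := ih l (le_refl _) (by omega)
      have he' : e = l + 1 := by omega
      subst he'
      refine ⟨P ++ [2 * (z + l) + 1, 2 * (z + (l + 1))], h1.append (c := 2 * (z + l) + 1) ?_ ?_, ?_⟩
      · refine ⟨by omega, by omega, ?_⟩
        exact hu.adj_succ rfl (by omega)
      · refine (Arc.single _).append (l' := [2 * (z + (l + 1))]) ?_ (Arc.single _)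
        refine ⟨by omega, by omega, ?_⟩
        exact hu.adj_succ (by omega) (by omega)
      · simp [h2]
        omega

/-- Routes along the spine that use the jumps of a family. -/
theorem IsStrip.jump_run {u : ℕ → V} {s : ℕ} (hu : IsStrip G u s) (x0 L : ℕ)
    (hL : x0 + L ≤ s + 1) (A : ℕ → ℕ → Prop)
    (hA : ∀ i j, A i j → G.Adj (u (2 * (x0 + i))) (u (2 * (x0 + j)))) :
    ∀ (T : List (ℕ × ℕ)) (l e : ℕ), Vld A L T → l < L → (∀ J ∈ T, l ≤ J.1) →
      e + skT T + T.length + l + 1 ≤ L →
      ∃ P, Arc (Rp G u (2 * s)) P (2 * (x0 + l)) (2 * (x0 + (L - 1))) ∧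
        P.length + skT T + l = L + e := by
  intro T
  induction T with
  | nil =>
    intro l e _ hl _ he
    simp only [skT_nil, List.length_nil] at he
    obtain ⟨P, h1, h2⟩ := hu.spine_run (x0 + l) (L - 1 - l) e (by omega) (by omega)
    rw [show x0 + l + (L - 1 - l) = x0 + (L - 1) by omega] at h1
    refine ⟨P, h1, ?_⟩
    simp only [skT_nil]
    omega
  | cons J T ih =>
    intro l e hV hl hlJ he
    have hJ := hV.1 J (by simp)
    have hJl := hlJ J (by simp)
    have hT : ∀ K ∈ T, J.2 ≤ K.1 := (List.pairwise_cons.1 hV.2).1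
    have hbd := Vld.bound T J.2 hV.tail hJ.2.1 hT
    rw [skT_cons, List.length_cons] at he
    have hskJ : sk J + 1 + J.1 = J.2 := by
      unfold sk
      omega
    -- distribute the extra vertices
    obtain ⟨e1, e2, he12, he1, he2⟩ : ∃ e1 e2, e = e1 + e2 ∧ e1 ≤ J.1 - l ∧
        e2 + skT T + T.length + J.2 + 1 ≤ L := by
      by_cases h : e ≤ J.1 - l
      · exact ⟨e, 0, by omega, h, by omega⟩
      · exact ⟨J.1 - l, e - (J.1 - l), by omega, le_refl _, by omega⟩
    obtain ⟨P1, h1, h2⟩ := hu.spine_run (x0 + l) (J.1 - l) e1 he1 (by omega)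
    rw [show x0 + l + (J.1 - l) = x0 + J.1 by omega] at h1
    obtain ⟨P2, h3, h4⟩ := ih J.2 e2 hV.tail hJ.2.1 hT he2
    refine ⟨P1 ++ P2, h1.append ⟨by omega, by omega, hA _ _ hJ.2.2⟩ h3, ?_⟩
    rw [List.length_append, skT_cons]
    omega

/-- The far chord lemma: in a strip, with no `k`-cycle and no large independent set, adjacent
positions are at most `k - 2` apart. -/
theorem IsStrip.far_chord {u : ℕ → V} {s k a : ℕ} (hu : IsStrip G u s) (hka : 3 * a + 6 ≤ k)
    (hα : ∀ S : Finset V, (∀ x ∈ S, ∀ y ∈ S, ¬ G.Adj x y) → S.card ≤ a)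
    (noC : ∀ l : List V, l.Nodup → Cyc G.Adj l → l.length ≠ k) :
    ∀ p q, p < q → q ≤ 2 * s → G.Adj (u p) (u q) → q - p + 2 ≤ k := by
  intro p0 q0 hpq0 hq0 hadj0
  by_contra hcon
  -- a counterexample of minimal span
  have hexP : ∃ d, k ≤ d + 1 ∧ ∃ p q, p + d = q ∧ q ≤ 2 * s ∧ G.Adj (u p) (u q) :=
    ⟨q0 - p0, by omega, p0, q0, by omega, hq0, hadj0⟩
  obtain ⟨hd, p, q, hpq, hq, hadj⟩ := Nat.find_spec hexP
  have hmin : ∀ p' q', p' < q' → q' ≤ 2 * s → G.Adj (u p') (u q') →
      q' - p' < Nat.find hexP → q' - p' + 2 ≤ k := by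
    intro p' q' h1 h2 h3 h4
    by_contra h5
    exact Nat.find_min hexP h4 ⟨by omega, p', q', by omega, h2, h3⟩
  generalize Nat.find hexP = d at hd hpq hmin
  -- the spine between the two ends
  obtain ⟨x0, e1, hx0, he1⟩ : ∃ x0 e1, p + e1 = 2 * x0 ∧ e1 ≤ 1 :=
    ⟨(p + 1) / 2, (p + 1) / 2 * 2 - p, by omega, by omega⟩
  obtain ⟨L, e2, hL, he2, hL1⟩ : ∃ L e2, q = 2 * (x0 + (L - 1)) + e2 ∧ e2 ≤ 1 ∧ 1 ≤ L :=
    ⟨(q - 2 * x0) / 2 + 1, (q - 2 * x0) % 2, by omega, by omega, by omega⟩
  have hxL : x0 + L ≤ s + 1 := by omega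
  let A : ℕ → ℕ → Prop := fun i j =>
    G.Adj (u (2 * (x0 + i))) (u (2 * (x0 + j))) ∧ 2 * (j - i) + 2 ≤ k
  -- a family of jumps with the right count gives a `k`-cycle
  have hnohit : ∀ T, Vld A L T → L ≤ (k - (e1 + e2)) + skT T →
      2 * L ≤ (k - (e1 + e2)) + 2 * skT T + T.length := by
    intro T hV h1
    by_contra h2
    have hkk : e1 + e2 ≤ k := by omega
    obtain ⟨P, hP1, hP2⟩ := hu.jump_run x0 L hxL A (fun i j hij => hij.1) T 0
      ((k - (e1 + e2)) + skT T - L) hV (by omega) (by simp) (by omega)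
    -- attach the ends
    have hstart : ∃ P1, Arc (Rp G u (2 * s)) P1 p (2 * (x0 + (L - 1))) ∧
        P1.length = P.length + e1 := by
      by_cases h : e1 = 0
      · have : p = 2 * (x0 + 0) := by omega
        rw [this]
        exact ⟨P, hP1, by omega⟩
      · have he : e1 = 1 := by omega
        refine ⟨[p] ++ P, (Arc.single p).append ⟨by omega, by omega, ?_⟩ hP1, ?_⟩
        · exact hu.adj_succ (by omega) (by omega)
        · simp [he]
    obtain ⟨P1, hP3, hP4⟩ := hstart
    have hend : ∃ P2, Arc (Rp G u (2 * s)) P2 p q ∧ P2.length = P1.length + e2 := by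
      by_cases h : e2 = 0
      · have : q = 2 * (x0 + (L - 1)) := by omega
        rw [this]
        exact ⟨P1, hP3, by omega⟩
      · have he : e2 = 1 := by omega
        refine ⟨P1 ++ [q], hP3.append ⟨by omega, by omega, ?_⟩ (Arc.single q), ?_⟩
        · exact hu.adj_succ (by omega) (by omega)
        · simp [he]
    obtain ⟨P2, hP5, hP6⟩ := hend
    obtain ⟨hn1, hn2⟩ := hu.cyc_of_pos hP5 (by omega) hadj.symm
    apply noC _ hn1 hn2
    rw [List.length_map]
    omega
  have hkk : e1 + e2 ≤ 2 := by omega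
  have hLk : (k - (e1 + e2)) + 1 ≤ L := by
    by_contra h
    have h1 := hnohit [] ⟨by simp, by simp⟩ (by simp only [skT_nil]; omega)
    simp only [skT_nil, List.length_nil] at h1
    omega
  refine core A L k (k - (e1 + e2)) (e1 + e2) a (by omega) hkk hka hLk ?_ ?_ ?_ hnohit
  · -- unit steps
    intro i hi
    refine ⟨?_, by omega⟩
    exact hu.adj_even (i := x0 + i) (by omega) rfl (by omega)
  · -- the band
    intro i j _ hA
    exact hA.2
  · -- independent sets
    intro I hI1 hI2
    let Y : ℕ → V := fun i => u (2 * (x0 + i))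
    have hYinj : Set.InjOn Y (I : Set ℕ) := by
      intro x hx y hy hxy
      have h1 := hI1 x hx
      have h2 := hI1 y hy
      have := hu.inj _ _ (by omega) (by omega) hxy
      omega
    have hfar : ∀ x ∈ I, ∀ y ∈ I, x < y → ¬ G.Adj (Y x) (Y y) := by
      intro x hx y hy hxy h
      have h1 := hI1 x hx
      have h2 := hI1 y hy
      have h3 := hmin _ _ (by omega) (by omega) h (by omega)
      exact hI2 x hx y hy hxy ⟨h, by omega⟩
    have h1 := hα (I.image Y) (by
      intro v hv w hw
      obtain ⟨x, hx, rfl⟩ := Finset.mem_image.1 hv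
      obtain ⟨y, hy, rfl⟩ := Finset.mem_image.1 hw
      rcases lt_trichotomy x y with h | h | h
      · exact hfar x hx y hy h
      · subst h
        exact G.irrefl
      · exact fun h' => hfar y hy x hx h h'.symm)
    rwa [Finset.card_image_of_injOn hYinj] at h1

/-- Adding two vertices at the end of a strip. -/
theorem IsStrip.extend {u : ℕ → V} {s : ℕ} (hu : IsStrip G u s) {x y : V}
    (hx : ∀ i, i ≤ 2 * s → u i ≠ x) (hy : ∀ i, i ≤ 2 * s → u i ≠ y) (hxy : G.Adj x y)
    (h1 : G.Adj (u (2 * s)) x) (h2 : G.Adj (u (2 * s)) y) :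
    ∃ u', IsStrip G u' (s + 1) := by
  refine ⟨fun j => if j = 2 * s + 1 then x else if j = 2 * s + 2 then y else u j, ?_, ?_⟩
  · intro i j hi hj h
    have hne : x ≠ y := G.ne_of_adj hxy
    split_ifs at h with a1 a2 a3 a4 a5 a6
    · omega
    · exact absurd h hne
    · exact absurd h.symm (hx j (by omega))
    · exact absurd h.symm hne
    · omega
    · exact absurd h.symm (hy j (by omega))
    · exact absurd h (hx i (by omega))
    · exact absurd h (hy i (by omega))
    · exact hu.inj i j (by omega) (by omega) h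
  · intro i hi
    by_cases his : i = s
    · subst his
      simpa using ⟨h1, h2, hxy⟩
    · have hlt : i < s := by omega
      have := hu.tri i hlt
      rw [if_neg (by omega), if_neg (by omega), if_neg (by omega), if_neg (by omega),
        if_neg (by omega), if_neg (by omega)]
      exact this

/-- The rotated sequence: the part from position `p` on is read backwards. -/
def rot (u : ℕ → V) (t p j : ℕ) : V := if j < p then u j else u (t + p - j)

theorem IsStrip.rotate {u : ℕ → V} {s : ℕ} (hu : IsStrip G u s) {z p : ℕ} (hp : p = 2 * z + 2)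
    (hpt : p ≤ 2 * s) (h1 : G.Adj (u (2 * s)) (u (2 * z)))
    (h2 : G.Adj (u (2 * s)) (u (2 * z + 1))) : IsStrip G (rot u (2 * s) p) s := by
  subst hp
  refine ⟨?_, ?_⟩
  · intro i j hi hj h
    unfold rot at h
    split_ifs at h with a1 a2 a3
    · exact hu.inj i j hi hj h
    · have := hu.inj _ _ hi (by omega) h
      omega
    · have := hu.inj _ _ (by omega) hj h
      omega
    · have := hu.inj _ _ (by omega) (by omega) h
      omega
  · intro i hi
    unfold rot
    by_cases hc1 : 2 * i + 2 < 2 * z + 2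
    · rw [if_pos (by omega), if_pos (by omega), if_pos (by omega)]
      exact hu.tri i hi
    · by_cases hc2 : i = z
      · subst hc2
        rw [if_pos (by omega), if_pos (by omega), if_neg (by omega)]
        rw [show 2 * s + (2 * i + 2) - (2 * i + 2) = 2 * s by omega]
        refine ⟨(hu.tri i hi).1, h1.symm, h2.symm⟩
      · rw [if_neg (by omega), if_neg (by omega), if_neg (by omega)]
        obtain ⟨i', hi'⟩ : ∃ i', 2 * s + (2 * z + 2) - (2 * i + 2) = 2 * i' :=
          ⟨(2 * s + (2 * z + 2) - (2 * i + 2)) / 2, by omega⟩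
        have hlt : i' < s := by omega
        have h3 := hu.tri i' hlt
        rw [hi', show 2 * s + (2 * z + 2) - (2 * i + 1) = 2 * i' + 1 by omega,
          show 2 * s + (2 * z + 2) - 2 * i = 2 * i' + 2 by omega]
        exact ⟨h3.2.2.symm, h3.2.1.symm, h3.1.symm⟩

/-- The sequence with the last two positions swapped. -/
def swp (u : ℕ → V) (t j : ℕ) : V := if j = t then u (t - 1) else if j = t - 1 then u t else u j

theorem IsStrip.swap {u : ℕ → V} {s : ℕ} (hu : IsStrip G u s) (hs : 1 ≤ s) :
    IsStrip G (swp u (2 * s)) s := by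
  refine ⟨?_, ?_⟩
  · intro i j hi hj h
    unfold swp at h
    split_ifs at h with a1 a2 a3 a4 a5 a6
    · omega
    · have := hu.inj _ _ (by omega) (by omega) h
      omega
    · have := hu.inj _ _ (by omega) (by omega) h
      omega
    · have := hu.inj _ _ (by omega) (by omega) h
      omega
    · omega
    · have := hu.inj _ _ (by omega) (by omega) h
      omega
    · have := hu.inj _ _ (by omega) (by omega) h
      omega
    · have := hu.inj _ _ (by omega) (by omega) h
      omega
    · exact hu.inj _ _ hi hj h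
  · intro i hi
    unfold swp
    by_cases hc : i + 1 = s
    · rw [if_neg (by omega), if_neg (by omega), if_neg (by omega), if_pos (by omega),
        if_pos (by omega)]
      have h3 := hu.tri i hi
      rw [show 2 * s - 1 = 2 * i + 1 by omega, show 2 * s = 2 * i + 2 by omega]
      exact ⟨h3.2.1, h3.1, h3.2.2.symm⟩
    · rw [if_neg (by omega), if_neg (by omega), if_neg (by omega), if_neg (by omega),
        if_neg (by omega), if_neg (by omega)]
      exact hu.tri i hi

end Vale.Agent.Lib.P048
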