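import Vale.Agent.Lib.P048.Far

/-!
The far chord lemma at `k = 2 a + 1`: the jump family lemma with the position `0` allowed in
independent sets.
-/

namespace Vale.Agent.Lib.P048

/-- Greedy peeling, with the position `0` allowed. -/
theorem peel3 (A : ℕ → ℕ → Prop) (N : ℕ) (hunit : ∀ i, i < N → A i (i + 1)) :
    ∀ i : ℕ, i ≤ N → ∃ (I : Finset ℕ) (T : List (ℕ × ℕ)),
      Vld A (i + 1) T ∧ (∀ x ∈ I, x ≤ i) ∧
      (∀ x ∈ I, ∀ y ∈ I, x < y → ¬ A x y) ∧ i + 1 ≤ skT T + 2 * I.card ∧ T.length ≤ I.card := by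
  intro i
  induction i using Nat.strong_induction_on with
  | _ i ih =>
    intro hiN
    classical
    by_cases hi0 : i = 0
    · subst hi0
      refine ⟨{0}, [], ⟨by simp, by simp⟩, ?_, ?_, ?_, ?_⟩
      · intro x hx
        simp only [Finset.mem_singleton] at hx
        omega
      · intro x hx y hy hxy
        simp only [Finset.mem_singleton] at hx hy
        omega
      · simp [skT_nil]
      · simp
    have hi : 1 ≤ i := by omega
    have hex : ∃ j, j < i ∧ A j i := ⟨i - 1, by omega, by
      have := hunit (i - 1) (by omega)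
      rwa [show i - 1 + 1 = i by omega] at this⟩
    set p := Nat.find hex with hp
    have hp1 : p < i ∧ A p i := Nat.find_spec hex
    have hp2 : ∀ j, j < p → ¬ (j < i ∧ A j i) := fun j hj => Nat.find_min hex hj
    -- the jump step
    have hstep : ∃ St : List (ℕ × ℕ), Vld A (i + 1) St ∧ skT St + p + 1 = i ∧
        (∀ J ∈ St, p ≤ J.1) ∧ St.length ≤ 1 := by
      by_cases hc : p + 1 = i
      · refine ⟨[], ⟨by simp, by simp⟩, ?_, by simp, by simp⟩
        simp [skT_nil]
        omega
      · refine ⟨[(p, i)], ⟨?_, by simp⟩, ?_, by simp, by simp⟩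
        · intro J hJ
          simp only [List.mem_singleton] at hJ
          subst hJ
          refine ⟨?_, ?_, hp1.2⟩
          · simp only
            omega
          · simp
        · simp only [skT, sk, List.map_cons, List.map_nil, List.sum_cons, List.sum_nil]
          omega
    obtain ⟨St, hSt1, hSt2, hSt3, hSt4⟩ := hstep
    by_cases hp0 : p = 0
    · refine ⟨{i}, St, hSt1, ?_, ?_, ?_, ?_⟩
      · intro x hx
        simp only [Finset.mem_singleton] at hx
        omega
      · intro x hx y hy hxy
        simp only [Finset.mem_singleton] at hx hy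
        omega
      · simp only [Finset.card_singleton]
        omega
      · simp only [Finset.card_singleton]
        omega
    · obtain ⟨I', T', hV', hI1, hI2, hI3, hI4⟩ := ih (p - 1) (by omega) (by omega)
      have hnotin : i ∉ I' := by
        intro h
        have := hI1 i h
        omega
      refine ⟨insert i I', T' ++ St, ?_, ?_, ?_, ?_, ?_⟩
      · refine ⟨?_, ?_⟩
        · intro J hJ
          rcases List.mem_append.1 hJ with hJ | hJ
          · obtain ⟨h1, h2, h3⟩ := hV'.1 J hJ
            exact ⟨h1, by omega, h3⟩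
          · exact hSt1.1 J hJ
        · rw [List.pairwise_append]
          refine ⟨hV'.2, hSt1.2, ?_⟩
          intro J hJ K hK
          have h1 := (hV'.1 J hJ).2.1
          have h2 := hSt3 K hK
          omega
      · intro x hx
        rcases Finset.mem_insert.1 hx with hx' | hx'
        · omega
        · have := hI1 x hx'
          omega
      · intro x hx y hy hxy hA
        rcases Finset.mem_insert.1 hx with hx' | hx'
        · rcases Finset.mem_insert.1 hy with hy' | hy'
          · omega
          · have := hI1 y hy'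
            omega
        · rcases Finset.mem_insert.1 hy with hy' | hy'
          · have h1 := hI1 x hx'
            subst hy'
            exact hp2 x (by omega) ⟨by omega, hA⟩
          · exact hI2 x hx' y hy' hxy hA
      · rw [Finset.card_insert_of_notMem hnotin, skT_append]
        omega
      · rw [Finset.card_insert_of_notMem hnotin, List.length_append]
        omega

/-- The jump family lemma for the target `2 a`, with `k = 2 a + 1` and independent sets that may
hold the position `0`. -/
theorem core3 (A : ℕ → ℕ → Prop) (L a : ℕ) (hL : 2 * a + 1 ≤ L)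
    (hunit : ∀ i, i + 1 < L → A i (i + 1))
    (hband : ∀ i j, i < j → A i j → 2 * (j - i) + 2 ≤ 2 * a + 1)
    (hind : ∀ I : Finset ℕ, (∀ x ∈ I, x < L) →
      (∀ x ∈ I, ∀ y ∈ I, x < y → ¬ A x y) → I.card ≤ a)
    (hnohit : ∀ T, Vld A L T → L ≤ 2 * a + skT T → 2 * L ≤ 2 * a + 2 * skT T + T.length) :
    False := by
  classical
  -- the initial family from peeling
  obtain ⟨I0, T0, hT0V, hI01, hI02, hI03, hI04⟩ :=
    peel3 A (L - 1) (fun i hi => hunit i (by omega)) (L - 1) (le_refl _)
  rw [show L - 1 + 1 = L by omega] at hT0V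
  have hI0a : I0.card ≤ a := hind I0 (fun x hx => by have := hI01 x hx; omega) hI02
  have hT0P : L ≤ 2 * a + skT T0 := by omega
  have hT0len : T0.length ≤ a := by omega
  -- a minimiser
  let M : List (ℕ × ℕ) → ℕ := fun T => T.length * (L + 1) + skT T
  have hexM : ∃ n, ∃ T, Vld A L T ∧ L ≤ 2 * a + skT T ∧ M T = n := ⟨_, T0, hT0V, hT0P, rfl⟩
  obtain ⟨T, hTV, hTP, hTM⟩ := Nat.find_spec hexM
  have hmin : ∀ T', Vld A L T' → L ≤ 2 * a + skT T' → M T ≤ M T' := by
    intro T' h1 h2
    rw [hTM]
    exact Nat.find_min' hexM ⟨T', h1, h2, rfl⟩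
  clear hTM
  have hbnd : ∀ T', Vld A L T' → skT T' + T'.length + 1 ≤ L := by
    intro T' h
    have := Vld.bound T' 0 h (by omega) (by simp)
    omega
  have hlen_le : ∀ T', Vld A L T' → L ≤ 2 * a + skT T' → T.length ≤ T'.length := by
    intro T' h1 h2
    by_contra hcon
    have h3 := hmin T' h1 h2
    have h4 := hbnd T' h1
    have h5 : (T'.length + 1) * (L + 1) ≤ T.length * (L + 1) :=
      Nat.mul_le_mul_right _ (by omega)
    have h6 : (T'.length + 1) * (L + 1) = T'.length * (L + 1) + (L + 1) := by ring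
    simp only [M] at h3
    omega
  have hb : T.length ≤ a := le_trans (hlen_le T0 hT0V hT0P) hT0len
  have hTne : 1 ≤ T.length := by
    rcases T with _ | ⟨J, T⟩
    · simp [skT_nil] at hTP
      omega
    · simp
  have hNH := hnohit T hTV hTP
  obtain ⟨g, hg⟩ : ∃ g, skT T + 2 * a = L + g := ⟨skT T + 2 * a - L, by omega⟩
  have hg1 : 2 * a ≤ 2 * g + T.length := by omega
  -- the local information at each jump
  have hloc : ∀ J ∈ T, ∃ D, sk J = g + D ∧ 1 ≤ D ∧
      (∀ u w, J.1 < u → u + 2 ≤ w → w ≤ J.2 → D + 1 ≤ w - u → ¬ A u w) := by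
    intro J hJ
    obtain ⟨T1, T2, rfl⟩ := List.append_of_mem hJ
    have hJV := hTV.1 J hJ
    have hskT : skT (T1 ++ J :: T2) = skT T1 + sk J + skT T2 := by
      rw [skT_append, skT_cons]
      ring
    have hrem := hTV.remove
    have hremlt : ¬ L ≤ 2 * a + skT (T1 ++ T2) := by
      intro hcon
      have h1 := hlen_le _ hrem hcon
      simp only [List.length_append, List.length_cons] at h1
      omega
    rw [skT_append] at hremlt
    have hskJ : sk J + 1 + J.1 = J.2 := by
      unfold sk
      omega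
    refine ⟨sk J - g, by omega, by omega, ?_⟩
    intro u w h1 h2 h3 h4 hA
    have hV2 := hTV.replace (le_of_lt h1) h2 h3 hA
    have hsk2 : skT (T1 ++ (u, w) :: T2) = skT T1 + (w - u - 1) + skT T2 := by
      rw [skT_append, skT_cons]
      simp only [sk]
      ring
    by_cases hcase : L ≤ 2 * a + skT (T1 ++ (u, w) :: T2)
    · have h5 := hmin _ hV2 hcase
      simp only [M, List.length_append, List.length_cons] at h5
      rw [hsk2, hskT] at h5
      omega
    · rw [hsk2] at hcase
      omega
  choose! D hD1 hD2 hD3 using hloc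
  -- the width parameters
  obtain ⟨J0, hJ0⟩ : ∃ J0, J0 ∈ T := List.exists_mem_of_length_pos (by omega)
  have hspan : ∀ J ∈ T, J.2 = J.1 + g + (D J + 1) ∧ g + (D J + 1) + 1 ≤ a := by
    intro J hJ
    have h1 := (hTV.1 J hJ)
    have h2 := hD1 J hJ
    have h3 := hband J.1 J.2 (by omega) h1.2.2
    unfold sk at h2
    omega
  obtain ⟨W, hWdef⟩ : ∃ W, g + W + 1 = a := by
    have := (hspan J0 hJ0).2
    exact ⟨a - g - 1, by omega⟩
  have hX : ∀ J ∈ T, D J + 1 ≤ W := by
    intro J hJ
    have := (hspan J hJ).2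
    omega
  have hW2 : 2 ≤ W := by
    have := hX J0 hJ0
    have := hD2 J0 hJ0
    omega
  have hWb : 2 * W + 2 ≤ T.length := by omega
  obtain ⟨G, hG⟩ : ∃ G, g = W + G := ⟨g - W, by omega⟩
  have hG1 : 1 ≤ G := by omega
  have hfar : ∀ x y, x < y → g + W + 1 ≤ y - x → ¬ A x y := by
    intro x y hxy h1 hA
    have := hband x y hxy hA
    omega
  obtain ⟨I1, I2, h1, h2, h3, h4, h5⟩ := two_families A g W G L hG hG1 hfar (fun J => D J + 1) T W 0
    (le_refl _) hTV.2 (by simp) (fun J hJ => (hTV.1 J hJ).2.1)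
    (fun J hJ => ⟨by have := hD2 J hJ; omega, hX J hJ, (hspan J hJ).1, hD3 J hJ⟩)
  have hI1a : I1.card ≤ a := hind I1 (fun x hx => by have := h1 x hx; omega) h3
  have hI2a : I2.card ≤ a := hind I2 (fun x hx => by have := h2 x hx; omega) h4
  -- the final count
  have h6 : W * (2 * T.length + 2 * G) ≤ W * (I1.card + I2.card) := by
    have e1 : T.length * (2 * W + G) = W * (2 * T.length) + T.length * G := by ring
    have e2 : W * (2 * T.length + 2 * G) = W * (2 * T.length) + (2 * W) * G := by ring
    have e3 : (2 * W) * G ≤ T.length * G := Nat.mul_le_mul_right _ (by omega)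
    omega
  have h7 := Nat.le_of_mul_le_mul_left h6 (by omega)
  omega

open scoped Classical

variable {V : Type*} {G : SimpleGraph V}

/-- In a strip, with no `k`-cycle and no large independent set, `k = 2 a + 1`, a member of even
position and a member below it that are adjacent are at most `k - 2` positions apart. -/
theorem IsStrip.far_chord3 {u : ℕ → V} {s k a : ℕ} (hu : IsStrip G u s) (hka : 2 * a + 1 ≤ k)
    (hα : ∀ S : Finset V, (∀ x ∈ S, ∀ y ∈ S, ¬ G.Adj x y) → S.card ≤ a)
    (noC : ∀ l : List V, l.Nodup → Cyc G.Adj l → l.length ≠ k) :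
    ∀ p q, p < q → q ≤ 2 * s → q % 2 = 0 → G.Adj (u p) (u q) → q - p + 2 ≤ k := by
  by_cases hk2 : 2 * a + 2 ≤ k
  · exact hu.far_chord2 hk2 hα noC
  have hkeq : k = 2 * a + 1 := by omega
  intro p0 q0 hpq0 hq0 hq0e hadj0
  by_contra hcon
  have ha1 : 1 ≤ a := by
    have h := hα {u 0} (by
      intro x hx y hy
      simp only [Finset.mem_singleton] at hx hy
      subst hx hy
      exact G.irrefl)
    simpa using h
  -- the smallest case: a triangle
  have ha2 : 2 ≤ a := by
    by_contra hcon2
    have ha : a = 1 := by omega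
    obtain ⟨P, hP1, hP2⟩ := hu.spine_run 0 1 1 (le_refl _) (by omega)
    obtain ⟨hn1, hn2⟩ := hu.cyc_of_pos hP1 (by omega)
      (hu.adj_even (i := 0) (by omega) rfl rfl).symm
    apply noC _ hn1 hn2
    rw [List.length_map]
    omega
  -- a counterexample of minimal span
  have hexP : ∃ d, k ≤ d + 1 ∧ ∃ p q, p + d = q ∧ q ≤ 2 * s ∧ q % 2 = 0 ∧ G.Adj (u p) (u q) :=
    ⟨q0 - p0, by omega, p0, q0, by omega, hq0, hq0e, hadj0⟩
  obtain ⟨hd, p, q, hpq, hq, hqe, hadj⟩ := Nat.find_spec hexP
  have hmin : ∀ p' q', p' < q' → q' ≤ 2 * s → q' % 2 = 0 → G.Adj (u p') (u q') →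
      q' - p' < Nat.find hexP → q' - p' + 2 ≤ k := by
    intro p' q' h1 h2 h2' h3 h4
    by_contra h5
    exact Nat.find_min hexP h4 ⟨by omega, p', q', by omega, h2, h2', h3⟩
  generalize Nat.find hexP = d at hd hpq hmin
  -- the spine between the two ends
  obtain ⟨x0, e1, hx0, he1⟩ : ∃ x0 e1, p + e1 = 2 * x0 ∧ e1 ≤ 1 :=
    ⟨(p + 1) / 2, (p + 1) / 2 * 2 - p, by omega, by omega⟩
  obtain ⟨L, hL, hL1⟩ : ∃ L, q = 2 * (x0 + (L - 1)) ∧ 1 ≤ L :=
    ⟨(q - 2 * x0) / 2 + 1, by omega, by omega⟩
  have hxL : x0 + L ≤ s + 1 := by omega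
  let A : ℕ → ℕ → Prop := fun i j =>
    G.Adj (u (2 * (x0 + i))) (u (2 * (x0 + j))) ∧ 2 * (j - i) + 2 ≤ k
  -- a family of jumps with the right count gives a `k`-cycle
  have hnohit : ∀ T, Vld A L T → L ≤ (k - e1) + skT T →
      2 * L ≤ (k - e1) + 2 * skT T + T.length := by
    intro T hV h1
    by_contra h2
    obtain ⟨P, hP1, hP2⟩ := hu.jump_run x0 L hxL A (fun i j hij => hij.1) T 0
      ((k - e1) + skT T - L) hV (by omega) (by simp) (by omega)
    -- attach the lower end
    have hstart : ∃ P1, Arc (Rp G u (2 * s)) P1 p (2 * (x0 + (L - 1))) ∧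
        P1.length = P.length + e1 := by
      by_cases h : e1 = 0
      · have : p = 2 * (x0 + 0) := by omega
        rw [this]
        exact ⟨P, hP1, by omega⟩
      · have he : e1 = 1 := by omega
        refine ⟨[p] ++ P, (Arc.single p).append ⟨by omega, by omega, ?_⟩ hP1, ?_⟩
        · exact hu.adj_succ (by omega) (by omega)
        · simp [he]
    obtain ⟨P1, hP3, hP4⟩ := hstart
    rw [← hL] at hP3
    obtain ⟨hn1, hn2⟩ := hu.cyc_of_pos hP3 (by omega) hadj.symm
    apply noC _ hn1 hn2
    rw [List.length_map]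
    omega
  have hLk : (k - e1) + 1 ≤ L := by
    by_contra h
    have h1 := hnohit [] ⟨by simp, by simp⟩ (by simp only [skT_nil]; omega)
    simp only [skT_nil, List.length_nil] at h1
    omega
  have hunit : ∀ i, i + 1 < L → A i (i + 1) := by
    intro i hi
    refine ⟨?_, by omega⟩
    exact hu.adj_even (i := x0 + i) (by omega) rfl (by omega)
  have hband : ∀ i j, i < j → A i j → 2 * (j - i) + 2 ≤ k := fun i j _ hA => hA.2
  -- independent sets
  have hind : ∀ I : Finset ℕ, (∀ x ∈ I, (e1 = 0 → 1 ≤ x) ∧ x < L) →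
      (∀ x ∈ I, ∀ y ∈ I, x < y → ¬ A x y) → I.card ≤ a := by
    intro I hI1 hI2
    let Y : ℕ → V := fun i => u (2 * (x0 + i))
    have hYinj : Set.InjOn Y (I : Set ℕ) := by
      intro x hx y hy hxy
      have h1 := hI1 x hx
      have h2 := hI1 y hy
      have := hu.inj _ _ (by omega) (by omega) hxy
      omega
    have hfar : ∀ x ∈ I, ∀ y ∈ I, x < y → ¬ G.Adj (Y x) (Y y) := by
      intro x hx y hy hxy h
      have h1 := hI1 x hx
      have h2 := hI1 y hy
      have hspan : 2 * (x0 + y) - 2 * (x0 + x) < d := by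
        by_cases he : e1 = 0
        · have := h1.1 he
          omega
        · omega
      have h3 := hmin _ _ (by omega) (by omega) (by omega) h hspan
      exact hI2 x hx y hy hxy ⟨h, by omega⟩
    have h1 := hα (I.image Y) (by
      intro v hv w hw
      obtain ⟨x, hx, rfl⟩ := Finset.mem_image.1 hv
      obtain ⟨y, hy, rfl⟩ := Finset.mem_image.1 hw
      rcases lt_trichotomy x y with h | h | h
      · exact hfar x hx y hy h
      · subst h
        exact G.irrefl
      · exact fun h' => hfar y hy x hx h h'.symm)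
    rwa [Finset.card_image_of_injOn hYinj] at h1
  by_cases he0 : e1 = 0
  · subst he0
    refine core2 A L k (k - 0) 0 a (by omega) (by omega) (by omega) hLk hunit hband ?_ hnohit
    intro I hI1 hI2
    exact hind I (fun x hx => ⟨fun _ => (hI1 x hx).1, (hI1 x hx).2⟩) hI2
  · have he1' : e1 = 1 := by omega
    subst he1'
    subst hkeq
    refine core3 A L a (by omega) hunit (fun i j hij hA => hband i j hij hA) ?_ ?_
    · intro I hI1 hI2
      exact hind I (fun x hx => ⟨fun h => absurd h (by omega), hI1 x hx⟩) hI2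
    · intro T hV h1
      have := hnohit T hV (by omega)
      omega

end Vale.Agent.Lib.P048
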