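import Vale.Agent.Lib.P048.Ports

/-!
The set system lemma: outside neighbours of the predecessors of many members of a closed chain.
-/

namespace Vale.Agent.Lib.P048

open scoped Classical

variable {V : Type*}

/-- A family of at least two element sets over a graph with small independence number, without
edges between different sets and without two disjoint cherries, has at most `a` members, apart
from one exception. -/
theorem cherry_lemma [Fintype V] {a : ℕ} (G : SimpleGraph V)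
    (hα : ∀ S : Finset V, (∀ x ∈ S, ∀ y ∈ S, ¬ G.Adj x y) → S.card ≤ a)
    (E : Finset V) (A : V → Finset V)
    (hA2 : ∀ e ∈ E, 2 ≤ (A e).card)
    (hP1 : ∀ e ∈ E, ∀ e' ∈ E, e ≠ e' → ∀ r ∈ A e, ∀ r' ∈ A e', r ≠ r' → ¬ G.Adj r r')
    (hP2 : ∀ x ∈ E, ∀ x' ∈ E, ∀ y ∈ E, ∀ y' ∈ E, x ≠ x' → x ≠ y → x ≠ y' → x' ≠ y → x' ≠ y' →
      y ≠ y' → ∀ u w, u ∈ A x → u ∈ A x' → w ∈ A y → w ∈ A y' → u ≠ w → False)
    (hE : a + 1 ≤ E.card) :
    ∃ x y z u w, x ∈ E ∧ y ∈ E ∧ z ∈ E ∧ x ≠ y ∧ x ≠ z ∧ y ≠ z ∧ u ≠ w ∧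
      A x = {u, w} ∧ A y = {u, w} ∧ A z = {u, w} ∧
      ∀ e ∈ E, e ≠ x → e ≠ y → e ≠ z → ∃ r ∈ A e, ∃ r' ∈ A e, r ≠ r' ∧ G.Adj r r' := by
  classical
  let Sh : Finset V := Finset.univ.filter (fun y => ∃ i ∈ E, ∃ j ∈ E, i ≠ j ∧ y ∈ A i ∧ y ∈ A j)
  have hShmem : ∀ y, y ∈ Sh ↔ ∃ i ∈ E, ∃ j ∈ E, i ≠ j ∧ y ∈ A i ∧ y ∈ A j := by
    intro y
    simp [Sh]
  have hSh1 : ∀ y ∈ Sh, ∀ i ∈ E, ∀ r ∈ A i, r ≠ y → ¬ G.Adj y r := by
    intro y hy i hi r hr hry
    obtain ⟨i1, hi1, i2, hi2, hne, h1, h2⟩ := (hShmem y).1 hy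
    by_cases hc : i1 = i
    · subst hc
      exact hP1 i2 hi2 i1 hi (Ne.symm hne) y h2 r hr (Ne.symm hry)
    · exact hP1 i1 hi1 i hi hc y h1 r hr (Ne.symm hry)
  have hSh2 : ∀ y ∈ Sh, ∀ y' ∈ Sh, ¬ G.Adj y y' := by
    intro y hy y' hy' hadj
    obtain ⟨i1, hi1, _, _, _, h1, _⟩ := (hShmem y').1 hy'
    exact hSh1 y hy i1 hi1 y' h1 (G.ne_of_adj hadj).symm hadj
  let E1 := E.filter (fun i => ¬ A i ⊆ Sh)
  let E0 := E.filter (fun i => A i ⊆ Sh)
  have hE0mem : ∀ i ∈ E0, i ∈ E ∧ A i ⊆ Sh := fun i hi => Finset.mem_filter.1 hi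
  have hE1E : ∀ i ∈ E1, i ∈ E := fun i hi => (Finset.mem_filter.1 hi).1
  have hrep : ∀ i ∈ E1, ∃ r, r ∈ A i ∧ r ∉ Sh := by
    intro i hi
    have := (Finset.mem_filter.1 hi).2
    simpa [Finset.not_subset] using this
  choose! rep hrep1 hrep2 using hrep
  have hsplit : E0.card + E1.card = E.card := by
    simp only [E0, E1]
    exact Finset.card_filter_add_card_filter_not _
  have hrepne : ∀ i ∈ E1, ∀ j ∈ E, i ≠ j → ∀ r ∈ A j, rep i ≠ r := by
    intro i hi j hj hij r hr h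
    apply hrep2 i hi
    rw [hShmem]
    exact ⟨i, hE1E i hi, j, hj, hij, hrep1 i hi, h ▸ hr⟩
  have hinj : Set.InjOn rep (E1 : Set V) := by
    intro i hi j hj hij
    by_contra hne
    exact hrepne i hi j (hE1E j hj) hne _ (hrep1 j hj) hij
  have hInd : ∀ x ∈ Sh ∪ E1.image rep, ∀ y ∈ Sh ∪ E1.image rep, ¬ G.Adj x y := by
    intro x hx y hy hadj
    rcases Finset.mem_union.1 hx with hx | hx
    · rcases Finset.mem_union.1 hy with hy | hy
      · exact hSh2 x hx y hy hadj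
      · obtain ⟨j, hj, rfl⟩ := Finset.mem_image.1 hy
        exact hSh1 x hx j (hE1E j hj) _ (hrep1 j hj) (fun h => hrep2 j hj (h ▸ hx)) hadj
    · obtain ⟨i, hi, rfl⟩ := Finset.mem_image.1 hx
      rcases Finset.mem_union.1 hy with hy | hy
      · exact hSh1 y hy i (hE1E i hi) _ (hrep1 i hi) (fun h => hrep2 i hi (h ▸ hy)) hadj.symm
      · obtain ⟨j, hj, rfl⟩ := Finset.mem_image.1 hy
        by_cases hij : i = j
        · subst hij
          exact G.irrefl hadj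
        · exact hP1 i (hE1E i hi) j (hE1E j hj) hij _ (hrep1 i hi) _ (hrep1 j hj)
            (hrepne i hi j (hE1E j hj) hij _ (hrep1 j hj)) hadj
  have hdisj : Disjoint Sh (E1.image rep) := by
    rw [Finset.disjoint_left]
    intro x hx hx'
    obtain ⟨i, hi, rfl⟩ := Finset.mem_image.1 hx'
    exact hrep2 i hi hx
  have hIcard : (Sh ∪ E1.image rep).card = Sh.card + E1.card := by
    rw [Finset.card_union_of_disjoint hdisj, Finset.card_image_of_injOn hinj]
  have hI : Sh.card + E1.card ≤ a := by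
    rw [← hIcard]
    exact hα _ hInd
  have hE0big : Sh.card + 1 ≤ E0.card := by omega
  obtain ⟨e0, he0⟩ : E0.Nonempty := Finset.card_pos.1 (by omega)
  have hSh2le : 2 ≤ Sh.card := by
    have h1 := Finset.card_le_card (hE0mem e0 he0).2
    have h2 := hA2 e0 (hE0mem e0 he0).1
    omega
  -- two members of `E0` with a common element
  have hc : ∀ e ∈ E0, ∃ t, t ∈ A e := fun e he =>
    Finset.card_pos.1 (by have := hA2 e (hE0mem e he).1; omega)
  choose! c hc using hc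
  obtain ⟨x, hx, x', hx', hne, hcc⟩ : ∃ x ∈ E0, ∃ x' ∈ E0, x ≠ x' ∧ c x = c x' :=
    Finset.exists_ne_map_eq_of_card_lt_of_maps_to (t := Sh) (by omega)
      (fun e he => (hE0mem e he).2 (hc e he))
  have hxE := (hE0mem x hx).1
  have hxE' := (hE0mem x' hx').1
  obtain ⟨u, hu⟩ : ∃ u, u = c x := ⟨_, rfl⟩
  have hu1 : u ∈ A x := hu ▸ hc x hx
  have hu2 : u ∈ A x' := by
    rw [hu, hcc]
    exact hc x' hx'
  have huSh : u ∈ Sh := (hE0mem x hx).2 hu1
  let Y := (E0.erase x').erase x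
  have hYmem : ∀ y ∈ Y, y ≠ x ∧ y ≠ x' ∧ y ∈ E0 := by
    intro y hy
    have h1 := Finset.mem_erase.1 hy
    have h2 := Finset.mem_erase.1 h1.2
    exact ⟨h1.1, h2.1, h2.2⟩
  have hYE : ∀ y ∈ Y, y ∈ E := fun y hy => (hE0mem y (hYmem y hy).2.2).1
  have hYcard : E0.card ≤ Y.card + 2 := by
    have h3 := Finset.pred_card_le_card_erase (s := E0) (a := x')
    have h4 := Finset.pred_card_le_card_erase (s := E0.erase x') (a := x)
    simp only [Y]
    omega
  have hrepex : ∀ y ∈ Y, ∃ r ∈ A y, r ≠ u := fun y hy =>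
    Finset.exists_mem_ne (by have := hA2 y (hYE y hy); omega) u
  choose! rp hrp1 hrp2 using hrepex
  have hK : ∀ y ∈ Y, ∀ e ∈ E, e ≠ x → e ≠ x' → e ≠ y → rp y ∉ A e := by
    intro y hy e he h1 h2 h3 h4
    obtain ⟨a1, a2, _⟩ := hYmem y hy
    exact hP2 x hxE x' hxE' y (hYE y hy) e he hne (Ne.symm a1) (Ne.symm h1) (Ne.symm a2)
      (Ne.symm h2) (Ne.symm h3) u (rp y) hu1 hu2 (hrp1 y hy) h4 (Ne.symm (hrp2 y hy))
  have hrpinj : Set.InjOn rp (Y : Set V) := by
    intro y hy y' hy' h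
    by_contra hyy
    obtain ⟨a1, a2, _⟩ := hYmem y' hy'
    apply hK y hy y' (hYE y' hy') a1 a2 (Ne.symm hyy)
    rw [h]
    exact hrp1 y' hy'
  have hrpSh : ∀ y ∈ Y, rp y ∈ Sh.erase u := fun y hy =>
    Finset.mem_erase.2 ⟨hrp2 y hy, (hE0mem y (hYmem y hy).2.2).2 (hrp1 y hy)⟩
  have himg : Y.image rp = Sh.erase u := by
    apply Finset.eq_of_subset_of_card_le
    · intro t ht
      obtain ⟨y, hy, rfl⟩ := Finset.mem_image.1 ht
      exact hrpSh y hy
    · rw [Finset.card_image_of_injOn hrpinj, Finset.card_erase_of_mem huSh]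
      omega
  have hsurj : ∀ t ∈ Sh, t ≠ u → ∃ y ∈ Y, rp y = t := by
    intro t ht htu
    have : t ∈ Y.image rp := by
      rw [himg]
      exact Finset.mem_erase.2 ⟨htu, ht⟩
    obtain ⟨y, hy, h⟩ := Finset.mem_image.1 this
    exact ⟨y, hy, h⟩
  -- the sets of the members of `Y`
  have hL : ∀ y ∈ Y, ∀ t ∈ A y, t = u ∨ t = rp y := by
    intro y hy t ht
    by_cases htu : t = u
    · exact Or.inl htu
    right
    obtain ⟨a1, a2, a3⟩ := hYmem y hy
    obtain ⟨y2, hy2, rfl⟩ := hsurj t ((hE0mem y a3).2 ht) htu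
    by_cases hyy : y = y2
    · rw [hyy]
    · exact absurd ht (hK y2 hy2 y (hYE y hy) a1 a2 hyy)
  have hLeq : ∀ y ∈ Y, A y = {u, rp y} := by
    intro y hy
    apply Finset.eq_of_subset_of_card_le
    · intro t ht
      rcases hL y hy t ht with h | h <;> simp [h]
    · have := hA2 y (hYE y hy)
      have h2 := Finset.card_le_two (a := u) (b := rp y)
      omega
  have huY : ∀ y ∈ Y, u ∈ A y := by
    intro y hy
    rw [hLeq y hy]
    simp
  have hM : ∀ y ∈ Y, rp y ∈ A x ∨ rp y ∈ A x' := by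
    intro y hy
    obtain ⟨i, hi, j, hj, hij, h1, h2⟩ := (hShmem (rp y)).1
      ((hE0mem y (hYmem y hy).2.2).2 (hrp1 y hy))
    have key : ∀ h ∈ E, h ≠ y → rp y ∈ A h → rp y ∈ A x ∨ rp y ∈ A x' := by
      intro h hh hhy hm
      by_cases h3 : h = x
      · exact Or.inl (h3 ▸ hm)
      by_cases h4 : h = x'
      · exact Or.inr (h4 ▸ hm)
      exact absurd hm (hK y hy h hh h3 h4 hhy)
    by_cases h3 : i = y
    · exact key j hj (fun h => hij (h3.trans h.symm)) h2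
    · exact key i hi h3 h1
  -- only one member in `Y`
  have hYle : Y.card ≤ 1 := by
    by_contra hcon
    obtain ⟨y1, hy1, y2, hy2, hyy⟩ := Finset.one_lt_card.1 (by omega : 1 < Y.card)
    obtain ⟨a1, a2, _⟩ := hYmem y1 hy1
    obtain ⟨b1, b2, _⟩ := hYmem y2 hy2
    rcases hM y1 hy1 with h | h
    · exact hP2 y1 (hYE y1 hy1) x hxE y2 (hYE y2 hy2) x' hxE' a1 hyy a2 (Ne.symm b1) hne b2
        (rp y1) u (hrp1 y1 hy1) h (huY y2 hy2) hu2 (hrp2 y1 hy1)
    · exact hP2 y1 (hYE y1 hy1) x' hxE' y2 (hYE y2 hy2) x hxE a2 hyy a1 (Ne.symm b2) (Ne.symm hne)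
        b1 (rp y1) u (hrp1 y1 hy1) h (huY y2 hy2) hu1 (hrp2 y1 hy1)
  obtain ⟨z, hz⟩ : Y.Nonempty := Finset.card_pos.1 (by omega)
  have hYz : ∀ y ∈ Y, y = z := by
    intro y hy
    exact Finset.card_le_one.1 hYle y hy z hz
  obtain ⟨w, hw⟩ : ∃ w, w = rp z := ⟨_, rfl⟩
  have hAz : A z = {u, w} := hw ▸ hLeq z hz
  have huw : u ≠ w := by
    rw [hw]
    exact (hrp2 z hz).symm
  have hShuw : ∀ t ∈ Sh, t = u ∨ t = w := by
    intro t ht
    by_cases htu : t = u
    · exact Or.inl htu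
    · obtain ⟨y, hy, h⟩ := hsurj t ht htu
      right
      rw [← h, hYz y hy, hw]
  have hAe0 : ∀ e ∈ E0, A e = {u, w} := by
    intro e he
    apply Finset.eq_of_subset_of_card_le
    · intro t ht
      rcases hShuw t ((hE0mem e he).2 ht) with h | h <;> simp [h]
    · have := hA2 e (hE0mem e he).1
      have h2 := Finset.card_le_two (a := u) (b := w)
      omega
  have hz0 : z ∈ E0 := (hYmem z hz).2.2
  have hzE : z ∈ E := (hE0mem z hz0).1
  obtain ⟨hzx, hzx', _⟩ := hYmem z hz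
  have hw1 : w ∈ A x := by
    rw [hAe0 x hx]
    simp
  have hw2 : w ∈ A x' := by
    rw [hAe0 x' hx']
    simp
  have hw3 : w ∈ A z := by
    rw [hAz]
    simp
  have hu3 : u ∈ A z := by
    rw [hAz]
    simp
  refine ⟨x, x', z, u, w, hxE, hxE', hzE, hne, Ne.symm hzx, Ne.symm hzx', huw, hAe0 x hx,
    hAe0 x' hx', hAz, ?_⟩
  intro e he h1 h2 h3
  by_contra hno
  have hind : ∀ r ∈ A e, ∀ r' ∈ A e, r ≠ r' → ¬ G.Adj r r' := by
    intro r hr r' hr' hrr hadj
    exact hno ⟨r, hr, r', hr', hrr, hadj⟩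
  have heE1 : e ∈ E1 := by
    refine Finset.mem_filter.2 ⟨he, ?_⟩
    intro hsub
    have h4 : e ∈ E0 := Finset.mem_filter.2 ⟨he, hsub⟩
    apply h3
    apply hYz e
    exact Finset.mem_erase.2 ⟨h1, Finset.mem_erase.2 ⟨h2, h4⟩⟩
  have hnotu : u ∉ A e := fun h => hP2 e he x hxE x' hxE' z hzE h1 h2 h3 hne
    (Ne.symm hzx) (Ne.symm hzx') u w h hu1 hw2 hw3 huw
  have hnotw : w ∉ A e := fun h => hP2 e he x hxE x' hxE' z hzE h1 h2 h3 hne
    (Ne.symm hzx) (Ne.symm hzx') w u h hw1 hu2 hu3 (Ne.symm huw)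
  have hnotSh : ∀ t ∈ A e, t ∉ Sh := by
    intro t ht hin
    rcases hShuw t hin with h | h
    · exact hnotu (h ▸ ht)
    · exact hnotw (h ▸ ht)
  obtain ⟨r2, hr2, hr2ne⟩ : ∃ r ∈ A e, r ≠ rep e :=
    Finset.exists_mem_ne (by have := hA2 e he; omega) _
  have hr2rep : ∀ j ∈ E1, j ≠ e → r2 ≠ rep j := by
    intro j hj hje h
    exact hrepne j hj e he hje r2 hr2 h.symm
  have hnotin : r2 ∉ Sh ∪ E1.image rep := by
    intro hin
    rcases Finset.mem_union.1 hin with hin | hin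
    · exact hnotSh r2 hr2 hin
    · obtain ⟨j, hj, hj2⟩ := Finset.mem_image.1 hin
      by_cases hje : j = e
      · subst hje
        exact hr2ne hj2.symm
      · exact hr2rep j hj hje hj2.symm
  have hside : ∀ t ∈ Sh ∪ E1.image rep, ¬ G.Adj t r2 := by
    intro t ht hadj
    rcases Finset.mem_union.1 ht with ht | ht
    · exact hSh1 t ht e he r2 hr2 (fun h => hnotSh r2 hr2 (h ▸ ht)) hadj
    · obtain ⟨j, hj, rfl⟩ := Finset.mem_image.1 ht
      by_cases hje : j = e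
      · subst hje
        exact hind _ (hrep1 j hj) r2 hr2 (Ne.symm hr2ne) hadj
      · exact hP1 j (hE1E j hj) e he hje _ (hrep1 j hj) r2 hr2 (Ne.symm (hr2rep j hj hje)) hadj
  have hfinal := hα (insert r2 (Sh ∪ E1.image rep)) (by
    intro p hp q hq hadj
    rcases Finset.mem_insert.1 hp with h4 | hp
    · rcases Finset.mem_insert.1 hq with h5 | hq
      · rw [h4, h5] at hadj
        exact G.irrefl hadj
      · rw [h4] at hadj
        exact hside q hq hadj.symm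
    · rcases Finset.mem_insert.1 hq with h5 | hq
      · rw [h5] at hadj
        exact hside p hp hadj
      · exact hInd p hp q hq hadj)
  rw [Finset.card_insert_of_notMem hnotin, hIcard] at hfinal
  omega

end Vale.Agent.Lib.P048
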