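import Vale.Agent.Lib.P048.Tight2
import Vale.Agent.Lib.P048.Hub

/-!
Adding two vertices to a closed chain, for `k = 2 a + 1`: the closure at degree `a` and the
exceptional configuration.
-/

namespace Vale.Agent.Lib.P048

open scoped Classical

variable {V : Type*} (G : SimpleGraph V)

/-- The closed chain `Z` can be extended by two new members. -/
def Ext (Z : List V) : Prop :=
  ∃ u w Z', u ∉ Z ∧ w ∉ Z ∧ u ≠ w ∧ List.Perm Z' (Z ++ [u, w]) ∧ Cyc G.Adj Z'

theorem nodup_two {Z : List V} {u w : V} (hnd : Z.Nodup) (hu : u ∉ Z) (hw : w ∉ Z) (huw : u ≠ w) :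
    (Z ++ [u, w]).Nodup := by
  rw [List.nodup_append]
  refine ⟨hnd, by simp [huw], ?_⟩
  intro a ha b hb hab
  subst hab
  simp only [List.mem_cons, List.not_mem_nil, or_false] at hb
  rcases hb with hb | hb
  · subst hb
    exact hu ha
  · subst hb
    exact hw ha

theorem ear12b {Z : List V} (hnd : Z.Nodup) {f : V → V} {p1 p2 p3 p4 u w : V} {D : ℕ}
    (h : Ports4 G.Adj Z f p1 p2 p3 p4)
    (hu2 : G.Adj (f p2) u) (hu3 : G.Adj (f p3) u) (hw4 : G.Adj (f p4) w) (hw1 : G.Adj (f p1) w)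
    (hu : u ∉ Z) (hw : w ∉ Z) (huw : u ≠ w)
    (d1 : D ≤ dg G.Adj p1 (Z ++ [u, w])) (d2 : D ≤ dg G.Adj p2 (Z ++ [u, w]))
    (d3 : D ≤ dg G.Adj p3 (Z ++ [u, w])) (d4 : D ≤ dg G.Adj p4 (Z ++ [u, w]))
    (hD : Z.length + 2 ≤ 2 * D) (h1Z : 1 ≤ Z.length) :
    ∃ Z', List.Perm Z' (Z ++ [u, w]) ∧ Cyc G.Adj Z' := by
  obtain ⟨A1, A2, A3, A4, h0, h1, h2, h3, h4⟩ := h
  have hs : ∀ x y, G.Adj x y → G.Adj y x := fun x y h => h.symm
  have hP1 : Arc G.Adj (A1 ++ u :: A2.reverse) p1 p2 := by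
    have := h1.append hu2 ((Arc.single u).append hu3.symm (h2.reverse hs))
    simpa using this
  have hP2 : Arc G.Adj (A3 ++ w :: A4.reverse) p3 p4 := by
    have := h3.append hw4 ((Arc.single w).append hw1.symm (h4.reverse hs))
    simpa using this
  have hperm : List.Perm ((A1 ++ u :: A2.reverse) ++ (A3 ++ w :: A4.reverse)) (Z ++ [u, w]) := by
    have e1 : List.Perm ((A1 ++ u :: A2.reverse) ++ (A3 ++ w :: A4.reverse))
        ((A1 ++ (A2 ++ (A3 ++ A4))) ++ [u, w]) := by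
      rw [List.perm_iff_count]
      intro a
      simp only [List.count_append, List.count_cons, List.count_reverse, List.count_nil]
      ring
    exact e1.trans (h0.perm.append_right _)
  have hnd2 := nodup_two hnd hu hw huw
  have hlen : ((A1 ++ u :: A2.reverse) ++ (A3 ++ w :: A4.reverse)).length = Z.length + 2 := by
    rw [hperm.length_eq]
    simp
  obtain ⟨l', h5, h6⟩ := two_paths G hP1 hP2 (hperm.nodup_iff.2 hnd2) (by omega)
    (by rw [dg_perm hperm, dg_perm hperm]; omega)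
    (by rw [dg_perm hperm, dg_perm hperm]; omega)
  exact ⟨l', h5.trans hperm, h6⟩

theorem ear13b {Z : List V} (hnd : Z.Nodup) {f : V → V} {p1 p2 p3 p4 u w : V} {D : ℕ}
    (h : Ports4 G.Adj Z f p1 p2 p3 p4)
    (hu2 : G.Adj (f p2) u) (hu4 : G.Adj (f p4) u) (hw1 : G.Adj (f p1) w) (hw3 : G.Adj (f p3) w)
    (hu : u ∉ Z) (hw : w ∉ Z) (huw : u ≠ w)
    (d1 : D ≤ dg G.Adj p1 (Z ++ [u, w])) (d2 : D ≤ dg G.Adj p2 (Z ++ [u, w]))
    (d3 : D ≤ dg G.Adj p3 (Z ++ [u, w])) (d4 : D ≤ dg G.Adj p4 (Z ++ [u, w]))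
    (hD : Z.length + 2 ≤ 2 * D) (h1Z : 1 ≤ Z.length) :
    ∃ Z', List.Perm Z' (Z ++ [u, w]) ∧ Cyc G.Adj Z' := by
  obtain ⟨A1, A2, A3, A4, h0, h1, h2, h3, h4⟩ := h
  have hs : ∀ x y, G.Adj x y → G.Adj y x := fun x y h => h.symm
  have hP1 : Arc G.Adj (A1 ++ u :: A3.reverse) p1 p3 := by
    have := h1.append hu2 ((Arc.single u).append hu4.symm (h3.reverse hs))
    simpa using this
  have hP2 : Arc G.Adj (A4 ++ w :: A2.reverse) p4 p2 := by
    have := h4.append hw1 ((Arc.single w).append hw3.symm (h2.reverse hs))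
    simpa using this
  have hperm : List.Perm ((A1 ++ u :: A3.reverse) ++ (A4 ++ w :: A2.reverse)) (Z ++ [u, w]) := by
    have e1 : List.Perm ((A1 ++ u :: A3.reverse) ++ (A4 ++ w :: A2.reverse))
        ((A1 ++ (A2 ++ (A3 ++ A4))) ++ [u, w]) := by
      rw [List.perm_iff_count]
      intro a
      simp only [List.count_append, List.count_cons, List.count_reverse, List.count_nil]
      ring
    exact e1.trans (h0.perm.append_right _)
  have hnd2 := nodup_two hnd hu hw huw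
  have hlen : ((A1 ++ u :: A3.reverse) ++ (A4 ++ w :: A2.reverse)).length = Z.length + 2 := by
    rw [hperm.length_eq]
    simp
  obtain ⟨l', h5, h6⟩ := two_paths G hP1 hP2 (hperm.nodup_iff.2 hnd2) (by omega)
    (by rw [dg_perm hperm, dg_perm hperm]; omega)
    (by rw [dg_perm hperm, dg_perm hperm]; omega)
  exact ⟨l', h5.trans hperm, h6⟩

/-- Two vertices with common ports at four different places extend the closed chain. -/
theorem ext_twob {Z : List V} (hnd : Z.Nodup) {f : V → V} {x x' y y' u w : V} {D : ℕ}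
    (hx : IsPred G.Adj Z (f x) x) (hx' : IsPred G.Adj Z (f x') x')
    (hy : IsPred G.Adj Z (f y) y) (hy' : IsPred G.Adj Z (f y') y')
    (n1 : x ≠ x') (n2 : x ≠ y) (n3 : x ≠ y') (n4 : x' ≠ y) (n5 : x' ≠ y') (n6 : y ≠ y')
    (hux : G.Adj (f x) u) (hux' : G.Adj (f x') u) (hwy : G.Adj (f y) w) (hwy' : G.Adj (f y') w)
    (hu : u ∉ Z) (hw : w ∉ Z) (huw : u ≠ w)
    (d1 : D ≤ dg G.Adj x (Z ++ [u, w])) (d2 : D ≤ dg G.Adj x' (Z ++ [u, w]))
    (d3 : D ≤ dg G.Adj y (Z ++ [u, w])) (d4 : D ≤ dg G.Adj y' (Z ++ [u, w]))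
    (hD : Z.length + 2 ≤ 2 * D) :
    ∃ Z', List.Perm Z' (Z ++ [u, w]) ∧ Cyc G.Adj Z' := by
  have h1Z : 1 ≤ Z.length := by
    have := hx.mem
    exact List.length_pos_of_mem this
  have hsw : List.Perm (Z ++ [w, u]) (Z ++ [u, w]) :=
    List.Perm.append_left _ (List.Perm.swap _ _ _)
  have hwu : w ≠ u := Ne.symm huw
  have d1' : D ≤ dg G.Adj x (Z ++ [w, u]) := by rw [dg_perm hsw]; exact d1
  have d2' : D ≤ dg G.Adj x' (Z ++ [w, u]) := by rw [dg_perm hsw]; exact d2
  have d3' : D ≤ dg G.Adj y (Z ++ [w, u]) := by rw [dg_perm hsw]; exact d3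
  have d4' : D ≤ dg G.Adj y' (Z ++ [w, u]) := by rw [dg_perm hsw]; exact d4
  obtain ⟨l, h1, h2, h3⟩ := id hx
  have hm : ∀ z f', IsPred G.Adj Z f' z → z ∈ l := by
    intro z f' hz
    obtain ⟨l', h4, h5, _⟩ := hz
    exact h1.perm.symm.subset (h4.perm.subset h5.head_mem)
  rcases ord3 (hm _ _ hx') (hm _ _ hy) (hm _ _ hy') n4 n5 n6 with h | h | h | h | h | h
  · have hP := ports_of_ord3 hnd h1 h2 h3 (Ne.symm n1) hx' hy hy' h
    obtain ⟨Z', h4, h5⟩ := ear12b G hnd hP.shift hwy hwy' hux hux' hw hu hwu d2' d3' d4' d1' hD h1Z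
    exact ⟨Z', h4.trans hsw, h5⟩
  · have hP := ports_of_ord3 hnd h1 h2 h3 (Ne.symm n1) hx' hy' hy h
    obtain ⟨Z', h4, h5⟩ := ear12b G hnd hP.shift hwy' hwy hux hux' hw hu hwu d2' d4' d3' d1' hD h1Z
    exact ⟨Z', h4.trans hsw, h5⟩
  · have hP := ports_of_ord3 hnd h1 h2 h3 (Ne.symm n2) hy hx' hy' h
    obtain ⟨Z', h4, h5⟩ := ear13b G hnd hP hwy hwy' hux hux' hw hu hwu d1' d3' d2' d4' hD h1Z
    exact ⟨Z', h4.trans hsw, h5⟩
  · have hP := ports_of_ord3 hnd h1 h2 h3 (Ne.symm n2) hy hy' hx' h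
    obtain ⟨Z', h4, h5⟩ := ear12b G hnd hP hwy hwy' hux' hux hw hu hwu d1' d3' d4' d2' hD h1Z
    exact ⟨Z', h4.trans hsw, h5⟩
  · have hP := ports_of_ord3 hnd h1 h2 h3 (Ne.symm n3) hy' hx' hy h
    obtain ⟨Z', h4, h5⟩ := ear13b G hnd hP hwy' hwy hux hux' hw hu hwu d1' d4' d2' d3' hD h1Z
    exact ⟨Z', h4.trans hsw, h5⟩
  · have hP := ports_of_ord3 hnd h1 h2 h3 (Ne.symm n3) hy' hy hx' h
    obtain ⟨Z', h4, h5⟩ := ear12b G hnd hP hwy' hwy hux' hux hw hu hwu d1' d4' d3' d2' hD h1Z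
    exact ⟨Z', h4.trans hsw, h5⟩

/-- Two adjacent new vertices at two different places extend the closed chain. -/
theorem ext_oneb {Z : List V} (hnd : Z.Nodup) {e e' f f' r r' : V}
    (hp : IsPred G.Adj Z f e) (hp' : IsPred G.Adj Z f' e') (hne : e ≠ e')
    (hr : r ∉ Z) (hr' : r' ∉ Z) (hrr : r ≠ r') (h1 : G.Adj f r) (h2 : G.Adj f' r')
    (h3 : G.Adj r r')
    (hd : Z.length + 2 ≤ dg G.Adj e (Z ++ [r', r]) + dg G.Adj e' (Z ++ [r', r])) :
    ∃ Z', List.Perm Z' (Z ++ [r', r]) ∧ Cyc G.Adj Z' := by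
  have hs : ∀ x y, G.Adj x y → G.Adj y x := fun x y h => h.symm
  have hirr : ∀ x, ¬ G.Adj x x := fun x => G.irrefl
  obtain ⟨A1, A2, h0, h4, h5⟩ := ports2 hnd hp hp' hne
  have hP : Arc G.Adj (A1 ++ r' :: r :: A2.reverse) e e' := by
    have := h4.append h2 ((Arc.single r').append h3.symm
      ((Arc.single r).append h1.symm (h5.reverse hs)))
    simpa using this
  have hperm : List.Perm (A1 ++ r' :: r :: A2.reverse) (Z ++ [r', r]) := by
    have e1 : List.Perm (A1 ++ r' :: r :: A2.reverse) ((A1 ++ A2) ++ [r', r]) := by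
      rw [List.perm_iff_count]
      intro a
      simp only [List.count_append, List.count_cons, List.count_reverse, List.count_nil]
      ring
    exact e1.trans (h0.perm.append_right _)
  have hnd2 := nodup_two hnd hr' hr (Ne.symm hrr)
  have h1Z : 1 ≤ Z.length := List.length_pos_of_mem hp.mem
  have hlen : (A1 ++ r' :: r :: A2.reverse).length = Z.length + 2 := by
    rw [hperm.length_eq]
    simp
  have hc : Cyc (vir G.Adj e' e) (A1 ++ r' :: r :: A2.reverse) :=
    ⟨e, e', hP.imp (fun _ _ h => Or.inl h), Or.inr (Or.inl ⟨rfl, rfl⟩)⟩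
  obtain ⟨l', h6, h7⟩ := close_virtual hs hirr (Ne.symm hne) (hperm.nodup_iff.2 hnd2) hc
    hP.last_mem (by omega) (by
      rw [dg_perm hperm, dg_perm hperm]
      omega)
  exact ⟨l', h6.trans hperm, h7⟩

/-- A member of a closed chain with `a` neighbours on the chain and an independent set of at least
`a` neighbours off the chain: each outside neighbour of its predecessor is a neighbour, or gives
an ear. -/
theorem ear_or_high [Fintype V] {a : ℕ} (hδ : ∀ v, 2 * a + 1 ≤ (Finset.univ.filter (G.Adj v)).card + 1)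
    (hα : ∀ S : Finset V, (∀ x ∈ S, ∀ y ∈ S, ¬ G.Adj x y) → S.card ≤ a)
    {Z : List V} {e f r : V} (hf : IsPred G.Adj Z f e) (hr : r ∉ Z)
    (hfr : G.Adj f r) (hd : a ≤ dg G.Adj e Z)
    (hout : ∀ y y', G.Adj e y → G.Adj e y' → y ∉ Z → y' ∉ Z → ¬ G.Adj y y') :
    a + 1 ≤ dg G.Adj e (Z ++ [r]) ∨ Ext G Z := by
  classical
  have hsub : Z ⊆ Z ++ [r] := fun x hx => List.mem_append_left _ hx
  by_cases h1 : a + 1 ≤ dg G.Adj e Z
  · exact Or.inl (le_trans h1 (dg_mono hsub (fun _ hz => hz)))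
  have hda : dg G.Adj e Z = a := by omega
  by_cases her : G.Adj e r
  · left
    have h2 : insert r (Z.toFinset.filter (fun z => G.Adj z e)) ⊆
        (Z ++ [r]).toFinset.filter (fun z => G.Adj z e) := by
      intro x hx
      rcases Finset.mem_insert.1 hx with rfl | hx
      · rw [Finset.mem_filter, List.mem_toFinset]
        exact ⟨by simp, her.symm⟩
      · rw [Finset.mem_filter, List.mem_toFinset] at hx ⊢
        exact ⟨List.mem_append_left _ hx.1, hx.2⟩
    have h3 := Finset.card_le_card h2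
    rw [Finset.card_insert_of_notMem (by
      intro h4
      rw [Finset.mem_filter, List.mem_toFinset] at h4
      exact hr h4.1)] at h3
    unfold dg at hda ⊢
    omega
  right
  let O := Finset.univ.filter (fun y => G.Adj e y ∧ y ∉ Z)
  have hOmem : ∀ y, y ∈ O ↔ G.Adj e y ∧ y ∉ Z := by
    intro y
    simp [O]
  have hOcard : a ≤ O.card := by
    have h2 := hδ e
    have h3 : Finset.univ.filter (G.Adj e) ⊆ O ∪ Z.toFinset.filter (fun z => G.Adj z e) := by
      intro y hy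
      rw [Finset.mem_filter] at hy
      rw [Finset.mem_union, hOmem, Finset.mem_filter, List.mem_toFinset]
      by_cases hyZ : y ∈ Z
      · exact Or.inr ⟨hyZ, hy.2.symm⟩
      · exact Or.inl ⟨hy.2, hyZ⟩
    have h4 := Finset.card_le_card h3
    have h5 := Finset.card_union_le O (Z.toFinset.filter (fun z => G.Adj z e))
    unfold dg at hda
    omega
  have hrO : r ∉ O := fun h => her ((hOmem r).1 h).1
  -- the new vertex has a neighbour among the outside neighbours
  have hex : ∃ i ∈ O, G.Adj r i := by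
    by_contra hno
    have h2 := hα (insert r O) (by
      intro x hx y hy hadj
      rcases Finset.mem_insert.1 hx with h3 | hx
      · rcases Finset.mem_insert.1 hy with h4 | hy
        · rw [h3, h4] at hadj
          exact G.irrefl hadj
        · rw [h3] at hadj
          exact hno ⟨y, hy, hadj⟩
      · rcases Finset.mem_insert.1 hy with h4 | hy
        · rw [h4] at hadj
          exact hno ⟨x, hx, hadj.symm⟩
        · rw [hOmem] at hx hy
          exact hout x y hx.1 hy.1 hx.2 hy.2 hadj)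
    rw [Finset.card_insert_of_notMem hrO] at h2
    omega
  obtain ⟨i, hi, hri⟩ := hex
  rw [hOmem] at hi
  obtain ⟨l, h2, h3, _⟩ := hf
  have hA : Arc G.Adj (l ++ [r, i]) e i := by
    have := h3.append hfr ((Arc.single r).append hri (Arc.single i))
    simpa using this
  exact ⟨r, i, l ++ [r, i], hr, hi.2, G.ne_of_adj hri, h2.perm.append_right _,
    ⟨e, i, hA, hi.1.symm⟩⟩

end Vale.Agent.Lib.P048
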