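import Vale.Agent.Lib.P048.Tight3

/-!
The exceptional configuration for `k = 2 a + 1`, and Lemma H.
-/

namespace Vale.Agent.Lib.P048

open scoped Classical

variable {V : Type*} (G : SimpleGraph V)

/-- The exceptional configuration on a closed chain. -/
def Xc (E : Finset V) (Z : List V) : Prop :=
  ∃ x y z u w, x ∈ E ∧ y ∈ E ∧ z ∈ E ∧ x ≠ y ∧ x ≠ z ∧ y ≠ z ∧ u ≠ w ∧ u ∉ Z ∧ w ∉ Z ∧
    (∀ e, (e = x ∨ e = y ∨ e = z) → ∀ f, Nb Z f e →
      f ∈ E ∧ G.Adj f u ∧ G.Adj f w ∧ ∀ t ∈ Z, t ≠ f → G.Adj f t) ∧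
    (∀ e ∈ E, ∀ f, Nb Z f e → f ∈ E → e = x ∨ e = y ∨ e = z)

/-- One step: an extension or the exceptional configuration. -/
theorem step3 [Fintype V] {a : ℕ} (hδ : ∀ v, 2 * a + 1 ≤ (Finset.univ.filter (G.Adj v)).card + 1)
    (hα : ∀ S : Finset V, (∀ x ∈ S, ∀ y ∈ S, ¬ G.Adj x y) → S.card ≤ a)
    (E : Finset V) {Z : List V} (hnd : Z.Nodup) (hZ : Cyc G.Adj Z) (hEZ : ∀ e ∈ E, e ∈ Z)
    (hdeg : ∀ e ∈ E, a ≤ dg G.Adj e Z)
    (hout : ∀ e ∈ E, ∀ y y', G.Adj e y → G.Adj e y' → y ∉ Z → y' ∉ Z → ¬ G.Adj y y')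
    (hlen : Z.length + 2 ≤ 2 * a + 1) (hE : a + 1 ≤ E.card) (noext : ¬ Ext G Z) : Xc G E Z := by
  classical
  have hf : ∀ e ∈ E, ∃ f, IsPred G.Adj Z f e := fun e he => IsPred.exists hZ (hEZ e he)
  choose! f hf using hf
  have hfnb : ∀ e ∈ E, ∀ f', Nb Z f' e → f' = f e := fun e he f' h =>
    nb_pred_unique hnd h (hf e he).nb
  let A : V → Finset V := fun e => Finset.univ.filter (fun r => G.Adj (f e) r ∧ r ∉ Z)
  have hAmem : ∀ e r, r ∈ A e ↔ G.Adj (f e) r ∧ r ∉ Z := by
    intro e r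
    simp [A]
  -- the neighbours of a predecessor
  have hsubN : ∀ e ∈ E, Finset.univ.filter (G.Adj (f e)) ⊆ A e ∪ (Z.toFinset.erase (f e)) := by
    intro e he r hr
    rw [Finset.mem_filter] at hr
    rw [Finset.mem_union, hAmem, Finset.mem_erase, List.mem_toFinset]
    by_cases hrZ : r ∈ Z
    · exact Or.inr ⟨(G.ne_of_adj hr.2).symm, hrZ⟩
    · exact Or.inl ⟨hr.2, hrZ⟩
  have hfZ : ∀ e ∈ E, f e ∈ Z := fun e he => (hf e he).mem
  have hAbig : ∀ e ∈ E, 2 * a + 1 ≤ (A e).card + Z.length := by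
    intro e he
    have h1 := hδ (f e)
    have h2 := Finset.card_le_card (hsubN e he)
    have h3 := Finset.card_union_le (A e) (Z.toFinset.erase (f e))
    rw [Finset.card_erase_of_mem (List.mem_toFinset.2 (hfZ e he)),
      List.toFinset_card_of_nodup hnd] at h3
    have h4 : 0 < Z.length := List.length_pos_of_mem (hfZ e he)
    omega
  have hA2 : ∀ e ∈ E, 2 ≤ (A e).card := by
    intro e he
    have := hAbig e he
    omega
  -- high degrees
  have hHi : ∀ e ∈ E, ∀ r ∈ A e, a + 1 ≤ dg G.Adj e (Z ++ [r]) := by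
    intro e he r hr
    rw [hAmem] at hr
    rcases ear_or_high G hδ hα (hf e he) hr.2 hr.1 (hdeg e he) (hout e he) with h | h
    · exact h
    · exact absurd h noext
  have hP1 : ∀ e ∈ E, ∀ e' ∈ E, e ≠ e' → ∀ r ∈ A e, ∀ r' ∈ A e', r ≠ r' → ¬ G.Adj r r' := by
    intro e he e' he' hne r hr r' hr' hrr h3
    have h1 := hHi e he r hr
    have h2 := hHi e' he' r' hr'
    rw [hAmem] at hr hr'
    have d1 : dg G.Adj e (Z ++ [r]) ≤ dg G.Adj e (Z ++ [r', r]) := by
      apply dg_mono _ (fun _ hz => hz)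
      intro x hx
      simp only [List.mem_append, List.mem_cons, List.not_mem_nil, or_false] at hx ⊢
      tauto
    have d2 : dg G.Adj e' (Z ++ [r']) ≤ dg G.Adj e' (Z ++ [r', r]) := by
      apply dg_mono _ (fun _ hz => hz)
      intro x hx
      simp only [List.mem_append, List.mem_cons, List.not_mem_nil, or_false] at hx ⊢
      tauto
    obtain ⟨Z', h4, h5⟩ := ext_oneb G hnd (hf e he) (hf e' he') hne hr.2 hr'.2 hrr hr.1 hr'.1 h3
      (by omega)
    exact noext ⟨r', r, Z', hr'.2, hr.2, Ne.symm hrr, h4, h5⟩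
  have hP2 : ∀ x ∈ E, ∀ x' ∈ E, ∀ y ∈ E, ∀ y' ∈ E, x ≠ x' → x ≠ y → x ≠ y' → x' ≠ y → x' ≠ y' →
      y ≠ y' → ∀ u w, u ∈ A x → u ∈ A x' → w ∈ A y → w ∈ A y' → u ≠ w → False := by
    intro x hx x' hx' y hy y' hy' n1 n2 n3 n4 n5 n6 u w h1 h2 h3 h4 huw
    have du : ∀ e, dg G.Adj e (Z ++ [u]) ≤ dg G.Adj e (Z ++ [u, w]) := by
      intro e
      apply dg_mono _ (fun _ hz => hz)
      intro t ht
      simp only [List.mem_append, List.mem_cons, List.not_mem_nil, or_false] at ht ⊢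
      tauto
    have dw : ∀ e, dg G.Adj e (Z ++ [w]) ≤ dg G.Adj e (Z ++ [u, w]) := by
      intro e
      apply dg_mono _ (fun _ hz => hz)
      intro t ht
      simp only [List.mem_append, List.mem_cons, List.not_mem_nil, or_false] at ht ⊢
      tauto
    have d1 := le_trans (hHi x hx u h1) (du x)
    have d2 := le_trans (hHi x' hx' u h2) (du x')
    have d3 := le_trans (hHi y hy w h3) (dw y)
    have d4 := le_trans (hHi y' hy' w h4) (dw y')
    rw [hAmem] at h1 h2 h3 h4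
    obtain ⟨Z', h5, h6⟩ := ext_twob G hnd (hf x hx) (hf x' hx') (hf y hy) (hf y' hy')
      n1 n2 n3 n4 n5 n6 h1.1 h2.1 h3.1 h4.1 h1.2 h3.2 huw d1 d2 d3 d4 (by omega)
    exact noext ⟨u, w, Z', h1.2, h3.2, huw, h5, h6⟩
  obtain ⟨x, y, z, u, w, hx, hy, hz, hxy, hxz, hyz, huw, hAx, hAy, hAz, hrest⟩ :=
    cherry_lemma G hα E A hA2 hP1 hP2 hE
  have hcard2 : ({u, w} : Finset V).card = 2 := Finset.card_pair huw
  have hu1 : u ∈ A x := by
    rw [hAx]
    simp
  have hw1 : w ∈ A x := by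
    rw [hAx]
    simp
  have huZ : u ∉ Z := ((hAmem _ _).1 hu1).2
  have hwZ : w ∉ Z := ((hAmem _ _).1 hw1).2
  have hZlen : Z.length + 2 = 2 * a + 1 := by
    have := hAbig x hx
    rw [hAx, hcard2] at this
    omega
  -- the three predecessors
  have hthree : ∀ e, (e = x ∨ e = y ∨ e = z) → e ∈ E ∧ A e = {u, w} := by
    rintro e (rfl | rfl | rfl)
    · exact ⟨hx, hAx⟩
    · exact ⟨hy, hAy⟩
    · exact ⟨hz, hAz⟩
  have huniv : ∀ e, (e = x ∨ e = y ∨ e = z) → ∀ t ∈ Z, t ≠ f e → G.Adj (f e) t := by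
    intro e he t ht htf
    obtain ⟨heE, hAe⟩ := hthree e he
    by_contra hno
    have h1 := hδ (f e)
    have h2 : Finset.univ.filter (G.Adj (f e)) ⊆ A e ∪ ((Z.toFinset.erase (f e)).erase t) := by
      intro r hr
      have h3 := (Finset.mem_filter.1 hr).2
      rcases Finset.mem_union.1 (hsubN e heE hr) with h4 | h4
      · exact Finset.mem_union_left _ h4
      · refine Finset.mem_union_right _ (Finset.mem_erase.2 ⟨?_, h4⟩)
        rintro rfl
        exact hno h3
    have h3 := Finset.card_le_card h2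
    have h4 := Finset.card_union_le (A e) ((Z.toFinset.erase (f e)).erase t)
    have hAc : (A e).card = 2 := by rw [hAe, hcard2]
    have hZ2 : 1 < Z.length := by
      rw [← List.toFinset_card_of_nodup hnd]
      exact Finset.one_lt_card.2 ⟨t, List.mem_toFinset.2 ht, f e, List.mem_toFinset.2 (hfZ e heE), htf⟩
    rw [Finset.card_erase_of_mem (Finset.mem_erase.2 ⟨htf, List.mem_toFinset.2 ht⟩),
      Finset.card_erase_of_mem (List.mem_toFinset.2 (hfZ e heE)),
      List.toFinset_card_of_nodup hnd] at h4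
    omega
  -- which predecessors belong to `E`
  let Q := E.filter (fun e => f e ∈ E)
  have hQ1 : ∀ e ∈ E, f e ∈ E → e = x ∨ e = y ∨ e = z := by
    intro e he hfe
    by_contra hno
    simp only [not_or] at hno
    obtain ⟨r, hr, r', hr', hrr, hadj⟩ := hrest e he hno.1 hno.2.1 hno.2.2
    rw [hAmem] at hr hr'
    exact hout (f e) hfe r r' hr.1 hr'.1 hr.2 hr'.2 hadj
  have hQsub : Q ⊆ {x, y, z} := by
    intro e he
    obtain ⟨h1, h2⟩ := Finset.mem_filter.1 he
    simpa using hQ1 e h1 h2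
  have hQcard : 3 ≤ Q.card := by
    -- the predecessors of the other members lie outside `E`
    have hfinj : Set.InjOn f (E : Set V) := by
      intro e he e' he' hff
      have h1 := (hf e he).nb
      rw [hff] at h1
      exact nb_succ_unique hnd h1 (hf e' he').nb
    have hsub : (E.filter (fun e => f e ∉ E)).image f ⊆ Z.toFinset \ E := by
      intro t ht
      obtain ⟨e, he, rfl⟩ := Finset.mem_image.1 ht
      obtain ⟨h1, h2⟩ := Finset.mem_filter.1 he
      exact Finset.mem_sdiff.2 ⟨List.mem_toFinset.2 (hfZ e h1), h2⟩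
    have h1 := Finset.card_le_card hsub
    rw [Finset.card_image_of_injOn (hfinj.mono (by
      intro e he
      exact (Finset.mem_filter.1 he).1)), Finset.card_sdiff_of_subset (by
      intro e he
      exact List.mem_toFinset.2 (hEZ e he)), List.toFinset_card_of_nodup hnd] at h1
    have h2 : Q.card + (E.filter (fun e => f e ∉ E)).card = E.card :=
      Finset.card_filter_add_card_filter_not _
    have h3 : E.card ≤ Z.length := by
      rw [← List.toFinset_card_of_nodup hnd]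
      apply Finset.card_le_card
      intro e he
      exact List.mem_toFinset.2 (hEZ e he)
    omega
  have hQeq : Q = {x, y, z} := by
    apply Finset.eq_of_subset_of_card_le hQsub
    have : ({x, y, z} : Finset V).card ≤ 3 := Finset.card_le_three
    omega
  have hfE : ∀ e, (e = x ∨ e = y ∨ e = z) → f e ∈ E := by
    intro e he
    have : e ∈ Q := by
      rw [hQeq]
      simpa using he
    exact (Finset.mem_filter.1 this).2
  refine ⟨x, y, z, u, w, hx, hy, hz, hxy, hxz, hyz, huw, huZ, hwZ, ?_, ?_⟩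
  · intro e he f' hf'
    obtain ⟨heE, hAe⟩ := hthree e he
    rw [hfnb e heE f' hf']
    have hue : u ∈ A e := by
      rw [hAe]
      simp
    have hwe : w ∈ A e := by
      rw [hAe]
      simp
    exact ⟨hfE e he, ((hAmem _ _).1 hue).1, ((hAmem _ _).1 hwe).1, huniv e he⟩
  · intro e he f' hf' hf'E
    rw [hfnb e he f' hf'] at hf'E
    exact hQ1 e he hf'E

/-- An arc without its last member. -/
theorem arc_dropLast {R : V → V → Prop} {A : List V} {h t : V} (hA : Arc R A h t) :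
    ∃ A', A = A' ++ [t] ∧ A'.IsChain R ∧ ∀ b ∈ A'.head?, b = h := by
  have hne : A ≠ [] := hA.ne_nil
  have hlast : A.getLast hne = t := by
    have := List.getLast?_eq_some_getLast hne
    rw [hA.2.2] at this
    simpa using this.symm
  have e1 : A.dropLast ++ [t] = A := by
    rw [← hlast]
    exact List.dropLast_append_getLast hne
  refine ⟨A.dropLast, e1.symm, ?_, ?_⟩
  · have h1 := hA.1
    rw [← e1, List.isChain_append] at h1
    exact h1.1
  · intro b hb
    have h1 := hA.2.1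
    rw [← e1, List.head?_append] at h1
    rw [Option.mem_def] at hb
    rw [hb] at h1
    simpa using h1

/-- Three arcs around a closed chain with universal ends give the extension. -/
theorem build3 {Z A1 A2 A3 : List V} {h1 h2 h3 t1 t2 t3 u w : V} (hnd : Z.Nodup)
    (hperm : List.Perm (A1 ++ (A2 ++ A3)) Z)
    (a1 : Arc G.Adj A1 h1 t1) (a2 : Arc G.Adj A2 h2 t2) (a3 : Arc G.Adj A3 h3 t3)
    (uh1 : ∀ t ∈ Z, t ≠ h1 → G.Adj h1 t) (uh2 : ∀ t ∈ Z, t ≠ h2 → G.Adj h2 t)
    (uh3 : ∀ t ∈ Z, t ≠ h3 → G.Adj h3 t) (ut3 : ∀ t ∈ Z, t ≠ t3 → G.Adj t3 t)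
    (b1u : G.Adj t1 u) (b1w : G.Adj t1 w) (b2w : G.Adj t2 w) (b3u : G.Adj t3 u)
    (hu : u ∉ Z) (hw : w ∉ Z) (huw : u ≠ w) : Ext G Z := by
  obtain ⟨B1, e1, c1, d1⟩ := arc_dropLast a1
  obtain ⟨B2, e2, c2, d2⟩ := arc_dropLast a2
  obtain ⟨B3, e3, c3, d3⟩ := arc_dropLast a3
  subst e1 e2 e3
  have hZm : ∀ x, x ∈ B1 ∨ x ∈ B2 ∨ x ∈ B3 ∨ x = t1 ∨ x = t2 ∨ x = t3 → x ∈ Z := by
    intro x hx
    apply hperm.subset
    simp only [List.mem_append, List.mem_cons, List.not_mem_nil, or_false]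
    tauto
  let E5 : List V := [t3, u, t1, w, t2]
  let C := B1 ++ (B2 ++ (B3 ++ E5))
  have hCperm : List.Perm C (Z ++ [u, w]) := by
    have e : List.Perm C (((B1 ++ [t1]) ++ ((B2 ++ [t2]) ++ (B3 ++ [t3]))) ++ [u, w]) := by
      rw [List.perm_iff_count]
      intro a
      simp only [C, E5, List.count_append, List.count_cons, List.count_nil]
      ring
    exact e.trans (hperm.append_right _)
  have hCnd : C.Nodup := hCperm.nodup_iff.2 (nodup_two hnd hu hw huw)
  -- a head that is universal on `Z`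
  let HU : List V → Prop := fun L => ∀ b ∈ L.head?, ∀ t ∈ Z, t ≠ b → G.Adj b t
  have hHU1 : HU B1 := by
    intro b hb t ht htb
    have := d1 b hb
    subst this
    exact uh1 t ht htb
  have hHU2 : HU B2 := by
    intro b hb t ht htb
    have := d2 b hb
    subst this
    exact uh2 t ht htb
  have hHU3 : HU B3 := by
    intro b hb t ht htb
    have := d3 b hb
    subst this
    exact uh3 t ht htb
  have hHU5 : HU E5 := by
    intro b hb t ht htb
    have : b = t3 := by simpa [E5] using hb.symm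
    subst this
    exact ut3 t ht htb
  have hHUapp : ∀ L L', HU L → HU L' → HU (L ++ L') := by
    intro L L' h5 h6 b hb
    rw [List.head?_append] at hb
    cases hL : L.head? with
    | none =>
      rw [hL] at hb
      exact h6 b (by simpa using hb)
    | some c =>
      rw [hL] at hb
      have : c = b := by simpa using hb
      subst this
      exact h5 c (by rw [hL]; rfl)
  have hjoin : ∀ L L' : List V, (L ++ L').Nodup → L.IsChain G.Adj → L'.IsChain G.Adj → HU L' →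
      (∀ x ∈ L, x ∈ Z) → (L ++ L').IsChain G.Adj := by
    intro L L' h5 h6 h7 h8 h9
    rw [List.isChain_append]
    refine ⟨h6, h7, ?_⟩
    intro a ha b hb
    have ha' : a ∈ L := List.mem_of_getLast? ha
    have hb' : b ∈ L' := List.mem_of_mem_head? hb
    have hne : a ≠ b := fun h => List.disjoint_of_nodup_append h5 ha' (h ▸ hb')
    exact (h8 b hb a (h9 a ha') hne).symm
  have hc5 : E5.IsChain G.Adj := by
    simp only [E5, List.isChain_cons_cons, List.isChain_singleton, and_true]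
    exact ⟨b3u, b1u.symm, b1w, b2w.symm⟩
  have hnd3 : (B3 ++ E5).Nodup := by
    have h5 : C.Nodup := hCnd
    simp only [C] at h5
    exact (List.nodup_append.1 (List.nodup_append.1 h5).2.1).2.1
  have hnd2 : (B2 ++ (B3 ++ E5)).Nodup := by
    have h5 : C.Nodup := hCnd
    simp only [C] at h5
    exact (List.nodup_append.1 h5).2.1
  have hc3 : (B3 ++ E5).IsChain G.Adj := hjoin _ _ hnd3 c3 hc5 hHU5 (fun x hx => hZm x (by tauto))
  have hHU35 := hHUapp _ _ hHU3 hHU5
  have hc2 : (B2 ++ (B3 ++ E5)).IsChain G.Adj :=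
    hjoin _ _ hnd2 c2 hc3 hHU35 (fun x hx => hZm x (by tauto))
  have hHU235 := hHUapp _ _ hHU2 hHU35
  have hc1 : C.IsChain G.Adj := hjoin _ _ hCnd c1 hc2 hHU235 (fun x hx => hZm x (by tauto))
  have hHUC : HU C := hHUapp _ _ hHU1 hHU235
  -- closing
  obtain ⟨D, hD⟩ : ∃ D, C = D ++ [t2] := ⟨B1 ++ (B2 ++ (B3 ++ [t3, u, t1, w])), by simp [C, E5]⟩
  have hCne : C ≠ [] := by simp [C, E5]
  obtain ⟨b, hb⟩ : ∃ b, C.head? = some b := by
    cases hC : C with
    | nil => exact absurd hC hCne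
    | cons c m => exact ⟨c, rfl⟩
  have hDne : D ≠ [] := by
    intro h0
    rw [h0] at hD
    have : C.length = 1 := by rw [hD]; simp
    simp [C, E5] at this
    omega
  have hbD : b ∈ D := by
    rw [hD, List.head?_append] at hb
    cases hDh : D with
    | nil => exact absurd hDh hDne
    | cons c m =>
      rw [hDh] at hb
      simp only [List.head?_cons, Option.some_or, Option.some.injEq] at hb
      subst hb
      simp
  have hbt : t2 ≠ b := by
    intro h
    rw [hD] at hCnd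
    exact List.disjoint_of_nodup_append hCnd hbD (by simp [h])
  have hlast : C.getLast? = some t2 := by
    rw [hD]
    simp
  refine ⟨u, w, C, hu, hw, huw, hCperm, b, t2, ⟨hc1, hb, hlast⟩, ?_⟩
  exact (hHUC b hb t2 (hZm t2 (by tauto)) hbt).symm

/-- No exceptional configuration in both directions: the closed chain extends. -/
theorem kill_xc {E : Finset V} {Z : List V} (hnd : Z.Nodup) (hZ : Cyc G.Adj Z)
    (hEZ : ∀ e ∈ E, e ∈ Z) (h1 : Xc G E Z) (h2 : Xc G E Z.reverse) : Ext G Z := by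
  obtain ⟨x, y, z, u, w, hx, hy, hz, hxy, hxz, hyz, huw, huZ, hwZ, hA, _⟩ := h1
  obtain ⟨x', y', z', u', w', _, _, _, _, _, _, _, _, _, hA', hB'⟩ := h2
  -- the three members are universal as well
  have hun : ∀ e, e ∈ E → (e = x ∨ e = y ∨ e = z) → ∀ t ∈ Z, t ≠ e → G.Adj e t := by
    intro e heE he t ht hte
    obtain ⟨f, hf⟩ := IsPred.exists hZ (hEZ e heE)
    obtain ⟨hfE, _, _, _⟩ := hA e he f hf.nb
    have hrev : Nb Z.reverse e f := nb_reverse hf.nb
    have h3 := hB' f hfE e hrev heE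
    obtain ⟨_, _, _, h4⟩ := hA' f h3 e hrev
    exact h4 t (List.mem_reverse.2 ht) hte
  have ux := hun x hx (Or.inl rfl)
  have uy := hun y hy (Or.inr (Or.inl rfl))
  have uz := hun z hz (Or.inr (Or.inr rfl))
  have hAx := hA x (Or.inl rfl)
  have hAy := hA y (Or.inr (Or.inl rfl))
  have hAz := hA z (Or.inr (Or.inr rfl))
  -- the three arcs
  obtain ⟨p, l, hrot, hl, hp⟩ : ∃ p l, l ~r Z ∧ Arc G.Adj l x p ∧ G.Adj p x := by
    obtain ⟨f, l, h3, h4, h5⟩ := IsPred.exists hZ (hEZ x hx)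
    exact ⟨f, l, h3, h4, h5⟩
  have hpn : Nb l p x := Or.inr ⟨hl.2.2, hl.2.1⟩
  have hlperm : List.Perm l Z := hrot.perm
  have hyl : y ∈ l := hlperm.symm.subset (hEZ y hy)
  have hzl : z ∈ l := hlperm.symm.subset (hEZ z hz)
  obtain ⟨s, t, c, rfl, a1, hc, a2⟩ := hl.split_mem hyl (Ne.symm hxy)
  have hcn : Nb (s ++ y :: t) c y := by
    left
    rw [consec_append]
    exact Or.inr (Or.inr ⟨a1.2.2, rfl⟩)
  have hmem : z ∈ s ∨ z ∈ y :: t := by
    rcases List.mem_append.1 hzl with h | h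
    · exact Or.inl h
    · exact Or.inr h
  rcases hmem with hzs | hzt
  · -- the order `x`, `z`, `y`
    obtain ⟨s1, t1, c1, rfl, b1, hc1, b2⟩ := a1.split_mem hzs (Ne.symm hxz)
    have hc1n : Nb ((s1 ++ z :: t1) ++ y :: t) c1 z := by
      left
      rw [consec_append]
      left
      rw [consec_append]
      exact Or.inr (Or.inr ⟨b1.2.2, rfl⟩)
    obtain ⟨_, f1, f2, f3⟩ := hAz c1 (nb_rot hrot hc1n)
    obtain ⟨_, g1, g2, g3⟩ := hAy c (nb_rot hrot hcn)
    obtain ⟨_, r1, r2, r3⟩ := hAx p (nb_rot hrot hpn)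
    refine build3 G hnd ?_ b1 b2 a2 ux uz uy r3 f1 f2 g2 r1 huZ hwZ huw
    refine List.Perm.trans ?_ hlperm
    simp
  · -- the order `x`, `y`, `z`
    have hzt' : z ∈ y :: t := hzt
    obtain ⟨s1, t1, c1, hsplit, b1, hc1, b2⟩ := a2.split_mem hzt' (Ne.symm hyz)
    rw [hsplit] at hrot hl hpn hlperm hzl hcn
    have hc1n : Nb (s ++ (s1 ++ z :: t1)) c1 z := by
      left
      rw [consec_append]
      right
      left
      rw [consec_append]
      exact Or.inr (Or.inr ⟨b1.2.2, rfl⟩)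
    obtain ⟨_, f1, f2, f3⟩ := hAz c1 (nb_rot hrot hc1n)
    obtain ⟨_, g1, g2, g3⟩ := hAy c (nb_rot hrot hcn)
    obtain ⟨_, r1, r2, r3⟩ := hAx p (nb_rot hrot hpn)
    refine build3 G hnd ?_ a1 b1 b2 ux uy uz r3 g1 g2 f2 r1 huZ hwZ huw
    refine List.Perm.trans ?_ hlperm
    simp

/-- A large set of members with `a` neighbours on the closed chain and independent outside
neighbours forces an extension. -/
theorem ext_of_large [Fintype V] {a : ℕ}
    (hδ : ∀ v, 2 * a + 1 ≤ (Finset.univ.filter (G.Adj v)).card + 1)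
    (hα : ∀ S : Finset V, (∀ x ∈ S, ∀ y ∈ S, ¬ G.Adj x y) → S.card ≤ a)
    (E : Finset V) {Z : List V} (hnd : Z.Nodup) (hZ : Cyc G.Adj Z) (hEZ : ∀ e ∈ E, e ∈ Z)
    (hdeg : ∀ e ∈ E, a ≤ dg G.Adj e Z)
    (hout : ∀ e ∈ E, ∀ y y', G.Adj e y → G.Adj e y' → y ∉ Z → y' ∉ Z → ¬ G.Adj y y')
    (hlen : Z.length + 2 ≤ 2 * a + 1) (hE : a + 1 ≤ E.card) : Ext G Z := by
  by_contra noext
  have h1 := step3 G hδ hα E hnd hZ hEZ hdeg hout hlen hE noext
  have hrev : List.Perm Z.reverse Z := List.reverse_perm Z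
  have hnoext2 : ¬ Ext G Z.reverse := by
    rintro ⟨u, w, Z', h3, h4, h5, h6, h7⟩
    exact noext ⟨u, w, Z', fun h => h3 (List.mem_reverse.2 h), fun h => h4 (List.mem_reverse.2 h),
      h5, h6.trans (hrev.append_right _), h7⟩
  have h2 := step3 G hδ hα E (List.nodup_reverse.2 hnd) (Cyc.reverse hZ)
    (fun e he => List.mem_reverse.2 (hEZ e he))
    (fun e he => by rw [dg_perm hrev]; exact hdeg e he)
    (fun e he y y' h3 h4 h5 h6 => hout e he y y' h3 h4 (fun h7 => h5 (List.mem_reverse.2 h7))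
      (fun h7 => h6 (List.mem_reverse.2 h7)))
    (by simpa using hlen) hE hnoext2
  exact noext (kill_xc G hnd hZ hEZ h1 h2)

/-- Lemma H for `k = 2 a + 1`. -/
theorem lemma_H3 [Fintype V] {a : ℕ}
    (hδ : ∀ v, 2 * a + 1 ≤ (Finset.univ.filter (G.Adj v)).card + 1)
    (hα : ∀ S : Finset V, (∀ x ∈ S, ∀ y ∈ S, ¬ G.Adj x y) → S.card ≤ a)
    (noC : ∀ l : List V, l.Nodup → Cyc G.Adj l → l.length ≠ 2 * a + 1)
    (E : Finset V) (W : List V) (hEW : ∀ e ∈ E, e ∈ W) (hdeg : ∀ e ∈ E, a ≤ dg G.Adj e W)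
    (hout : ∀ e ∈ E, ∀ y y', G.Adj e y → G.Adj e y' → y ∉ W → y' ∉ W → ¬ G.Adj y y') :
    ∀ (n : ℕ) (Z : List V), 2 * a + 1 - Z.length ≤ n → Z.Nodup → Cyc G.Adj Z → W ⊆ Z →
      Z.length ≤ 2 * a + 1 → Z.length % 2 = 1 → E.card ≤ a := by
  intro n
  induction n with
  | zero =>
    intro Z h0 hnd hZ hWZ hlen hpar
    exact absurd (by omega) (noC Z hnd hZ)
  | succ n ih =>
    intro Z h0 hnd hZ hWZ hlen hpar
    have hne := noC Z hnd hZ
    have hlen2 : Z.length + 2 ≤ 2 * a + 1 := by omega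
    by_contra hE
    obtain ⟨u, w, Z', hu, hw, huw, hperm, hc⟩ := ext_of_large G hδ hα E hnd hZ
      (fun e he => hWZ (hEW e he))
      (fun e he => le_trans (hdeg e he) (dg_mono hWZ (fun _ hz => hz)))
      (fun e he y y' h1 h2 h3 h4 => hout e he y y' h1 h2 (fun h5 => h3 (hWZ h5))
        (fun h5 => h4 (hWZ h5))) hlen2 (by omega)
    have hnd2 := nodup_two hnd hu hw huw
    have hlen3 : Z'.length = Z.length + 2 := by
      rw [hperm.length_eq]
      simp
    exact hE (ih Z' (by omega) (hperm.nodup_iff.2 hnd2) hc (fun x hx =>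
      hperm.symm.subset (List.mem_append_left _ (hWZ hx))) (by omega) (by omega))

end Vale.Agent.Lib.P048
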