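import Vale.Agent.Lib.P048.Tight5
import Vale.Agent.Lib.P048.Tight1
import Vale.Agent.Lib.P048.Dense4

/-!
The minimum degree theorem for `k = 2 a + 1`.
-/

namespace Vale.Agent.Lib.P048

open scoped Classical

variable {V : Type*} {G : SimpleGraph V}

/-- A closed route through all positions from `j` on, of odd length: if `j` is odd, the member just
below `j` is inserted behind `u j`. -/
theorem IsStrip.route5 {u : ℕ → V} {s : ℕ} (hu : IsStrip G u s) {j : ℕ} (hj : j + 2 ≤ 2 * s)
    (hcl : G.Adj (u (2 * s)) (u j)) :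
    ∃ Z : List V, Z.Nodup ∧ Cyc G.Adj Z ∧ Z.length % 2 = 1 ∧ Z.length ≤ 2 * s - j + 2 ∧
      2 * s - j + 1 ≤ Z.length ∧ (∀ x, j ≤ x → x ≤ 2 * s → u x ∈ Z) ∧
      (∀ x, j ≤ x → (x = j → j % 2 = 0) → x + 1 ≤ 2 * s → Consec Z (u x) (u (x + 1))) := by
  rcases Nat.even_or_odd' j with ⟨z, hz | hz⟩
  · obtain ⟨P, h1, h2, h3, h4⟩ := hu.full_run2 j (2 * s - j) (by omega)
    rw [show j + (2 * s - j) = 2 * s by omega] at h1 h3 h4
    obtain ⟨hZnd, hZc⟩ := hu.cyc_of_pos h1 (by omega) hcl
    refine ⟨P.map u, hZnd, hZc, by rw [List.length_map]; omega, by rw [List.length_map]; omega,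
      by rw [List.length_map]; omega, ?_, ?_⟩
    · intro x hx1 hx2
      exact List.mem_map_of_mem ((h3 x).2 ⟨hx1, hx2⟩)
    · intro x hx1 _ hx2
      obtain ⟨s1, t1, e1⟩ := h4 x (by omega) (by omega)
      refine ⟨s1.map u, t1.map u, ?_⟩
      rw [e1]
      simp
  · obtain ⟨P, h1, h2, h3, h4⟩ := hu.full_run2 (j + 1) (2 * s - (j + 1)) (by omega)
    rw [show j + 1 + (2 * s - (j + 1)) = 2 * s by omega] at h1 h3 h4
    have hmem : ∀ x ∈ P, j + 1 ≤ x ∧ x ≤ 2 * s := fun x hx => (h3 x).1 hx
    have hnd : P.Nodup := chain_nodup h1.1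
    have hPm : (P.map u).Nodup := by
      apply List.Nodup.map_on _ hnd
      intro x hx y hy hxy
      exact hu.inj x y (hmem x hx).2 (hmem y hy).2 hxy
    have hj1 : G.Adj (u j) (u (j - 1)) := (hu.adj_succ (a := j - 1) (by omega) (by omega)).symm
    have hj2 : G.Adj (u (j - 1)) (u (j + 1)) := hu.adj_even (i := z) (by omega) (by omega) (by omega)
    have hA : Arc G.Adj (P.map u) (u (j + 1)) (u (2 * s)) := h1.map u (fun _ _ hab => hab.2.2)
    have hB : Arc G.Adj (u j :: u (j - 1) :: P.map u) (u j) (u (2 * s)) := by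
      have := (Arc.single (u j)).append hj1 ((Arc.single (u (j - 1))).append hj2 hA)
      simpa using this
    refine ⟨u j :: u (j - 1) :: P.map u, ?_, ⟨u j, u (2 * s), hB, hcl⟩,
      by simp only [List.length_cons, List.length_map]; omega,
      by simp only [List.length_cons, List.length_map]; omega,
      by simp only [List.length_cons, List.length_map]; omega, ?_, ?_⟩
    · rw [List.nodup_cons, List.nodup_cons]
      refine ⟨?_, ?_, hPm⟩
      · intro hin
        rcases List.mem_cons.1 hin with h5 | h5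
        · have := hu.inj _ _ (by omega) (by omega) h5
          omega
        · obtain ⟨x, hx, h6⟩ := List.mem_map.1 h5
          have := hu.inj _ _ (hmem x hx).2 (by omega) h6
          have := hmem x hx
          omega
      · intro h5
        obtain ⟨x, hx, h6⟩ := List.mem_map.1 h5
        have := hu.inj _ _ (hmem x hx).2 (by omega) h6
        have := hmem x hx
        omega
    · intro x hx1 hx2
      by_cases h5 : x = j
      · subst h5
        simp
      · refine List.mem_cons_of_mem _ (List.mem_cons_of_mem _ ?_)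
        exact List.mem_map_of_mem ((h3 x).2 ⟨by omega, hx2⟩)
    · intro x hx1 hx3 hx2
      have hxj : j + 1 ≤ x := by
        by_contra hc
        have := hx3 (by omega)
        omega
      obtain ⟨s1, t1, e1⟩ := h4 x hxj (by omega)
      refine ⟨u j :: u (j - 1) :: s1.map u, t1.map u, ?_⟩
      rw [e1]
      simp

section main

variable [Fintype V] {k a : ℕ}

/-- The minimum degree theorem for `k = 2 a + 1`. -/
theorem thmE [Nonempty V] (G : SimpleGraph V) (hk : k = 2 * a + 1)
    (hδ : ∀ v, k ≤ (Finset.univ.filter (G.Adj v)).card + 1)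
    (hα : ∀ S : Finset V, (∀ x ∈ S, ∀ y ∈ S, ¬ G.Adj x y) → S.card ≤ a) :
    ∃ l : List V, l.Nodup ∧ Cyc G.Adj l ∧ l.length = k := by
  by_contra hno
  have noC : ∀ l : List V, l.Nodup → Cyc G.Adj l → l.length ≠ k :=
    fun l h1 h2 h3 => hno ⟨l, h1, h2, h3⟩
  obtain ⟨s, v0, hv0, hmax⟩ := exists_max_strip G
  have hmax' : ∀ u', ¬ IsStrip G u' (s + 1) := fun u' h => by
    have := hmax _ _ h
    omega
  have hfc : ∀ u, IsStrip G u s → ∀ p q, p < q → q ≤ 2 * s → q % 2 = 0 → G.Adj (u p) (u q) →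
      q - p + 2 ≤ k := fun u hu => hu.far_chord3 (by omega) hα noC
  have ha1 : 1 ≤ a := by
    obtain ⟨x0⟩ := ‹Nonempty V›
    have h := hα {x0} (by
      intro x hx y hy
      simp only [Finset.mem_singleton] at hx hy
      subst hx hy
      exact G.irrefl)
    simpa using h
  have hs1 : 1 ≤ s := by
    by_contra h0
    have h1 : s = 0 := by omega
    subst h1
    have hnb0 := nbr_count hδ hα hmax' hv0 v0 (fun j hj => ⟨j, hj, rfl⟩)
    have : ((Finset.range (2 * 0 + 1)).filter (fun i => G.Adj (v0 (2 * 0)) (v0 i))) = ∅ := by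
      apply Finset.filter_eq_empty_iff.2
      intro i hi
      have hi' := Finset.mem_range.1 hi
      have hi0 : i = 0 := by omega
      subst hi0
      exact G.irrefl
    rw [this] at hnb0
    simp only [Finset.card_empty] at hnb0
    omega
  obtain ⟨v, m, hv, hm1, hcl, hndbl⟩ := top_clique hs1 hv0
  have hnb := nbr_count hδ hα hmax' hv v (fun j hj => ⟨j, hj, rfl⟩)
  -- positions of neighbours of the end, in blocks of two
  let O := (Finset.range s).filter (fun z => G.Adj (v (2 * s)) (v (2 * z + 1)))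
  let Ev := (Finset.range s).filter (fun z => G.Adj (v (2 * s)) (v (2 * z)))
  have hNsub : (Finset.range (2 * s + 1)).filter (fun i => G.Adj (v (2 * s)) (v i)) ⊆
      O.image (fun z => 2 * z + 1) ∪ Ev.image (fun z => 2 * z) := by
    intro i hi
    rw [Finset.mem_filter, Finset.mem_range] at hi
    obtain ⟨hi1, hi2⟩ := hi
    have hi3 : i ≠ 2 * s := by
      intro h
      subst h
      exact G.irrefl hi2
    rw [Finset.mem_union, Finset.mem_image, Finset.mem_image]
    rcases Nat.even_or_odd' i with ⟨z, hz | hz⟩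
    · right
      subst hz
      refine ⟨z, ?_, rfl⟩
      simp only [Ev, Finset.mem_filter, Finset.mem_range]
      exact ⟨by omega, hi2⟩
    · left
      subst hz
      refine ⟨z, ?_, rfl⟩
      simp only [O, Finset.mem_filter, Finset.mem_range]
      exact ⟨by omega, hi2⟩
  have hNcard : ((Finset.range (2 * s + 1)).filter (fun i => G.Adj (v (2 * s)) (v i))).card ≤
      O.card + Ev.card := by
    refine le_trans (Finset.card_le_card hNsub) (le_trans (Finset.card_union_le _ _) ?_)
    exact Nat.add_le_add Finset.card_image_le Finset.card_image_le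
  let F := O ∩ Ev
  let F' := F.erase (s - 1)
  have hF' : F.card ≤ F'.card + 1 := by
    have := Finset.pred_card_le_card_erase (s := F) (a := s - 1)
    simp only [F']
    omega
  have hF'mem : ∀ z ∈ F', z + 2 ≤ s ∧ G.Adj (v (2 * s)) (v (2 * z)) ∧
      G.Adj (v (2 * s)) (v (2 * z + 1)) := by
    intro z hz
    simp only [F', F, O, Ev, Finset.mem_erase, Finset.mem_inter, Finset.mem_filter,
      Finset.mem_range] at hz
    exact ⟨by omega, hz.2.2.2, hz.2.1.2⟩
  have hF'm : ∀ z ∈ F', z + 1 ≠ m := by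
    intro z hz e
    obtain ⟨_, h2, h3⟩ := hF'mem z hz
    apply hndbl (by omega)
    rw [show 2 * m - 2 = 2 * z by omega, show 2 * m - 1 = 2 * z + 1 by omega]
    exact ⟨h2, h3⟩
  have hmF' : m + 2 ≤ s → m ∈ F' := by
    intro h
    simp only [F', F, O, Ev, Finset.mem_erase, Finset.mem_inter, Finset.mem_filter,
      Finset.mem_range]
    exact ⟨by omega, ⟨by omega, (hcl _ _ (by omega) (by omega) (le_refl _)).symm⟩,
      ⟨by omega, (hcl _ _ (by omega) (by omega) (le_refl _)).symm⟩⟩
  -- the set of possible ends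
  let PosE : Finset ℕ :=
    insert (2 * s) (insert (2 * m + 1) (F'.image (fun z => 2 * z + 2) ∪ F'.image (fun z => 2 * z + 3)))
  let E := PosE.image v
  have hPosle : ∀ i ∈ PosE, i ≤ 2 * s := by
    intro i hi
    simp only [PosE, Finset.mem_insert, Finset.mem_union, Finset.mem_image] at hi
    rcases hi with h | h | ⟨z, hz, rfl⟩ | ⟨z, hz, rfl⟩
    · omega
    · omega
    · have := (hF'mem z hz).1
      omega
    · have := (hF'mem z hz).1
      omega
  have hbE : v (2 * s) ∈ E := by
    simp only [E, PosE]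
    exact Finset.mem_image_of_mem _ (Finset.mem_insert_self _ _)
  have h0E : v (2 * m + 1) ∈ E := by
    simp only [E, PosE]
    exact Finset.mem_image_of_mem _ (Finset.mem_insert_of_mem (Finset.mem_insert_self _ _))
  have hpairE : ∀ z ∈ F', ∀ x, InPair v z x → x ∈ E := by
    intro z hz x hx
    simp only [E, PosE]
    rcases hx with rfl | rfl
    · exact Finset.mem_image_of_mem _ (Finset.mem_insert_of_mem (Finset.mem_insert_of_mem
        (Finset.mem_union_left _ (Finset.mem_image_of_mem _ hz))))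
    · exact Finset.mem_image_of_mem _ (Finset.mem_insert_of_mem (Finset.mem_insert_of_mem
        (Finset.mem_union_right _ (Finset.mem_image_of_mem _ hz))))
  have hm2E : v (2 * m + 2) ∈ E := by
    by_cases h : m + 2 ≤ s
    · exact hpairE m (hmF' h) _ (Or.inl rfl)
    · rw [show 2 * m + 2 = 2 * s by omega]
      exact hbE
  have hxlow : G.Adj (v (2 * s)) (v (2 * s - 2)) :=
    (hv.adj_even (i := s - 1) (by omega) (by omega) (by omega)).symm
  have hxm : G.Adj (v (2 * s)) (v (2 * m)) := (hcl _ _ (le_refl _) (by omega) (le_refl _)).symm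
  have hwit : ∀ e ∈ E, ∃ c u i, Wit G v s e c u ∧
      ((∃ t, t + 2 ≤ c ∧ t ≤ 2 * s ∧ G.Adj (v (2 * s)) (v t)) ∨ c = 2 * m + 1) ∧ c ≤ i ∧
      i ≤ 2 * s ∧ e = v i ∧
      (∀ z ∈ F', ∃ j, j % 2 = 1 ∧ j + 1 ≤ 2 * s ∧ InPair v z (u j) ∧
        (InPair v z (u (j - 1)) ∨ InPair v z (u (j + 1)))) ∧ PX E v u s m c := by
    intro e he
    obtain ⟨i, hi, rfl⟩ := Finset.mem_image.1 he
    simp only [PosE, Finset.mem_insert, Finset.mem_union, Finset.mem_image] at hi
    rcases hi with h | h | ⟨z, hz, rfl⟩ | ⟨z, hz, rfl⟩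
    · subst h
      exact ⟨2 * s, v, 2 * s, wit_self hv, Or.inl ⟨2 * s - 2, by omega, by omega, hxlow⟩, le_refl _,
        le_refl _, rfl, fun z hz => pp_self v s z (hF'mem z hz).1, px_self hm1 hm2E⟩
    · subst h
      exact ⟨2 * m + 1, _, 2 * m + 1, wit_top hv hm1 hcl, Or.inr rfl, le_refl _, by omega, rfl,
        fun z hz => pp_top v s m z (hF'mem z hz).1 (hF'm z hz), px_top hm1 hm2E h0E⟩
    · obtain ⟨h1, h2, h3⟩ := hF'mem z hz
      exact ⟨2 * z + 2, _, 2 * z + 2, wit_rot hv h1 h2 h3,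
        Or.inl ⟨2 * z, by omega, by omega, h2⟩, le_refl _, by omega, rfl,
        fun y hy => pp_rot v s z h1 y (hF'mem y hy).1, px_rot hm1 h1 (hF'm z hz) hm2E hbE⟩
    · obtain ⟨h1, h2, h3⟩ := hF'mem z hz
      exact ⟨2 * z + 2, _, 2 * z + 3, wit_swp hv h1 h2 h3,
        Or.inl ⟨2 * z, by omega, by omega, h2⟩, by omega, by omega, rfl,
        fun y hy => pp_swp v s z h1 y (hF'mem y hy).1, px_swp hm1 h1 (hF'm z hz) hm2E hbE⟩
  -- the lowest position seen from the set of possible ends
  have hjex : ∃ j, j ≤ 2 * s ∧ ∃ e ∈ E, G.Adj e (v j) :=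
    ⟨2 * s - 2, by omega, v (2 * s), hbE, hxlow⟩
  obtain ⟨hj1, eS0, heS0, hj2⟩ := Nat.find_spec hjex
  have hjmin : ∀ j, j ≤ 2 * s → ∀ e ∈ E, G.Adj e (v j) → Nat.find hjex ≤ j :=
    fun j h1 e he h2 => Nat.find_min' hjex ⟨h1, e, he, h2⟩
  generalize Nat.find hjex = js at hj1 hj2 hjmin
  have hjm : js ≤ 2 * m := hjmin (2 * m) (by omega) (v (2 * s)) hbE hxm
  have hjlt : ∀ c, ((∃ t, t + 2 ≤ c ∧ t ≤ 2 * s ∧ G.Adj (v (2 * s)) (v t)) ∨ c = 2 * m + 1) →
      js + 1 ≤ c := by
    rintro c (⟨t, h1, h2, h3⟩ | h1)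
    · have := hjmin t h2 (v (2 * s)) hbE h3
      omega
    · omega
  -- a strip whose end sees the lowest position
  obtain ⟨eS, cS, uS, iS, hW, hcS, hj2', heS, hW3, hW4, hW5, hPP, hPX⟩ : ∃ eS c u i,
      Wit G v s eS c u ∧ js + 2 ≤ c ∧ G.Adj eS (v js) ∧ eS ∈ E ∧ c ≤ i ∧ i ≤ 2 * s ∧ eS = v i ∧
      (∀ z ∈ F', ∃ j, j % 2 = 1 ∧ j + 1 ≤ 2 * s ∧ InPair v z (u j) ∧
        (InPair v z (u (j - 1)) ∨ InPair v z (u (j + 1)))) ∧ PX E v u s m c := by
    obtain ⟨c, u, i, h1, h2, h3, h4, h5, h6, h7⟩ := hwit eS0 heS0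
    by_cases hc : js + 2 ≤ c
    · exact ⟨eS0, c, u, i, h1, hc, hj2, heS0, h3, h4, h5, h6, h7⟩
    · have hc2 : c = 2 * m + 1 := by
        rcases h2 with ⟨t, a1, a2, a3⟩ | h2
        · have := hjmin t a2 (v (2 * s)) hbE a3
          omega
        · exact h2
      have hjs : js = 2 * m := by omega
      refine ⟨v (2 * s), 2 * s, v, 2 * s, wit_self hv, by omega, by rw [hjs]; exact hxm, hbE,
        le_refl _, le_refl _, rfl, fun z hz => pp_self v s z (hF'mem z hz).1, px_self hm1 hm2E⟩
  have hj3 : G.Adj (uS js) (uS (2 * s)) := by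
    rw [hW.last, hW.low js (by omega)]
    exact hj2'.symm
  have hspan := hfc uS hW.strip js (2 * s) (by omega) (le_refl _) (by omega) hj3
  obtain ⟨Zp, hZnd, hZc, hZodd, hZle, hZge, hZmem, hZcon⟩ :=
    hW.strip.route5 (j := js) (by omega) hj3.symm
  -- every position from `js` on is a position of `uS`
  have hvu : ∀ i, js ≤ i → i ≤ 2 * s → ∃ j, js ≤ j ∧ j ≤ 2 * s ∧ v i = uS j := by
    intro i h1 h2
    by_cases h3 : i < cS
    · exact ⟨i, h1, h2, (hW.low i h3).symm⟩
    · obtain ⟨j, h4, h5, h6⟩ := hW.bw i (by omega) h2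
      exact ⟨j, by omega, h5, h6⟩
  have hvZ : ∀ i, js ≤ i → i ≤ 2 * s → v i ∈ Zp := by
    intro i h1 h2
    obtain ⟨j, h3, h4, h5⟩ := hvu i h1 h2
    rw [h5]
    exact hZmem j h3 h4
  have hEZ : ∀ e ∈ E, e ∈ Zp := by
    intro e he
    obtain ⟨c, u, i, h1, h2, h3, h4, h5, _, _⟩ := hwit e he
    have h7 := hjlt c h2
    rw [h5]
    exact hvZ i (by omega) h4
  have hEdeg : ∀ e ∈ E, k - a - 1 ≤ dg G.Adj e Zp := by
    intro e he
    obtain ⟨c, u, i, h1, h2, h3, h4, h5, _, _⟩ := hwit e he
    have hcount := nbr_count hδ hα hmax' h1.strip v (by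
      intro j hj
      by_cases hjc' : j < c
      · exact ⟨j, hj, h1.low j hjc'⟩
      · obtain ⟨i', h7, h8, h9⟩ := h1.fw j (by omega) hj
        exact ⟨i', h8, h9⟩)
    rw [h1.last] at hcount
    have hsub : ((Finset.range (2 * s + 1)).filter (fun i => G.Adj e (v i))).image v ⊆
        (Zp.toFinset.filter (fun z => G.Adj z e)) := by
      intro x hx
      obtain ⟨i', hi', rfl⟩ := Finset.mem_image.1 hx
      rw [Finset.mem_filter, Finset.mem_range] at hi'
      have h7 := hjmin i' (by omega) e he hi'.2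
      rw [Finset.mem_filter, List.mem_toFinset]
      exact ⟨hvZ i' h7 (by omega), hi'.2.symm⟩
    have h7 := Finset.card_le_card hsub
    rw [Finset.card_image_of_injOn (by
      intro p hp q hq hpq
      have hp' := (Finset.mem_filter.1 hp).1
      have hq' := (Finset.mem_filter.1 hq).1
      have hp'' := Finset.mem_range.1 hp'
      have hq'' := Finset.mem_range.1 hq'
      exact hv.inj p q (by omega) (by omega) hpq)] at h7
    unfold dg
    omega
  have hEout : ∀ e ∈ E, ∀ y y', G.Adj e y → G.Adj e y' → y ∉ Zp → y' ∉ Zp → ¬ G.Adj y y' := by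
    intro e he y y' h1 h2 h3 h4 hyy
    obtain ⟨c, u, i, hw, h0, _, _, h7, _, _⟩ := hwit e he
    have hnotv : ∀ x, G.Adj e x → x ∉ Zp → ∀ j, j ≤ 2 * s → u j ≠ x := by
      intro x hx hxZ j hj hjx
      have hvx : ∃ i', i' ≤ 2 * s ∧ x = v i' := by
        by_cases hjc' : j < c
        · exact ⟨j, hj, by rw [← hjx]; exact hw.low j hjc'⟩
        · obtain ⟨i', _, h8, h9⟩ := hw.fw j (by omega) hj
          exact ⟨i', h8, by rw [← hjx]; exact h9⟩
      obtain ⟨i', h8, rfl⟩ := hvx
      have h9 := hjmin i' h8 e he hx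
      exact hxZ (hvZ i' h9 h8)
    obtain ⟨u', hu'⟩ := hw.strip.extend (hnotv y h1 h3) (hnotv y' h2 h4) hyy
      (by rw [hw.last]; exact h1) (by rw [hw.last]; exact h2)
    exact hmax' u' hu'
  -- the hubs
  let J := (Finset.range (2 * s + 1)).filter (fun j => j % 2 = 1 ∧ j + 1 ≤ 2 * s ∧ js < j ∧
    uS j ∈ E ∧ (uS (j - 1) ∈ E ∨ uS (j + 1) ∈ E))
  have hJmem : ∀ j ∈ J, j % 2 = 1 ∧ j + 1 ≤ 2 * s ∧ js < j ∧ uS j ∈ E ∧
      (uS (j - 1) ∈ E ∨ uS (j + 1) ∈ E) := fun j hj => (Finset.mem_filter.1 hj).2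
  have huinj : ∀ x y, x ≤ 2 * s → y ≤ 2 * s → uS x = uS y → x = y := hW.strip.inj
  -- the hubs from the double blocks
  have hF'low : ∀ z ∈ F', js ≤ 2 * z := fun z hz =>
    hjmin (2 * z) (by have := (hF'mem z hz).1; omega) (v (2 * s)) hbE (hF'mem z hz).2.1
  have hpos : ∀ z ∈ F', ∃ j ∈ J, InPair v z (uS j) ∧ js + 2 ≤ j := by
    intro z hz
    obtain ⟨j, h1, h2, h3, h4⟩ := hPP z hz
    obtain ⟨hz1, _, _⟩ := hF'mem z hz
    have hzl := hF'low z hz
    have hlow : js + 2 ≤ j := by
      by_cases hjc' : j < cS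
      · rw [hW.low j hjc'] at h3
        rcases h3 with h3 | h3
        · have := hv.inj _ _ (by omega) (by omega) h3
          omega
        · have := hv.inj _ _ (by omega) (by omega) h3
          omega
      · omega
    refine ⟨j, Finset.mem_filter.2 ⟨Finset.mem_range.2 (by omega), h1, h2, by omega,
      hpairE z hz _ h3, ?_⟩, h3, hlow⟩
    rcases h4 with h4 | h4
    · exact Or.inl (hpairE z hz _ h4)
    · exact Or.inr (hpairE z hz _ h4)
  choose! jf hjf1 hjf2 hjf3 using hpos
  have hjfinj : Set.InjOn jf (F' : Set ℕ) := by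
    intro z hz z' hz' hzz
    have h1 := hjf2 z hz
    have h2 := hjf2 z' hz'
    have hz1 := (hF'mem z hz).1
    have hz2 := (hF'mem z' hz').1
    rw [← hzz] at h2
    rcases h1 with h1 | h1 <;> rcases h2 with h2 | h2
    · have := hv.inj _ _ (by omega) (by omega) (h1.symm.trans h2)
      omega
    · have := hv.inj _ _ (by omega) (by omega) (h1.symm.trans h2)
      omega
    · have := hv.inj _ _ (by omega) (by omega) (h1.symm.trans h2)
      omega
    · have := hv.inj _ _ (by omega) (by omega) (h1.symm.trans h2)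
      omega
  -- the extra hub
  obtain ⟨j0, hj01, hj02, hj03, hj04, hj05⟩ := hPX
  have hj0J : j0 ∈ J := by
    refine Finset.mem_filter.2 ⟨Finset.mem_range.2 (by omega), hj01, hj02, ?_, ?_, hj04⟩
    · rcases hj05 with h | h <;> omega
    · rcases hj03 with h | h <;> rw [h]
      · exact h0E
      · exact hbE
  have hj0new : j0 ∉ F'.image jf := by
    intro hin
    obtain ⟨z, hz, hzj⟩ := Finset.mem_image.1 hin
    have h1 := hjf2 z hz
    rw [hzj] at h1
    have hz1 := (hF'mem z hz).1
    have hz2 := hF'm z hz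
    rcases hj03 with h | h <;> rw [h] at h1 <;> rcases h1 with h1 | h1
    · have := hv.inj _ _ (by omega) (by omega) h1
      omega
    · have := hv.inj _ _ (by omega) (by omega) h1
      omega
    · have := hv.inj _ _ (by omega) (by omega) h1
      omega
    · have := hv.inj _ _ (by omega) (by omega) h1
      omega
  have hJcard : F'.card + 1 ≤ J.card := by
    have h1 : insert j0 (F'.image jf) ⊆ J := by
      intro x hx
      rcases Finset.mem_insert.1 hx with rfl | hx
      · exact hj0J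
      · obtain ⟨z, hz, rfl⟩ := Finset.mem_image.1 hx
        exact hjf1 z hz
    have h2 := Finset.card_le_card h1
    rwa [Finset.card_insert_of_notMem hj0new, Finset.card_image_of_injOn hjfinj] at h2
  -- the blocks in the window
  let Bkw := (Finset.range s).filter (fun z => js ≤ 2 * z + 1)
  have hOB : O ∪ Ev ⊆ Bkw := by
    intro z hz
    simp only [O, Ev, Bkw, Finset.mem_union, Finset.mem_filter, Finset.mem_range] at hz ⊢
    rcases hz with ⟨h1, h2⟩ | ⟨h1, h2⟩
    · have := hjmin (2 * z + 1) (by omega) (v (2 * s)) hbE h2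
      exact ⟨h1, by omega⟩
    · have := hjmin (2 * z) (by omega) (v (2 * s)) hbE h2
      exact ⟨h1, by omega⟩
  have hBk : Bkw.card ≤ (2 * s - js + 1) / 2 := by
    have h1 : Bkw.card ≤ (Finset.range ((2 * s - js + 1) / 2)).card := by
      apply Finset.card_le_card_of_injOn (fun z => s - 1 - z)
      · intro z hz
        simp only [Bkw, Finset.coe_filter, Finset.mem_range, Set.mem_setOf_eq] at hz
        simp only [Finset.coe_range, Set.mem_Iio]
        omega
      · intro x hx y hy hxy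
        simp only [Bkw, Finset.coe_filter, Finset.mem_range, Set.mem_setOf_eq] at hx hy
        simp only at hxy
        omega
    rwa [Finset.card_range] at h1
  have hOEv : O.card + Ev.card ≤ Bkw.card + F.card := by
    rw [← Finset.card_union_add_card_inter]
    exact Nat.add_le_add_right (Finset.card_le_card hOB) _
  -- the hubs on the whole window
  let Live := J.image uS
  have hLivecard : Live.card = J.card := by
    apply Finset.card_image_of_injOn
    intro x hx y hy hxy
    have h1 := hJmem x hx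
    have h2 := hJmem y hy
    exact huinj x y (by omega) (by omega) hxy
  have hLiveE : Live ⊆ E := by
    intro x hx
    obtain ⟨j, hj, rfl⟩ := Finset.mem_image.1 hx
    exact (hJmem j hj).2.2.2.1
  have hLiveOK : LiveOK G E Live Zp := by
    apply liveok_strip hW.strip
    intro j hj
    obtain ⟨h1, h2, h3, h4, h5⟩ := hJmem j hj
    refine ⟨h1, h2, h5, ?_, hZcon j (by omega) (fun h => by omega) h2⟩
    have := hZcon (j - 1) (by omega) (fun h => by omega) (by omega)
    rwa [show j - 1 + 1 = j by omega] at this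
  refine hub_iter5 hδ hα noC hk E _ Live Zp rfl ?_ hZnd hZc hEZ hLiveE hLiveOK hEdeg hEout
    (by omega) (by omega)
  rw [hLivecard]
  omega

end main

end Vale.Agent.Lib.P048
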