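import Vale.Agent.Lib.P048.Dense3
import Vale.Agent.Lib.P048.Tight6
import Vale.Agent.Lib.P048.Final

/-!
From the minimum degree theorem to the Ramsey statement, in the range `m ≥ 2 n - 1`.
-/

namespace Vale.Agent.Lib.P048

open scoped Classical

universe u

/-- The Ramsey form, for closed lists. -/
theorem ramsey_list5 {k : ℕ} : ∀ (a : ℕ) (V : Type u) [Fintype V] (G : SimpleGraph V),
    2 * a + 1 ≤ k → (k - 1) * a + 1 ≤ Fintype.card V →
    (∃ l : List V, l.Nodup ∧ Cyc G.Adj l ∧ l.length = k) ∨
      ∃ S : Finset V, (∀ x ∈ S, ∀ y ∈ S, ¬ G.Adj x y) ∧ S.card = a + 1 := by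
  intro a
  induction a with
  | zero =>
    intro V _ G _ hcard
    have hne : Nonempty V := by
      apply Fintype.card_pos_iff.1
      omega
    obtain ⟨v0⟩ := hne
    right
    refine ⟨{v0}, ?_, by simp⟩
    intro x hx y hy
    simp only [Finset.mem_singleton] at hx hy
    subst hx hy
    exact G.irrefl
  | succ a ih =>
    intro V _ G hka hcard
    by_contra hcon
    have hno1 : ¬ ∃ l : List V, l.Nodup ∧ Cyc G.Adj l ∧ l.length = k := fun h => hcon (Or.inl h)
    have hno2 : ¬ ∃ S : Finset V, (∀ x ∈ S, ∀ y ∈ S, ¬ G.Adj x y) ∧ S.card = a + 1 + 1 :=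
      fun h => hcon (Or.inr h)
    have hα : ∀ S : Finset V, (∀ x ∈ S, ∀ y ∈ S, ¬ G.Adj x y) → S.card ≤ a + 1 := by
      intro S hS
      by_contra h
      obtain ⟨S', h1, h2⟩ := Finset.exists_subset_card_eq (s := S) (n := a + 1 + 1) (by omega)
      exact hno2 ⟨S', fun x hx y hy => hS x (h1 hx) y (h1 hy), h2⟩
    by_cases hδ : ∀ v, k ≤ (Finset.univ.filter (G.Adj v)).card + 1
    · have hne : Nonempty V := by
        apply Fintype.card_pos_iff.1
        omega
      by_cases heq1 : k = 2 * (a + 1) + 1
      · exact hno1 (thmE G heq1 hδ hα)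
      by_cases heq : k = 2 * (a + 1) + 2
      · exact hno1 (thmD G heq hδ hα)
      · by_cases hodd : k % 2 = 1
        · exact hno1 (thmC G (by omega) hodd hδ hα)
        · exact hno1 (thmB G (by omega) hδ hα)
    · simp only [not_forall, not_le] at hδ
      obtain ⟨v, hv⟩ := hδ
      -- delete a vertex of small degree together with its neighbours
      let P : V → Prop := fun x => x ≠ v ∧ ¬ G.Adj v x
      let W := {x : V // P x}
      have hcardW : (k - 1) * a + 1 ≤ Fintype.card W := by
        have h1 : Fintype.card W = (Finset.univ.filter P).card := Fintype.card_subtype P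
        have h2 : Finset.univ ⊆ Finset.univ.filter P ∪
            insert v (Finset.univ.filter (G.Adj v)) := by
          intro x _
          rw [Finset.mem_union, Finset.mem_insert, Finset.mem_filter, Finset.mem_filter]
          by_cases h3 : x = v
          · exact Or.inr (Or.inl h3)
          · by_cases h4 : G.Adj v x
            · exact Or.inr (Or.inr ⟨Finset.mem_univ _, h4⟩)
            · exact Or.inl ⟨Finset.mem_univ _, h3, h4⟩
        have h3 := Finset.card_le_card h2
        have h4 := Finset.card_union_le (Finset.univ.filter P)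
          (insert v (Finset.univ.filter (G.Adj v)))
        have h5 := Finset.card_insert_le v (Finset.univ.filter (G.Adj v))
        rw [Finset.card_univ] at h3
        have h6 : (k - 1) * (a + 1) = (k - 1) * a + (k - 1) := by ring
        omega
      let G' : SimpleGraph W := G.comap Subtype.val
      rcases ih W G' (by omega) hcardW with ⟨l, h1, h2, h3⟩ | ⟨S, h1, h2⟩
      · apply hno1
        refine ⟨l.map Subtype.val, ?_, ?_, by simpa using h3⟩
        · exact h1.map Subtype.val_injective
        · obtain ⟨x, y, h4, h5⟩ := h2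
          exact ⟨x.1, y.1, h4.map _ (fun _ _ h => h), h5⟩
      · apply hno2
        have hvnot : v ∉ S.image Subtype.val := by
          intro h
          obtain ⟨x, _, hx⟩ := Finset.mem_image.1 h
          exact x.2.1 hx
        refine ⟨insert v (S.image Subtype.val), ?_, ?_⟩
        · intro x hx y hy hxy
          rcases Finset.mem_insert.1 hx with rfl | hx
          · rcases Finset.mem_insert.1 hy with rfl | hy
            · exact G.irrefl hxy
            · obtain ⟨y', _, rfl⟩ := Finset.mem_image.1 hy
              exact y'.2.2 hxy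
          · obtain ⟨x', hx', rfl⟩ := Finset.mem_image.1 hx
            rcases Finset.mem_insert.1 hy with rfl | hy
            · exact x'.2.2 hxy.symm
            · obtain ⟨y', hy', rfl⟩ := Finset.mem_image.1 hy
              exact h1 x' hx' y' hy' hxy
        · rw [Finset.card_insert_of_notMem hvnot,
            Finset.card_image_of_injective _ Subtype.val_injective, h2]

/-- The main result in terms of Mathlib notions only. -/
theorem ramsey_cycle_indep5 {V : Type u} [Fintype V] (G : SimpleGraph V) (m n : ℕ) (hn : 2 ≤ n)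
    (hm : 2 * n ≤ m + 1) (hcard : (m - 1) * (n - 1) + 1 ≤ Fintype.card V) :
    (∃ (v : V) (w : G.Walk v v), w.IsCycle ∧ w.length = m) ∨
      ∃ s : Finset V, G.IsIndepSet (s : Set V) ∧ s.card = n := by
  obtain ⟨a, rfl⟩ : ∃ a, n = a + 1 := ⟨n - 1, by omega⟩
  rcases ramsey_list5 (k := m) a V G (by omega) (by simpa using hcard) with
    ⟨l, h1, h2, h3⟩ | ⟨S, h1, h2⟩
  · left
    obtain ⟨v, w, h4, h5⟩ := cycle_of_list h1 h2 (by omega)
    exact ⟨v, w, h4, by omega⟩
  · right
    refine ⟨S, ?_, h2⟩
    intro x hx y hy _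
    exact h1 x hx y hy

/-- The minimum degree theorem in terms of Mathlib notions only. -/
theorem min_degree_cycle5 {V : Type u} [Fintype V] [Nonempty V] (G : SimpleGraph V)
    [DecidableRel G.Adj] (k a : ℕ) (hka : 2 * a + 1 ≤ k) (hδ : k ≤ G.minDegree + 1)
    (hα : ∀ s : Finset V, G.IsIndepSet (s : Set V) → s.card ≤ a) :
    ∃ (v : V) (w : G.Walk v v), w.IsCycle ∧ w.length = k := by
  have h1 : ∀ v, k ≤ (Finset.univ.filter (G.Adj v)).card + 1 := by
    intro v
    have h2 := G.minDegree_le_degree v
    have h3 : G.degree v = (Finset.univ.filter (G.Adj v)).card := by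
      rw [← SimpleGraph.card_neighborFinset_eq_degree, SimpleGraph.neighborFinset_eq_filter]
    omega
  have h1' : ∀ v, k ≤ (@Finset.filter V (G.Adj v) (fun a => Classical.propDecidable (G.Adj v a))
      Finset.univ).card + 1 := by
    intro v
    convert h1 v
  have h2 : ∀ S : Finset V, (∀ x ∈ S, ∀ y ∈ S, ¬ G.Adj x y) → S.card ≤ a := by
    intro S hS
    exact hα S (fun x hx y hy _ => hS x hx y hy)
  obtain ⟨v0⟩ := ‹Nonempty V›
  have h3 : 1 ≤ a := by
    have := h2 {v0} (by
      intro x hx y hy
      simp only [Finset.mem_singleton] at hx hy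
      subst hx hy
      exact G.irrefl)
    simpa using this
  have hne : Nonempty V := ⟨v0⟩
  have hex : ∃ l : List V, l.Nodup ∧ Cyc G.Adj l ∧ l.length = k := by
    by_cases heq1 : k = 2 * a + 1
    · exact thmE G heq1 h1' h2
    by_cases heq : k = 2 * a + 2
    · exact thmD G heq h1' h2
    by_cases hodd : k % 2 = 1
    · exact thmC G (by omega) hodd h1' h2
    · exact thmB G (by omega) h1' h2
  obtain ⟨l, h4, h5, h6⟩ := hex
  obtain ⟨v, w, h7, h8⟩ := cycle_of_list h4 h5 (by omega)
  exact ⟨v, w, h7, by omega⟩

end Vale.Agent.Lib.P048
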