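import Vale.Agent.Lib.P048.Closure
import Vale.Agent.Lib.P048.Dense2

/-!
The data of a longest strip whose end has a neighbour of lowest position.
-/

namespace Vale.Agent.Lib.P048

open scoped Classical

variable {V : Type*} {G : SimpleGraph V}

/-- The blocks below the top block whose two members are both neighbours of the end. -/
noncomputable def Fp (G : SimpleGraph V) (v : ℕ → V) (s : ℕ) : Finset ℕ :=
  (Finset.range (s - 1)).filter
    (fun z => G.Adj (v (2 * s)) (v (2 * z)) ∧ G.Adj (v (2 * s)) (v (2 * z + 1)))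

theorem mem_Fp {v : ℕ → V} {s z : ℕ} :
    z ∈ Fp G v s ↔ z + 2 ≤ s ∧ G.Adj (v (2 * s)) (v (2 * z)) ∧ G.Adj (v (2 * s)) (v (2 * z + 1)) := by
  simp only [Fp, Finset.mem_filter, Finset.mem_range]
  constructor
  · rintro ⟨h1, h2⟩
    exact ⟨by omega, h2⟩
  · rintro ⟨h1, h2⟩
    exact ⟨by omega, h2⟩

/-- The positions of the possible ends of strips on the same members. -/
noncomputable def PosE (G : SimpleGraph V) (v : ℕ → V) (s : ℕ) : Finset ℕ :=
  insert (2 * s) (insert (2 * s - 1)
    ((Fp G v s).image (fun z => 2 * z + 2) ∪ (Fp G v s).image (fun z => 2 * z + 3)))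

theorem mem_PosE {v : ℕ → V} {s i : ℕ} :
    i ∈ PosE G v s ↔ i = 2 * s ∨ i = 2 * s - 1 ∨ ∃ z ∈ Fp G v s, i = 2 * z + 2 ∨ i = 2 * z + 3 := by
  simp only [PosE, Finset.mem_insert, Finset.mem_union, Finset.mem_image]
  constructor
  · rintro (h | h | ⟨z, hz, rfl⟩ | ⟨z, hz, rfl⟩)
    · exact Or.inl h
    · exact Or.inr (Or.inl h)
    · exact Or.inr (Or.inr ⟨z, hz, Or.inl rfl⟩)
    · exact Or.inr (Or.inr ⟨z, hz, Or.inr rfl⟩)
  · rintro (h | h | ⟨z, hz, rfl | rfl⟩)
    · exact Or.inl h
    · exact Or.inr (Or.inl h)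
    · exact Or.inr (Or.inr (Or.inl ⟨z, hz, rfl⟩))
    · exact Or.inr (Or.inr (Or.inr ⟨z, hz, rfl⟩))

/-- The possible ends of strips on the same members. -/
noncomputable def EE (G : SimpleGraph V) (v : ℕ → V) (s : ℕ) : Finset V := (PosE G v s).image v

/-- The outside neighbours of `e`. -/
noncomputable def Oset [Fintype V] (G : SimpleGraph V) (v : ℕ → V) (s : ℕ) (e : V) : Finset V :=
  Finset.univ.filter (fun y => G.Adj e y ∧ ∀ i, i ≤ 2 * s → v i ≠ y)

theorem mem_Oset [Fintype V] {v : ℕ → V} {s : ℕ} {e y : V} :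
    y ∈ Oset G v s e ↔ G.Adj e y ∧ ∀ i, i ≤ 2 * s → v i ≠ y := by
  simp [Oset]

/-- The positions of the neighbours of `e`. -/
noncomputable def Nn (G : SimpleGraph V) (v : ℕ → V) (s : ℕ) (e : V) : Finset ℕ :=
  (Finset.range (2 * s + 1)).filter (fun i => G.Adj e (v i))

/-- A longest strip, whose end has a neighbour at the lowest position over all longest strips. -/
structure Top (G : SimpleGraph V) (v : ℕ → V) (s js : ℕ) : Prop where
  strip : IsStrip G v s
  one : 1 ≤ s
  hmax : ∀ u', ¬ IsStrip G u' (s + 1)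
  hmin : ∀ u, IsStrip G u s → ∀ j, j ≤ 2 * s → G.Adj (u j) (u (2 * s)) → js ≤ j
  hjs : G.Adj (v js) (v (2 * s))
  hle : js ≤ 2 * s

theorem wit_top {v : ℕ → V} {s : ℕ} (hv : IsStrip G v s) (hs : 1 ≤ s) :
    Wit G v s (v (2 * s - 1)) (2 * s - 1) (swp v (2 * s)) := by
  refine ⟨hv.swap hs, ?_, ?_, ?_, ?_⟩
  · unfold swp
    rw [if_pos rfl]
  · intro j hj
    unfold swp
    rw [if_neg (by omega), if_neg (by omega)]
  · intro j h3 h4
    unfold swp
    by_cases h5 : j = 2 * s
    · subst h5
      exact ⟨2 * s - 1, by omega, by omega, by rw [if_pos rfl]⟩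
    · refine ⟨2 * s, by omega, by omega, ?_⟩
      rw [if_neg h5, if_pos (by omega)]
  · intro i h3 h4
    unfold swp
    by_cases h5 : i = 2 * s
    · subst h5
      refine ⟨2 * s - 1, by omega, by omega, ?_⟩
      rw [if_neg (by omega), if_pos rfl]
    · refine ⟨2 * s, by omega, by omega, ?_⟩
      rw [if_pos rfl]
      congr 1
      omega

namespace Top

variable {v : ℕ → V} {s js : ℕ}

theorem pos_le (T : Top G v s js) {i : ℕ} (hi : i ∈ PosE G v s) : i ≤ 2 * s := by
  have := T.one
  rcases mem_PosE.1 hi with rfl | rfl | ⟨z, hz, rfl | rfl⟩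
  · omega
  · omega
  · have := (mem_Fp.1 hz).1
    omega
  · have := (mem_Fp.1 hz).1
    omega

theorem lt2 (T : Top G v s js) : js + 2 ≤ 2 * s := by
  have h1 := T.one
  have h2 := T.hmin v T.strip (2 * s - 2) (by omega)
    (T.strip.adj_even (i := s - 1) (by omega) (by omega) (by omega))
  omega

theorem Fp_low (T : Top G v s js) {z : ℕ} (hz : z ∈ Fp G v s) : js ≤ 2 * z := by
  obtain ⟨h1, h2, _⟩ := mem_Fp.1 hz
  exact T.hmin v T.strip _ (by omega) h2.symm

theorem wit (T : Top G v s js) {i : ℕ} (hi : i ∈ PosE G v s) :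
    ∃ c u, Wit G v s (v i) c u ∧ c ≤ i ∧ js ≤ c := by
  have h1 := T.one
  have h2 := T.lt2
  rcases mem_PosE.1 hi with rfl | rfl | ⟨z, hz, rfl | rfl⟩
  · exact ⟨2 * s, v, wit_self T.strip, le_refl _, by omega⟩
  · exact ⟨2 * s - 1, _, wit_top T.strip T.one, le_refl _, by omega⟩
  · obtain ⟨h3, h4, h5⟩ := mem_Fp.1 hz
    have := T.Fp_low hz
    exact ⟨2 * z + 2, _, wit_rot T.strip h3 h4 h5, le_refl _, by omega⟩
  · obtain ⟨h3, h4, h5⟩ := mem_Fp.1 hz
    have := T.Fp_low hz
    exact ⟨2 * z + 2, _, wit_swp T.strip h3 h4 h5, by omega, by omega⟩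

/-- The members of `E` only see positions from `js` on. -/
theorem see (T : Top G v s js) {i j : ℕ} (hi : i ∈ PosE G v s) (hj : j ≤ 2 * s)
    (hadj : G.Adj (v i) (v j)) : js ≤ j := by
  obtain ⟨c, u, hw, h1, h2⟩ := T.wit hi
  by_cases h3 : j < c
  · apply T.hmin u hw.strip j hj
    rw [hw.last, hw.low j h3]
    exact hadj.symm
  · omega

theorem oset_indep [Fintype V] (T : Top G v s js) {i : ℕ} (hi : i ∈ PosE G v s) {y y' : V}
    (hy : y ∈ Oset G v s (v i)) (hy' : y' ∈ Oset G v s (v i)) : ¬ G.Adj y y' := by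
  intro hadj
  obtain ⟨c, u, hw, _, _⟩ := T.wit hi
  rw [mem_Oset] at hy hy'
  have hnot : ∀ x, (∀ i, i ≤ 2 * s → v i ≠ x) → ∀ j, j ≤ 2 * s → u j ≠ x := by
    intro x hx j hj
    by_cases h3 : j < c
    · rw [hw.low j h3]
      exact hx j hj
    · obtain ⟨i', _, h5, h6⟩ := hw.fw j (by omega) hj
      rw [h6]
      exact hx i' h5
  obtain ⟨u', hu'⟩ := hw.strip.extend (hnot y hy.2) (hnot y' hy'.2) hadj
    (by rw [hw.last]; exact hy.1) (by rw [hw.last]; exact hy'.1)
  exact T.hmax u' hu'

theorem oset_card [Fintype V] {a : ℕ}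
    (hα : ∀ S : Finset V, (∀ x ∈ S, ∀ y ∈ S, ¬ G.Adj x y) → S.card ≤ a)
    (T : Top G v s js) {i : ℕ} (hi : i ∈ PosE G v s) : (Oset G v s (v i)).card ≤ a :=
  hα _ (fun _ hx _ hy => T.oset_indep hi hx hy)

/-- The degree count of a possible end. -/
theorem count [Fintype V] {k : ℕ} (hδ : ∀ v, k ≤ (Finset.univ.filter (G.Adj v)).card + 1)
    (e : V) : k ≤ (Nn G v s e).card + (Oset G v s e).card + 1 := by
  have hsub : Finset.univ.filter (G.Adj e) ⊆ Oset G v s e ∪ (Nn G v s e).image v := by
    intro y hy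
    simp only [Finset.mem_filter, Finset.mem_univ, true_and] at hy
    rw [Finset.mem_union]
    by_cases hc : ∀ i, i ≤ 2 * s → v i ≠ y
    · exact Or.inl (mem_Oset.2 ⟨hy, hc⟩)
    · right
      simp only [not_forall, not_not] at hc
      obtain ⟨i, hi, rfl⟩ := hc
      exact Finset.mem_image_of_mem _ (by
        simp only [Nn, Finset.mem_filter, Finset.mem_range]
        exact ⟨by omega, hy⟩)
  have h1 := Finset.card_le_card hsub
  have h2 := Finset.card_union_le (Oset G v s e) ((Nn G v s e).image v)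
  have h3 : ((Nn G v s e).image v).card ≤ (Nn G v s e).card := Finset.card_image_le
  have h4 := hδ e
  omega

/-- The blocks count for the end of the strip. -/
theorem count_blocks (T : Top G v s js) :
    (Nn G v s (v (2 * s))).card ≤ (2 * s - js + 1) / 2 + (Fp G v s).card + 1 := by
  have hs1 := T.one
  let O := (Finset.range s).filter (fun z => G.Adj (v (2 * s)) (v (2 * z + 1)))
  let Ev := (Finset.range s).filter (fun z => G.Adj (v (2 * s)) (v (2 * z)))
  have hNsub : Nn G v s (v (2 * s)) ⊆ O.image (fun z => 2 * z + 1) ∪ Ev.image (fun z => 2 * z) := by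
    intro i hi
    simp only [Nn, Finset.mem_filter, Finset.mem_range] at hi
    obtain ⟨hi1, hi2⟩ := hi
    have hi3 : i ≠ 2 * s := by
      intro h
      subst h
      exact G.irrefl hi2
    rw [Finset.mem_union, Finset.mem_image, Finset.mem_image]
    rcases Nat.even_or_odd' i with ⟨z, hz | hz⟩
    · right
      subst hz
      refine ⟨z, ?_, rfl⟩
      simp only [Ev, Finset.mem_filter, Finset.mem_range]
      exact ⟨by omega, hi2⟩
    · left
      subst hz
      refine ⟨z, ?_, rfl⟩
      simp only [O, Finset.mem_filter, Finset.mem_range]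
      exact ⟨by omega, hi2⟩
  have hNcard : (Nn G v s (v (2 * s))).card ≤ O.card + Ev.card := by
    refine le_trans (Finset.card_le_card hNsub) (le_trans (Finset.card_union_le _ _) ?_)
    exact Nat.add_le_add Finset.card_image_le Finset.card_image_le
  let Bkw := (Finset.range s).filter (fun z => js ≤ 2 * z + 1)
  have hOB : O ∪ Ev ⊆ Bkw := by
    intro z hz
    simp only [O, Ev, Bkw, Finset.mem_union, Finset.mem_filter, Finset.mem_range] at hz ⊢
    rcases hz with ⟨h1, h2⟩ | ⟨h1, h2⟩
    · have := T.hmin v T.strip (2 * z + 1) (by omega) h2.symm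
      exact ⟨h1, by omega⟩
    · have := T.hmin v T.strip (2 * z) (by omega) h2.symm
      exact ⟨h1, by omega⟩
  have hBk : Bkw.card ≤ (2 * s - js + 1) / 2 := by
    have h1 : Bkw.card ≤ (Finset.range ((2 * s - js + 1) / 2)).card := by
      apply Finset.card_le_card_of_injOn (fun z => s - 1 - z)
      · intro z hz
        simp only [Bkw, Finset.coe_filter, Finset.mem_range, Set.mem_setOf_eq] at hz
        simp only [Finset.coe_range, Set.mem_Iio]
        omega
      · intro x hx y hy hxy
        simp only [Bkw, Finset.coe_filter, Finset.mem_range, Set.mem_setOf_eq] at hx hy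
        simp only at hxy
        omega
    rwa [Finset.card_range] at h1
  have hOEv : O.card + Ev.card ≤ Bkw.card + (O ∩ Ev).card := by
    rw [← Finset.card_union_add_card_inter]
    exact Nat.add_le_add_right (Finset.card_le_card hOB) _
  have hF : (O ∩ Ev).card ≤ (Fp G v s).card + 1 := by
    have hsub : O ∩ Ev ⊆ insert (s - 1) (Fp G v s) := by
      intro z hz
      simp only [O, Ev, Finset.mem_inter, Finset.mem_filter, Finset.mem_range] at hz
      rw [Finset.mem_insert]
      by_cases h : z = s - 1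
      · exact Or.inl h
      · right
        rw [mem_Fp]
        exact ⟨by omega, hz.2.2, hz.1.2⟩
    exact le_trans (Finset.card_le_card hsub) (Finset.card_insert_le _ _)
  omega

end Top

end Vale.Agent.Lib.P048
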