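import Vale.Agent.Lib.P048.Dense2
import Vale.Agent.Lib.P048.HubR

/-!
Cliques at the top of a strip: members of such a clique can be moved to the end of the strip.
-/

namespace Vale.Agent.Lib.P048

open scoped Classical

variable {V : Type*} {G : SimpleGraph V}

/-- The transposition of `p` and `q`. -/
def sw (p q i : ℕ) : ℕ := if i = p then q else if i = q then p else i

/-- The strip with the positions `p` and `q` exchanged. -/
def swapAt (v : ℕ → V) (p q i : ℕ) : V := v (sw p q i)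

theorem IsStrip.swapAt_clique {v : ℕ → V} {s l p q : ℕ} (hv : IsStrip G v s) (hl : l % 2 = 0)
    (hcl : ∀ x y, l ≤ x → x < y → y ≤ 2 * s → G.Adj (v x) (v y)) (hp1 : l < p) (hp2 : p ≤ 2 * s)
    (hq1 : l < q) (hq2 : q ≤ 2 * s) : IsStrip G (swapAt v p q) s := by
  have hcl' : ∀ x y, l ≤ x → x ≤ 2 * s → l ≤ y → y ≤ 2 * s → x ≠ y → G.Adj (v x) (v y) := by
    intro x y h1 h2 h3 h4 h5
    rcases Nat.lt_or_gt_of_ne h5 with h6 | h6
    · exact hcl x y h1 h6 h4
    · exact (hcl y x h3 h6 h2).symm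
  refine ⟨?_, ?_⟩
  · intro i j hi hj h
    unfold swapAt at h
    have h1 := hv.inj _ _ (by unfold sw; split_ifs <;> omega) (by unfold sw; split_ifs <;> omega) h
    unfold sw at h1
    split_ifs at h1 <;> omega
  · intro i hi
    unfold swapAt
    by_cases hc : 2 * i + 2 ≤ l
    · have e1 : sw p q (2 * i) = 2 * i := by unfold sw; split_ifs <;> omega
      have e2 : sw p q (2 * i + 1) = 2 * i + 1 := by unfold sw; split_ifs <;> omega
      have e3 : sw p q (2 * i + 2) = 2 * i + 2 := by unfold sw; split_ifs <;> omega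
      rw [e1, e2, e3]
      exact hv.tri i hi
    · have hb : ∀ x, l ≤ x → x ≤ 2 * s → l ≤ sw p q x ∧ sw p q x ≤ 2 * s := by
        intro x h1 h2
        unfold sw
        split_ifs <;> omega
      have hne : ∀ x y, x ≠ y → sw p q x ≠ sw p q y := by
        intro x y h1
        unfold sw
        split_ifs <;> omega
      obtain ⟨a1, a2⟩ := hb (2 * i) (by omega) (by omega)
      obtain ⟨a3, a4⟩ := hb (2 * i + 1) (by omega) (by omega)
      obtain ⟨a5, a6⟩ := hb (2 * i + 2) (by omega) (by omega)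
      exact ⟨hcl' _ _ a1 a2 a3 a4 (hne _ _ (by omega)), hcl' _ _ a1 a2 a5 a6 (hne _ _ (by omega)),
        hcl' _ _ a3 a4 a5 a6 (hne _ _ (by omega))⟩

/-- There is a strip with a clique at its top, whose end does not see both members of the block
below the clique. -/
theorem top_clique {s : ℕ} (hs : 1 ≤ s) {v0 : ℕ → V} (hv0 : IsStrip G v0 s) :
    ∃ v m, IsStrip G v s ∧ m + 1 ≤ s ∧
      (∀ p q, 2 * m ≤ p → p < q → q ≤ 2 * s → G.Adj (v p) (v q)) ∧
      (1 ≤ m → ¬ (G.Adj (v (2 * s)) (v (2 * m - 2)) ∧ G.Adj (v (2 * s)) (v (2 * m - 1)))) := by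
  have hex : ∃ m, m + 1 ≤ s ∧ ∃ v, IsStrip G v s ∧
      ∀ p q, 2 * m ≤ p → p < q → q ≤ 2 * s → G.Adj (v p) (v q) := by
    refine ⟨s - 1, by omega, v0, hv0, ?_⟩
    intro p q h1 h2 h3
    have htri := hv0.tri (s - 1) (by omega)
    have e1 : 2 * (s - 1) + 1 = 2 * s - 1 := by omega
    have e2 : 2 * (s - 1) + 2 = 2 * s := by omega
    rw [e1, e2] at htri
    obtain ⟨t1, t2, t3⟩ := htri
    have hp : p = 2 * (s - 1) ∨ p = 2 * s - 1 := by omega
    have hq : q = 2 * s - 1 ∨ q = 2 * s := by omega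
    rcases hp with rfl | rfl <;> rcases hq with rfl | rfl
    · exact t1
    · exact t2
    · omega
    · exact t3
  obtain ⟨hm1, v, hv, hcl⟩ := Nat.find_spec hex
  have hmin : ∀ m', m' < Nat.find hex → ¬ (m' + 1 ≤ s ∧ ∃ v, IsStrip G v s ∧
      ∀ p q, 2 * m' ≤ p → p < q → q ≤ 2 * s → G.Adj (v p) (v q)) :=
    fun m' h => Nat.find_min hex h
  generalize Nat.find hex = m at hm1 hcl hmin
  by_cases hm0 : m = 0
  · subst hm0
    exact ⟨v, 0, hv, hm1, hcl, fun h => absurd h (by omega)⟩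
  by_cases hall : ∀ c, 2 * m < c → c ≤ 2 * s →
      G.Adj (v c) (v (2 * m - 2)) ∧ G.Adj (v c) (v (2 * m - 1))
  · exfalso
    apply hmin (m - 1) (by omega)
    refine ⟨by omega, v, hv, ?_⟩
    intro p q h1 h2 h3
    have htri := hv.tri (m - 1) (by omega)
    have e0 : 2 * (m - 1) = 2 * m - 2 := by omega
    have e1 : 2 * m - 2 + 1 = 2 * m - 1 := by omega
    have e2 : 2 * m - 2 + 2 = 2 * m := by omega
    rw [e0, e1, e2] at htri
    obtain ⟨t1, t2, t3⟩ := htri
    by_cases hp : 2 * m ≤ p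
    · exact hcl p q hp h2 h3
    · have hp' : p = 2 * m - 2 ∨ p = 2 * m - 1 := by omega
      by_cases hq : 2 * m < q
      · obtain ⟨a1, a2⟩ := hall q hq h3
        rcases hp' with rfl | rfl
        · exact a1.symm
        · exact a2.symm
      · have hq' : q = 2 * m - 1 ∨ q = 2 * m := by omega
        rcases hp' with rfl | rfl <;> rcases hq' with rfl | rfl
        · exact t1
        · exact t2
        · omega
        · exact t3
  · simp only [not_forall] at hall
    obtain ⟨c, hc1, hc2, hc3⟩ := hall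
    have hstrip : IsStrip G (swapAt v c (2 * s)) s :=
      hv.swapAt_clique (l := 2 * m) (by omega) hcl hc1 hc2 (by omega) (le_refl _)
    refine ⟨swapAt v c (2 * s), m, hstrip, hm1, ?_, ?_⟩
    · intro p q h1 h2 h3
      have hb : ∀ x, 2 * m ≤ x → x ≤ 2 * s → 2 * m ≤ sw c (2 * s) x ∧ sw c (2 * s) x ≤ 2 * s := by
        intro x h4 h5
        unfold sw
        split_ifs <;> omega
      have hne : sw c (2 * s) p ≠ sw c (2 * s) q := by
        unfold sw
        split_ifs <;> omega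
      unfold swapAt
      obtain ⟨a1, a2⟩ := hb p h1 (by omega)
      obtain ⟨a3, a4⟩ := hb q (by omega) h3
      rcases Nat.lt_or_gt_of_ne hne with h6 | h6
      · exact hcl _ _ a1 h6 a4
      · exact (hcl _ _ a3 h6 a2).symm
    · intro _
      unfold swapAt
      have e0 : sw c (2 * s) (2 * s) = c := by
        unfold sw
        split_ifs <;> omega
      have e1 : sw c (2 * s) (2 * m - 2) = 2 * m - 2 := by
        unfold sw
        split_ifs <;> omega
      have e2 : sw c (2 * s) (2 * m - 1) = 2 * m - 1 := by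
        unfold sw
        split_ifs <;> omega
      rw [e0, e1, e2]
      exact hc3

/-- The strip ending at the member just above the bottom of the top clique. -/
theorem wit_top {v : ℕ → V} {s m : ℕ} (hv : IsStrip G v s) (hm : m + 1 ≤ s)
    (hcl : ∀ p q, 2 * m ≤ p → p < q → q ≤ 2 * s → G.Adj (v p) (v q)) :
    Wit G v s (v (2 * m + 1)) (2 * m + 1) (swapAt v (2 * m + 1) (2 * s)) := by
  refine ⟨hv.swapAt_clique (l := 2 * m) (by omega) hcl (by omega) (by omega) (by omega) (le_refl _),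
    ?_, ?_, ?_, ?_⟩
  · unfold swapAt sw
    split_ifs <;> first | omega | rfl
  · intro j hj
    unfold swapAt sw
    split_ifs <;> first | omega | rfl
  · intro j h1 h2
    refine ⟨sw (2 * m + 1) (2 * s) j, ?_, ?_, rfl⟩
    · unfold sw
      split_ifs <;> omega
    · unfold sw
      split_ifs <;> omega
  · intro i h1 h2
    refine ⟨sw (2 * m + 1) (2 * s) i, ?_, ?_, ?_⟩
    · unfold sw
      split_ifs <;> omega
    · unfold sw
      split_ifs <;> omega
    · have e : sw (2 * m + 1) (2 * s) (sw (2 * m + 1) (2 * s) i) = i := by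
        unfold sw
        split_ifs <;> omega
      unfold swapAt
      rw [e]

/-- The extra hub of a strip `u`. -/
def PX (E : Finset V) (v u : ℕ → V) (s m c : ℕ) : Prop :=
  ∃ j0, j0 % 2 = 1 ∧ j0 + 1 ≤ 2 * s ∧ (u j0 = v (2 * m + 1) ∨ u j0 = v (2 * s)) ∧
    (u (j0 - 1) ∈ E ∨ u (j0 + 1) ∈ E) ∧ (j0 = 2 * m + 1 ∨ c ≤ j0)

theorem px_self {E : Finset V} {v : ℕ → V} {s m c : ℕ} (hm : m + 1 ≤ s) (h1 : v (2 * m + 2) ∈ E) :
    PX E v v s m c :=
  ⟨2 * m + 1, by omega, by omega, Or.inl rfl, Or.inr h1, Or.inl rfl⟩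

theorem px_rot {E : Finset V} {v : ℕ → V} {s m y : ℕ} (hm : m + 1 ≤ s) (hy : y + 2 ≤ s)
    (hym : y + 1 ≠ m) (h1 : v (2 * m + 2) ∈ E) (h2 : v (2 * s) ∈ E) :
    PX E v (rot v (2 * s) (2 * y + 2)) s m (2 * y + 2) := by
  by_cases hc : m ≤ y
  · refine ⟨2 * m + 1, by omega, by omega, Or.inl ?_, Or.inr ?_, Or.inl rfl⟩
    · unfold rot
      rw [if_pos (by omega)]
    · unfold rot
      by_cases hc2 : 2 * m + 1 + 1 < 2 * y + 2
      · rw [if_pos hc2]
        exact h1
      · rw [if_neg hc2]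
        rw [show 2 * s + (2 * y + 2) - (2 * m + 1 + 1) = 2 * s by omega]
        exact h2
  · refine ⟨2 * s + (2 * y + 2) - (2 * m + 1), by omega, by omega, Or.inl ?_, Or.inl ?_,
      Or.inr (by omega)⟩
    · unfold rot
      rw [if_neg (by omega)]
      congr 1
      omega
    · unfold rot
      rw [if_neg (by omega)]
      rw [show 2 * s + (2 * y + 2) - (2 * s + (2 * y + 2) - (2 * m + 1) - 1) = 2 * m + 2 by omega]
      exact h1

theorem px_swp {E : Finset V} {v : ℕ → V} {s m y : ℕ} (hm : m + 1 ≤ s) (hy : y + 2 ≤ s)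
    (hym : y + 1 ≠ m) (h1 : v (2 * m + 2) ∈ E) (h2 : v (2 * s) ∈ E) :
    PX E v (swp (rot v (2 * s) (2 * y + 2)) (2 * s)) s m (2 * y + 2) := by
  by_cases hc : m ≤ y
  · refine ⟨2 * m + 1, by omega, by omega, Or.inl ?_, Or.inr ?_, Or.inl rfl⟩
    · unfold swp rot
      rw [if_neg (by omega), if_neg (by omega), if_pos (by omega)]
    · unfold swp rot
      rw [if_neg (by omega), if_neg (by omega)]
      by_cases hc2 : 2 * m + 1 + 1 < 2 * y + 2
      · rw [if_pos hc2]
        exact h1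
      · rw [if_neg hc2]
        rw [show 2 * s + (2 * y + 2) - (2 * m + 1 + 1) = 2 * s by omega]
        exact h2
  · refine ⟨2 * s + (2 * y + 2) - (2 * m + 1), by omega, by omega, Or.inl ?_, Or.inl ?_,
      Or.inr (by omega)⟩
    · unfold swp rot
      rw [if_neg (by omega), if_neg (by omega), if_neg (by omega)]
      congr 1
      omega
    · unfold swp rot
      rw [if_neg (by omega), if_neg (by omega), if_neg (by omega)]
      rw [show 2 * s + (2 * y + 2) - (2 * s + (2 * y + 2) - (2 * m + 1) - 1) = 2 * m + 2 by omega]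
      exact h1

theorem px_top {E : Finset V} {v : ℕ → V} {s m : ℕ} (hm : m + 1 ≤ s) (h1 : v (2 * m + 2) ∈ E)
    (h3 : v (2 * m + 1) ∈ E) :
    PX E v (swapAt v (2 * m + 1) (2 * s)) s m (2 * m + 1) := by
  refine ⟨2 * m + 1, by omega, by omega, Or.inr ?_, Or.inr ?_, Or.inl rfl⟩
  · unfold swapAt sw
    rw [if_pos rfl]
  · unfold swapAt sw
    by_cases hc : 2 * m + 1 + 1 = 2 * s
    · rw [if_neg (by omega), if_pos hc]
      exact h3
    · rw [if_neg (by omega), if_neg hc]
      exact h1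

theorem pp_top (v : ℕ → V) (s m z : ℕ) (hz : z + 2 ≤ s) (hzm : z + 1 ≠ m) :
    ∃ j, j % 2 = 1 ∧ j + 1 ≤ 2 * s ∧ InPair v z (swapAt v (2 * m + 1) (2 * s) j) ∧
      (InPair v z (swapAt v (2 * m + 1) (2 * s) (j - 1)) ∨
        InPair v z (swapAt v (2 * m + 1) (2 * s) (j + 1))) := by
  refine ⟨2 * z + 3, by omega, by omega, Or.inr ?_, Or.inl (Or.inl ?_)⟩
  · unfold swapAt sw
    rw [if_neg (by omega), if_neg (by omega)]
  · unfold swapAt sw
    rw [if_neg (by omega), if_neg (by omega)]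
    congr 1

/-- Two consecutive members of the closed chain are not both hubs. -/
theorem live_not_both {E0 Live : Finset V} {Z : List V} (hnd : Z.Nodup) (hOK : LiveOK G E0 Live Z)
    {p q : V} (hpq : Nb Z p q) (hp : p ∈ Live) : q ∉ Live := by
  intro hq
  obtain ⟨a, b, _, h2, h3, h4, _, h6, h7⟩ := hOK p hp
  rcases h6 with h6 | h6
  · rcases h7 with h7 | h7
    · exact h3 (nb_succ_unique hnd h7 hpq ▸ hq)
    · exact h4 (nb_pred_unique hnd h6 h7)
  · exact h2 (nb_succ_unique hnd h6 hpq ▸ hq)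

end Vale.Agent.Lib.P048
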